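import Crest.Agent.H5.PP.Comb

set_option autoImplicit false
open MeasureTheory ENNReal Set

namespace Crest.H5.PP

abbrev cube (L : ℝ) : Set Pt := Crest.ProbabilityR.Continuum.cube L

/-- the off-diagonal pair weight -/
noncomputable def off {ι : Type*} (w : ℝ → ℝ) (x : ι → Pt) (i j : ι) : ℝ :=
  open Classical in if i = j then 0 else w (dist (x i) (x j))

@[simp] theorem off_self {ι : Type*} (w : ℝ → ℝ) (x : ι → Pt) (i : ι) : off w x i i = 0 := by
  simp [off]

theorem off_ne {ι : Type*} (w : ℝ → ℝ) (x : ι → Pt) {i j : ι} (h : i ≠ j) :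
    off w x i j = w (dist (x i) (x j)) := by
  simp [off, h]

/-- the pair sum `∑_{i<j} w (dist (x i) (x j))`, written symmetrically. -/
noncomputable def ps {ι : Type*} [Fintype ι] (w : ℝ → ℝ) (x : ι → Pt) : ℝ :=
  (1/2) * ∑ i, ∑ j, off w x i j

theorem off_comp {ι ι' : Type*} (e : ι → ι') (he : Function.Injective e) (w : ℝ → ℝ) (x : ι' → Pt) (i j : ι) :
    off w (fun i => x (e i)) i j = off w x (e i) (e j) := by
  by_cases h : i = j
  · subst h; simp
  · rw [off_ne _ _ h, off_ne _ _ (he.ne h)]

theorem ps_comp {ι ι' : Type*} [Fintype ι] [Fintype ι'] (e : ι ≃ ι') (w : ℝ → ℝ) (x : ι' → Pt) :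
    ps w (fun i => x (e i)) = ps w x := by
  unfold ps
  congr 1
  rw [← e.sum_comp (fun i => ∑ j, off w x i j)]
  refine Finset.sum_congr rfl fun i _ => ?_
  rw [← e.sum_comp (fun j => off w x (e i) j)]
  exact Finset.sum_congr rfl fun j _ => off_comp e e.injective w x i j

theorem energy_eq (φ : ℝ → ℝ) {N : ℕ} (x : Fin N → Pt) :
    Crest.ProbabilityR.Continuum.energy φ x = ps φ x := by
  unfold Crest.ProbabilityR.Continuum.energy ps
  have h1 : ∑ p : {p : Fin N × Fin N // p.1 < p.2}, φ (dist (x p.1.1) (x p.1.2)) =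
      ∑ p ∈ (Finset.univ : Finset (Fin N × Fin N)).filter (fun p => p.1 < p.2), φ (dist (x p.1) (x p.2)) := by
    rw [Finset.sum_subtype (p := fun p : Fin N × Fin N => p.1 < p.2)
      (Finset.univ.filter fun p : Fin N × Fin N => p.1 < p.2) (by simp)]
  have h2 : ∑ i, ∑ j, off φ x i j =
      ∑ p ∈ (Finset.univ : Finset (Fin N × Fin N)).filter (fun p => p.1 < p.2), φ (dist (x p.1) (x p.2)) +
      ∑ p ∈ (Finset.univ : Finset (Fin N × Fin N)).filter (fun p => p.2 < p.1), φ (dist (x p.1) (x p.2)) := by
    rw [← Finset.sum_product', ← Finset.univ_product_univ]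
    rw [Finset.sum_filter, Finset.sum_filter, ← Finset.sum_add_distrib]
    refine Finset.sum_congr rfl fun p _ => ?_
    rcases lt_trichotomy p.1 p.2 with h | h | h
    · simp [h, h.not_gt, off_ne _ _ h.ne]
    · simp [h]
    · simp [h, h.not_gt, off_ne _ _ h.ne']
  have h3 : ∑ p ∈ (Finset.univ : Finset (Fin N × Fin N)).filter (fun p => p.2 < p.1), φ (dist (x p.1) (x p.2)) =
      ∑ p ∈ (Finset.univ : Finset (Fin N × Fin N)).filter (fun p => p.1 < p.2), φ (dist (x p.1) (x p.2)) := by
    refine Finset.sum_nbij' Prod.swap Prod.swap ?_ ?_ ?_ ?_ ?_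
    · intro p hp; simpa using hp
    · intro p hp; simpa using hp
    · intro p _; simp
    · intro p _; simp
    · intro p _; simp [dist_comm]
  rw [h1, h2, h3]
  ring

theorem measurable_off {ι : Type*} {w : ℝ → ℝ} (hw : Measurable w) (i j : ι) :
    Measurable (fun x : ι → Pt => off w x i j) := by
  by_cases h : i = j
  · subst h; simp
  · simp only [off_ne _ _ h]
    exact hw.comp ((measurable_pi_apply i).dist (measurable_pi_apply j))

theorem measurable_ps {ι : Type*} [Fintype ι] {w : ℝ → ℝ} (hw : Measurable w) :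
    Measurable (fun x : ι → Pt => ps w x) := by
  unfold ps
  refine Measurable.const_mul ?_ _
  exact Finset.measurable_sum _ fun i _ => Finset.measurable_sum _ fun j _ => measurable_off hw i j

theorem off_add {ι : Type*} (w w' : ℝ → ℝ) (x : ι → Pt) (i j : ι) :
    off (fun r => w r + w' r) x i j = off w x i j + off w' x i j := by
  by_cases h : i = j
  · subst h; simp
  · simp [off_ne _ _ h]

theorem ps_add {ι : Type*} [Fintype ι] (w w' : ℝ → ℝ) (x : ι → Pt) :
    ps (fun r => w r + w' r) x = ps w x + ps w' x := by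
  unfold ps
  simp only [off_add, Finset.sum_add_distrib, mul_add]

theorem off_smul {ι : Type*} (c : ℝ) (w : ℝ → ℝ) (x : ι → Pt) (i j : ι) :
    off (fun r => c * w r) x i j = c * off w x i j := by
  by_cases h : i = j
  · subst h; simp
  · simp [off_ne _ _ h]

theorem ps_smul {ι : Type*} [Fintype ι] (c : ℝ) (w : ℝ → ℝ) (x : ι → Pt) :
    ps (fun r => c * w r) x = c * ps w x := by
  unfold ps
  simp only [off_smul, ← Finset.mul_sum]
  ring

theorem ps_zero {ι : Type*} [Fintype ι] (x : ι → Pt) : ps (fun _ => 0) x = 0 := by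
  unfold ps
  have : ∀ i j, off (fun _ => 0) x i j = 0 := by
    intro i j
    by_cases h : i = j
    · subst h; simp
    · simp [off_ne _ _ h]
  simp [this]

theorem ps_sum {ι κ : Type*} [Fintype ι] (s : Finset κ) (w : κ → ℝ → ℝ) (x : ι → Pt) :
    ps (fun r => ∑ k ∈ s, w k r) x = ∑ k ∈ s, ps (w k) x := by
  classical
  induction s using Finset.induction_on with
  | empty =>
    simp only [Finset.sum_empty]
    exact ps_zero x
  | insert a s ha ih =>
    simp only [Finset.sum_insert ha]
    rw [ps_add, ih]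

theorem ps_mono {ι : Type*} [Fintype ι] {w w' : ℝ → ℝ} (x : ι → Pt)
    (h : ∀ i j, i ≠ j → w (dist (x i) (x j)) ≤ w' (dist (x i) (x j))) : ps w x ≤ ps w' x := by
  unfold ps
  refine mul_le_mul_of_nonneg_left ?_ (by norm_num)
  refine Finset.sum_le_sum fun i _ => Finset.sum_le_sum fun j _ => ?_
  by_cases hij : i = j
  · subst hij; simp
  · rw [off_ne _ _ hij, off_ne _ _ hij]; exact h i j hij

theorem ps_nonneg {ι : Type*} [Fintype ι] {w : ℝ → ℝ} (x : ι → Pt)
    (h : ∀ i j, i ≠ j → 0 ≤ w (dist (x i) (x j))) : 0 ≤ ps w x := by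
  rw [← ps_zero x]
  exact ps_mono x h

theorem sum_subtype_fib {ι B : Type*} [Fintype ι] [DecidableEq B] (σ : ι → B) (b : B) (f : ι → ℝ) :
    ∑ i : {i // σ i = b}, f i.1 = ∑ i, if σ i = b then f i else 0 := by
  rw [← Finset.sum_filter]
  exact (Finset.sum_subtype (p := fun i => σ i = b) _ (by simp) f).symm

/-- splitting a pair sum along an assignment. -/
theorem ps_fib {ι B : Type*} [Fintype ι] [Fintype B] [DecidableEq B] (w : ℝ → ℝ) (σ : ι → B) (x : ι → Pt) :
    ps w x = ∑ b, ps w (fun i : {i // σ i = b} => x i.1) +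
      (1/2) * ∑ i, ∑ j, (if σ i = σ j then 0 else w (dist (x i) (x j))) := by
  have h1 : ∀ b, ps w (fun i : {i // σ i = b} => x i.1) =
      (1/2) * ∑ i, ∑ j, (if σ i = b then (if σ j = b then off w x i j else 0) else 0) := by
    intro b
    unfold ps
    congr 1
    have e2 : ∀ i : {i // σ i = b}, ∑ j : {i // σ i = b}, off w (fun i : {i // σ i = b} => x i.1) i j =
        ∑ j, (if σ j = b then off w x i.1 j else 0) := by
      intro i
      rw [← sum_subtype_fib σ b (fun j => off w x i.1 j)]
      refine Finset.sum_congr rfl fun j _ => ?_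
      exact off_comp (fun i : {i // σ i = b} => i.1) Subtype.val_injective w x i j
    rw [Finset.sum_congr rfl (fun i _ => e2 i), sum_subtype_fib σ b (fun i => ∑ j, (if σ j = b then off w x i j else 0))]
    refine Finset.sum_congr rfl fun i _ => ?_
    by_cases hi : σ i = b
    · simp only [hi, if_true]
    · simp [hi]
  simp only [h1]
  rw [← Finset.mul_sum, ← mul_add]
  unfold ps
  congr 1
  have hcomm : ∑ b, ∑ i, ∑ j, (if σ i = b then (if σ j = b then off w x i j else 0) else 0) =
      ∑ i, ∑ j, ∑ b, (if σ i = b then (if σ j = b then off w x i j else 0) else 0) := by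
    rw [Finset.sum_comm]
    refine Finset.sum_congr rfl fun i _ => ?_
    rw [Finset.sum_comm]
  rw [hcomm, ← Finset.sum_add_distrib]
  refine Finset.sum_congr rfl fun i _ => ?_
  rw [← Finset.sum_add_distrib]
  refine Finset.sum_congr rfl fun j _ => ?_
  by_cases hij : σ i = σ j
  · rw [if_pos hij, add_zero]
    have : ∀ b, (if σ i = b then (if σ j = b then off w x i j else 0) else 0) =
        if σ i = b then off w x i j else 0 := by
      intro b
      by_cases hb : σ i = b
      · rw [if_pos hb, if_pos hb, if_pos (hij ▸ hb)]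
      · rw [if_neg hb, if_neg hb]
    rw [Finset.sum_congr rfl (fun b _ => this b)]
    simp
  · have hne : i ≠ j := fun h => hij (by rw [h])
    rw [if_neg hij, off_ne _ _ hne]
    have : ∀ b, (if σ i = b then (if σ j = b then w (dist (x i) (x j)) else 0) else 0) = 0 := by
      intro b
      by_cases h1 : σ i = b
      · rw [if_pos h1, if_neg (fun h2 => hij (h1.trans h2.symm))]
      · rw [if_neg h1]
    rw [Finset.sum_congr rfl (fun b _ => this b)]
    simp

/-- the block family: weight `exp (ps w x + a n)` for `n` points in `D`. -/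
noncomputable def bf (w : ℝ → ℝ) (a : ℕ → ℝ) (D : Set Pt) : Fam := fun ι _ x =>
  (Set.univ.pi fun _ => D).indicator (fun x => ENNReal.ofReal (Real.exp (ps w x + a (Fintype.card ι)))) x

theorem bf_inv (w : ℝ → ℝ) (a : ℕ → ℝ) (D : Set Pt) : (bf w a D).Inv := by
  intro ι ι' _ _ e x
  unfold bf
  by_cases h : ∀ i, x i ∈ D
  · rw [indicator_of_mem, indicator_of_mem, ps_comp, Fintype.card_congr e]
    · simpa using h
    · simpa using fun i => h (e i)
  · rw [indicator_of_notMem, indicator_of_notMem]
    · simpa using h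
    · push Not at h
      obtain ⟨i, hi⟩ := h
      simp only [mem_pi, mem_univ, true_implies, not_forall]
      exact ⟨e.symm i, by simpa using hi⟩

theorem bf_meas {w : ℝ → ℝ} (hw : Measurable w) (a : ℕ → ℝ) {D : Set Pt} (hD : MeasurableSet D) :
    (bf w a D).Meas := by
  intro ι _
  refine Measurable.indicator ?_ (MeasurableSet.univ_pi fun _ => hD)
  exact ENNReal.measurable_ofReal.comp (Real.measurable_exp.comp ((measurable_ps hw).add_const _))

theorem bf_int (w : ℝ → ℝ) (a : ℕ → ℝ) {D : Set Pt} (hD : MeasurableSet D) (n : ℕ) :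
    (bf w a D).int n = ∫⁻ x in Set.univ.pi (fun _ : Fin n => D), ENNReal.ofReal (Real.exp (ps w x + a n)) := by
  unfold Fam.int bf
  rw [lintegral_indicator (MeasurableSet.univ_pi fun _ => hD)]
  simp

theorem measurableSet_cube (L : ℝ) : MeasurableSet (cube L) := by
  have : cube L = ⋂ k : Fin 3, {x : Pt | 0 ≤ x k ∧ x k ≤ L} := by
    ext x
    simp [cube, Crest.ProbabilityR.Continuum.cube]
  rw [this]
  refine MeasurableSet.iInter fun k => ?_
  have hk : Measurable fun x : Pt => x k := by fun_prop
  exact (measurableSet_le measurable_const hk).inter (measurableSet_le hk measurable_const)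

theorem bf_translate (w : ℝ → ℝ) (a : ℕ → ℝ) (D : Set Pt) (v : Pt) (n : ℕ) :
    (bf w a ((fun y => y - v) ⁻¹' D)).int n = (bf w a D).int n := by
  unfold Fam.int
  have h1 : ∀ x : Fin n → Pt, bf w a ((fun y => y - v) ⁻¹' D) (Fin n) x = bf w a D (Fin n) (fun i => x i - v) := by
    intro x
    unfold bf
    have hps : ps w (fun i => x i - v) = ps w x := by
      unfold ps
      congr 1
      refine Finset.sum_congr rfl fun i _ => Finset.sum_congr rfl fun j _ => ?_
      by_cases h : i = j
      · subst h; simp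
      · rw [off_ne _ _ h, off_ne _ _ h, dist_sub_right]
    by_cases h : ∀ i, x i - v ∈ D
    · rw [indicator_of_mem, indicator_of_mem, hps]
      · simpa using h
      · simpa using h
    · rw [indicator_of_notMem, indicator_of_notMem]
      · simpa using h
      · simpa using h
  simp only [h1]
  have h2 := lintegral_sub_right_eq_self (μ := (volume : Measure (Fin n → Pt))) (fun x => bf w a D (Fin n) x) (fun _ => v)
  exact h2

theorem bf_mono_set (w : ℝ → ℝ) (a : ℕ → ℝ) {D D' : Set Pt} (h : D ⊆ D') (n : ℕ) :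
    (bf w a D).int n ≤ (bf w a D').int n := by
  unfold Fam.int bf
  apply lintegral_mono
  intro x
  apply indicator_le_indicator_of_subset
  · exact Set.pi_mono fun _ _ => h
  · intro _; exact zero_le

/-- canonical partition function with pair weight `w` -/
noncomputable def Z (w : ℝ → ℝ) (L : ℝ) (N : ℕ) : ℝ≥0∞ :=
  (N.factorial : ℝ≥0∞)⁻¹ * (bf w (fun _ => 0) (cube L)).int N

/-- grand canonical weight of `n` particles in the cube of side `L` -/
noncomputable def Zn (w : ℝ → ℝ) (a : ℕ → ℝ) (L : ℝ) (N : ℕ) : ℝ≥0∞ :=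
  (N.factorial : ℝ≥0∞)⁻¹ * (bf w a (cube L)).int N

theorem Zn_eq (w : ℝ → ℝ) (a : ℕ → ℝ) (L : ℝ) (N : ℕ) :
    Zn w a L N = ENNReal.ofReal (Real.exp (a N)) * Z w L N := by
  unfold Zn Z
  rw [bf_int _ _ (measurableSet_cube L), bf_int _ _ (measurableSet_cube L), mul_left_comm]
  congr 1
  rw [← lintegral_const_mul' _ _ ENNReal.ofReal_ne_top]
  apply lintegral_congr
  intro x
  rw [← ENNReal.ofReal_mul (Real.exp_pos _).le, ← Real.exp_add]
  ring_nf

theorem partitionFn_eq {φ : ℝ → ℝ} (hφ : Measurable φ) (L : ℝ) (N : ℕ) (β : ℝ) :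
    Crest.ProbabilityR.Continuum.partitionFn φ L N β = (Z (fun r => -β * φ r) L N).toReal := by
  unfold Crest.ProbabilityR.Continuum.partitionFn Z
  rw [bf_int _ _ (measurableSet_cube L), ENNReal.toReal_mul, ENNReal.toReal_inv, ENNReal.toReal_natCast, one_div]
  congr 1
  rw [integral_eq_lintegral_of_nonneg_ae]
  · congr 1
    apply lintegral_congr
    intro x
    rw [energy_eq, ps_smul, add_zero]
  · exact Filter.Eventually.of_forall fun x => (Real.exp_pos _).le
  · have : Measurable fun x : Fin N → Pt => Real.exp (-β * Crest.ProbabilityR.Continuum.energy φ x) := by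
      simp only [energy_eq]
      exact Real.measurable_exp.comp ((measurable_ps hφ).const_mul _)
    exact this.aestronglyMeasurable

theorem tsum_piAntidiag_le {B : Type} [Fintype B] [DecidableEq B] (z : B → ℕ → ℝ≥0∞) :
    ∑' N : ℕ, ∑ c ∈ (Finset.univ : Finset B).piAntidiag N, ∏ b, z b (c b) ≤ ∏ b, ∑' n, z b n := by
  rw [ENNReal.tsum_eq_iSup_nat]
  apply iSup_le
  intro m
  calc ∑ N ∈ Finset.range m, ∑ c ∈ (Finset.univ : Finset B).piAntidiag N, ∏ b, z b (c b)
      = ∑ c ∈ (Finset.range m).biUnion (fun N => (Finset.univ : Finset B).piAntidiag N), ∏ b, z b (c b) := by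
        rw [Finset.sum_biUnion]
        intro N _ N' _ hne
        rw [Function.onFun, Finset.disjoint_left]
        intro c hc hc'
        rw [Finset.mem_piAntidiag] at hc hc'
        exact hne (hc.1.symm.trans hc'.1)
    _ ≤ ∑ c ∈ Fintype.piFinset (fun _ : B => Finset.range m), ∏ b, z b (c b) := by
        apply Finset.sum_le_sum_of_subset
        intro c hc
        rw [Finset.mem_biUnion] at hc
        obtain ⟨N, hN, hc⟩ := hc
        rw [Finset.mem_piAntidiag] at hc
        rw [Fintype.mem_piFinset]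
        intro b
        rw [Finset.mem_range] at hN ⊢
        have : c b ≤ ∑ b, c b := Finset.single_le_sum (f := c) (fun _ _ => Nat.zero_le _) (Finset.mem_univ b)
        have h2 : ∑ b, c b = N := hc.1
        omega
    _ = ∏ b, ∑ n ∈ Finset.range m, z b n := (Finset.prod_univ_sum _ _).symm
    _ ≤ ∏ b, ∑' n, z b n := by
        apply Finset.prod_le_prod'
        intro b _
        exact ENNReal.sum_le_tsum _

end Crest.H5.PP
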