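import Crest.Agent.H5.PP.Thermo2

set_option autoImplicit false
set_option maxHeartbeats 400000
open MeasureTheory ENNReal Set Metric Filter Topology

namespace Crest.H5.PP

theorem lz_convex {φ : ℝ → ℝ} (hφ : Measurable φ) (hw : ∀ β : ℝ, 0 < β → TW (fun r => -β * φ r)) {S : ℝ} (hS : 0 < S) (N : ℕ) :
    ConvexOn ℝ (Ioi 0) (fun β => lz (fun r => -β * φ r) S N) := by
  refine ⟨convex_Ioi 0, fun β hβ β' hβ' s r hs hr hsr => ?_⟩
  rw [mem_Ioi] at hβ hβ'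
  simp only [smul_eq_mul]
  have hβ'' : 0 < s * β + r * β' := by
    rcases hs.eq_or_lt with h0 | h0
    · have : r = 1 := by linarith
      rw [← h0, this]; linarith
    · have := mul_pos h0 hβ
      have := mul_nonneg hr hβ'.le
      linarith
  have hm : ∀ c : ℝ, Measurable (fun x : Fin N → Pt => ENNReal.ofReal (Real.exp (ps (fun r => -c * φ r) x))) := by
    intro c
    exact ENNReal.measurable_ofReal.comp (Real.measurable_exp.comp (measurable_ps (hφ.const_mul _)))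
  have hH := ENNReal.lintegral_mul_norm_pow_le (μ := volume.restrict (Set.pi univ (fun _ : Fin N => cube S)))
    (hm β).aemeasurable (hm β').aemeasurable hs hr hsr
  have e1 : ∀ x : Fin N → Pt, ENNReal.ofReal (Real.exp (ps (fun r => -β * φ r) x)) ^ s *
      ENNReal.ofReal (Real.exp (ps (fun r => -β' * φ r) x)) ^ r =
      ENNReal.ofReal (Real.exp (ps (fun t => -(s * β + r * β') * φ t) x)) := by
    intro x
    rw [ENNReal.ofReal_rpow_of_pos (Real.exp_pos _), ENNReal.ofReal_rpow_of_pos (Real.exp_pos _), ← Real.exp_mul, ← Real.exp_mul,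
      ← ENNReal.ofReal_mul (Real.exp_pos _).le, ← Real.exp_add, ps_smul, ps_smul, ps_smul]
    congr 2
    ring
  simp only [e1] at hH
  have hfac : ((N.factorial : ℝ≥0∞)⁻¹) ^ s * ((N.factorial : ℝ≥0∞)⁻¹) ^ r = (N.factorial : ℝ≥0∞)⁻¹ := by
    rw [← ENNReal.rpow_add_of_nonneg _ _ hs hr, hsr, ENNReal.rpow_one]
  have hZ : Z (fun t => -(s * β + r * β') * φ t) S N ≤ (Z (fun t => -β * φ t) S N) ^ s * (Z (fun t => -β' * φ t) S N) ^ r := by
    rw [Z_eq, Z_eq, Z_eq, ENNReal.mul_rpow_of_nonneg _ _ hs, ENNReal.mul_rpow_of_nonneg _ _ hr]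
    calc _ ≤ (N.factorial : ℝ≥0∞)⁻¹ * ((∫⁻ x in Set.pi univ (fun _ : Fin N => cube S), ENNReal.ofReal (Real.exp (ps (fun r => -β * φ r) x))) ^ s *
          (∫⁻ x in Set.pi univ (fun _ : Fin N => cube S), ENNReal.ofReal (Real.exp (ps (fun r => -β' * φ r) x))) ^ r) := mul_le_mul_right hH _
      _ = (((N.factorial : ℝ≥0∞)⁻¹) ^ s * ((N.factorial : ℝ≥0∞)⁻¹) ^ r) * ((∫⁻ x in Set.pi univ (fun _ : Fin N => cube S), ENNReal.ofReal (Real.exp (ps (fun r => -β * φ r) x))) ^ s *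
          (∫⁻ x in Set.pi univ (fun _ : Fin N => cube S), ENNReal.ofReal (Real.exp (ps (fun r => -β' * φ r) x))) ^ r) := by rw [hfac]
      _ = _ := by ring
  rw [Z_exp (hw _ hβ'') hS, Z_exp (hw _ hβ) hS, Z_exp (hw _ hβ') hS, ENNReal.ofReal_rpow_of_pos (Real.exp_pos _),
    ENNReal.ofReal_rpow_of_pos (Real.exp_pos _), ← Real.exp_mul, ← Real.exp_mul, ← ENNReal.ofReal_mul (Real.exp_pos _).le, ← Real.exp_add,
    ENNReal.ofReal_le_ofReal_iff (Real.exp_pos _).le, Real.exp_le_exp] at hZ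
  linarith

theorem AA_convex {φ : ℝ → ℝ} (hφ : Measurable φ) (hw : ∀ β : ℝ, 0 < β → TW (fun r => -β * φ r)) {ρ : ℝ} (hρ : 0 ≤ ρ) (Φ : ℝ → ℝ)
    (hΦ : ∀ β (hβ : 0 < β), Φ β = AA (hw β hβ) ρ) : ConvexOn ℝ (Ioi 0) Φ := by
  refine ⟨convex_Ioi 0, fun β hβ β' hβ' s r hs hr hsr => ?_⟩
  have hmem := (convex_Ioi (0:ℝ)) hβ hβ' hs hr hsr
  rw [hΦ _ hβ, hΦ _ hβ', hΦ _ hmem]
  have t1 := (tendsto_AA (hw _ hβ) hρ).const_mul s
  have t2 := (tendsto_AA (hw _ hβ') hρ).const_mul r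
  have t3 := tendsto_AA (hw _ hmem) hρ
  refine le_of_tendsto_of_tendsto t3 (t1.add t2) ?_
  filter_upwards [eventually_gt_atTop 0] with S hS
  have h1 := (lz_convex hφ hw hS ⌊ρ * S ^ 3⌋₊).2 hβ hβ' hs hr hsr
  simp only [smul_eq_mul] at h1
  rw [← mul_div_assoc, ← mul_div_assoc, ← add_div]
  gcongr
  exact h1

theorem final_kink {Φ : ℝ → ℝ} (hconv : ConvexOn ℝ (Ioi 0) Φ) {a1 a2 : ℝ} (ha : a1 < a2)
    (h1 : ∀ β : ℝ, 0 < β → Φ 1 + (β - 1) * a1 ≤ Φ β) (h2 : ∀ β : ℝ, 0 < β → Φ 1 + (β - 1) * a2 ≤ Φ β) :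
    ∃ Dl Dr : ℝ, HasDerivWithinAt (fun β => -Φ β / β) Dl (Iio 1) 1 ∧
      HasDerivWithinAt (fun β => -Φ β / β) Dr (Ioi 1) 1 ∧ Dr < Dl := by
  have hint : (1:ℝ) ∈ interior (Ioi (0:ℝ)) := by rw [interior_Ioi]; exact (zero_lt_one' ℝ)
  have hl := hconv.hasDerivWithinAt_leftDeriv_of_mem_interior hint
  have hr := hconv.hasDerivWithinAt_rightDeriv_of_mem_interior hint
  set sl := derivWithin Φ (Iio 1) 1
  set sr := derivWithin Φ (Ioi 1) 1
  have hsl : sl ≤ a1 := by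
    rw [hasDerivWithinAt_iff_tendsto_slope' (by simp)] at hl
    refine le_of_tendsto hl ?_
    have : ∀ᶠ β : ℝ in 𝓝[<] (1:ℝ), 0 < β := nhdsWithin_le_nhds (lt_mem_nhds (zero_lt_one' ℝ))
    filter_upwards [this, self_mem_nhdsWithin] with β hβ hβ1
    rw [mem_Iio] at hβ1
    rw [slope_comm, slope_def_field, div_le_iff₀ (by linarith)]
    have := h1 β hβ
    linarith
  have hsr : a2 ≤ sr := by
    rw [hasDerivWithinAt_iff_tendsto_slope' (by simp)] at hr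
    refine ge_of_tendsto hr ?_
    filter_upwards [self_mem_nhdsWithin] with β hβ1
    rw [mem_Ioi] at hβ1
    rw [slope_def_field, le_div_iff₀ (by linarith)]
    have := h2 β (by linarith)
    linarith
  refine ⟨Φ 1 - sl, Φ 1 - sr, ?_, ?_, by linarith⟩
  · have h3 := (hl.neg).div (hasDerivWithinAt_id (1:ℝ) (Iio 1)) (by simp)
    refine h3.congr_deriv ?_
    simp
    ring
  · have h3 := (hr.neg).div (hasDerivWithinAt_id (1:ℝ) (Ioi 1)) (by simp)
    refine h3.congr_deriv ?_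
    simp
    ring

end Crest.H5.PP
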