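import Crest.Agent.H5.PP.Kernel

set_option autoImplicit false
open MeasureTheory ENNReal Set Metric

namespace Crest.H5.PP

/-- number of points of the configuration within `r` of `u`. -/
noncomputable def cnt {ι : Type*} [Fintype ι] (x : ι → Pt) (r : ℝ) (u : Pt) : ℝ≥0∞ :=
  ∑ i, (ball (x i) r).indicator (fun _ => (1 : ℝ≥0∞)) u

theorem measurable_cnt {ι : Type*} [Fintype ι] (x : ι → Pt) (r : ℝ) : Measurable (cnt x r) := by
  unfold cnt
  exact Finset.measurable_sum _ fun i _ => measurable_const.indicator measurableSet_ball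

theorem lint_cnt_sq {ι : Type*} [Fintype ι] (x : ι → Pt) (r : ℝ) :
    ∫⁻ u, cnt x r u ^ 2 = ∑ i, ∑ j, volume (ball (x i) r ∩ ball (x j) r) := by
  have h1 : ∀ u, cnt x r u ^ 2 = ∑ i, ∑ j, (ball (x i) r ∩ ball (x j) r).indicator (fun _ => (1 : ℝ≥0∞)) u := by
    intro u
    unfold cnt
    rw [sq, Finset.sum_mul_sum]
    refine Finset.sum_congr rfl fun i _ => Finset.sum_congr rfl fun j _ => ?_
    by_cases h1 : u ∈ ball (x i) r <;> by_cases h2 : u ∈ ball (x j) r <;> simp [h1, h2, indicator]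
  simp only [h1]
  rw [lintegral_finsetSum]
  · refine Finset.sum_congr rfl fun i _ => ?_
    rw [lintegral_finsetSum]
    · refine Finset.sum_congr rfl fun j _ => ?_
      rw [lintegral_indicator_const (measurableSet_ball.inter measurableSet_ball), one_mul]
    · intro j _
      exact measurable_const.indicator (measurableSet_ball.inter measurableSet_ball)
  · intro i _
    exact Finset.measurable_sum _ fun j _ => measurable_const.indicator (measurableSet_ball.inter measurableSet_ball)

theorem sum_gk_eq {ι : Type*} [Fintype ι] (x : ι → Pt) (r : ℝ) :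
    ∑ i, ∑ j, gk r (dist (x i) (x j)) =
      (∑ i, ∑ j, volume (ball (x i) r ∩ ball (x j) r)).toReal / (r ^ 3 * v1) ^ 2 := by
  have hfin : ∀ i j, volume (ball (x i) r ∩ ball (x j) r) ≠ ⊤ := fun i j =>
    ((measure_mono inter_subset_left).trans_lt measure_ball_lt_top).ne
  rw [ENNReal.toReal_sum (fun i _ => ENNReal.sum_ne_top.mpr fun j _ => hfin i j), Finset.sum_div]
  refine Finset.sum_congr rfl fun i _ => ?_
  rw [ENNReal.toReal_sum (fun j _ => hfin i j), Finset.sum_div]
  refine Finset.sum_congr rfl fun j _ => ?_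
  exact gk_dist r (x i) (x j)

theorem ps_gk {ι : Type*} [Fintype ι] (x : ι → Pt) {r : ℝ} (hr : 0 < r) :
    ps (gk r) x = (1/2) * (∑ i, ∑ j, gk r (dist (x i) (x j))) - (1/2) * (Fintype.card ι) / (r ^ 3 * v1) := by
  have h1 : ∀ i, ∑ j, gk r (dist (x i) (x j)) = ∑ j, off (gk r) x i j + 1 / (r ^ 3 * v1) := by
    intro i
    have h2 : ∀ j, gk r (dist (x i) (x j)) = off (gk r) x i j + (open Classical in if i = j then 1 / (r ^ 3 * v1) else 0) := by
      intro j
      by_cases h : i = j
      · subst h; simp [gk_zero hr]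
      · rw [off_ne _ _ h, if_neg h, add_zero]
    rw [Finset.sum_congr rfl (fun j _ => h2 j), Finset.sum_add_distrib]
    congr 1
    classical
    simp
  simp only [h1, Finset.sum_add_distrib]
  unfold ps
  simp
  ring

theorem ps_gk_nonneg {ι : Type*} [Fintype ι] (x : ι → Pt) (r : ℝ) : 0 ≤ ps (gk r) x :=
  ps_nonneg x fun _ _ _ => gk_nonneg _ _

/-- block upper bound (K2) -/
theorem sum_gk_le {ι B : Type*} [Fintype ι] [Fintype B] [DecidableEq B] {r L : ℝ} (hr : 0 < r) (hL : 0 < L)
    (x : ι → Pt) (s : ι → B) (D : B → Set Pt) (hDm : ∀ b, MeasurableSet (D b))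
    (hdisj : ∀ b b', b ≠ b' → Disjoint (D b) (D b'))
    (hvol : ∀ b, volume (D b) = ENNReal.ofReal (L ^ 3))
    (hdiam : ∀ b, ∀ u ∈ D b, ∀ v ∈ D b, dist u v ≤ 2 * L) (hx : ∀ i, x i ∈ D (s i)) :
    ∑ i, ∑ j, gk r (dist (x i) (x j)) ≤ (1 + 4 * L / r) ^ 6 / L ^ 3 * ∑ b, (fib s b : ℝ) ^ 2 := by
  classical
  have hv := v1_pos
  have hne : ∀ b, (D b).Nonempty := by
    intro b
    rw [nonempty_iff_ne_empty]
    intro h
    have := hvol b
    rw [h, measure_empty] at this
    have h2 : 0 < L ^ 3 := by positivity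
    rw [eq_comm, ENNReal.ofReal_eq_zero] at this
    linarith
  choose p hp using hne
  set R1 := r + 2 * L
  set R2 := r + 4 * L
  have hpt : ∀ u, cnt x r u ^ 2 * ENNReal.ofReal (L ^ 3) ≤
      ∑ b, ((fib s b : ℝ≥0∞) ^ 2 * ENNReal.ofReal (R2 ^ 3 * v1)) * (ball (p b) R1).indicator (fun _ => (1 : ℝ≥0∞)) u := by
    intro u
    set S : Finset B := Finset.univ.filter (fun b => u ∈ ball (p b) R1) with hS
    have h1 : cnt x r u ≤ ((∑ b ∈ S, fib s b : ℕ) : ℝ≥0∞) := by
      have h2 : cnt x r u = ((Finset.univ.filter (fun i => u ∈ ball (x i) r)).card : ℝ≥0∞) := by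
        unfold cnt
        rw [Finset.card_eq_sum_ones, Finset.sum_filter]
        push_cast
        refine Finset.sum_congr rfl fun i _ => ?_
        simp [indicator]
      rw [h2]
      have h3 : (Finset.univ.filter (fun i => u ∈ ball (x i) r)).card ≤ ∑ b ∈ S, fib s b := by
        have h4 : (Finset.univ.filter (fun i => u ∈ ball (x i) r)) ⊆ S.biUnion (fun b => Finset.univ.filter (fun i => s i = b)) := by
          intro i hi
          rw [Finset.mem_filter] at hi
          rw [Finset.mem_biUnion]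
          refine ⟨s i, ?_, by simp⟩
          rw [hS, Finset.mem_filter]
          refine ⟨Finset.mem_univ _, ?_⟩
          rw [mem_ball] at hi ⊢
          have := hdiam (s i) (x i) (hx i) (p (s i)) (hp _)
          calc dist u (p (s i)) ≤ dist u (x i) + dist (x i) (p (s i)) := dist_triangle _ _ _
            _ < R1 := by linarith [hi.2]
        exact (Finset.card_le_card h4).trans Finset.card_biUnion_le
      exact_mod_cast h3
    have h5 : (∑ b ∈ S, fib s b) ^ 2 ≤ S.card * ∑ b ∈ S, fib s b ^ 2 := sq_sum_le_card_mul_sum_sq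
    have h6 : (S.card : ℝ≥0∞) * ENNReal.ofReal (L ^ 3) ≤ ENNReal.ofReal (R2 ^ 3 * v1) := by
      have h7 : volume (⋃ b ∈ S, D b) = ∑ b ∈ S, volume (D b) :=
        measure_biUnion_finset (fun b _ b' _ h => hdisj b b' h) (fun b _ => hDm b)
      have h8 : (⋃ b ∈ S, D b) ⊆ ball u R2 := by
        intro v hv
        rw [mem_iUnion₂] at hv
        obtain ⟨b, hb, hvb⟩ := hv
        rw [hS, Finset.mem_filter, mem_ball] at hb
        rw [mem_ball]
        have := hdiam b v hvb (p b) (hp b)
        calc dist v u ≤ dist v (p b) + dist (p b) u := dist_triangle _ _ _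
          _ < R2 := by rw [dist_comm (p b) u]; linarith [hb.2]
      rw [← vol_ball u (by positivity : 0 ≤ R2)]
      refine le_trans (le_of_eq ?_) (measure_mono h8)
      rw [h7, Finset.sum_congr rfl (fun b _ => hvol b), Finset.sum_const, nsmul_eq_mul]
    calc cnt x r u ^ 2 * ENNReal.ofReal (L ^ 3)
        ≤ (((∑ b ∈ S, fib s b : ℕ) : ℝ≥0∞)) ^ 2 * ENNReal.ofReal (L ^ 3) := by gcongr
      _ ≤ ((S.card * ∑ b ∈ S, fib s b ^ 2 : ℕ) : ℝ≥0∞) * ENNReal.ofReal (L ^ 3) := by
          gcongr
          exact_mod_cast h5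
      _ = (∑ b ∈ S, (fib s b : ℝ≥0∞) ^ 2) * (S.card * ENNReal.ofReal (L ^ 3)) := by
          push_cast
          ring
      _ ≤ (∑ b ∈ S, (fib s b : ℝ≥0∞) ^ 2) * ENNReal.ofReal (R2 ^ 3 * v1) := by gcongr
      _ = _ := by
          rw [hS, Finset.sum_filter, Finset.sum_mul]
          refine Finset.sum_congr rfl fun b _ => ?_
          by_cases h : u ∈ ball (p b) R1
          · simp [h, indicator]
          · simp [h, indicator]
  have hint : (∑ i, ∑ j, volume (ball (x i) r ∩ ball (x j) r)) * ENNReal.ofReal (L ^ 3) ≤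
      ENNReal.ofReal ((∑ b, (fib s b : ℝ) ^ 2) * (R2 ^ 3 * v1) * (R1 ^ 3 * v1)) := by
    rw [← lint_cnt_sq, ← lintegral_mul_const' _ _ ENNReal.ofReal_ne_top]
    refine (lintegral_mono hpt).trans (le_of_eq ?_)
    rw [lintegral_finsetSum]
    · have : ∀ b, ∫⁻ u, ((fib s b : ℝ≥0∞) ^ 2 * ENNReal.ofReal (R2 ^ 3 * v1)) * (ball (p b) R1).indicator (fun _ => (1 : ℝ≥0∞)) u =
          ENNReal.ofReal ((fib s b : ℝ) ^ 2 * (R2 ^ 3 * v1) * (R1 ^ 3 * v1)) := by
        intro b
        have hn : (fib s b : ℝ≥0∞) = ENNReal.ofReal (fib s b : ℝ) := (ENNReal.ofReal_natCast _).symm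
        rw [lintegral_const_mul _ (measurable_const.indicator measurableSet_ball),
          lintegral_indicator_const measurableSet_ball, one_mul, vol_ball _ (by positivity), hn,
          ← ENNReal.ofReal_pow (by positivity), ← ENNReal.ofReal_mul (by positivity),
          ← ENNReal.ofReal_mul (by positivity)]
      rw [Finset.sum_congr rfl (fun b _ => this b), ← ENNReal.ofReal_sum_of_nonneg (fun b _ => by positivity)]
      congr 1
      rw [Finset.sum_mul, Finset.sum_mul]
    · intro b _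
      exact (measurable_const.indicator measurableSet_ball).const_mul _
  have hfin : ∑ i, ∑ j, volume (ball (x i) r ∩ ball (x j) r) ≠ ⊤ :=
    ENNReal.sum_ne_top.mpr fun i _ => ENNReal.sum_ne_top.mpr fun j _ =>
      ((measure_mono inter_subset_left).trans_lt measure_ball_lt_top).ne
  have hreal := ENNReal.toReal_mono ENNReal.ofReal_ne_top hint
  rw [ENNReal.toReal_mul, ENNReal.toReal_ofReal (by positivity), ENNReal.toReal_ofReal (by positivity)] at hreal
  rw [sum_gk_eq, div_le_iff₀ (by positivity)]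
  set T := (∑ i, ∑ j, volume (ball (x i) r ∩ ball (x j) r)).toReal
  set Q := ∑ b, (fib s b : ℝ) ^ 2
  have hQ : 0 ≤ Q := by positivity
  have hT : T ≤ Q * (R2 ^ 3 * v1) * (R1 ^ 3 * v1) / L ^ 3 := by
    rw [le_div_iff₀ (by positivity)]; exact hreal
  refine hT.trans ?_
  have hR1 : R1 ≤ R2 := by simp only [R1, R2]; linarith
  have hR10 : 0 < R1 := by positivity
  have e1 : (1 + 4 * L / r) ^ 6 / L ^ 3 * Q * (r ^ 3 * v1) ^ 2 = Q * (R2 ^ 3 * v1) * (R2 ^ 3 * v1) / L ^ 3 := by
    have : (1 + 4 * L / r) = R2 / r := by simp only [R2]; field_simp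
    rw [this]
    field_simp
  rw [e1]
  gcongr

/-- universal lower bound (K1) -/
theorem le_sum_gk {ι : Type*} [Fintype ι] {r S : ℝ} (hr : 0 < r) (hS : 0 ≤ S)
    (x : ι → Pt) (hx : ∀ i, x i ∈ cube S) :
    (Fintype.card ι : ℝ) ^ 2 / (S + 2 * r) ^ 3 ≤ ∑ i, ∑ j, gk r (dist (x i) (x j)) := by
  have hv := v1_pos
  set C : Set Pt := {x : Pt | ∀ k, x k ∈ Icc (-r) (S + r)} with hC
  have hCm : MeasurableSet C := by
    have : C = ⋂ k : Fin 3, {x : Pt | x k ∈ Icc (-r) (S + r)} := by
      ext x; simp [hC]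
    rw [this]
    refine MeasurableSet.iInter fun k => ?_
    have hk : Measurable fun x : Pt => x k := by fun_prop
    exact hk measurableSet_Icc
  have hCv : volume C = ENNReal.ofReal ((S + 2 * r) ^ 3) := by
    rw [hC, vol_pi _ (fun _ => measurableSet_Icc)]
    simp only [Real.volume_Icc, Finset.prod_const, Finset.card_univ, Fintype.card_fin]
    rw [ENNReal.ofReal_pow (by positivity)]
    congr 2
    ring
  have hsub : ∀ i, ball (x i) r ⊆ C := by
    intro i u hu k
    rw [mem_ball] at hu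
    have h1 := coord_le_dist u (x i) k
    have h2 := abs_le.mp (h1.trans hu.le)
    have h3 := hx i k
    constructor
    · linarith [h2.1, h3.1]
    · linarith [h2.2, h3.2]
  have hcnt : ∫⁻ u in C, cnt x r u = ENNReal.ofReal (Fintype.card ι * (r ^ 3 * v1)) := by
    unfold cnt
    rw [lintegral_finsetSum]
    · have : ∀ i, ∫⁻ u in C, (ball (x i) r).indicator (fun _ => (1 : ℝ≥0∞)) u = ENNReal.ofReal (r ^ 3 * v1) := by
        intro i
        rw [lintegral_indicator_const measurableSet_ball, one_mul, Measure.restrict_apply measurableSet_ball,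
          inter_eq_left.mpr (hsub i), vol_ball _ hr.le]
      have hn : ((Finset.univ : Finset ι).card : ℝ≥0∞) = ENNReal.ofReal (Fintype.card ι : ℝ) := (ENNReal.ofReal_natCast _).symm
      rw [Finset.sum_congr rfl (fun i _ => this i), Finset.sum_const, nsmul_eq_mul, hn, ← ENNReal.ofReal_mul (by positivity)]
    · intro i _
      exact measurable_const.indicator measurableSet_ball
  have hfin : ∑ i, ∑ j, volume (ball (x i) r ∩ ball (x j) r) ≠ ⊤ :=
    ENNReal.sum_ne_top.mpr fun i _ => ENNReal.sum_ne_top.mpr fun j _ =>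
      ((measure_mono inter_subset_left).trans_lt measure_ball_lt_top).ne
  set n : ℝ := (Fintype.card ι : ℝ)
  set c : ℝ := (S + 2 * r) ^ 3
  have hc : 0 < c := by positivity
  have hn : 0 ≤ n := by positivity
  set l : ℝ := n * (r ^ 3 * v1) / c with hl
  have hl0 : 0 ≤ l := by positivity
  have hpt : ∀ u, ENNReal.ofReal (2 * l) * cnt x r u ≤ cnt x r u ^ 2 + ENNReal.ofReal (l ^ 2) := by
    intro u
    have hcf : cnt x r u ≠ ⊤ := by
      unfold cnt
      refine ENNReal.sum_ne_top.mpr fun i _ => ?_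
      by_cases h : u ∈ ball (x i) r <;> simp [indicator, h]
    obtain ⟨m, hm⟩ : ∃ m : ℝ, 0 ≤ m ∧ cnt x r u = ENNReal.ofReal m := ⟨_, ENNReal.toReal_nonneg, (ENNReal.ofReal_toReal hcf).symm⟩
    rw [hm.2, ← ENNReal.ofReal_mul (by positivity), ← ENNReal.ofReal_pow hm.1, ← ENNReal.ofReal_add (by positivity) (by positivity)]
    apply ENNReal.ofReal_le_ofReal
    nlinarith [sq_nonneg (m - l)]
  have hint : ENNReal.ofReal (2 * l * (n * (r ^ 3 * v1))) ≤
      ∑ i, ∑ j, volume (ball (x i) r ∩ ball (x j) r) + ENNReal.ofReal (l ^ 2 * c) := by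
    calc ENNReal.ofReal (2 * l * (n * (r ^ 3 * v1))) = ∫⁻ u in C, ENNReal.ofReal (2 * l) * cnt x r u := by
          rw [lintegral_const_mul _ (measurable_cnt x r), hcnt, ← ENNReal.ofReal_mul (by positivity)]
      _ ≤ ∫⁻ u in C, (cnt x r u ^ 2 + ENNReal.ofReal (l ^ 2)) := lintegral_mono hpt
      _ = (∫⁻ u in C, cnt x r u ^ 2) + ENNReal.ofReal (l ^ 2 * c) := by
          rw [lintegral_add_right _ measurable_const]
          congr 1
          rw [lintegral_const, Measure.restrict_apply MeasurableSet.univ, univ_inter, hCv, ENNReal.ofReal_mul (by positivity)]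
      _ ≤ _ := by
          gcongr
          rw [← lint_cnt_sq]
          exact setLIntegral_le_lintegral _ _
  have hreal := ENNReal.toReal_mono (ENNReal.add_ne_top.mpr ⟨hfin, ENNReal.ofReal_ne_top⟩) hint
  rw [ENNReal.toReal_add hfin ENNReal.ofReal_ne_top, ENNReal.toReal_ofReal (by positivity), ENNReal.toReal_ofReal (by positivity)] at hreal
  rw [sum_gk_eq, le_div_iff₀ (by positivity)]
  set T := (∑ i, ∑ j, volume (ball (x i) r ∩ ball (x j) r)).toReal
  have e1 : n ^ 2 / c * (r ^ 3 * v1) ^ 2 = 2 * l * (n * (r ^ 3 * v1)) - l ^ 2 * c := by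
    rw [hl]
    field_simp
    ring
  rw [e1]
  linarith

end Crest.H5.PP
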