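import Crest.Agent.H5.PP.Tail

set_option autoImplicit false
open MeasureTheory ENNReal Set Metric

namespace Crest.H5.PP

/-- finite configurations with labels -/
abbrev Cfg := Σ N : ℕ, (Fin N → Pt)

/-- the Lebesgue–Poisson measure on configurations in `[0,S]^3`. -/
noncomputable def mS (S : ℝ) : Measure Cfg :=
  Measure.sum fun N : ℕ => (N.factorial : ℝ≥0∞)⁻¹ •
    ((volume.restrict (Set.pi univ fun _ : Fin N => cube S)).map (fun x : Fin N → Pt => (⟨N, x⟩ : Cfg)))

theorem measurable_cfg {β : Type*} [MeasurableSpace β] {f : Cfg → β}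
    (h : ∀ N, Measurable (fun x : Fin N → Pt => f ⟨N, x⟩)) : Measurable f := by
  intro s hs
  rw [show (Sigma.instMeasurableSpace : MeasurableSpace Cfg) = ⨅ N : ℕ, MeasurableSpace.map (fun x : Fin N → Pt => (⟨N, x⟩ : Cfg)) inferInstance from rfl]
  rw [MeasurableSpace.measurableSet_iInf]
  intro N
  rw [MeasurableSpace.map_def]
  exact h N hs

theorem measurable_mk (N : ℕ) : Measurable (fun x : Fin N → Pt => (⟨N, x⟩ : Cfg)) := by
  intro s hs
  rw [show (Sigma.instMeasurableSpace : MeasurableSpace Cfg) = ⨅ N : ℕ, MeasurableSpace.map (fun x : Fin N → Pt => (⟨N, x⟩ : Cfg)) inferInstance from rfl] at hs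
  rw [MeasurableSpace.measurableSet_iInf] at hs
  exact hs N

theorem lint_mS (S : ℝ) {f : Cfg → ℝ≥0∞} (hf : Measurable f) :
    ∫⁻ ω, f ω ∂(mS S) = ∑' N : ℕ, (N.factorial : ℝ≥0∞)⁻¹ *
      ∫⁻ x in Set.pi univ (fun _ : Fin N => cube S), f ⟨N, x⟩ := by
  unfold mS
  rw [lintegral_sum_measure]
  congr 1
  funext N
  rw [lintegral_smul_measure, lintegral_map hf (measurable_mk N)]
  rfl

theorem measurableSet_cubes (S : ℝ) (N : ℕ) : MeasurableSet (Set.pi univ (fun _ : Fin N => cube S)) :=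
  MeasurableSet.univ_pi fun _ => measurableSet_cube S

theorem measurableSet_in (S : ℝ) : MeasurableSet {ω : Cfg | ∀ i, ω.2 i ∈ cube S} := by
  have h : Measurable (fun ω : Cfg => ∀ i, ω.2 i ∈ cube S) := by
    apply measurable_cfg
    intro N
    have : MeasurableSet {x : Fin N → Pt | ∀ i, x i ∈ cube S} := by
      have := measurableSet_cubes S N
      have e : {x : Fin N → Pt | ∀ i, x i ∈ cube S} = Set.pi univ (fun _ : Fin N => cube S) := by
        ext x; simp
      rw [e]; exact this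
    exact this.mem
  exact h.setOf

theorem ae_mS (S : ℝ) : ∀ᵐ ω ∂(mS S), ∀ i, ω.2 i ∈ cube S := by
  unfold mS
  rw [Measure.ae_sum_iff' (measurableSet_in S)]
  intro N
  apply Measure.ae_smul_measure
  rw [ae_map_iff (measurable_mk N).aemeasurable (measurableSet_in S)]
  filter_upwards [ae_restrict_mem (measurableSet_cubes S N)] with x hx
  intro i
  exact hx i (mem_univ _)

theorem lint_mono_cube (S : ℝ) {f g : Cfg → ℝ≥0∞} (h : ∀ ω : Cfg, (∀ i, ω.2 i ∈ cube S) → f ω ≤ g ω) :
    ∫⁻ ω, f ω ∂(mS S) ≤ ∫⁻ ω, g ω ∂(mS S) := by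
  apply lintegral_mono_ae
  filter_upwards [ae_mS S] with ω hω
  exact h ω hω

theorem lint_card (S : ℝ) (f : ℕ → ℝ≥0∞) :
    ∫⁻ ω, f ω.1 ∂(mS S) = ∑' N : ℕ, (N.factorial : ℝ≥0∞)⁻¹ * (f N * (ENNReal.ofReal S ^ 3) ^ N) := by
  have hm : Measurable (fun ω : Cfg => f ω.1) := by
    apply measurable_cfg
    intro N
    show Measurable (fun _ : Fin N → Pt => f N)
    exact measurable_const
  rw [lint_mS S hm]
  congr 1
  funext N
  simp only
  rw [setLIntegral_const, volume_pi, Measure.pi_pi]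
  simp only [vol_cube, Finset.prod_const, Finset.card_univ, Fintype.card_fin]

theorem tsum_exp (x : ℝ) (hx : 0 ≤ x) :
    ∑' N : ℕ, ENNReal.ofReal (x ^ N / N.factorial) = ENNReal.ofReal (Real.exp x) := by
  rw [← ENNReal.ofReal_tsum_of_nonneg (fun N => by positivity) (Real.summable_pow_div_factorial x)]
  congr 1
  rw [Real.exp_eq_exp_ℝ, NormedSpace.exp_eq_tsum_div]

theorem lint_exp_card {S : ℝ} (hS : 0 ≤ S) (c : ℝ) :
    ∫⁻ ω, ENNReal.ofReal (Real.exp (c * ω.1)) ∂(mS S) = ENNReal.ofReal (Real.exp (Real.exp c * S ^ 3)) := by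
  rw [lint_card S (fun N => ENNReal.ofReal (Real.exp (c * N))), ← tsum_exp _ (by positivity)]
  congr 1
  funext N
  rw [← ENNReal.ofReal_pow hS, ← ENNReal.ofReal_pow (by positivity), ← ENNReal.ofReal_mul (by positivity),
    ← ENNReal.ofReal_natCast, ← ENNReal.ofReal_inv_of_pos (by positivity), ← ENNReal.ofReal_mul (by positivity)]
  congr 1
  rw [mul_pow, ← Real.exp_nat_mul, mul_comm c]
  field_simp

/-- upper factorisation on a grid -/
theorem UFgrid {S : ℝ} {l : ℝ} (hl : 0 < l) {u : Fin 3 → ℝ} (hu : Adm l u) {w : ℝ → ℝ} (hw : Measurable w) (a : ℕ → ℝ)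
    {H : Cfg → ℝ≥0∞} (hHm : Measurable H)
    (hH : ∀ ω : Cfg, (∀ i, ω.2 i ∈ cube S) → H ω ≤
      ENNReal.ofReal (Real.exp (∑ b, (ps w (fun i : {i // sB l u (gm l S) (ω.2 i) = b} => ω.2 i.1) +
        a (fib (fun i => sB l u (gm l S) (ω.2 i)) b))))) :
    ∫⁻ ω, H ω ∂(mS S) ≤ (∑' n, Zn w a l n) ^ ((gm l S) ^ 3) := by
  rw [lint_mS S hHm]
  have h1 : ∀ N : ℕ, (N.factorial : ℝ≥0∞)⁻¹ * ∫⁻ x in Set.pi univ (fun _ : Fin N => cube S), H ⟨N, x⟩ ≤
      ∑ c ∈ (Finset.univ : Finset (Fin 3 → Fin (gm l S))).piAntidiag N, ∏ b, Zn w a l (c b) := by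
    intro N
    rw [← lintegral_indicator (measurableSet_cubes S N)]
    refine (UF N (sB l u (gm l S)) (fun b => bf w a (DB l u (gm l S) b)) (fun b => bf_inv _ _ _)
      (fun b => bf_meas hw _ (measurableSet_box _ _)) _ ?_).trans ?_
    · intro x
      by_cases hx : x ∈ Set.pi univ (fun _ : Fin N => cube S)
      · rw [indicator_of_mem hx]
        have hx' : ∀ i, x i ∈ cube S := fun i => hx i (mem_univ _)
        refine (hH ⟨N, x⟩ hx').trans (le_of_eq ?_)
        rw [Real.exp_sum, ENNReal.ofReal_prod_of_nonneg (fun _ _ => (Real.exp_pos _).le)]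
        refine Finset.prod_congr rfl fun b _ => ?_
        unfold bf
        rw [indicator_of_mem]
        · congr 3
          congr 1
          unfold fib
          rw [Fintype.card_subtype]
        · intro i _
          have := mem_DB hl hu (hx' i.1)
          rw [i.2] at this
          exact this
      · rw [indicator_of_notMem hx]
        exact zero_le
    · refine Finset.sum_le_sum fun c _ => Finset.prod_le_prod' fun b _ => ?_
      unfold Zn
      refine mul_le_mul_right ?_ _
      set v : Pt := WithLp.toLp 2 (fun k => u k + l * (((b k : ℕ) : ℝ) - 1)) with hv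
      have hsub : DB l u (gm l S) b ⊆ (fun y => y - v) ⁻¹' (cube l) := by
        intro y hy k
        have h2 := hy k
        have h3 : (y - v) k = y k - (u k + l * (((b k : ℕ) : ℝ) - 1)) := by
          simp [hv]
        show 0 ≤ (y - v) k ∧ (y - v) k ≤ l
        rw [h3]
        constructor <;> linarith [h2.1, h2.2]
      exact (bf_mono_set w a hsub (c b)).trans (le_of_eq (bf_translate w a (cube l) v (c b)))
  refine (ENNReal.tsum_le_tsum h1).trans ?_
  refine (tsum_piAntidiag_le (fun _ n => Zn w a l n)).trans (le_of_eq ?_)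
  rw [Finset.prod_const]
  congr 1
  simp

end Crest.H5.PP
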