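import Crest.Prelude.Def_PairPotential
import Crest.Prelude.Def_UnitPacking

set_option autoImplicit false
open MeasureTheory ENNReal Set

namespace Crest.H5.PP

/-- Tonelli for a product of functions of one coordinate each. -/
theorem lint_fin_prod {n : ℕ} {E : Fin n → Type*} {mE : ∀ i, MeasurableSpace (E i)}
    (μ : ∀ i, Measure (E i)) [∀ i, SigmaFinite (μ i)] (f : ∀ i, E i → ℝ≥0∞)
    (hf : ∀ i, Measurable (f i)) :
    ∫⁻ x, ∏ i, f i (x i) ∂(Measure.pi μ) = ∏ i, ∫⁻ x, f i x ∂(μ i) := by
  induction n with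
  | zero => simp
  | succ n ih =>
    have hmp := (measurePreserving_piFinSuccAbove μ 0).symm
    rw [← hmp.lintegral_comp_emb (MeasurableEquiv.measurableEmbedding _)]
    have h1 : ∀ x : E 0 × ((i : Fin n) → E (Fin.succ i)),
        (∏ i, f i ((MeasurableEquiv.piFinSuccAbove E 0).symm x i)) =
          f 0 x.1 * ∏ i : Fin n, f (Fin.succ i) (x.2 i) := by
      intro x
      rw [Fin.prod_univ_succ]
      rfl
    have h2 : ∫⁻ x, (∏ i, f i ((MeasurableEquiv.piFinSuccAbove E 0).symm x i))
        ∂((μ 0).prod (Measure.pi fun i => μ (Fin.succAbove 0 i))) =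
        ∫⁻ x : E 0 × ((i : Fin n) → E (Fin.succ i)), f 0 x.1 * ∏ i : Fin n, f (Fin.succ i) (x.2 i)
        ∂((μ 0).prod (Measure.pi fun i : Fin n => μ (Fin.succ i))) := by
      apply lintegral_congr
      intro x
      exact h1 x
    have h3 : Measurable (fun y : (i : Fin n) → E (Fin.succ i) => ∏ i : Fin n, f (Fin.succ i) (y i)) :=
      Finset.measurable_prod _ (fun i _ => (hf _).comp (measurable_pi_apply i))
    have h4 := lintegral_prod_mul (μ := μ 0) (ν := Measure.pi fun i : Fin n => μ (Fin.succ i))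
      (f := f 0) (g := fun y : (i : Fin n) → E (Fin.succ i) => ∏ i : Fin n, f (Fin.succ i) (y i))
      (hf 0).aemeasurable h3.aemeasurable
    rw [h2, Fin.prod_univ_succ, ← ih (fun i => μ (Fin.succ i)) (fun i => f (Fin.succ i)) (fun i => hf _)]
    exact h4

theorem lint_pi_prod {B : Type*} [Fintype B] {E : B → Type*} {mE : ∀ b, MeasurableSpace (E b)}
    (μ : ∀ b, Measure (E b)) [∀ b, SigmaFinite (μ b)] (f : ∀ b, E b → ℝ≥0∞)
    (hf : ∀ b, Measurable (f b)) :
    ∫⁻ x, ∏ b, f b (x b) ∂(Measure.pi μ) = ∏ b, ∫⁻ x, f b x ∂(μ b) := by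
  let e := (Fintype.equivFin B).symm
  rw [← (measurePreserving_piCongrLeft μ e).lintegral_comp_emb (MeasurableEquiv.measurableEmbedding _)]
  simp_rw [← e.prod_comp, MeasurableEquiv.coe_piCongrLeft, Equiv.piCongrLeft_apply_apply]
  exact lint_fin_prod (fun i => μ (e i)) (fun i => f (e i)) (fun i => hf _)

/-- splitting coordinates along the fibres of a map preserves the product measure. -/
theorem map_fib {ι B : Type*} [Fintype ι] [Fintype B] [DecidableEq B] {E : Type*} [MeasurableSpace E]
    (μ : Measure E) [SigmaFinite μ] (σ : ι → B) :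
    MeasurePreserving (fun (x : ι → E) (b : B) (i : {i // σ i = b}) => x i.1)
      (Measure.pi fun _ => μ) (Measure.pi fun _ : B => Measure.pi fun _ => μ) := by
  have hmeas : Measurable (fun (x : ι → E) (b : B) (i : {i // σ i = b}) => x i.1) := by
    refine measurable_pi_lambda _ fun b => measurable_pi_lambda _ fun i => measurable_pi_apply _
  refine ⟨hmeas, ?_⟩
  symm
  refine Measure.pi_eq_generateFrom
    (C := fun b => (Set.pi univ) '' (Set.pi univ fun _ : {i // σ i = b} => {s : Set E | MeasurableSet s}))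
    (fun b => generateFrom_pi) (fun b => isPiSystem_pi)
    (fun b => Measure.FiniteSpanningSetsIn.pi fun _ => μ.toFiniteSpanningSetsIn) ?_
  intro s hs
  choose t ht using hs
  have hmt : ∀ b i, MeasurableSet (t b i) := fun b i => (ht b).1 i (mem_univ _)
  have hs' : ∀ b, s b = Set.pi univ (t b) := fun b => (ht b).2.symm
  rw [Measure.map_apply hmeas]
  · have hpre : (fun (x : ι → E) (b : B) (i : {i // σ i = b}) => x i.1) ⁻¹' (Set.pi univ s) =
        Set.pi univ (fun i => t (σ i) ⟨i, rfl⟩) := by
      ext x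
      simp only [mem_preimage, mem_pi, mem_univ, true_implies, hs']
      constructor
      · intro h i
        exact h (σ i) ⟨i, rfl⟩
      · rintro h b ⟨i, hi⟩
        subst hi
        exact h i
    rw [hpre, Measure.pi_pi]
    simp only [hs', Measure.pi_pi]
    rw [← (Equiv.sigmaFiberEquiv σ).prod_comp, Fintype.prod_sigma]
    refine Finset.prod_congr rfl fun b _ => Finset.prod_congr rfl fun i _ => ?_
    obtain ⟨i, rfl⟩ := i
    rfl
  · exact MeasurableSet.univ_pi fun b => by rw [hs']; exact MeasurableSet.univ_pi fun i => hmt b i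

abbrev Pt := Crest.ProbabilityR.Continuum.Pt

/-- a function of finite families of points, for all finite index types -/
abbrev Fam := ∀ (ι : Type) [Fintype ι], (ι → Pt) → ℝ≥0∞

/-- invariance under relabelling -/
def Fam.Inv (G : Fam) : Prop :=
  ∀ (ι ι' : Type) [Fintype ι] [Fintype ι'] (e : ι ≃ ι') (x : ι' → Pt), G ι (fun i => x (e i)) = G ι' x

def Fam.Meas (G : Fam) : Prop := ∀ (ι : Type) [Fintype ι], Measurable (G ι)

/-- the integral of a family function over `n` points -/
noncomputable def Fam.int (G : Fam) (n : ℕ) : ℝ≥0∞ := ∫⁻ y : Fin n → Pt, G (Fin n) y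

theorem Fam.int_eq {G : Fam} (hG : G.Inv) (ι : Type) [Fintype ι] (n : ℕ) (h : Fintype.card ι = n) :
    ∫⁻ y : ι → Pt, G ι y = G.int n := by
  let e : Fin n ≃ ι := (Fintype.equivFinOfCardEq h).symm
  have hmp := volume_measurePreserving_piCongrLeft (fun _ : ι => Pt) e
  rw [Fam.int, ← hmp.lintegral_comp_emb (MeasurableEquiv.measurableEmbedding _)]
  apply lintegral_congr
  intro y
  rw [← hG _ _ e]
  congr 1
  funext i
  simp [MeasurableEquiv.coe_piCongrLeft, Equiv.piCongrLeft_apply_apply]

/-- the sizes of the fibres of `σ` -/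
def fib {ι B : Type*} [Fintype ι] [DecidableEq B] (σ : ι → B) (b : B) : ℕ :=
  (Finset.univ.filter (fun i => σ i = b)).card

theorem sum_fib {ι B : Type*} [Fintype ι] [Fintype B] [DecidableEq B] (σ : ι → B) :
    ∑ b, fib σ b = Fintype.card ι := by
  unfold fib
  rw [← Finset.card_eq_sum_card_fiberwise (f := σ) (t := Finset.univ) (s := Finset.univ) (fun _ _ => Finset.mem_univ _)]
  rfl

theorem lint_fib {B : Type} [Fintype B] [DecidableEq B] {N : ℕ} (σ : Fin N → B)
    (G : B → Fam) (hI : ∀ b, (G b).Inv) (hM : ∀ b, (G b).Meas) :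
    ∫⁻ x : Fin N → Pt, ∏ b, G b {i // σ i = b} (fun i => x i.1) = ∏ b, (G b).int (fib σ b) := by
  have hmp := map_fib (ι := Fin N) (volume : Measure Pt) σ
  have hf : Measurable (fun y : (b : B) → ({i // σ i = b} → Pt) => ∏ b, G b {i // σ i = b} (y b)) :=
    Finset.measurable_prod _ (fun b _ => (hM b _).comp (measurable_pi_apply b))
  have h1 := hmp.lintegral_comp hf
  have h2 : ∫⁻ x : Fin N → Pt, ∏ b, G b {i // σ i = b} (fun i => x i.1) =
      ∫⁻ y, ∏ b, G b {i // σ i = b} (y b) ∂(Measure.pi fun b : B => Measure.pi fun _ : {i // σ i = b} => (volume : Measure Pt)) := h1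
  rw [h2, lint_pi_prod (fun b : B => Measure.pi fun _ : {i // σ i = b} => (volume : Measure Pt))
    (fun b => G b {i // σ i = b}) (fun b => hM b _)]
  refine Finset.prod_congr rfl fun b _ => ?_
  have : Fintype.card {i // σ i = b} = fib σ b := by
    unfold fib
    rw [Fintype.card_subtype]
  exact Fam.int_eq (hI b) _ _ this

theorem fib_cons {B : Type} [DecidableEq B] {N : ℕ} (b₀ : B) (τ : Fin N → B) (b : B) :
    fib (Fin.cons b₀ τ : Fin (N+1) → B) b = (if b₀ = b then 1 else 0) + fib τ b := by
  unfold fib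
  rw [Fin.card_filter_univ_succ]
  simp only [Fin.cons_zero, Fin.cons_succ]
  split_ifs <;> ring_nf

/-- the multinomial count: the number of assignments with given fibre sizes. -/
theorem card_fib {B : Type} [Fintype B] [DecidableEq B] (N : ℕ) (c : B → ℕ) (hc : ∑ b, c b = N) :
    (Finset.univ.filter (fun σ : Fin N → B => fib σ = c)).card * ∏ b, (c b).factorial = N.factorial := by
  induction N generalizing c with
  | zero =>
    have hc0 : ∀ b, c b = 0 := fun b => by
      have := (Finset.sum_eq_zero_iff.mp hc) b (Finset.mem_univ b)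
      exact this
    have : (Finset.univ.filter (fun σ : Fin 0 → B => fib σ = c)) = Finset.univ := by
      ext σ
      simp only [Finset.mem_filter, Finset.mem_univ, true_and, iff_true]
      funext b
      rw [hc0 b]
      unfold fib
      simp
    rw [this]
    simp [hc0]
  | succ N ih =>
    have h1 : (Finset.univ.filter (fun σ : Fin (N+1) → B => fib σ = c)).card =
        ∑ b₀ : B, (Finset.univ.filter (fun τ : Fin N → B => fib (Fin.cons b₀ τ : Fin (N+1) → B) = c)).card := by
      rw [Finset.card_filter, ← (Fin.consEquiv (fun _ : Fin (N+1) => B)).sum_comp, Fintype.sum_prod_type]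
      refine Finset.sum_congr rfl fun b₀ _ => ?_
      rw [Finset.card_filter]
      rfl
    rw [h1, Finset.sum_mul]
    have h2 : ∀ b₀ : B, (Finset.univ.filter (fun τ : Fin N → B => fib (Fin.cons b₀ τ : Fin (N+1) → B) = c)).card *
        ∏ b, (c b).factorial = c b₀ * N.factorial := by
      intro b₀
      by_cases h0 : c b₀ = 0
      · have : (Finset.univ.filter (fun τ : Fin N → B => fib (Fin.cons b₀ τ : Fin (N+1) → B) = c)) = ∅ := by
          ext τ
          simp only [Finset.mem_filter, Finset.mem_univ, true_and, Finset.notMem_empty, iff_false]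
          intro h
          have := congrFun h b₀
          rw [fib_cons, h0] at this
          simp at this
        rw [this, h0]; simp
      · set c' : B → ℕ := Function.update c b₀ (c b₀ - 1) with hc'
        have hsum : ∑ b, c' b = N := by
          have h3 : ∑ b, c' b + 1 = ∑ b, c b := by
            rw [← Finset.add_sum_erase _ c' (Finset.mem_univ b₀), ← Finset.add_sum_erase _ c (Finset.mem_univ b₀)]
            have h4 : ∑ x ∈ Finset.univ.erase b₀, c' x = ∑ x ∈ Finset.univ.erase b₀, c x := by
              refine Finset.sum_congr rfl fun x hx => ?_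
              rw [hc', Function.update_of_ne (Finset.ne_of_mem_erase hx)]
            rw [h4, hc', Function.update_self]
            omega
          omega
        have hset : (Finset.univ.filter (fun τ : Fin N → B => fib (Fin.cons b₀ τ : Fin (N+1) → B) = c)) =
            (Finset.univ.filter (fun τ : Fin N → B => fib τ = c')) := by
          ext τ
          simp only [Finset.mem_filter, Finset.mem_univ, true_and]
          constructor
          · intro h
            funext b
            have := congrFun h b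
            rw [fib_cons] at this
            by_cases hb : b₀ = b
            · subst hb
              rw [hc', Function.update_self]
              simp at this
              omega
            · rw [hc', Function.update_of_ne (Ne.symm hb)]
              simp [hb] at this
              exact this
          · intro h
            funext b
            rw [fib_cons, h]
            by_cases hb : b₀ = b
            · subst hb
              rw [hc', Function.update_self]
              simp
              omega
            · rw [hc', Function.update_of_ne (Ne.symm hb)]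
              simp [hb]
        rw [hset]
        have hprod : ∏ b, (c b).factorial = c b₀ * ∏ b, (c' b).factorial := by
          rw [← Finset.mul_prod_erase _ (fun b => (c b).factorial) (Finset.mem_univ b₀), ← Finset.mul_prod_erase _ (fun b => (c' b).factorial) (Finset.mem_univ b₀)]
          have h4 : ∏ x ∈ Finset.univ.erase b₀, (c' x).factorial = ∏ x ∈ Finset.univ.erase b₀, (c x).factorial := by
            refine Finset.prod_congr rfl fun x hx => ?_
            rw [hc', Function.update_of_ne (Finset.ne_of_mem_erase hx)]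
          rw [h4, hc', Function.update_self, ← mul_assoc]
          congr 1
          obtain ⟨k, hk⟩ : ∃ k, c b₀ = k + 1 := ⟨c b₀ - 1, by omega⟩
          rw [hk, Nat.factorial_succ]
          simp
        rw [hprod]
        have := ih c' hsum
        calc _ = c b₀ * ((Finset.univ.filter (fun τ : Fin N → B => fib τ = c')).card * ∏ b, (c' b).factorial) := by ring
          _ = _ := by rw [this]
    rw [Finset.sum_congr rfl (fun b₀ _ => h2 b₀), ← Finset.sum_mul, hc, Nat.factorial_succ]

/-- sum over assignments with prescribed fibre sizes. -/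
theorem sum_fib_eq {B : Type} [Fintype B] [DecidableEq B] (N : ℕ) (c : B → ℕ) (hc : ∑ b, c b = N)
    (g : B → ℕ → ℝ≥0∞) :
    (N.factorial : ℝ≥0∞)⁻¹ * ∑ σ ∈ Finset.univ.filter (fun σ : Fin N → B => fib σ = c), ∏ b, g b (fib σ b) =
      ∏ b, (((c b).factorial : ℝ≥0∞)⁻¹ * g b (c b)) := by
  have h1 : ∑ σ ∈ Finset.univ.filter (fun σ : Fin N → B => fib σ = c), ∏ b, g b (fib σ b) =
      ((Finset.univ.filter (fun σ : Fin N → B => fib σ = c)).card : ℝ≥0∞) * ∏ b, g b (c b) := by
    rw [← nsmul_eq_mul, ← Finset.sum_const]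
    refine Finset.sum_congr rfl fun σ hσ => ?_
    rw [(Finset.mem_filter.mp hσ).2]
  rw [h1, Finset.prod_mul_distrib, ← mul_assoc]
  congr 1
  have h2 := card_fib N c hc
  have h3 : ((Finset.univ.filter (fun σ : Fin N → B => fib σ = c)).card : ℝ≥0∞) * ∏ b, ((c b).factorial : ℝ≥0∞) = (N.factorial : ℝ≥0∞) := by
    exact_mod_cast congrArg (fun n : ℕ => (n : ℝ≥0∞)) h2
  have h4 : (∏ b, ((c b).factorial : ℝ≥0∞)⁻¹) = (∏ b, ((c b).factorial : ℝ≥0∞))⁻¹ := by
    rw [ENNReal.prod_inv_distrib]
    intro i _ j _ _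
    left
    exact_mod_cast (Nat.factorial_pos _).ne'
  rw [h4]
  have hne : (∏ b, ((c b).factorial : ℝ≥0∞)) ≠ 0 := by
    rw [Finset.prod_ne_zero_iff]
    intro b _
    exact_mod_cast (Nat.factorial_pos _).ne'
  have hnt : (∏ b, ((c b).factorial : ℝ≥0∞)) ≠ ⊤ := by
    rw [← Nat.cast_prod]
    exact ENNReal.natCast_ne_top _
  rw [← h3, ENNReal.mul_inv (Or.inr hnt) (Or.inr hne), mul_comm, ← mul_assoc]
  have hcne : ((Finset.univ.filter (fun σ : Fin N → B => fib σ = c)).card : ℝ≥0∞) ≠ 0 := by
    intro h0
    rw [h0, zero_mul] at h3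
    exact absurd h3.symm (by exact_mod_cast (Nat.factorial_pos N).ne')
  rw [ENNReal.mul_inv_cancel hcne (ENNReal.natCast_ne_top _), one_mul]

/-- upper factorisation -/
theorem UF {B : Type} [Fintype B] [DecidableEq B] (N : ℕ) (s : Pt → B)
    (G : B → Fam) (hI : ∀ b, (G b).Inv) (hM : ∀ b, (G b).Meas) (H : (Fin N → Pt) → ℝ≥0∞)
    (hH : ∀ x, H x ≤ ∏ b, G b {i // s (x i) = b} (fun i => x i.1)) :
    (N.factorial : ℝ≥0∞)⁻¹ * ∫⁻ x, H x ≤
      ∑ c ∈ (Finset.univ : Finset B).piAntidiag N, ∏ b, (((c b).factorial : ℝ≥0∞)⁻¹ * (G b).int (c b)) := by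
  have h1 : ∫⁻ x, H x ≤ ∑ σ : Fin N → B, ∏ b, (G b).int (fib σ b) := by
    calc ∫⁻ x, H x ≤ ∫⁻ x : Fin N → Pt, ∑ σ : Fin N → B, ∏ b, G b {i // σ i = b} (fun i => x i.1) := by
          apply lintegral_mono
          intro x
          refine (hH x).trans ?_
          exact Finset.single_le_sum (f := fun σ : Fin N → B => ∏ b, G b {i // σ i = b} (fun i => x i.1))
            (fun _ _ => zero_le) (Finset.mem_univ (fun i => s (x i)))
      _ = ∑ σ : Fin N → B, ∫⁻ x : Fin N → Pt, ∏ b, G b {i // σ i = b} (fun i => x i.1) := by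
          rw [lintegral_finsetSum]
          intro σ _
          refine Finset.measurable_prod _ fun b _ => (hM b _).comp ?_
          exact measurable_pi_lambda _ fun i => measurable_pi_apply _
      _ = _ := Finset.sum_congr rfl fun σ _ => lint_fib σ G hI hM
  refine (mul_le_mul_right h1 _).trans (le_of_eq ?_)
  have h2 : ∑ σ : Fin N → B, ∏ b, (G b).int (fib σ b) =
      ∑ c ∈ (Finset.univ : Finset B).piAntidiag N,
        ∑ σ ∈ Finset.univ.filter (fun σ : Fin N → B => fib σ = c), ∏ b, (G b).int (fib σ b) := by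
    rw [Finset.sum_fiberwise_of_maps_to]
    intro σ _
    rw [Finset.mem_piAntidiag]
    refine ⟨by rw [sum_fib]; simp, fun _ _ => Finset.mem_univ _⟩
  rw [h2, Finset.mul_sum]
  refine Finset.sum_congr rfl fun c hc => ?_
  exact sum_fib_eq N c (Finset.mem_piAntidiag.mp hc).1 (fun b => (G b).int)

/-- lower factorisation -/
theorem LF {B : Type} [Fintype B] [DecidableEq B] (N : ℕ) (c : B → ℕ) (hc : ∑ b, c b = N)
    (D : B → Set Pt) (hD : ∀ b b', b ≠ b' → Disjoint (D b) (D b'))
    (G : B → Fam) (hI : ∀ b, (G b).Inv) (hM : ∀ b, (G b).Meas)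
    (hS : ∀ b (ι : Type) [Fintype ι] (x : ι → Pt), G b ι x ≠ 0 → ∀ i, x i ∈ D b)
    (F : (Fin N → Pt) → ℝ≥0∞)
    (hF : ∀ σ : Fin N → B, fib σ = c → ∀ x : Fin N → Pt, (∀ i, x i ∈ D (σ i)) →
      ∏ b, G b {i // σ i = b} (fun i => x i.1) ≤ F x) :
    ∏ b, (((c b).factorial : ℝ≥0∞)⁻¹ * (G b).int (c b)) ≤ (N.factorial : ℝ≥0∞)⁻¹ * ∫⁻ x, F x := by
  rw [← sum_fib_eq N c hc]
  refine mul_le_mul_right ?_ _
  have h1 : ∑ σ ∈ Finset.univ.filter (fun σ : Fin N → B => fib σ = c), ∏ b, (G b).int (fib σ b) =
      ∫⁻ x : Fin N → Pt, ∑ σ ∈ Finset.univ.filter (fun σ : Fin N → B => fib σ = c),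
        ∏ b, G b {i // σ i = b} (fun i => x i.1) := by
    rw [lintegral_finsetSum]
    · exact Finset.sum_congr rfl fun σ _ => (lint_fib σ G hI hM).symm
    · intro σ _
      refine Finset.measurable_prod _ fun b _ => (hM b _).comp ?_
      exact measurable_pi_lambda _ fun i => measurable_pi_apply _
  rw [h1]
  apply lintegral_mono
  intro x
  simp only
  have hz : ∀ σ : Fin N → B, (∏ b, G b {i // σ i = b} (fun i => x i.1)) ≠ 0 → ∀ i, x i ∈ D (σ i) := by
    intro σ h i
    rw [Finset.prod_ne_zero_iff] at h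
    exact hS (σ i) _ _ (h (σ i) (Finset.mem_univ _)) ⟨i, rfl⟩
  by_cases hex : ∃ σ : Fin N → B, fib σ = c ∧ (∏ b, G b {i // σ i = b} (fun i => x i.1)) ≠ 0
  · obtain ⟨σ₀, hσ₀, hne⟩ := hex
    rw [Finset.sum_eq_single σ₀]
    · exact hF σ₀ hσ₀ x (hz σ₀ hne)
    · intro σ hσ hneσ
      by_contra hcon
      apply hneσ
      funext i
      by_contra hi
      exact Set.disjoint_left.mp (hD _ _ hi) (hz σ hcon i) (hz σ₀ hne i)
    · intro h
      exact absurd (by simp [hσ₀]) h
  · push Not at hex
    rw [Finset.sum_eq_zero]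
    · exact zero_le
    · intro σ hσ
      exact hex σ (Finset.mem_filter.mp hσ).2

end Crest.H5.PP
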