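import Crest.Agent.H5.PP.Param

set_option autoImplicit false
set_option maxHeartbeats 400000
open MeasureTheory ENNReal Set Metric Filter Topology

namespace Crest.H5.PP

open Crest.ProbabilityR.Continuum (packingSet packingNumber energy)

/-- everything at once -/
theorem assembled {c : ℝ → ℝ → ℝ} (hc : Core c) (hcM : ∀ δ : ℝ, 0 < δ → δ ≤ 1/8 → ∀ r : ℝ, 0 < r → r ^ 2 * c δ r ≤ 4 * δ) :
    ∃ p : ℝ, 0 < p ∧ Filter.Tendsto (fun L : ℝ => (packingNumber L : ℝ) / L ^ 3) Filter.atTop (nhds p) ∧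
    ∃ (δ η K θ : ℝ) (B : ℕ), 0 < δ ∧ δ ≤ 1/8 ∧ 0 < η ∧ η ≤ 1/32 ∧ 0 < K ∧ 0 < θ ∧ 2 ≤ B ∧
      (∃ Bs : ℝ, ∀ (N : ℕ) (x : Fin N → Pt), -Bs * N ≤ energy (fun r => fs δ η K r + c δ r - θ * psi B r) x) ∧
      ∃ f : ℝ → ℝ → ℝ,
      (∀ ρ : ℝ, 0 < ρ → ∀ β : ℝ, 0 < β → Tendsto (fun L : ℝ => -(1 / (β * L ^ 3)) *
        Real.log (Crest.ProbabilityR.Continuum.partitionFn (fun r => fs δ η K r + c δ r - θ * psi B r) L ⌊ρ * L ^ 3⌋₊ β)) atTop (𝓝 (f β ρ))) ∧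
      ∀ ρ : ℝ, 3 * p / 2 < ρ → ρ < 11 * p / 6 → ∃ Dl Dr : ℝ,
        HasDerivWithinAt (fun β => f β ρ) Dl (Iio 1) 1 ∧ HasDerivWithinAt (fun β => f β ρ) Dr (Ioi 1) 1 ∧ Dr < Dl := by
  obtain ⟨p, hp, p_lim, p_le⟩ := packing_limit
  refine ⟨p, hp, p_lim, ?_⟩
  obtain ⟨δ, η, K, hδ, hδ1, hη, hη1, hK, D, hDp⟩ := exists_Dt hc hp p_lim p_le
  have hM : ∀ r, 0 < r → r < 2 → r ^ 2 * (mkBase hc hδ hδ1 hη hη1 hK).φ r ≤ 4 * K + 4 * δ := by
    intro r h0 h2
    show r ^ 2 * (fs δ η K r + c δ r) ≤ _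
    have h3 := hcM δ hδ hδ1 r h0
    have h4 := fs_le hK.le hδ hη r
    have h5 := fs_nonneg (δ := δ) (η := η) hK.le r
    have h6 : r ^ 2 * fs δ η K r ≤ 4 * K := by
      have : r ^ 2 ≤ 4 := by nlinarith
      nlinarith
    linarith
  obtain ⟨C, hC0, hC⟩ := hint_of _ hM
  obtain ⟨θ, hθ0, hθK, f, hf1, hf2⟩ := kinkD D hC0 hC
  rw [hDp] at hf2
  refine ⟨δ, η, K, θ, D.B, hδ, hδ1, hη, hη1, hK, hθ0, D.hB, ?_, f, hf1, hf2⟩
  have htw := twp _ D.hB hθ0.le hθK hC0 hC 1 one_pos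
  refine ⟨htw.Bs, fun N x => ?_⟩
  rw [energy_eq]
  have h1 := htw.stab N x
  rw [ps_smul] at h1
  show -htw.Bs * N ≤ ps (potl (mkBase hc hδ hδ1 hη hη1 hK) D.B θ) x
  linarith

theorem rpow_lower {r : ℝ} (h1 : 1 ≤ r) (h2 : r ≤ 2) : 1/16 ≤ r ^ (-(3 + 1/32 : ℝ)) := by
  have hr0 : 0 < r := by linarith
  calc (1:ℝ)/16 = (2:ℝ) ^ (-(4:ℝ)) := by
        rw [Real.rpow_neg (by norm_num)]
        have : (2:ℝ) ^ (4:ℝ) = 16 := by
          have := Real.rpow_natCast (2:ℝ) 4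
          push_cast at this
          rw [this]; norm_num
        rw [this]; norm_num
    _ ≤ (2:ℝ) ^ (-(3 + 1/32 : ℝ)) := Real.rpow_le_rpow_of_exponent_le (by norm_num) (by norm_num)
    _ ≤ r ^ (-(3 + 1/32 : ℝ)) := Real.rpow_le_rpow_of_nonpos hr0 h2 (by norm_num)

theorem fs_range {δ η K r : ℝ} (hδ : 0 < δ) (hδ1 : δ ≤ 1/8) (hη : 0 < η) (hη1 : η ≤ 1/32) (hr : 2 ≤ r) : fs δ η K r = 0 := by
  have h1 : δ * η ≤ 1 := by nlinarith
  exact fs_Z2 hδ (by linarith) hη (by linarith)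

theorem core_zero : Core (fun _ _ => 0) where
  meas := fun _ _ => measurable_const
  nonneg := fun _ _ _ => le_refl _
  zero := fun _ _ _ _ => rfl

/-- the logarithmic core -/
noncomputable def lgc (δ r : ℝ) : ℝ := if 0 < r then max 0 (Real.log (δ / (2 * r))) else 0

theorem core_lgc : Core lgc where
  meas := by
    intro δ _
    unfold lgc
    refine Measurable.ite (measurableSet_lt measurable_const measurable_id) ?_ measurable_const
    refine measurable_const.max (Real.measurable_log.comp ?_)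
    exact measurable_const.div (measurable_const.mul measurable_id)
  nonneg := by
    intro δ _ r
    unfold lgc
    split_ifs
    · exact le_max_left _ _
    · exact le_refl _
  zero := by
    intro δ hδ r hr
    have hr0 : 0 < r := by linarith
    unfold lgc
    rw [if_pos hr0, max_eq_left]
    apply Real.log_nonpos (by positivity)
    rw [div_le_one (by positivity)]
    linarith

theorem lgc_bound (δ : ℝ) (hδ : 0 < δ) (hδ1 : δ ≤ 1/8) (r : ℝ) (hr : 0 < r) : r ^ 2 * lgc δ r ≤ 4 * δ := by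
  by_cases h : δ / 2 ≤ r
  · rw [core_lgc.zero δ hδ r h]
    linarith
  · push Not at h
    unfold lgc
    rw [if_pos hr]
    have h1 : Real.log (δ / (2 * r)) ≤ δ / (2 * r) := Real.log_le_self (by positivity)
    have h2 : max 0 (Real.log (δ / (2 * r))) ≤ δ / (2 * r) := max_le (by positivity) h1
    calc r ^ 2 * max 0 (Real.log (δ / (2 * r))) ≤ r ^ 2 * (δ / (2 * r)) := mul_le_mul_of_nonneg_left h2 (by positivity)
      _ = r * δ / 2 := by field_simp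
      _ ≤ 4 * δ := by nlinarith

end Crest.H5.PP
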