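import Crest.Agent.H5.PP.Bounds

set_option autoImplicit false
open MeasureTheory ENNReal Set Metric

namespace Crest.H5.PP

/-- number of ordered pairs (including equal ones) with the same label -/
def pc {ι B : Type*} [Fintype ι] [DecidableEq B] (σ : ι → B) : ℝ :=
  ∑ i, ∑ j, if σ i = σ j then (1:ℝ) else 0

theorem pc_eq {ι B : Type*} [Fintype ι] [Fintype B] [DecidableEq B] (σ : ι → B) :
    pc σ = ∑ b, (fib σ b : ℝ) ^ 2 := by
  have h1 : ∀ b, (fib σ b : ℝ) = ∑ i, if σ i = b then (1:ℝ) else 0 := by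
    intro b
    unfold fib
    simp
  have h2 : ∀ b, (fib σ b : ℝ) ^ 2 = ∑ i, ∑ j, if σ i = b then (if σ j = b then (1:ℝ) else 0) else 0 := by
    intro b
    rw [h1, sq, Finset.sum_mul_sum]
    refine Finset.sum_congr rfl fun i _ => Finset.sum_congr rfl fun j _ => ?_
    by_cases hi : σ i = b <;> by_cases hj : σ j = b <;> simp [hi, hj]
  simp only [h2]
  unfold pc
  have hcomm : ∑ b, ∑ i, ∑ j, (if σ i = b then (if σ j = b then (1:ℝ) else 0) else 0) =
      ∑ i, ∑ j, ∑ b, (if σ i = b then (if σ j = b then (1:ℝ) else 0) else 0) := by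
    rw [Finset.sum_comm]
    refine Finset.sum_congr rfl fun i _ => ?_
    rw [Finset.sum_comm]
  rw [hcomm]
  refine Finset.sum_congr rfl fun i _ => ?_
  refine Finset.sum_congr rfl fun j _ => ?_
  by_cases hij : σ i = σ j
  · rw [if_pos hij, Finset.sum_eq_single (σ i)]
    · simp [hij]
    · intro b _ hb
      rw [if_neg (Ne.symm hb)]
    · intro h; exact absurd (Finset.mem_univ _) h
  · rw [if_neg hij, Finset.sum_eq_zero]
    intro b _
    by_cases h1 : σ i = b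
    · rw [if_pos h1, if_neg (fun h2 => hij (h1.trans h2.symm))]
    · rw [if_neg h1]

theorem pc_congr {ι B B' : Type*} [Fintype ι] [DecidableEq B] [DecidableEq B'] {σ : ι → B} {σ' : ι → B'}
    (h : ∀ i j, σ i = σ j ↔ σ' i = σ' j) : pc σ = pc σ' := by
  unfold pc
  refine Finset.sum_congr rfl fun i _ => Finset.sum_congr rfl fun j _ => ?_
  simp only [h]

theorem pc_nonneg {ι B : Type*} [Fintype ι] [DecidableEq B] (σ : ι → B) : 0 ≤ pc σ := by
  unfold pc
  refine Finset.sum_nonneg fun i _ => Finset.sum_nonneg fun j _ => ?_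
  split_ifs <;> norm_num

/-- Cauchy–Schwarz: `N² ≤ #B · ∑ c_b²`. -/
theorem card_sq_le_pc {ι B : Type*} [Fintype ι] [Fintype B] [DecidableEq B] (σ : ι → B) :
    (Fintype.card ι : ℝ) ^ 2 ≤ Fintype.card B * pc σ := by
  rw [pc_eq]
  have h1 : (Fintype.card ι : ℝ) = ∑ b, (fib σ b : ℝ) := by
    rw [← sum_fib σ]; push_cast; rfl
  rw [h1]
  exact sq_sum_le_card_mul_sum_sq

/-- block index of a point in the grid of side `l` with offset `u` -/
noncomputable def blk (l : ℝ) (u : Fin 3 → ℝ) (x : Pt) : Fin 3 → ℤ := fun k => ⌊(x k - u k) / l⌋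

/-- natural offsets as real offsets -/
def ofs {L : ℕ} (U : Fin 3 → Fin L) : Fin 3 → ℝ := fun k => ((U k : ℕ) : ℝ)

/-- admissible offsets -/
def Adm (l : ℝ) (u : Fin 3 → ℝ) : Prop := ∀ k, 0 ≤ u k ∧ u k < l

theorem adm_ofs {L : ℕ} (U : Fin 3 → Fin L) : Adm (L : ℝ) (ofs U) := fun k =>
  ⟨by unfold ofs; positivity, by unfold ofs; exact_mod_cast (U k).2⟩

theorem adm_zero {l : ℝ} (hl : 0 < l) : Adm l (fun _ => 0) := fun _ => ⟨le_refl _, hl⟩

/-- one-dimensional crossing count -/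
theorem cross_count {L : ℕ} (hL : 0 < L) (a b : ℝ) :
    ((Finset.univ.filter (fun u : Fin L => ⌊(a - (u : ℕ)) / L⌋ ≠ ⌊(b - (u : ℕ)) / L⌋)).card : ℝ) ≤ |a - b| + 1 := by
  wlog hab : a ≤ b generalizing a b with H
  · have := H b a (le_of_not_ge hab)
    rw [abs_sub_comm] at this
    refine le_trans (le_of_eq ?_) this
    congr 2
    ext u
    simp only [Finset.mem_filter, Finset.mem_univ, true_and, ne_comm]
  have hLr : (0 : ℝ) < L := by exact_mod_cast hL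
  have h1 : (Finset.univ.filter (fun u : Fin L => ⌊(a - (u : ℕ)) / L⌋ ≠ ⌊(b - (u : ℕ)) / L⌋)).card ≤
      (Finset.Ioc ⌊a⌋ ⌊b⌋).card := by
    apply Finset.card_le_card_of_injOn (fun u : Fin L => ((u : ℕ) : ℤ) + L * ⌊(b - (u : ℕ)) / L⌋)
    · intro u hu
      simp only [Finset.coe_filter, Finset.mem_univ, true_and, mem_ofPred_eq] at hu
      simp only [Finset.coe_Ioc, mem_Ioc]
      set z := ⌊(b - (u : ℕ)) / L⌋ with hz
      have hmono : ⌊(a - (u : ℕ)) / L⌋ ≤ z := by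
        apply Int.floor_le_floor
        gcongr
      have hlt : ⌊(a - (u : ℕ)) / L⌋ < z := lt_of_le_of_ne hmono hu
      have h2 : (a - (u : ℕ)) / L < z := by
        rw [← Int.floor_lt]; exact hlt
      have h3 : (z : ℝ) ≤ (b - (u : ℕ)) / L := Int.floor_le _
      rw [div_lt_iff₀ hLr] at h2
      rw [le_div_iff₀ hLr] at h3
      constructor
      · rw [Int.floor_lt]
        push_cast
        linarith
      · rw [Int.le_floor]
        push_cast
        linarith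
    · intro u _ v _ h
      simp only at h
      have h2 : ((u : ℕ) : ℤ) % L = ((v : ℕ) : ℤ) % L := by
        have := congrArg (fun t : ℤ => t % L) h
        simpa [Int.add_mul_emod_self_left] using this
      rw [Int.emod_eq_of_lt (by positivity) (by exact_mod_cast u.2), Int.emod_eq_of_lt (by positivity) (by exact_mod_cast v.2)] at h2
      exact Fin.ext (by exact_mod_cast h2)
  have h2 : ((Finset.Ioc ⌊a⌋ ⌊b⌋).card : ℝ) = ⌊b⌋ - ⌊a⌋ := by
    rw [Int.card_Ioc]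
    have : 0 ≤ ⌊b⌋ - ⌊a⌋ := by
      have := Int.floor_le_floor hab
      omega
    rw [← Int.cast_natCast (R := ℝ), Int.toNat_of_nonneg this]
    push_cast
    ring
  calc _ ≤ ((Finset.Ioc ⌊a⌋ ⌊b⌋).card : ℝ) := by exact_mod_cast h1
    _ = ⌊b⌋ - ⌊a⌋ := h2
    _ ≤ |a - b| + 1 := by
      have h3 := Int.floor_le b
      have h4 := Int.lt_floor_add_one a
      rw [abs_sub_comm, abs_of_nonneg (by linarith)]
      linarith

/-- crossing count for points -/
theorem cross_count3 {L : ℕ} (hL : 0 < L) (x y : Pt) :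
    ∑ U : Fin 3 → Fin L, (if blk L (ofs U) x = blk L (ofs U) y then (0:ℝ) else 1) ≤ (L:ℝ) ^ 2 * (3 * (dist x y + 1)) := by
  have h1 : ∀ U : Fin 3 → Fin L, (if blk L (ofs U) x = blk L (ofs U) y then (0:ℝ) else 1) ≤
      ∑ k : Fin 3, if ⌊(x k - (U k : ℕ)) / L⌋ ≠ ⌊(y k - (U k : ℕ)) / L⌋ then (1:ℝ) else 0 := by
    intro U
    split_ifs with h
    · refine Finset.sum_nonneg fun k _ => ?_
      split_ifs <;> norm_num
    · obtain ⟨k, hk⟩ := Function.ne_iff.mp h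
      have : (1:ℝ) = if ⌊(x k - (U k : ℕ)) / L⌋ ≠ ⌊(y k - (U k : ℕ)) / L⌋ then (1:ℝ) else 0 := by
        rw [if_pos (show ⌊(x k - (U k : ℕ)) / L⌋ ≠ ⌊(y k - (U k : ℕ)) / L⌋ from hk)]
      calc (1:ℝ) = _ := this
        _ ≤ _ := Finset.single_le_sum (f := fun k => if ⌊(x k - (U k : ℕ)) / L⌋ ≠ ⌊(y k - (U k : ℕ)) / L⌋ then (1:ℝ) else 0)
          (fun k _ => by dsimp only; split_ifs <;> norm_num) (Finset.mem_univ k)
  refine (Finset.sum_le_sum fun U _ => h1 U).trans ?_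
  rw [Finset.sum_comm]
  have h2 : ∀ k : Fin 3, ∑ U : Fin 3 → Fin L, (if ⌊(x k - (U k : ℕ)) / L⌋ ≠ ⌊(y k - (U k : ℕ)) / L⌋ then (1:ℝ) else 0) ≤
      (L:ℝ) ^ 2 * (dist x y + 1) := by
    intro k
    have h3 : ∑ U : Fin 3 → Fin L, (if ⌊(x k - (U k : ℕ)) / L⌋ ≠ ⌊(y k - (U k : ℕ)) / L⌋ then (1:ℝ) else 0) =
        (L:ℝ) ^ 2 * ∑ u : Fin L, (if ⌊(x k - (u : ℕ)) / L⌋ ≠ ⌊(y k - (u : ℕ)) / L⌋ then (1:ℝ) else 0) := by
      rw [← (Fin.insertNthEquiv (fun _ : Fin 3 => Fin L) k).sum_comp, Fintype.sum_prod_type, Finset.mul_sum]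
      refine Finset.sum_congr rfl fun u _ => ?_
      simp only [Fin.insertNthEquiv_apply, Fin.insertNth_apply_same]
      rw [Finset.sum_const]
      simp
    rw [h3]
    refine mul_le_mul_of_nonneg_left ?_ (by positivity)
    rw [← Finset.sum_filter, Finset.sum_const, nsmul_eq_mul, mul_one]
    refine (cross_count hL (x k) (y k)).trans ?_
    have := coord_le_dist x y k
    linarith
  refine (Finset.sum_le_sum fun k _ => h2 k).trans (le_of_eq ?_)
  simp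
  ring

/-- number of blocks per side -/
noncomputable def gm (l : ℝ) (S : ℝ) : ℕ := ⌊S / l⌋₊ + 2

instance (l : ℝ) (S : ℝ) : NeZero (gm l S) := ⟨by unfold gm; omega⟩

/-- finite block label -/
noncomputable def sB (l : ℝ) (u : Fin 3 → ℝ) (m : ℕ) [NeZero m] (x : Pt) : Fin 3 → Fin m :=
  fun k => Fin.ofNat m (blk l u x k + 1).toNat

/-- the block with label `b` -/
def DB (l : ℝ) (u : Fin 3 → ℝ) (m : ℕ) (b : Fin 3 → Fin m) : Set Pt :=
  box (fun k => u k + l * (((b k : ℕ) : ℝ) - 1)) l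

theorem blk_range {l : ℝ} (hl : 0 < l) {u : Fin 3 → ℝ} (hu : Adm l u) {S : ℝ} {x : Pt} (hx : x ∈ cube S) (k : Fin 3) :
    -1 ≤ blk l u x k ∧ blk l u x k ≤ ⌊S / l⌋₊ := by
  have hUk := (hu k).2
  have hU0 := (hu k).1
  have hxk := hx k
  constructor
  · rw [blk, Int.le_floor, le_div_iff₀ hl]
    push_cast
    linarith [hxk.1]
  · have h1 : (x k - u k) / l ≤ S / l := by
      gcongr
      linarith [hxk.2]
    have h2 : blk l u x k ≤ ⌊S / l⌋ := Int.floor_le_floor h1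
    have hS : 0 ≤ S / l := div_nonneg (hxk.1.trans hxk.2) hl.le
    rw [Int.natCast_floor_eq_floor hS]
    exact h2

theorem sB_val {l : ℝ} (hl : 0 < l) {u : Fin 3 → ℝ} (hu : Adm l u) {S : ℝ} {x : Pt} (hx : x ∈ cube S) (k : Fin 3) :
    ((sB l u (gm l S) x k : ℕ) : ℤ) = blk l u x k + 1 := by
  obtain ⟨h1, h2⟩ := blk_range hl hu hx k
  unfold sB
  rw [Fin.val_ofNat, Nat.mod_eq_of_lt]
  · rw [Int.toNat_of_nonneg]; omega
  · unfold gm; omega

theorem sB_eq_iff {l : ℝ} (hl : 0 < l) {u : Fin 3 → ℝ} (hu : Adm l u) {S : ℝ} {x y : Pt} (hx : x ∈ cube S) (hy : y ∈ cube S) :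
    sB l u (gm l S) x = sB l u (gm l S) y ↔ blk l u x = blk l u y := by
  constructor
  · intro h
    funext k
    have h1 := sB_val hl hu hx k
    have h2 := sB_val hl hu hy k
    rw [h] at h1
    omega
  · intro h
    funext k
    apply Fin.ext
    have h1 := sB_val hl hu hx k
    have h2 := sB_val hl hu hy k
    rw [h] at h1
    omega

theorem mem_DB {l : ℝ} (hl : 0 < l) {u : Fin 3 → ℝ} (hu : Adm l u) {S : ℝ} {x : Pt} (hx : x ∈ cube S) :
    x ∈ DB l u (gm l S) (sB l u (gm l S) x) := by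
  intro k
  have h1 := sB_val hl hu hx k
  have h1' : ((sB l u (gm l S) x k : ℕ) : ℝ) = (blk l u x k : ℝ) + 1 := by exact_mod_cast h1
  show u k + l * (((sB l u (gm l S) x k : ℕ) : ℝ) - 1) ≤ x k ∧
    x k < u k + l * (((sB l u (gm l S) x k : ℕ) : ℝ) - 1) + l
  rw [h1']
  have h2 : (blk l u x k : ℝ) ≤ (x k - u k) / l := Int.floor_le _
  have h3 : (x k - u k) / l < (blk l u x k : ℝ) + 1 := Int.lt_floor_add_one _
  rw [le_div_iff₀ hl] at h2
  rw [div_lt_iff₀ hl] at h3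
  constructor <;> nlinarith

theorem DB_disjoint {l : ℝ} (hl : 0 < l) (u : Fin 3 → ℝ) (m : ℕ) (b b' : Fin 3 → Fin m) (h : b ≠ b') :
    Disjoint (DB l u m b) (DB l u m b') := by
  rw [Set.disjoint_left]
  intro x hx hx'
  apply h
  funext k
  have h1 := hx k
  have h2 := hx' k
  by_contra hne
  rcases lt_or_gt_of_ne (fun h3 : (b k : ℕ) = (b' k : ℕ) => hne (Fin.ext h3)) with h4 | h4
  · have h5 : ((b k : ℕ) : ℝ) + 1 ≤ ((b' k : ℕ) : ℝ) := by exact_mod_cast h4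
    nlinarith [h1.2, h2.1, mul_le_mul_of_nonneg_left h5 hl.le]
  · have h5 : ((b' k : ℕ) : ℝ) + 1 ≤ ((b k : ℕ) : ℝ) := by exact_mod_cast h4
    nlinarith [h1.1, h2.2, mul_le_mul_of_nonneg_left h5 hl.le]

theorem box_diam (v : Fin 3 → ℝ) {L : ℝ} (hL : 0 ≤ L) (x y : Pt) (hx : x ∈ box v L) (hy : y ∈ box v L) :
    dist x y ≤ 2 * L := by
  apply dist_le_of_coord hL
  intro k
  have h1 := hx k
  have h2 := hy k
  rw [abs_le]
  constructor <;> linarith [h1.1, h1.2, h2.1, h2.2]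

theorem gm_le {l : ℝ} (hl : 0 < l) {S : ℝ} (hS : 0 ≤ S) : (gm l S : ℝ) * l ≤ S + 2 * l := by
  unfold gm
  push_cast
  have h1 : (⌊S / l⌋₊ : ℝ) ≤ S / l := Nat.floor_le (by positivity)
  rw [le_div_iff₀ hl] at h1
  nlinarith

theorem pc_sB {ι : Type*} [Fintype ι] {l : ℝ} (hl : 0 < l) {u : Fin 3 → ℝ} (hu : Adm l u) {S : ℝ}
    (x : ι → Pt) (hx : ∀ i, x i ∈ cube S) :
    pc (fun i => sB l u (gm l S) (x i)) = pc (fun i => blk l u (x i)) :=
  pc_congr fun i j => sB_eq_iff hl hu (hx i) (hx j)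

/-- K2 on a shifted grid -/
theorem ps_gk_le_grid {ι : Type*} [Fintype ι] {r S : ℝ} (hr : 0 < r) {l : ℝ} (hl : 0 < l) {u : Fin 3 → ℝ} (hu : Adm l u)
    (x : ι → Pt) (hx : ∀ i, x i ∈ cube S) :
    ps (gk r) x ≤ (1/2) * ((1 + 4 * l / r) ^ 6 / l ^ 3) * pc (fun i => blk l u (x i)) := by
  have hv := v1_pos
  have h1 := sum_gk_le (B := Fin 3 → Fin (gm l S)) hr hl x (fun i => sB l u (gm l S) (x i))
    (DB l u (gm l S)) (fun b => measurableSet_box _ _) (fun b b' h => DB_disjoint hl u _ b b' h)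
    (fun b => by rw [DB, vol_box, ENNReal.ofReal_pow hl.le])
    (fun b u hu v hv => box_diam _ hl.le u v hu hv)
    (fun i => mem_DB hl hu (hx i))
  rw [← pc_eq, pc_sB hl hu x hx] at h1
  rw [ps_gk x hr]
  have h3 : 0 ≤ (1/2) * (Fintype.card ι : ℝ) / (r ^ 3 * v1) := by positivity
  calc _ ≤ (1/2) * ∑ i, ∑ j, gk r (dist (x i) (x j)) := by linarith
    _ ≤ (1/2) * ((1 + 4 * l / r) ^ 6 / l ^ 3 * pc (fun i => blk l u (x i))) := by gcongr
    _ = _ := by ring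

/-- `N² ≤ (S+2l)³/l³ · pc` -/
theorem card_sq_le_grid {ι : Type*} [Fintype ι] {S : ℝ} (hS : 0 ≤ S) {l : ℝ} (hl : 0 < l) {u : Fin 3 → ℝ} (hu : Adm l u)
    (x : ι → Pt) (hx : ∀ i, x i ∈ cube S) :
    (Fintype.card ι : ℝ) ^ 2 ≤ ((S + 2 * l) / l) ^ 3 * pc (fun i => blk l u (x i)) := by
  have h1 := card_sq_le_pc (fun i => sB l u (gm l S) (x i))
  rw [pc_sB hl hu x hx] at h1
  refine h1.trans ?_
  refine mul_le_mul_of_nonneg_right ?_ (pc_nonneg _)
  have h2 : ((Fintype.card (Fin 3 → Fin (gm l S)) : ℕ) : ℝ) = (gm l S : ℝ) ^ 3 := by simp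
  rw [h2]
  have h3 := gm_le hl hS
  have h4 : (gm l S : ℝ) ≤ (S + 2 * l) / l := by rw [le_div_iff₀ hl]; exact h3
  gcongr

end Crest.H5.PP
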