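import Crest.Agent.H5.PP.Lower

set_option autoImplicit false
set_option maxHeartbeats 400000
open MeasureTheory ENNReal Set Metric

namespace Crest.H5.PP

variable {b : Base}

noncomputable def Rg.C4 (R : Rg b) : ℝ := 9 * R.A + R.ρb + 5 + R.C3
noncomputable def Rg.C5 (R : Rg b) : ℝ := R.C4 + (14 * R.A + 261 * R.θh * b.Ca * R.Cp)
noncomputable def Rg.τ (R : Rg b) (B n : ℕ) : ℝ := 4 * R.C5 / (R.θl * (Hn B n : ℝ) ^ 2)
noncomputable def Rg.C6 (R : Rg b) : ℝ := 126 * R.ρb ^ 2 + 68 * R.C5 / R.θl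

theorem θh_pos (R : Rg b) : 0 < R.θh := R.θl_pos.trans_le R.θl_le

theorem CE_pos (R : Rg b) : 0 < R.CE := by
  have := A_pos R
  unfold Rg.CE; positivity

theorem Cp_pos (R : Rg b) : 0 < R.Cp := by
  have h1 := CE_pos R
  have h2 := ρb_pos R
  have h3 := b.K_pos
  unfold Rg.Cp; positivity

theorem C3_nonneg (R : Rg b) : 0 ≤ R.C3 := by
  have h1 := θh_pos R
  have h2 := ρb_pos R
  have h3 := v1_pos
  unfold Rg.C3; positivity

theorem C5_ge (R : Rg b) : 5 ≤ R.C5 := by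
  have h1 := θh_pos R
  have h2 := ρb_pos R
  have h3 := A_pos R
  have h4 := Cp_pos R
  have h5 := C3_nonneg R
  have h6 := Ca_pos b
  have h7 : 0 ≤ 261 * R.θh * b.Ca * R.Cp := by positivity
  unfold Rg.C5 Rg.C4
  linarith

theorem C6_pos (R : Rg b) : 0 < R.C6 := by
  have h1 := R.θl_pos
  have h2 := ρb_pos R
  have h3 := C5_ge R
  unfold Rg.C6; positivity

theorem measurable_pcblk (l : ℝ) (u : Fin 3 → ℝ) : Measurable (fun ω : Cfg => pc (fun i => blk l u (ω.2 i))) := by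
  apply measurable_cfg
  intro N
  have hblk : ∀ k : Fin N, Measurable (fun x : Fin N → Pt => blk l u (x k)) := by
    intro k
    refine measurable_pi_lambda _ fun c => ?_
    have : Measurable (fun y : Pt => ⌊(y c - u c) / l⌋) := by
      refine Int.measurable_floor.comp ?_
      fun_prop
    exact this.comp (measurable_pi_apply k)
  have hset : ∀ i j : Fin N, MeasurableSet {x : Fin N → Pt | blk l u (x i) = blk l u (x j)} :=
    fun i j => measurableSet_eq_fun (hblk i) (hblk j)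
  show Measurable (fun x : Fin N → Pt => pc (fun i => blk l u (x i)))
  unfold pc
  refine Finset.measurable_sum _ fun i _ => Finset.measurable_sum _ fun j _ => ?_
  exact Measurable.ite (hset i j) measurable_const measurable_const

theorem measurable_Qq (B M n : ℕ) : Measurable (Qq B M n) := by
  unfold Qq
  by_cases h : n < M
  · simp only [h, if_true]
    unfold Qn
    exact ((Finset.measurable_sum _ fun U _ => measurable_pcblk _ _).const_mul _).const_mul _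
  · simp only [h, if_false]
    exact (measurable_cardc.pow_const 2).div_const _

theorem measurable_Rnc (B M : ℕ) (S : ℝ) : Measurable (fun ω : Cfg => Rn B M S ω.2) := by
  unfold Rn
  simp only [Fintype.card_fin]
  refine (Finset.measurable_sum _ fun k _ => (measurable_psc (measurable_gk _)).const_mul _).add ?_
  exact ((measurable_cardc.pow_const 2).const_mul _).div_const _

theorem measurableSet_bad (R : Rg b) (B M n : ℕ) (τ : ℝ) : MeasurableSet (bad R B M n τ) := by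
  unfold bad
  refine (measurableSet_le (measurable_psc b.meas) measurable_const).inter ?_
  refine (measurableSet_le measurable_cardc measurable_const).inter ?_
  exact measurableSet_lt measurable_const ((measurable_Qq B M n).sub (measurable_Qq B M (n+1)))

/-- the good set -/
def Gd (R : Rg b) (B M : ℕ) : Set Cfg :=
  {ω | ps b.φ ω.2 ≤ R.CE * (Ln B M : ℝ) ^ 3 ∧ (ω.1 : ℝ) ≤ R.ρb * (Ln B M : ℝ) ^ 3 ∧
    Rn B M (Ln B M) ω.2 ≤ (ω.1 : ℝ) ^ 2 / (2 * (Ln B M : ℝ) ^ 3) + R.C6 / (B:ℝ) ^ 2 * (Ln B M : ℝ) ^ 3}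

theorem measurableSet_Gd (R : Rg b) (B M : ℕ) : MeasurableSet (Gd R B M) := by
  unfold Gd
  refine (measurableSet_le (measurable_psc b.meas) measurable_const).inter ?_
  refine (measurableSet_le measurable_cardc measurable_const).inter ?_
  exact measurableSet_le (measurable_Rnc B M _) (((measurable_cardc.pow_const 2).div_const _).add_const _)

theorem measurable_eW (b : Base) (B : ℕ) (β μ θ : ℝ) (n : ℕ) :
    Measurable (fun ω => ENNReal.ofReal (Real.exp (Wc b B β μ θ n ω))) :=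
  ENNReal.measurable_ofReal.comp (Real.measurable_exp.comp (measurable_Wc b B β μ θ n))

theorem int_bad' (R : Rg b) {β μ θ : ℝ} (h : R.Ok β μ θ) {B : ℕ} (hB : 2 ≤ B) {n M : ℕ} (hn : n < M) :
    ∫⁻ ω, (bad R B M n (R.τ B n)).indicator (fun ω => ENNReal.ofReal (Real.exp (Wc b B β μ θ M ω))) ω ∂(mS (Ln B M)) ≤
      ENNReal.ofReal (Real.exp (-(R.C5 / (Hn B n : ℝ) ^ 4 * (Ln B M : ℝ) ^ 3))) * Xi b B β μ θ M := by
  have hH := Hn_ge2 hB n
  have hH0 : (0:ℝ) < Hn B n := by linarith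
  have hθl := R.θl_pos
  have h5 := C5_ge R
  have h1 := int_bad R h hB hn (τ := R.τ B n) (by unfold Rg.τ; positivity)
  refine h1.trans ?_
  rw [← ofReal_Xr R h hB M, Xr_eq_exp R h hB M, ← ENNReal.ofReal_mul (Real.exp_pos _).le, ← Real.exp_add]
  apply ENNReal.ofReal_le_ofReal
  rw [Real.exp_le_exp]
  have h2 := pf_lower R h hB hn
  have h3 : (R.θl / 2) * tn B (n+1) * R.τ B n = 2 * R.C5 / (Hn B n : ℝ) ^ 4 := by
    rw [tn_succ, Hn_succ]
    unfold Rg.τ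
    push_cast
    field_simp
    norm_num
  rw [h3]
  have h4 : pf b B β μ θ n ≤ pf b B β μ θ M + R.C4 / (Hn B n : ℝ) ^ 4 := by
    unfold Rg.C4; linarith
  have hV : (0:ℝ) ≤ (Ln B M : ℝ) ^ 3 := by positivity
  have h6 : pf b B β μ θ n + (14 * R.A + 261 * R.θh * b.Ca * R.Cp) / (Hn B n : ℝ) ^ 4 - 2 * R.C5 / (Hn B n : ℝ) ^ 4 ≤
      pf b B β μ θ M - R.C5 / (Hn B n : ℝ) ^ 4 := by
    have e : R.C5 / (Hn B n : ℝ) ^ 4 = R.C4 / (Hn B n : ℝ) ^ 4 + (14 * R.A + 261 * R.θh * b.Ca * R.Cp) / (Hn B n : ℝ) ^ 4 := by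
      unfold Rg.C5; ring
    have e2 : 2 * R.C5 / (Hn B n : ℝ) ^ 4 = 2 * (R.C5 / (Hn B n : ℝ) ^ 4) := by ring
    rw [e2]
    linarith
  have h7 := mul_le_mul_of_nonneg_right h6 hV
  linarith

theorem exp_neg_le {x : ℝ} (hx : 0 < x) : Real.exp (-x) ≤ 1 / x := by
  rw [Real.exp_neg, ← one_div]
  have := Real.add_one_le_exp x
  exact one_div_le_one_div_of_le hx (by linarith)

theorem M_le_Hn {B : ℕ} (hB : 2 ≤ B) (M : ℕ) : M ≤ Hn B M := by
  unfold Hn
  exact ((Nat.lt_two_pow_self (n := M)).trans (Nat.lt_pow_self (by omega : 1 < B))).le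

theorem sum_bad {B : ℕ} (hB : 2 ≤ B) (M : ℕ) {c : ℝ} (hc : 5 ≤ c) :
    ∑ n ∈ Finset.range M, Real.exp (-(c / (Hn B n : ℝ) ^ 4 * (Ln B M : ℝ) ^ 3)) ≤ 1 / 5 := by
  have hH := Hn_ge2 hB M
  have hH0 : (0:ℝ) < Hn B M := by linarith
  have h1 : ∀ n ∈ Finset.range M, Real.exp (-(c / (Hn B n : ℝ) ^ 4 * (Ln B M : ℝ) ^ 3)) ≤ 1 / (5 * Hn B M) := by
    intro n hn
    rw [Finset.mem_range] at hn
    have hHn := Hn_ge2 hB n
    have hHn0 : (0:ℝ) < Hn B n := by linarith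
    have h2 : (Hn B n : ℝ) ^ 2 ≤ Hn B M := by
      have : (Hn B (n+1) : ℝ) ≤ Hn B M := by exact_mod_cast Hn_mono hB hn
      rw [Hn_succ] at this
      push_cast at this
      exact this
    have h3 : (Hn B n : ℝ) ^ 4 ≤ (Hn B M : ℝ) ^ 2 := by
      calc (Hn B n : ℝ) ^ 4 = ((Hn B n : ℝ) ^ 2) ^ 2 := by ring
        _ ≤ _ := by gcongr
    have h4 : 5 * (Hn B M : ℝ) ≤ c / (Hn B n : ℝ) ^ 4 * (Ln B M : ℝ) ^ 3 := by
      rw [Ln_cast]
      calc 5 * (Hn B M : ℝ) ≤ 5 * (Hn B M : ℝ) ^ 34 := by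
            have : (Hn B M : ℝ) ^ 1 ≤ (Hn B M : ℝ) ^ 34 := pow_le_pow_right₀ (by linarith) (by norm_num)
            rw [pow_one] at this
            linarith
        _ = 5 / (Hn B M : ℝ) ^ 2 * ((Hn B M : ℝ) ^ 12) ^ 3 := by field_simp
        _ ≤ _ := by gcongr
    have h5 : 0 < c / (Hn B n : ℝ) ^ 4 * (Ln B M : ℝ) ^ 3 := by linarith
    exact (exp_neg_le h5).trans (one_div_le_one_div_of_le (by positivity) h4)
  refine (Finset.sum_le_sum h1).trans ?_
  rw [Finset.sum_const, Finset.card_range, nsmul_eq_mul]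
  have h6 : (M:ℝ) ≤ Hn B M := by exact_mod_cast M_le_Hn hB M
  calc (M:ℝ) * (1 / (5 * Hn B M)) ≤ Hn B M * (1 / (5 * Hn B M)) := by gcongr
    _ = 1 / 5 := by field_simp

theorem sum_inv_sq {B : ℕ} (hB : 2 ≤ B) (M : ℕ) :
    ∑ n ∈ Finset.range M, 1 / (Hn B n : ℝ) ^ 2 ≤ 2 / (B:ℝ) ^ 2 := by
  have hBr : (2:ℝ) ≤ B := by exact_mod_cast hB
  have h1 : ∀ n, 1 / (Hn B n : ℝ) ^ 2 ≤ 1 / (B:ℝ) ^ 2 * (1/2) ^ n := by
    intro n
    have h2 : (B:ℝ) ^ 2 * 2 ^ n ≤ (Hn B n : ℝ) ^ 2 := by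
      have h4 : B ^ (n + 1) ≤ Hn B n := by
        unfold Hn
        exact Nat.pow_le_pow_right (by omega) (Nat.lt_two_pow_self (n := n))
      have h5 : (B:ℝ) ^ (n+1) ≤ Hn B n := by exact_mod_cast h4
      calc (B:ℝ) ^ 2 * 2 ^ n ≤ (B:ℝ) ^ 2 * (B:ℝ) ^ n := by gcongr
        _ ≤ (B:ℝ) ^ 2 * (B:ℝ) ^ (2 * n) := by
            have : (B:ℝ) ^ n ≤ (B:ℝ) ^ (2 * n) := pow_le_pow_right₀ (by linarith) (by omega)
            gcongr
        _ = ((B:ℝ) ^ (n+1)) ^ 2 := by ring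
        _ ≤ _ := by gcongr
    rw [one_div_pow]
    calc 1 / (Hn B n : ℝ) ^ 2 ≤ 1 / ((B:ℝ) ^ 2 * 2 ^ n) := by
          apply one_div_le_one_div_of_le (by positivity)
          linarith
      _ = _ := by field_simp
  refine (Finset.sum_le_sum fun n _ => h1 n).trans ?_
  rw [← Finset.mul_sum]
  have h3 : ∑ n ∈ Finset.range M, ((1:ℝ)/2) ^ n ≤ 2 := by
    rw [geom_sum_eq (by norm_num)]
    have : (0:ℝ) ≤ (1/2) ^ M := by positivity
    rw [div_le_iff_of_neg (by norm_num)]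
    linarith
  calc 1 / (B:ℝ) ^ 2 * ∑ n ∈ Finset.range M, ((1:ℝ)/2) ^ n ≤ 1 / (B:ℝ) ^ 2 * 2 := by gcongr
    _ = _ := by ring

theorem not_good (R : Rg b) {B : ℕ} (hB : 2 ≤ B) {M : ℕ} (hM : 0 < M) (ω : Cfg) (hω : ∀ i, ω.2 i ∈ cube (Ln B M))
    (h : ω ∉ Gd R B M) (hE : ps b.φ ω.2 ≤ R.CE * (Ln B M : ℝ) ^ 3) (hN : (ω.1 : ℝ) ≤ R.ρb * (Ln B M : ℝ) ^ 3) :
    ∃ n ∈ Finset.range M, ω ∈ bad R B M n (R.τ B n) := by
  by_contra hcon
  push Not at hcon
  apply h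
  refine ⟨hE, hN, ?_⟩
  have hLM : (0:ℝ) < Ln B M := by exact_mod_cast Ln_pos hB M
  have hBr : (2:ℝ) ≤ B := by exact_mod_cast hB
  have hθl := R.θl_pos
  have hρ := ρb_pos R
  have h5 := C5_ge R
  set V := (Ln B M : ℝ) ^ 3 with hV
  have hV0 : 0 < V := by positivity
  have hstep : ∀ n ∈ Finset.range M, Qq B M n ω - Qq B M (n+1) ω ≤ R.τ B n * V := by
    intro n hn
    have h1 := hcon n hn
    by_contra h2
    push Not at h2
    exact h1 ⟨hE, hN, h2⟩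
  have hτ0 : ∀ n, 0 ≤ R.τ B n := by
    intro n
    have := Hn_ge2 hB n
    have : (0:ℝ) < Hn B n := by linarith
    unfold Rg.τ; positivity
  have hsum : ∑ n ∈ Finset.range M, R.τ B n ≤ 8 * R.C5 / R.θl / (B:ℝ) ^ 2 := by
    have h1 := sum_inv_sq hB M
    have h2 : ∑ n ∈ Finset.range M, R.τ B n = 4 * R.C5 / R.θl * ∑ n ∈ Finset.range M, 1 / (Hn B n : ℝ) ^ 2 := by
      rw [Finset.mul_sum]
      refine Finset.sum_congr rfl fun n _ => ?_
      unfold Rg.τ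
      have := Hn_ge2 hB n
      have : (0:ℝ) < Hn B n := by linarith
      field_simp
    rw [h2]
    calc _ ≤ 4 * R.C5 / R.θl * (2 / (B:ℝ) ^ 2) := by gcongr
      _ = _ := by ring
  have htel : ∀ m ≤ M, Qq B M m ω ≤ Qq B M M ω + (∑ n ∈ Finset.Ico m M, R.τ B n) * V := by
    intro m hm
    have h1 : ∑ n ∈ Finset.Ico m M, (Qq B M n ω - Qq B M (n+1) ω) = Qq B M m ω - Qq B M M ω := by
      have := Finset.sum_Ico_sub (fun n => Qq B M n ω) hm
      have h2 : ∑ n ∈ Finset.Ico m M, (Qq B M n ω - Qq B M (n+1) ω) = -∑ n ∈ Finset.Ico m M, (Qq B M (n+1) ω - Qq B M n ω) := by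
        rw [← Finset.sum_neg_distrib]
        exact Finset.sum_congr rfl fun n _ => by ring
      rw [h2, this]; ring
    have h2 : ∑ n ∈ Finset.Ico m M, (Qq B M n ω - Qq B M (n+1) ω) ≤ ∑ n ∈ Finset.Ico m M, R.τ B n * V := by
      refine Finset.sum_le_sum fun n hn => hstep n ?_
      rw [Finset.mem_Ico] at hn
      rw [Finset.mem_range]; exact hn.2
    rw [h1, ← Finset.sum_mul] at h2
    linarith
  have hle : ∀ m ≤ M, Qq B M m ω ≤ Qq B M M ω + 8 * R.C5 / R.θl / (B:ℝ) ^ 2 * V := by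
    intro m hm
    refine (htel m hm).trans ?_
    have h1 : ∑ n ∈ Finset.Ico m M, R.τ B n ≤ ∑ n ∈ Finset.range M, R.τ B n := by
      apply Finset.sum_le_sum_of_subset_of_nonneg
      · intro n hn
        rw [Finset.mem_Ico] at hn
        rw [Finset.mem_range]; exact hn.2
      · intro n _ _; exact hτ0 n
    have h2 := mul_le_mul_of_nonneg_right (h1.trans hsum) hV0.le
    linarith
  have hQM : Qq B M M ω = (ω.1 : ℝ) ^ 2 / V := by unfold Qq; rw [if_neg (lt_irrefl _)]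
  have hN2 : (ω.1 : ℝ) ^ 2 / V ≤ R.ρb ^ 2 * V := by
    rw [div_le_iff₀ hV0]
    calc (ω.1 : ℝ) ^ 2 ≤ (R.ρb * V) ^ 2 := by gcongr
      _ = _ := by ring
  have h6 := higher_le hB hM ω hω
  have hR : Rn B M (Ln B M) ω.2 ≤ (1/2) * (1 + 252 / (Hn B 0 : ℝ) ^ 4) * (jn B 0 * Qq B M 0 ω + tn B (0+1) * Qq B M (0+1) ω) := by
    refine le_trans (le_of_eq ?_) h6
    unfold Rn
    rw [Finset.range_eq_Ico, Fintype.card_fin]
  have hjt : jn B 0 + tn B (0+1) = 1 := by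
    have : jn B 0 + tn B (0+1) = tn B 0 := by unfold jn; ring
    rw [this, tn_zero]
  have j0 := jn_nonneg hB 0
  have t0 := (tn_pos hB (0+1)).le
  set X := Qq B M M ω + 8 * R.C5 / R.θl / (B:ℝ) ^ 2 * V with hX
  have h7 : jn B 0 * Qq B M 0 ω + tn B (0+1) * Qq B M (0+1) ω ≤ X := by
    have q1 := mul_le_mul_of_nonneg_left (hle 0 hM.le) j0
    have q2 := mul_le_mul_of_nonneg_left (hle (0+1) hM) t0
    have q3 : jn B 0 * X + tn B (0+1) * X = X := by rw [← add_mul, hjt, one_mul]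
    linarith
  have hH0 : (Hn B 0 : ℝ) = B := by unfold Hn; simp
  rw [hH0] at hR
  have h8 : (252:ℝ) / (B:ℝ) ^ 4 ≤ 16 := by
    rw [div_le_iff₀ (by positivity)]
    have : (16:ℝ) ≤ (B:ℝ) ^ 4 := by
      calc (16:ℝ) = 2 ^ 4 := by norm_num
        _ ≤ _ := by gcongr
    linarith
  have h8' : (252:ℝ) / (B:ℝ) ^ 4 ≤ 252 / (B:ℝ) ^ 2 := by
    have : (B:ℝ) ^ 2 ≤ (B:ℝ) ^ 4 := pow_le_pow_right₀ (by linarith) (by norm_num)
    gcongr
  have hX0 : 0 ≤ X := by
    rw [hX, hQM]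
    positivity
  have h9 : Rn B M (Ln B M) ω.2 ≤ (1/2) * (1 + 252 / (B:ℝ) ^ 4) * X := by
    refine hR.trans ?_
    exact mul_le_mul_of_nonneg_left h7 (by positivity)
  refine h9.trans ?_
  rw [hX, hQM]
  have e1 : (1/2) * (1 + 252 / (B:ℝ) ^ 4) * ((ω.1 : ℝ) ^ 2 / V + 8 * R.C5 / R.θl / (B:ℝ) ^ 2 * V) =
      (ω.1 : ℝ) ^ 2 / (2 * V) + (1/2) * (252 / (B:ℝ) ^ 4) * ((ω.1 : ℝ) ^ 2 / V) +
      (1/2) * (1 + 252 / (B:ℝ) ^ 4) * (8 * R.C5 / R.θl / (B:ℝ) ^ 2 * V) := by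
    field_simp
  rw [e1]
  have q1 : (1/2) * (252 / (B:ℝ) ^ 4) * ((ω.1 : ℝ) ^ 2 / V) ≤ (1/2) * (252 / (B:ℝ) ^ 2) * (R.ρb ^ 2 * V) := by gcongr
  have q2 : (1/2) * (1 + 252 / (B:ℝ) ^ 4) * (8 * R.C5 / R.θl / (B:ℝ) ^ 2 * V) ≤ (1/2) * 17 * (8 * R.C5 / R.θl / (B:ℝ) ^ 2 * V) := by
    have : (1:ℝ) + 252 / (B:ℝ) ^ 4 ≤ 17 := by linarith
    gcongr
  have e2 : R.C6 / (B:ℝ) ^ 2 * V = (1/2) * (252 / (B:ℝ) ^ 2) * (R.ρb ^ 2 * V) + (1/2) * 17 * (8 * R.C5 / R.θl / (B:ℝ) ^ 2 * V) := by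
    unfold Rg.C6
    field_simp
    ring
  rw [e2]
  linarith

/-- **Homogeneity**: the complement of the good set has at most half of the mass. -/
theorem homogeneity (R : Rg b) {β μ θ : ℝ} (h : R.Ok β μ θ) {B : ℕ} (hB : 2 ≤ B) {M : ℕ} (hM : 0 < M) :
    ∫⁻ ω, (Gd R B M)ᶜ.indicator (fun ω => ENNReal.ofReal (Real.exp (Wc b B β μ θ M ω))) ω ∂(mS (Ln B M)) ≤
      ENNReal.ofReal (1/2) * Xi b B β μ θ M := by
  have hLM : (0:ℝ) < Ln B M := by exact_mod_cast Ln_pos hB M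
  have hW := measurable_eW b B β μ θ M
  set V := (Ln B M : ℝ) ^ 3 with hV
  set F := fun ω => ENNReal.ofReal (Real.exp (Wc b B β μ θ M ω)) with hF
  have hS1 : MeasurableSet {ω : Cfg | R.CE * V ≤ ps b.φ ω.2} := measurableSet_le measurable_const (measurable_psc b.meas)
  have hS2 : MeasurableSet {ω : Cfg | R.ρb * V ≤ ω.1} := measurableSet_le measurable_const measurable_cardc
  have hpt : ∀ ω : Cfg, (∀ i, ω.2 i ∈ cube (Ln B M)) → (Gd R B M)ᶜ.indicator F ω ≤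
      {ω : Cfg | R.CE * V ≤ ps b.φ ω.2}.indicator F ω + ({ω : Cfg | R.ρb * V ≤ ω.1}.indicator F ω +
        ∑ n ∈ Finset.range M, (bad R B M n (R.τ B n)).indicator F ω) := by
    intro ω hω
    by_cases hG : ω ∈ Gd R B M
    · rw [indicator_of_notMem (by simpa using hG)]; exact zero_le
    · rw [indicator_of_mem (by simpa using hG)]
      by_cases hE : R.CE * V ≤ ps b.φ ω.2
      · rw [indicator_of_mem (show ω ∈ {ω : Cfg | R.CE * V ≤ ps b.φ ω.2} from hE)]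
        exact le_self_add
      · by_cases hN : R.ρb * V ≤ ω.1
        · rw [indicator_of_mem (show ω ∈ {ω : Cfg | R.ρb * V ≤ ω.1} from hN)]
          exact le_add_left le_self_add
        · push Not at hE hN
          obtain ⟨n, hn, hbad⟩ := not_good R hB hM ω hω hG hE.le hN.le
          refine le_add_left (le_add_left ?_)
          calc F ω = (bad R B M n (R.τ B n)).indicator F ω := (indicator_of_mem hbad F).symm
            _ ≤ _ := Finset.single_le_sum (f := fun n => (bad R B M n (R.τ B n)).indicator F ω) (fun _ _ => zero_le) hn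
  refine (lint_mono_cube _ hpt).trans ?_
  rw [lintegral_add_left (hW.indicator hS1), lintegral_add_left (hW.indicator hS2),
    lintegral_finsetSum _ (fun n _ => hW.indicator (measurableSet_bad R B M n _))]
  have h1 := tail_energy R hLM.le (Wc b B β μ θ M) (fun ω hω => Wc_le R h hB M ω hω)
  have h2 := tail_card R hLM.le (Wc b B β μ θ M) (fun ω hω => Wc_le' R h hB M ω hω)
  have h3 : ∑ n ∈ Finset.range M, ∫⁻ ω, (bad R B M n (R.τ B n)).indicator F ω ∂(mS (Ln B M)) ≤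
      ENNReal.ofReal (1/5) * Xi b B β μ θ M := by
    calc _ ≤ ∑ n ∈ Finset.range M, ENNReal.ofReal (Real.exp (-(R.C5 / (Hn B n : ℝ) ^ 4 * (Ln B M : ℝ) ^ 3))) * Xi b B β μ θ M :=
          Finset.sum_le_sum fun n hn => int_bad' R h hB (Finset.mem_range.mp hn)
      _ = ENNReal.ofReal (∑ n ∈ Finset.range M, Real.exp (-(R.C5 / (Hn B n : ℝ) ^ 4 * (Ln B M : ℝ) ^ 3))) * Xi b B β μ θ M := by
          rw [← Finset.sum_mul, ENNReal.ofReal_sum_of_nonneg (fun _ _ => (Real.exp_pos _).le)]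
      _ ≤ _ := by
          gcongr
          exact sum_bad hB M (C5_ge R)
  have hX1 := one_le_Xi b B β μ θ M
  have hV1 : Real.exp (-V) ≤ 1/10 := by
    have hV10 : (10:ℝ) ≤ V := by
      have : (4:ℝ) ≤ Ln B M := by exact_mod_cast Ln_ge hB M
      calc (10:ℝ) ≤ 4 ^ 3 := by norm_num
        _ ≤ _ := by rw [hV]; gcongr
    refine (exp_neg_le (by linarith)).trans ?_
    exact one_div_le_one_div_of_le (by norm_num) hV10
  have h4 : ENNReal.ofReal (Real.exp (-V)) ≤ ENNReal.ofReal (1/10) * Xi b B β μ θ M := by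
    calc ENNReal.ofReal (Real.exp (-V)) ≤ ENNReal.ofReal (1/10) := ENNReal.ofReal_le_ofReal hV1
      _ = ENNReal.ofReal (1/10) * 1 := (mul_one _).symm
      _ ≤ _ := by gcongr
  calc _ ≤ ENNReal.ofReal (1/10) * Xi b B β μ θ M + (ENNReal.ofReal (1/10) * Xi b B β μ θ M + ENNReal.ofReal (1/5) * Xi b B β μ θ M) :=
        add_le_add (h1.trans h4) (add_le_add (h2.trans h4) h3)
    _ = (ENNReal.ofReal (1/10) + (ENNReal.ofReal (1/10) + ENNReal.ofReal (1/5))) * Xi b B β μ θ M := by ring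
    _ ≤ _ := by
        gcongr
        rw [← ENNReal.ofReal_add (by norm_num) (by norm_num), ← ENNReal.ofReal_add (by norm_num) (by norm_num)]
        apply ENNReal.ofReal_le_ofReal
        norm_num

end Crest.H5.PP
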