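import Crest.Agent.H5.PP.Point

set_option autoImplicit false
set_option maxHeartbeats 400000
open MeasureTheory ENNReal Set Metric

namespace Crest.H5.PP

theorem exp_avg_le {L : ℕ} (hL : 0 < L) (f : (Fin 3 → Fin L) → ℝ) :
    Real.exp ((1 / (L:ℝ) ^ 3) * ∑ U, f U) ≤ ∑ U, (1 / (L:ℝ) ^ 3) * Real.exp (f U) := by
  have hLr : (0:ℝ) < L := by exact_mod_cast hL
  have h1 := convexOn_exp.map_sum_le (t := Finset.univ) (w := fun _ : Fin 3 → Fin L => 1 / (L:ℝ) ^ 3) (p := f)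
    (fun _ _ => by positivity) (by rw [Finset.sum_const, nsmul_eq_mul, card_U]; field_simp) (fun _ _ => mem_univ _)
  simpa only [smul_eq_mul, ← Finset.mul_sum] using h1

theorem int_dec (b : Base) {B : ℕ} (hB : 2 ≤ B) (β μ θ : ℝ) (n : ℕ) (S : ℝ) (U : Fin 3 → Fin (Ln B n)) :
    ∫⁻ ω, ENNReal.ofReal (Real.exp (dec b B β μ θ n S U ω)) ∂(mS S) ≤
      (Xi b B β μ θ n) ^ ((gm (Ln B n) S) ^ 3) := by
  have hLr0 : (0:ℝ) < Ln B n := by exact_mod_cast Ln_pos hB n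
  obtain ⟨f, hf, hfe⟩ := measurable_dec b B β μ θ n S U hB
  rw [Xi_eq]
  calc ∫⁻ ω, ENNReal.ofReal (Real.exp (dec b B β μ θ n S U ω)) ∂(mS S)
      ≤ ∫⁻ ω, ENNReal.ofReal (Real.exp (f ω)) ∂(mS S) := by
        apply lint_mono_cube
        intro ω hω
        rw [hfe ω hω]
    _ ≤ _ := by
        refine UFgrid (l := (Ln B n : ℝ)) hLr0 (adm_ofs U) (measurable_wn b B β θ n) (an B μ θ n)
          (ENNReal.measurable_ofReal.comp (Real.measurable_exp.comp hf)) ?_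
        intro ω hω
        show ENNReal.ofReal (Real.exp (f ω)) ≤ _
        rw [← hfe ω hω]
        exact le_refl _

/-- abstract upper bound from a pointwise comparison with the decoupled exponents -/
theorem int_le_of_pointwise (b : Base) {B : ℕ} (hB : 2 ≤ B) (β μ θ : ℝ) (n : ℕ) (S c0 : ℝ) (T : Set Cfg) (W : Cfg → ℝ)
    (h : ∀ ω : Cfg, (∀ i, ω.2 i ∈ cube S) → ω ∈ T →
      W ω ≤ (1 / (Ln B n : ℝ) ^ 3) * ∑ U : Fin 3 → Fin (Ln B n), dec b B β μ θ n S U ω + c0) :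
    ∫⁻ ω, T.indicator (fun ω => ENNReal.ofReal (Real.exp (W ω))) ω ∂(mS S) ≤
      ENNReal.ofReal (Real.exp c0) * (Xi b B β μ θ n) ^ ((gm (Ln B n) S) ^ 3) := by
  have hL := Ln_pos hB n
  have hLr0 : (0:ℝ) < Ln B n := by exact_mod_cast hL
  choose f hf hfe using fun U => measurable_dec b B β μ θ n S U hB
  calc ∫⁻ ω, T.indicator (fun ω => ENNReal.ofReal (Real.exp (W ω))) ω ∂(mS S)
      ≤ ∫⁻ ω, ENNReal.ofReal (Real.exp c0) * ∑ U : Fin 3 → Fin (Ln B n), ENNReal.ofReal (1 / (Ln B n:ℝ) ^ 3) *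
          ENNReal.ofReal (Real.exp (f U ω)) ∂(mS S) := by
        apply lint_mono_cube
        intro ω hω
        by_cases hT : ω ∈ T
        · rw [indicator_of_mem hT]
          have h1 := h ω hω hT
          have h2 := exp_avg_le hL (fun U => dec b B β μ θ n S U ω)
          have h3 : Real.exp (W ω) ≤ Real.exp c0 * ∑ U, (1 / (Ln B n:ℝ) ^ 3) * Real.exp (f U ω) := by
            calc Real.exp (W ω) ≤ Real.exp ((1 / (Ln B n : ℝ) ^ 3) * ∑ U : Fin 3 → Fin (Ln B n), dec b B β μ θ n S U ω + c0) :=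
                  Real.exp_le_exp.mpr h1
              _ = Real.exp c0 * Real.exp ((1 / (Ln B n : ℝ) ^ 3) * ∑ U : Fin 3 → Fin (Ln B n), dec b B β μ θ n S U ω) := by
                  rw [add_comm, Real.exp_add]
              _ ≤ Real.exp c0 * ∑ U, (1 / (Ln B n:ℝ) ^ 3) * Real.exp (dec b B β μ θ n S U ω) :=
                  mul_le_mul_of_nonneg_left h2 (Real.exp_pos _).le
              _ = _ := by
                  congr 1
                  exact Finset.sum_congr rfl fun U _ => by rw [hfe U ω hω]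
          calc ENNReal.ofReal (Real.exp (W ω)) ≤ ENNReal.ofReal (Real.exp c0 * ∑ U, (1 / (Ln B n:ℝ) ^ 3) * Real.exp (f U ω)) :=
                ENNReal.ofReal_le_ofReal h3
            _ = _ := by
                rw [ENNReal.ofReal_mul (Real.exp_pos _).le, ENNReal.ofReal_sum_of_nonneg (fun U _ => by positivity)]
                congr 1
                refine Finset.sum_congr rfl fun U _ => ?_
                rw [ENNReal.ofReal_mul (by positivity)]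
        · rw [indicator_of_notMem hT]; exact zero_le
    _ = ENNReal.ofReal (Real.exp c0) * ∑ U : Fin 3 → Fin (Ln B n), ENNReal.ofReal (1 / (Ln B n:ℝ) ^ 3) *
          ∫⁻ ω, ENNReal.ofReal (Real.exp (f U ω)) ∂(mS S) := by
        rw [lintegral_const_mul' _ _ ENNReal.ofReal_ne_top, lintegral_finsetSum]
        · congr 1
          refine Finset.sum_congr rfl fun U _ => ?_
          rw [lintegral_const_mul' _ _ ENNReal.ofReal_ne_top]
        · intro U _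
          exact (ENNReal.measurable_ofReal.comp (Real.measurable_exp.comp (hf U))).const_mul _
    _ ≤ ENNReal.ofReal (Real.exp c0) * ∑ _U : Fin 3 → Fin (Ln B n), ENNReal.ofReal (1 / (Ln B n:ℝ) ^ 3) *
          (Xi b B β μ θ n) ^ ((gm (Ln B n) S) ^ 3) := by
        gcongr with U _
        refine le_trans ?_ (int_dec b hB β μ θ n S U)
        apply lint_mono_cube
        intro ω hω
        rw [hfe U ω hω]
    _ = _ := by
        rw [Finset.sum_const, nsmul_eq_mul]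
        congr 1
        have : ((Finset.univ : Finset (Fin 3 → Fin (Ln B n))).card : ℝ≥0∞) * ENNReal.ofReal (1 / (Ln B n:ℝ) ^ 3) = 1 := by
          have h1 : ((Finset.univ : Finset (Fin 3 → Fin (Ln B n))).card : ℝ≥0∞) = ENNReal.ofReal ((Ln B n:ℝ) ^ 3) := by
            rw [← card_U, ENNReal.ofReal_natCast]
          rw [h1, ← ENNReal.ofReal_mul (by positivity)]
          have : (Ln B n:ℝ) ^ 3 * (1 / (Ln B n:ℝ) ^ 3) = 1 := by field_simp
          rw [this, ENNReal.ofReal_one]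
        rw [← mul_assoc, this, one_mul]

/-- free energy density of the level-`n` model -/
noncomputable def pf (b : Base) (B : ℕ) (β μ θ : ℝ) (n : ℕ) : ℝ := Real.log (Xr b B β μ θ n) / (Ln B n : ℝ) ^ 3

theorem pf_nonneg {b : Base} (R : Rg b) {β μ θ : ℝ} (h : R.Ok β μ θ) {B : ℕ} (hB : 2 ≤ B) (n : ℕ) :
    0 ≤ pf b B β μ θ n := by
  unfold pf
  exact div_nonneg (Real.log_nonneg (one_le_Xr R h hB n)) (by positivity)

theorem pf_le {b : Base} (R : Rg b) {β μ θ : ℝ} (h : R.Ok β μ θ) {B : ℕ} (hB : 2 ≤ B) (n : ℕ) :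
    pf b B β μ θ n ≤ R.A := by
  have hLr0 : (0:ℝ) < Ln B n := by exact_mod_cast Ln_pos hB n
  unfold pf
  rw [div_le_iff₀ (by positivity)]
  have h1 := Xr_le R h hB n
  have h2 := one_le_Xr R h hB n
  calc Real.log (Xr b B β μ θ n) ≤ Real.log (Real.exp (R.A * (Ln B n : ℝ) ^ 3)) := Real.log_le_log (by linarith) h1
    _ = _ := Real.log_exp _

theorem Xr_eq_exp {b : Base} (R : Rg b) {β μ θ : ℝ} (h : R.Ok β μ θ) {B : ℕ} (hB : 2 ≤ B) (n : ℕ) :
    Xr b B β μ θ n = Real.exp (pf b B β μ θ n * (Ln B n : ℝ) ^ 3) := by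
  have hLr0 : (0:ℝ) < Ln B n := by exact_mod_cast Ln_pos hB n
  have h2 := one_le_Xr R h hB n
  unfold pf
  rw [div_mul_cancel₀ _ (by positivity), Real.exp_log (by linarith)]

theorem A_pos {b : Base} (R : Rg b) : 0 < R.A := Real.exp_pos _

theorem LnLM {B : ℕ} (hB : 2 ≤ B) {n M : ℕ} (h : n < M) :
    (Ln B n : ℝ) / Ln B M ≤ 1 / (Hn B n : ℝ) ^ 12 := by
  have hH := Hn_ge2 hB n
  have hH0 : (0:ℝ) < Hn B n := by linarith
  have hH2 : (Hn B (n+1) : ℝ) ≤ Hn B M := by exact_mod_cast Hn_mono hB h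
  have e1 : (Hn B (n+1) : ℝ) = (Hn B n : ℝ) ^ 2 := by rw [Hn_succ]; push_cast; ring
  rw [Ln_cast, Ln_cast]
  calc (Hn B n : ℝ) ^ 12 / (Hn B M : ℝ) ^ 12 ≤ (Hn B n : ℝ) ^ 12 / ((Hn B n : ℝ) ^ 2) ^ 12 := by
        rw [← e1]
        have : (0:ℝ) < Hn B (n+1) := by exact_mod_cast Hn_pos hB (n+1)
        gcongr
    _ = 1 / (Hn B n : ℝ) ^ 12 := by field_simp

theorem inv12_le {B : ℕ} (hB : 2 ≤ B) (n : ℕ) : 1 / (Hn B n : ℝ) ^ 12 ≤ 1 / (Hn B n : ℝ) ^ 4 := by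
  have hH := Hn_ge2 hB n
  have hH0 : (0:ℝ) < Hn B n := by linarith
  have : (Hn B n : ℝ) ^ 4 ≤ (Hn B n : ℝ) ^ 12 := pow_le_pow_right₀ (by linarith) (by norm_num)
  gcongr

/-- power bound -/
theorem Xi_pow_le {b : Base} (R : Rg b) {β μ θ : ℝ} (h : R.Ok β μ θ) {B : ℕ} (hB : 2 ≤ B) {n M : ℕ} (hn : n < M) :
    (Xi b B β μ θ n) ^ ((gm (Ln B n) (Ln B M)) ^ 3) ≤
      ENNReal.ofReal (Real.exp ((pf b B β μ θ n + 14 * R.A / (Hn B n : ℝ) ^ 4) * (Ln B M : ℝ) ^ 3)) := by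
  have hLr0 : (0:ℝ) < Ln B n := by exact_mod_cast Ln_pos hB n
  have hLM : (0:ℝ) < Ln B M := by exact_mod_cast Ln_pos hB M
  have hH := Hn_ge2 hB n
  have hH0 : (0:ℝ) < Hn B n := by linarith
  rw [← ofReal_Xr R h hB n, ← ENNReal.ofReal_pow (by linarith [one_le_Xr R h hB n]), Xr_eq_exp R h hB n, ← Real.exp_nat_mul]
  apply ENNReal.ofReal_le_ofReal
  rw [Real.exp_le_exp]
  have hp0 := pf_nonneg R h hB n
  have hpA := pf_le R h hB n
  set p := pf b B β μ θ n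
  have h1 : (gm (Ln B n) (Ln B M) : ℝ) * Ln B n ≤ Ln B M + 2 * Ln B n := gm_le hLr0 hLM.le
  have h2 : ((gm (Ln B n) (Ln B M) : ℝ) * Ln B n) ^ 3 ≤ (Ln B M : ℝ) ^ 3 * (1 + 14 / (Hn B n : ℝ) ^ 4) := by
    have h3 : (Ln B M + 2 * Ln B n : ℝ) = Ln B M * (1 + 2 * ((Ln B n : ℝ) / Ln B M)) := by field_simp
    have h4 := LnLM hB hn
    have h5 := inv12_le hB n
    have h6 : 2 * ((Ln B n : ℝ) / Ln B M) ≤ 2 / (Hn B n : ℝ) ^ 4 := by
      have : 2 / (Hn B n : ℝ) ^ 4 = 2 * (1 / (Hn B n : ℝ) ^ 4) := by ring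
      rw [this]; linarith
    have h7 : 2 / (Hn B n : ℝ) ^ 4 ≤ 1 := by
      rw [div_le_one (by positivity)]
      calc (2:ℝ) ≤ 2 ^ 4 := by norm_num
        _ ≤ _ := by gcongr
    have h8 := pow3_le (y := 2 * ((Ln B n : ℝ) / Ln B M)) (by positivity) (h6.trans h7)
    calc ((gm (Ln B n) (Ln B M) : ℝ) * Ln B n) ^ 3 ≤ (Ln B M + 2 * Ln B n : ℝ) ^ 3 := by gcongr
      _ = (Ln B M : ℝ) ^ 3 * (1 + 2 * ((Ln B n : ℝ) / Ln B M)) ^ 3 := by rw [h3]; ring
      _ ≤ (Ln B M : ℝ) ^ 3 * (1 + 14 / (Hn B n : ℝ) ^ 4) := by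
          have h9 : 7 * (2 / (Hn B n : ℝ) ^ 4) = 14 / (Hn B n : ℝ) ^ 4 := by ring
          gcongr
          linarith
  push_cast
  have hH4 : (0:ℝ) < (Hn B n : ℝ) ^ 4 := by positivity
  calc (gm (Ln B n) (Ln B M) : ℝ) ^ 3 * (p * (Ln B n : ℝ) ^ 3) = p * ((gm (Ln B n) (Ln B M) : ℝ) * Ln B n) ^ 3 := by ring
    _ ≤ p * ((Ln B M : ℝ) ^ 3 * (1 + 14 / (Hn B n : ℝ) ^ 4)) := by gcongr
    _ = p * (Ln B M : ℝ) ^ 3 + p * (14 / (Hn B n : ℝ) ^ 4) * (Ln B M : ℝ) ^ 3 := by ring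
    _ ≤ p * (Ln B M : ℝ) ^ 3 + R.A * (14 / (Hn B n : ℝ) ^ 4) * (Ln B M : ℝ) ^ 3 := by gcongr
    _ = _ := by ring

/-- the level-`n` bad set -/
def bad {b : Base} (R : Rg b) (B M n : ℕ) (τ : ℝ) : Set Cfg :=
  {ω | ps b.φ ω.2 ≤ R.CE * (Ln B M : ℝ) ^ 3 ∧ (ω.1 : ℝ) ≤ R.ρb * (Ln B M : ℝ) ^ 3 ∧
    τ * (Ln B M : ℝ) ^ 3 < Qq B M n ω - Qq B M (n+1) ω}

theorem int_bad {b : Base} (R : Rg b) {β μ θ : ℝ} (h : R.Ok β μ θ) {B : ℕ} (hB : 2 ≤ B) {n M : ℕ} (hn : n < M) {τ : ℝ} (hτ : 0 ≤ τ) :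
    ∫⁻ ω, (bad R B M n τ).indicator (fun ω => ENNReal.ofReal (Real.exp (Wc b B β μ θ M ω))) ω ∂(mS (Ln B M)) ≤
      ENNReal.ofReal (Real.exp ((pf b B β μ θ n + (14 * R.A + 261 * R.θh * b.Ca * R.Cp) / (Hn B n : ℝ) ^ 4 -
        (R.θl / 2) * tn B (n+1) * τ) * (Ln B M : ℝ) ^ 3)) := by
  have h' := h
  obtain ⟨hβ, hμ, hθl, hθh⟩ := h'
  set V := (Ln B M : ℝ) ^ 3 with hV
  have hV0 : 0 ≤ V := by positivity
  have h1 := int_le_of_pointwise b hB β μ θ n (Ln B M)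
    (((261 * R.θh * b.Ca * R.Cp) / (Hn B n : ℝ) ^ 4 - (R.θl / 2) * tn B (n+1) * τ) * V) (bad R B M n τ) (Wc b B β μ θ M) ?_
  · refine h1.trans ?_
    refine (mul_le_mul_right (Xi_pow_le R h hB hn) _).trans ?_
    rw [← ENNReal.ofReal_mul (Real.exp_pos _).le, ← Real.exp_add]
    apply ENNReal.ofReal_le_ofReal
    rw [Real.exp_le_exp]
    apply le_of_eq
    ring
  · intro ω hω hT
    obtain ⟨hE, hN, hQ⟩ := hT
    have h2 := pointwise R h hB hn ω hω hE hN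
    have ht := tn_pos hB (n+1)
    have h3 : (R.θl / 2) * tn B (n+1) * (τ * V) ≤ (θ/2) * tn B (n+1) * (Qq B M n ω - Qq B M (n+1) ω) := by
      have hτV : 0 ≤ τ * V := by positivity
      calc (R.θl / 2) * tn B (n+1) * (τ * V) ≤ (θ / 2) * tn B (n+1) * (τ * V) := by gcongr
        _ ≤ _ := by
          have : 0 ≤ (θ/2) * tn B (n+1) := by
            have := R.θl_pos
            have : 0 < θ := by linarith
            positivity
          exact mul_le_mul_of_nonneg_left hQ.le this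
    rw [← hV] at h2
    linarith

end Crest.H5.PP
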