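import Crest.Agent.H5.PP.Basic

set_option autoImplicit false
open MeasureTheory ENNReal Set Metric

namespace Crest.H5.PP

theorem finrank_Pt : Module.finrank ℝ Pt = 3 := by simp [Pt, Crest.ProbabilityR.Continuum.Pt]

theorem vol_pi (s : Fin 3 → Set ℝ) (hs : ∀ k, MeasurableSet (s k)) :
    volume {x : Pt | ∀ k, x k ∈ s k} = ∏ k, volume (s k) := by
  have h1 : {x : Pt | ∀ k, x k ∈ s k} = (WithLp.ofLp) ⁻¹' (Set.pi univ s) := by
    ext x
    simp
  rw [h1, (PiLp.volume_preserving_ofLp (Fin 3)).measure_preimage (MeasurableSet.univ_pi hs).nullMeasurableSet,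
    volume_pi_pi]

/-- half-open box -/
def box (v : Fin 3 → ℝ) (L : ℝ) : Set Pt := {x | ∀ k, v k ≤ x k ∧ x k < v k + L}

theorem measurableSet_box (v : Fin 3 → ℝ) (L : ℝ) : MeasurableSet (box v L) := by
  have : box v L = ⋂ k : Fin 3, {x : Pt | v k ≤ x k ∧ x k < v k + L} := by
    ext x
    simp [box]
  rw [this]
  refine MeasurableSet.iInter fun k => ?_
  have hk : Measurable fun x : Pt => x k := by fun_prop
  exact (measurableSet_le measurable_const hk).inter (measurableSet_lt hk measurable_const)

theorem vol_box (v : Fin 3 → ℝ) (L : ℝ) : volume (box v L) = ENNReal.ofReal L ^ 3 := by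
  have := vol_pi (fun k => Ico (v k) (v k + L)) (fun k => measurableSet_Ico)
  simp only [Real.volume_Ico, mem_Ico] at this
  rw [box, this]
  simp [Finset.prod_const]

theorem vol_cube (L : ℝ) : volume (cube L) = ENNReal.ofReal L ^ 3 := by
  have := vol_pi (fun _ => Icc 0 L) (fun k => measurableSet_Icc)
  simp only [Real.volume_Icc, mem_Icc] at this
  rw [cube, Crest.ProbabilityR.Continuum.cube, this]
  simp [Finset.prod_const]

theorem dist_le_of_coord {x y : Pt} {L : ℝ} (hL : 0 ≤ L) (h : ∀ k, |x k - y k| ≤ L) : dist x y ≤ 2 * L := by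
  rw [EuclideanSpace.dist_eq]
  have h1 : ∑ k : Fin 3, dist (x k) (y k) ^ 2 ≤ ∑ _k : Fin 3, L ^ 2 := by
    refine Finset.sum_le_sum fun k _ => ?_
    rw [Real.dist_eq]
    exact pow_le_pow_left₀ (abs_nonneg _) (h k) 2
  rw [Real.sqrt_le_left (by positivity)]
  simp only [Finset.sum_const, Finset.card_univ, Fintype.card_fin, nsmul_eq_mul] at h1
  have : 0 ≤ L ^ 2 := sq_nonneg L
  calc _ ≤ (3:ℕ) * L ^ 2 := h1
    _ ≤ (2 * L) ^ 2 := by push_cast; nlinarith

theorem coord_le_dist (x y : Pt) (k : Fin 3) : |x k - y k| ≤ dist x y := by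
  have := PiLp.norm_apply_le (x - y) k
  rw [dist_eq_norm]
  simpa using this

/-- volume of the unit ball -/
noncomputable def v1 : ℝ := (volume (ball (0 : Pt) 1)).toReal

theorem v1_pos : 0 < v1 := by
  unfold v1
  exact ENNReal.toReal_pos (measure_ball_pos _ _ one_pos).ne' measure_ball_lt_top.ne

theorem vol_ball (x : Pt) {r : ℝ} (hr : 0 ≤ r) : volume (ball x r) = ENNReal.ofReal (r ^ 3 * v1) := by
  have : Nontrivial Pt := by
    apply Module.nontrivial_of_finrank_pos (R := ℝ)
    rw [finrank_Pt]; norm_num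
  rw [Measure.addHaar_ball volume x hr, finrank_Pt, ENNReal.ofReal_mul (by positivity), v1,
    ENNReal.ofReal_toReal measure_ball_lt_top.ne]

/-- a fixed unit vector -/
noncomputable def e0 : Pt := EuclideanSpace.single 0 1

theorem norm_e0 : ‖e0‖ = 1 := by simp [e0]

theorem vol_inter_balls (x y : Pt) (r : ℝ) :
    volume (ball x r ∩ ball y r) = volume (ball (0 : Pt) r ∩ ball (dist x y • e0) r) := by
  have h1 : volume (ball x r ∩ ball y r) = volume (ball (0 : Pt) r ∩ ball (y - x) r) := by
    have : ball (0 : Pt) r ∩ ball (y - x) r = (fun z => x + z) ⁻¹' (ball x r ∩ ball y r) := by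
      ext z
      simp only [mem_inter_iff, mem_ball, mem_preimage, dist_eq_norm]
      constructor
      · rintro ⟨h1, h2⟩
        refine ⟨?_, ?_⟩
        · simpa using h1
        · rw [show x + z - y = z - (y - x) by abel]; exact h2
      · rintro ⟨h1, h2⟩
        refine ⟨?_, ?_⟩
        · simpa using h1
        · rw [show x + z - y = z - (y - x) by abel] at h2; exact h2
    rw [this, measure_preimage_add]
  rw [h1]
  have hnorm : ‖y - x‖ = ‖dist x y • e0‖ := by
    rw [norm_smul, norm_e0, mul_one, Real.norm_eq_abs, abs_of_nonneg dist_nonneg, dist_comm, dist_eq_norm]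
  set R := (Submodule.span ℝ {(y - x) - dist x y • e0})ᗮ.reflection with hR
  have hRv : R (y - x) = dist x y • e0 := Submodule.reflection_sub hnorm
  have hmp : MeasurePreserving R := R.measurePreserving
  have hpre : R ⁻¹' (ball (0 : Pt) r ∩ ball (dist x y • e0) r) = ball (0 : Pt) r ∩ ball (y - x) r := by
    ext z
    simp only [mem_preimage, mem_inter_iff, mem_ball]
    rw [← hRv, R.dist_map]
    have : dist (R z) 0 = dist z 0 := by
      conv_lhs => rw [← R.map_zero]
      exact R.dist_map z 0
    rw [this]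
  rw [← hpre, hmp.measure_preimage (measurableSet_ball.inter measurableSet_ball).nullMeasurableSet]

/-- the kernel: normalised ball autocorrelation at radius `r`, as a function of the distance. -/
noncomputable def gk (r s : ℝ) : ℝ :=
  (volume (ball (0 : Pt) r ∩ ball (s • e0) r)).toReal / (r ^ 3 * v1) ^ 2

theorem gk_nonneg (r s : ℝ) : 0 ≤ gk r s := by
  unfold gk; positivity

theorem gk_dist (r : ℝ) (x y : Pt) :
    gk r (dist x y) = (volume (ball x r ∩ ball y r)).toReal / (r ^ 3 * v1) ^ 2 := by
  rw [gk, vol_inter_balls x y]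

theorem gk_le {r : ℝ} (hr : 0 < r) (s : ℝ) : gk r s ≤ 1 / (r ^ 3 * v1) := by
  have hv := v1_pos
  unfold gk
  rw [div_le_div_iff₀ (by positivity) (by positivity)]
  have h1 : (volume (ball (0 : Pt) r ∩ ball (s • e0) r)).toReal ≤ r ^ 3 * v1 := by
    have h2 : (volume (ball (0 : Pt) r)).toReal = r ^ 3 * v1 := by
      rw [vol_ball _ hr.le, ENNReal.toReal_ofReal (by positivity)]
    rw [← h2]
    exact ENNReal.toReal_mono measure_ball_lt_top.ne (measure_mono inter_subset_left)
  have : 0 ≤ r ^ 3 * v1 := by positivity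
  nlinarith

theorem gk_zero {r : ℝ} (hr : 0 < r) : gk r 0 = 1 / (r ^ 3 * v1) := by
  have hv := v1_pos
  unfold gk
  rw [zero_smul, inter_self, vol_ball _ hr.le, ENNReal.toReal_ofReal (by positivity)]
  have : r ^ 3 * v1 ≠ 0 := by positivity
  field_simp

theorem gk_eq_zero {r s : ℝ} (hs : 2 * r ≤ |s|) : gk r s = 0 := by
  unfold gk
  have : ball (0 : Pt) r ∩ ball (s • e0) r = ∅ := by
    rw [← disjoint_iff_inter_eq_empty]
    apply ball_disjoint_ball
    rw [dist_comm, dist_zero_right, norm_smul, norm_e0, mul_one, Real.norm_eq_abs]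
    linarith
  rw [this]
  simp

theorem gk_pos_lower {r s : ℝ} (hr : 4 ≤ r) (hs0 : 0 ≤ s) (hs : s ≤ 3) :
    v1 / (r ^ 3 * v1) ^ 2 ≤ gk r s := by
  have hv := v1_pos
  unfold gk
  gcongr
  unfold v1
  refine ENNReal.toReal_mono ?_ (measure_mono ?_)
  · exact ((measure_mono inter_subset_left).trans_lt measure_ball_lt_top).ne
  · intro u hu
    rw [mem_ball, dist_zero_right] at hu
    refine ⟨?_, ?_⟩
    · rw [mem_ball, dist_zero_right]; linarith
    · rw [mem_ball, dist_eq_norm]
      calc ‖u - s • e0‖ ≤ ‖u‖ + ‖s • e0‖ := norm_sub_le _ _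
        _ = ‖u‖ + s := by rw [norm_smul, norm_e0, mul_one, Real.norm_eq_abs, abs_of_nonneg hs0]
        _ < r := by linarith

theorem continuous_gk (r : ℝ) : Continuous (gk r) := by
  have hnt : Nontrivial Pt := by
    apply Module.nontrivial_of_finrank_pos (R := ℝ)
    rw [finrank_Pt]; norm_num
  have h1 : ∀ s : ℝ, (volume (ball (0 : Pt) r ∩ ball (s • e0) r)).toReal =
      ∫ u, (ball (0 : Pt) r ∩ ball (s • e0) r).indicator (fun _ => (1:ℝ)) u := by
    intro s
    rw [integral_indicator (measurableSet_ball.inter measurableSet_ball)]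
    simp [Measure.real]
  unfold gk
  simp only [h1]
  refine Continuous.div_const ?_ _
  rw [continuous_iff_continuousAt]
  intro s
  refine tendsto_integral_filter_of_dominated_convergence ((ball (0 : Pt) r).indicator (fun _ => (1:ℝ))) ?_ ?_ ?_ ?_
  · refine Filter.Eventually.of_forall fun t => ?_
    exact (measurable_const.indicator (measurableSet_ball.inter measurableSet_ball)).aestronglyMeasurable
  · refine Filter.Eventually.of_forall fun t => Filter.Eventually.of_forall fun u => ?_
    by_cases hu : u ∈ ball (0 : Pt) r ∩ ball (t • e0) r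
    · rw [indicator_of_mem hu, indicator_of_mem hu.1]; simp
    · rw [indicator_of_notMem hu]
      simp only [norm_zero]
      exact indicator_nonneg (fun _ _ => zero_le_one) _
  · rw [integrable_indicator_iff measurableSet_ball]
    exact integrableOn_const measure_ball_lt_top.ne
  · have hsph : ∀ᵐ u : Pt, u ∉ sphere (s • e0) r := by
      rw [ae_iff]
      simp only [not_not]
      exact Measure.addHaar_sphere volume (s • e0) r
    filter_upwards [hsph] with u hu
    have hcont : Continuous fun t : ℝ => dist u (t • e0) := by fun_prop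
    rcases lt_trichotomy (dist u (s • e0)) r with h | h | h
    · have hev : ∀ᶠ t in nhds s, dist u (t • e0) < r := hcont.continuousAt.eventually_lt continuousAt_const h
      refine Filter.Tendsto.congr' ?_ tendsto_const_nhds
      filter_upwards [hev] with t ht
      by_cases hu0 : u ∈ ball (0:Pt) r
      · rw [indicator_of_mem (show u ∈ ball (0:Pt) r ∩ ball (s • e0) r from ⟨hu0, mem_ball.mpr h⟩),
          indicator_of_mem (show u ∈ ball (0:Pt) r ∩ ball (t • e0) r from ⟨hu0, mem_ball.mpr ht⟩)]
      · rw [indicator_of_notMem (show u ∉ ball (0:Pt) r ∩ ball (s • e0) r from fun h' => hu0 h'.1),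
          indicator_of_notMem (show u ∉ ball (0:Pt) r ∩ ball (t • e0) r from fun h' => hu0 h'.1)]
    · exact absurd (mem_sphere.mpr h) hu
    · have hev : ∀ᶠ t in nhds s, r < dist u (t • e0) := continuousAt_const.eventually_lt hcont.continuousAt h
      refine Filter.Tendsto.congr' ?_ tendsto_const_nhds
      filter_upwards [hev] with t ht
      rw [indicator_of_notMem (show u ∉ ball (0:Pt) r ∩ ball (s • e0) r from fun h' => by linarith [mem_ball.mp h'.2]),
        indicator_of_notMem (show u ∉ ball (0:Pt) r ∩ ball (t • e0) r from fun h' => by linarith [mem_ball.mp h'.2])]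

end Crest.H5.PP
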