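import Crest.Agent.H5.PP.Model

set_option autoImplicit false
set_option maxHeartbeats 400000
open MeasureTheory ENNReal Set Metric

namespace Crest.H5.PP

theorem sum_fib_pc {ι B C : Type*} [Fintype ι] [Fintype B] [DecidableEq B] [DecidableEq C] (σ : ι → B) (f : ι → C) :
    ∑ b, pc (fun i : {i // σ i = b} => f i.1) ≤ pc f := by
  have h1 : ∀ b, pc (fun i : {i // σ i = b} => f i.1) =
      ∑ i, ∑ j, (if σ i = b then (if σ j = b then (if f i = f j then (1:ℝ) else 0) else 0) else 0) := by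
    intro b
    unfold pc
    have e2 : ∀ i : {i // σ i = b}, ∑ j : {i // σ i = b}, (if f i.1 = f j.1 then (1:ℝ) else 0) =
        ∑ j, (if σ j = b then (if f i.1 = f j then (1:ℝ) else 0) else 0) := by
      intro i
      exact sum_subtype_fib σ b (fun j => if f i.1 = f j then (1:ℝ) else 0)
    rw [Finset.sum_congr rfl (fun i _ => e2 i), sum_subtype_fib σ b (fun i => ∑ j, (if σ j = b then (if f i = f j then (1:ℝ) else 0) else 0))]
    refine Finset.sum_congr rfl fun i _ => ?_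
    by_cases hi : σ i = b
    · simp only [hi, if_true]
    · simp [hi]
  simp only [h1]
  have hcomm : ∑ b, ∑ i, ∑ j, (if σ i = b then (if σ j = b then (if f i = f j then (1:ℝ) else 0) else 0) else 0) =
      ∑ i, ∑ j, ∑ b, (if σ i = b then (if σ j = b then (if f i = f j then (1:ℝ) else 0) else 0) else 0) := by
    rw [Finset.sum_comm]
    refine Finset.sum_congr rfl fun i _ => ?_
    rw [Finset.sum_comm]
  rw [hcomm]
  unfold pc
  refine Finset.sum_le_sum fun i _ => Finset.sum_le_sum fun j _ => ?_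
  rw [Finset.sum_eq_single (σ i)]
  · simp only [if_true]
    split_ifs <;> norm_num
  · intro b _ hb
    rw [if_neg (Ne.symm hb)]
  · intro h; exact absurd (Finset.mem_univ _) h

/-- the offset aligning cells to a box corner -/
noncomputable def offU (a : ℝ) (v : Fin 3 → ℝ) : Fin 3 → ℝ := fun k => a * ⌈v k / a⌉ - v k

theorem adm_offU {a : ℝ} (ha : 0 < a) (v : Fin 3 → ℝ) : Adm a (offU a v) := by
  intro k
  have h2 : v k / a ≤ ⌈v k / a⌉ := Int.le_ceil _
  have h3 : (⌈v k / a⌉ : ℝ) < v k / a + 1 := Int.ceil_lt_add_one _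
  have h4 : a * (v k / a) = v k := by field_simp
  constructor
  · have := mul_le_mul_of_nonneg_left h2 ha.le
    rw [h4] at this
    unfold offU; linarith
  · have := mul_lt_mul_of_pos_left h3 ha
    rw [mul_add, h4] at this
    unfold offU; linarith

theorem blk_offU {a : ℝ} (ha : 0 < a) (v : Fin 3 → ℝ) (x : Pt) (k : Fin 3) :
    blk a (offU a v) (x - WithLp.toLp 2 v) k = cl a x k - ⌈v k / a⌉ := by
  unfold cl blk offU
  rw [← Int.floor_sub_intCast]
  congr 1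
  simp only [PiLp.sub_apply]
  field_simp
  ring

theorem card_sq_le_cl {κ : Type*} [Fintype κ] {a l : ℝ} (ha : 0 < a) (hl : 0 < l) (v : Fin 3 → ℝ)
    (y : κ → Pt) (hy : ∀ i, y i ∈ box v l) :
    (Fintype.card κ : ℝ) ^ 2 ≤ ((l + 2 * a) / a) ^ 3 * pc (fun i => cl a (y i)) := by
  have hin : ∀ i, y i - WithLp.toLp 2 v ∈ cube l := by
    intro i k
    have h3 := hy i k
    show 0 ≤ (y i - WithLp.toLp 2 v) k ∧ (y i - WithLp.toLp 2 v) k ≤ l
    rw [PiLp.sub_apply]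
    constructor
    · linarith [h3.1]
    · linarith [h3.2]
  have h5 := card_sq_le_grid hl.le ha (adm_offU ha v) (fun i => y i - WithLp.toLp 2 v) hin
  have h6 : pc (fun i => blk a (offU a v) (y i - WithLp.toLp 2 v)) = pc (fun i => cl a (y i)) := by
    apply pc_congr
    intro i j
    constructor
    · intro h
      funext k
      have := congrFun h k
      rw [blk_offU ha, blk_offU ha] at this
      omega
    · intro h
      funext k
      rw [blk_offU ha, blk_offU ha, h]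
  rw [h6] at h5
  exact h5

theorem fib_cell {ι : Type*} [Fintype ι] {S : ℝ} {a l : ℝ} (ha : 0 < a) (hl : 0 < l) {u : Fin 3 → ℝ} (hu : Adm l u)
    (x : ι → Pt) (hx : ∀ i, x i ∈ cube S) (b : Fin 3 → Fin (gm l S)) :
    (fib (fun i => sB l u (gm l S) (x i)) b : ℝ) ^ 2 ≤ ((l + 2 * a) / a) ^ 3 *
      pc (fun i : {i // (fun i => sB l u (gm l S) (x i)) i = b} => cl a (x i.1)) := by
  have h6 : (Fintype.card {i // (fun i => sB l u (gm l S) (x i)) i = b} : ℝ) = (fib (fun i => sB l u (gm l S) (x i)) b : ℝ) := by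
    unfold fib
    rw [Fintype.card_subtype]
  rw [← h6]
  refine card_sq_le_cl ha hl (fun k => u k + l * (((b k : ℕ) : ℝ) - 1)) (fun i : {i // (fun i => sB l u (gm l S) (x i)) i = b} => x i.1) ?_
  intro i
  have h2 := mem_DB hl hu (hx i.1)
  have h7 : sB l u (gm l S) (x i.1) = b := i.2
  rw [h7] at h2
  exact h2

/-- block occupation controlled by cell occupation -/
theorem pc_blk_le {ι : Type*} [Fintype ι] {S : ℝ} {a l : ℝ} (ha : 0 < a) (hl : 0 < l) {u : Fin 3 → ℝ} (hu : Adm l u)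
    (x : ι → Pt) (hx : ∀ i, x i ∈ cube S) :
    pc (fun i => blk l u (x i)) ≤ ((l + 2 * a) / a) ^ 3 * pc (fun i => cl a (x i)) := by
  rw [← pc_sB hl hu x hx, pc_eq]
  have h3 := Finset.sum_le_sum fun b (_ : b ∈ (Finset.univ : Finset (Fin 3 → Fin (gm l S)))) => fib_cell ha hl hu x hx b
  rw [← Finset.mul_sum] at h3
  have h4 := sum_fib_pc (fun i => sB l u (gm l S) (x i)) (fun i => cl a (x i))
  have h5 : (0:ℝ) ≤ ((l + 2 * a) / a) ^ 3 := by positivity
  exact h3.trans (mul_le_mul_of_nonneg_left h4 h5)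

/-- average block occupation functional at level n -/
noncomputable def Qn {ι : Type*} [Fintype ι] (B n : ℕ) (x : ι → Pt) : ℝ :=
  (1 / (Ln B n : ℝ) ^ 3) * ((1 / (Ln B n : ℝ) ^ 3) * ∑ U : Fin 3 → Fin (Ln B n), pc (fun i => blk (Ln B n) (ofs U) (x i)))

theorem card_U (L : ℕ) : ((Finset.univ : Finset (Fin 3 → Fin L)).card : ℝ) = (L:ℝ) ^ 3 := by simp

theorem avg_le {L : ℕ} (hL : 0 < L) (f : (Fin 3 → Fin L) → ℝ) (c : ℝ) (h : ∀ U, f U ≤ c) :
    (1 / (L : ℝ) ^ 3) * ∑ U, f U ≤ c := by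
  have hLr : (0:ℝ) < L := by exact_mod_cast hL
  have h1 : ∑ U, f U ≤ ∑ _U : Fin 3 → Fin L, c := Finset.sum_le_sum fun U _ => h U
  rw [Finset.sum_const, nsmul_eq_mul, card_U] at h1
  rw [one_div, inv_mul_le_iff₀ (by positivity)]
  exact h1

theorem le_avg {L : ℕ} (hL : 0 < L) (f : (Fin 3 → Fin L) → ℝ) (c : ℝ) (h : ∀ U, c ≤ f U) :
    c ≤ (1 / (L : ℝ) ^ 3) * ∑ U, f U := by
  have hLr : (0:ℝ) < L := by exact_mod_cast hL
  have h1 : ∑ _U : Fin 3 → Fin L, c ≤ ∑ U, f U := Finset.sum_le_sum fun U _ => h U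
  rw [Finset.sum_const, nsmul_eq_mul, card_U] at h1
  rw [one_div, le_inv_mul_iff₀ (by positivity)]
  exact h1

theorem Qn_nonneg {ι : Type*} [Fintype ι] (B n : ℕ) (x : ι → Pt) : 0 ≤ Qn B n x := by
  unfold Qn
  refine mul_nonneg (by positivity) (mul_nonneg (by positivity) (Finset.sum_nonneg fun U _ => pc_nonneg _))

theorem Qn_le {ι : Type*} [Fintype ι] (b : Base) {B : ℕ} (hB : 2 ≤ B) (n : ℕ) {S : ℝ} (x : ι → Pt) (hx : ∀ i, x i ∈ cube S) :
    Qn B n x ≤ b.Ca * pc (fun i => cl b.a (x i)) := by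
  have hL := Ln_pos hB n
  have hLr : (1:ℝ) ≤ Ln B n := by exact_mod_cast hL
  have hLr0 : (0:ℝ) < Ln B n := by linarith
  have ha := b.a_pos
  have ha1 := b.a_le
  unfold Qn
  have h1 : (1 / (Ln B n : ℝ) ^ 3) * ∑ U : Fin 3 → Fin (Ln B n), pc (fun i => blk (Ln B n) (ofs U) (x i)) ≤
      ((Ln B n + 2 * b.a) / b.a) ^ 3 * pc (fun i => cl b.a (x i)) := by
    apply avg_le hL
    intro U
    exact pc_blk_le ha hLr0 (adm_ofs U) x hx
  calc _ ≤ (1 / (Ln B n : ℝ) ^ 3) * (((Ln B n + 2 * b.a) / b.a) ^ 3 * pc (fun i => cl b.a (x i))) :=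
        mul_le_mul_of_nonneg_left h1 (by positivity)
    _ ≤ (1 / (Ln B n : ℝ) ^ 3) * (((3 * Ln B n) / b.a) ^ 3 * pc (fun i => cl b.a (x i))) := by
        have := pc_nonneg (fun i => cl b.a (x i))
        gcongr
        linarith
    _ = (27 / b.a ^ 3) * pc (fun i => cl b.a (x i)) := by field_simp; ring
    _ ≤ _ := by
        have := pc_nonneg (fun i => cl b.a (x i))
        unfold Base.Ca
        gcongr
        norm_num

theorem ps_gk_le_Qn {ι : Type*} [Fintype ι] {B : ℕ} (hB : 2 ≤ B) (n : ℕ) {S : ℝ} {r : ℝ} (hr : 0 < r) (x : ι → Pt) (hx : ∀ i, x i ∈ cube S) :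
    ps (gk r) x ≤ (1/2) * (1 + 4 * Ln B n / r) ^ 6 * Qn B n x := by
  have hL := Ln_pos hB n
  have hLr0 : (0:ℝ) < Ln B n := by exact_mod_cast hL
  have h1 : ps (gk r) x ≤ (1 / (Ln B n : ℝ) ^ 3) * ∑ U : Fin 3 → Fin (Ln B n),
      (1/2) * ((1 + 4 * Ln B n / r) ^ 6 / (Ln B n : ℝ) ^ 3) * pc (fun i => blk (Ln B n) (ofs U) (x i)) := by
    apply le_avg hL
    intro U
    exact ps_gk_le_grid hr hLr0 (adm_ofs U) x hx
  refine h1.trans (le_of_eq ?_)
  rw [← Finset.mul_sum]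
  unfold Qn
  field_simp

theorem sq_le_Qn {ι : Type*} [Fintype ι] {B : ℕ} (hB : 2 ≤ B) (n : ℕ) {S : ℝ} (hS : 0 < S) (x : ι → Pt) (hx : ∀ i, x i ∈ cube S) :
    (Fintype.card ι : ℝ) ^ 2 / S ^ 3 ≤ (1 + 2 * Ln B n / S) ^ 3 * Qn B n x := by
  have hL := Ln_pos hB n
  have hLr0 : (0:ℝ) < Ln B n := by exact_mod_cast hL
  have h1 : (Fintype.card ι : ℝ) ^ 2 ≤ (1 / (Ln B n : ℝ) ^ 3) * ∑ U : Fin 3 → Fin (Ln B n),
      ((S + 2 * Ln B n) / Ln B n) ^ 3 * pc (fun i => blk (Ln B n) (ofs U) (x i)) := by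
    apply le_avg hL
    intro U
    exact card_sq_le_grid hS.le hLr0 (adm_ofs U) x hx
  rw [div_le_iff₀ (by positivity)]
  refine h1.trans (le_of_eq ?_)
  rw [← Finset.mul_sum]
  unfold Qn
  have : (1 + 2 * (Ln B n : ℝ) / S) = (S + 2 * Ln B n) / S := by field_simp
  rw [this]
  field_simp

/-- the decoupled exponent for the shift `U` -/
noncomputable def dec (b : Base) (B : ℕ) (β μ θ : ℝ) (n : ℕ) (S : ℝ) (U : Fin 3 → Fin (Ln B n)) (ω : Cfg) : ℝ :=
  ∑ c : Fin 3 → Fin (gm (Ln B n) S),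
    (ps (wn b B β θ n) (fun i : {i // sB (Ln B n) (ofs U) (gm (Ln B n) S) (ω.2 i) = c} => ω.2 i.1) +
      an B μ θ n (fib (fun i => sB (Ln B n) (ofs U) (gm (Ln B n) S) (ω.2 i)) c))

theorem dec_eq (b : Base) {B : ℕ} (hB : 2 ≤ B) (β μ θ : ℝ) (n : ℕ) (S : ℝ) (U : Fin 3 → Fin (Ln B n)) (ω : Cfg)
    (hω : ∀ i, ω.2 i ∈ cube S) :
    dec b B β μ θ n S U ω = ps (wn b B β θ n) ω.2 -
      (1/2) * ∑ i, ∑ j, wn b B β θ n (dist (ω.2 i) (ω.2 j)) *
        (if blk (Ln B n) (ofs U) (ω.2 i) = blk (Ln B n) (ofs U) (ω.2 j) then (0:ℝ) else 1) +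
      μ * ω.1 + θ * tn B n / (2 * (Ln B n : ℝ) ^ 3) * pc (fun i => blk (Ln B n) (ofs U) (ω.2 i)) := by
  have hL := Ln_pos hB n
  have hLr0 : (0:ℝ) < Ln B n := by exact_mod_cast hL
  unfold dec
  rw [Finset.sum_add_distrib]
  have h1 := ps_fib (wn b B β θ n) (fun i => sB (Ln B n) (ofs U) (gm (Ln B n) S) (ω.2 i)) ω.2
  have h2 : ∑ i, ∑ j, (if sB (Ln B n) (ofs U) (gm (Ln B n) S) (ω.2 i) = sB (Ln B n) (ofs U) (gm (Ln B n) S) (ω.2 j) then (0:ℝ)
      else wn b B β θ n (dist (ω.2 i) (ω.2 j))) =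
      ∑ i, ∑ j, wn b B β θ n (dist (ω.2 i) (ω.2 j)) *
        (if blk (Ln B n) (ofs U) (ω.2 i) = blk (Ln B n) (ofs U) (ω.2 j) then (0:ℝ) else 1) := by
    refine Finset.sum_congr rfl fun i _ => Finset.sum_congr rfl fun j _ => ?_
    have h3 := sB_eq_iff hLr0 (adm_ofs U) (hω i) (hω j)
    by_cases h : blk (Ln B n) (ofs U) (ω.2 i) = blk (Ln B n) (ofs U) (ω.2 j)
    · rw [if_pos h, if_pos (h3.mpr h), mul_zero]
    · rw [if_neg h, if_neg (fun h' => h (h3.mp h')), mul_one]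
  have h3 : ∑ c, an B μ θ n (fib (fun i => sB (Ln B n) (ofs U) (gm (Ln B n) S) (ω.2 i)) c) =
      μ * ω.1 + θ * tn B n / (2 * (Ln B n : ℝ) ^ 3) * pc (fun i => blk (Ln B n) (ofs U) (ω.2 i)) := by
    unfold an
    rw [Finset.sum_add_distrib, ← pc_sB hLr0 (adm_ofs U) ω.2 hω, pc_eq]
    congr 1
    · rw [← Finset.mul_sum]
      congr 1
      have := sum_fib (fun i => sB (Ln B n) (ofs U) (gm (Ln B n) S) (ω.2 i))
      rw [Fintype.card_fin] at this
      exact_mod_cast this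
    · rw [Finset.mul_sum]
      refine Finset.sum_congr rfl fun c _ => ?_
      ring
  rw [h3, ← h2]
  linarith

theorem measurable_dec (b : Base) (B : ℕ) (β μ θ : ℝ) (n : ℕ) (S : ℝ) (U : Fin 3 → Fin (Ln B n)) (hB : 2 ≤ B) :
    ∃ f : Cfg → ℝ, Measurable f ∧ ∀ ω : Cfg, (∀ i, ω.2 i ∈ cube S) → dec b B β μ θ n S U ω = f ω := by
  refine ⟨fun ω => ps (wn b B β θ n) ω.2 -
      (1/2) * ∑ i, ∑ j, wn b B β θ n (dist (ω.2 i) (ω.2 j)) *
        (if blk (Ln B n) (ofs U) (ω.2 i) = blk (Ln B n) (ofs U) (ω.2 j) then (0:ℝ) else 1) +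
      μ * ω.1 + θ * tn B n / (2 * (Ln B n : ℝ) ^ 3) * pc (fun i => blk (Ln B n) (ofs U) (ω.2 i)), ?_,
      fun ω hω => dec_eq b hB β μ θ n S U ω hω⟩
  apply measurable_cfg
  intro N
  have hblk : ∀ k : Fin N, Measurable (fun x : Fin N → Pt => blk (Ln B n) (ofs U) (x k)) := by
    intro k
    refine measurable_pi_lambda _ fun c => ?_
    have : Measurable (fun y : Pt => ⌊(y c - ofs U c) / (Ln B n : ℝ)⌋) := by
      refine Int.measurable_floor.comp ?_
      fun_prop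
    exact this.comp (measurable_pi_apply k)
  have hset : ∀ i j : Fin N, MeasurableSet {x : Fin N → Pt | blk (Ln B n) (ofs U) (x i) = blk (Ln B n) (ofs U) (x j)} :=
    fun i j => measurableSet_eq_fun (hblk i) (hblk j)
  have hw := measurable_wn b B β θ n
  have hm1 : Measurable (fun x : Fin N → Pt => (1/2) * ∑ i, ∑ j, wn b B β θ n (dist (x i) (x j)) *
        (if blk (Ln B n) (ofs U) (x i) = blk (Ln B n) (ofs U) (x j) then (0:ℝ) else 1)) := by
    refine Measurable.const_mul ?_ _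
    refine Finset.measurable_sum _ fun i _ => Finset.measurable_sum _ fun j _ => ?_
    refine (hw.comp ((measurable_pi_apply i).dist (measurable_pi_apply j))).mul ?_
    exact Measurable.ite (hset i j) measurable_const measurable_const
  have hm2 : Measurable (fun x : Fin N → Pt => θ * tn B n / (2 * (Ln B n : ℝ) ^ 3) * pc (fun i => blk (Ln B n) (ofs U) (x i))) := by
    refine Measurable.const_mul ?_ _
    unfold pc
    refine Finset.measurable_sum _ fun i _ => Finset.measurable_sum _ fun j _ => ?_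
    exact Measurable.ite (hset i j) measurable_const measurable_const
  exact (((measurable_ps hw).sub hm1).add_const (μ * (N:ℝ))).add hm2

end Crest.H5.PP
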