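import Crest.Agent.H5.PP.Cfg

set_option autoImplicit false
set_option maxHeartbeats 400000
open MeasureTheory ENNReal Set Metric

namespace Crest.H5.PP

/-- corner of a tile -/
noncomputable def tv (L : ℝ) {q : ℕ} (c : Fin 3 → Fin q) : Pt := WithLp.toLp 2 (fun k => (L + 2) * ((c k : ℕ) : ℝ))

/-- tile -/
def tile (L : ℝ) {q : ℕ} (c : Fin 3 → Fin q) : Set Pt := (fun y => y - tv L c) ⁻¹' (cube L)

theorem mem_tile {L : ℝ} {q : ℕ} {c : Fin 3 → Fin q} {x : Pt} :
    x ∈ tile L c ↔ ∀ k, (L + 2) * ((c k : ℕ) : ℝ) ≤ x k ∧ x k ≤ (L + 2) * ((c k : ℕ) : ℝ) + L := by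
  constructor
  · intro h k
    have h1 := h k
    have h2 : (x - tv L c) k = x k - (L + 2) * ((c k : ℕ) : ℝ) := by simp [tv]
    have h3 : 0 ≤ (x - tv L c) k ∧ (x - tv L c) k ≤ L := h1
    rw [h2] at h3
    constructor <;> linarith [h3.1, h3.2]
  · intro h k
    have h2 : (x - tv L c) k = x k - (L + 2) * ((c k : ℕ) : ℝ) := by simp [tv]
    show 0 ≤ (x - tv L c) k ∧ (x - tv L c) k ≤ L
    rw [h2]
    constructor <;> linarith [(h k).1, (h k).2]

theorem tile_meas (L : ℝ) {q : ℕ} (c : Fin 3 → Fin q) : MeasurableSet (tile L c) := by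
  have : Measurable (fun y : Pt => y - tv L c) := measurable_id.sub_const _
  exact this (measurableSet_cube L)

theorem tile_dist {L : ℝ} (hL : 0 ≤ L) {q : ℕ} {c c' : Fin 3 → Fin q} (h : c ≠ c') {x y : Pt}
    (hx : x ∈ tile L c) (hy : y ∈ tile L c') : 2 ≤ dist x y := by
  rw [mem_tile] at hx hy
  obtain ⟨k, hk⟩ := Function.ne_iff.mp h
  have h1 := hx k
  have h2 := hy k
  have h3 := coord_le_dist x y k
  have hne : (c k : ℕ) ≠ (c' k : ℕ) := fun h' => hk (Fin.ext h')
  rcases lt_or_gt_of_ne hne with h4 | h4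
  · have h5 : ((c k : ℕ) : ℝ) + 1 ≤ ((c' k : ℕ) : ℝ) := by exact_mod_cast h4
    have h6 := mul_le_mul_of_nonneg_left h5 (by linarith : 0 ≤ L + 2)
    have h7 : 2 ≤ |x k - y k| := by
      rw [abs_sub_comm]
      refine le_trans ?_ (le_abs_self _)
      linarith [h1.2, h2.1]
    linarith
  · have h5 : ((c' k : ℕ) : ℝ) + 1 ≤ ((c k : ℕ) : ℝ) := by exact_mod_cast h4
    have h6 := mul_le_mul_of_nonneg_left h5 (by linarith : 0 ≤ L + 2)
    have h7 : 2 ≤ |x k - y k| := by
      refine le_trans ?_ (le_abs_self _)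
      linarith [h1.1, h2.2]
    linarith

theorem tile_disjoint {L : ℝ} (hL : 0 ≤ L) {q : ℕ} {c c' : Fin 3 → Fin q} (h : c ≠ c') :
    Disjoint (tile L c) (tile L c') := by
  rw [Set.disjoint_left]
  intro x hx hy
  have := tile_dist hL h hx hy
  rw [dist_self] at this
  linarith

theorem tile_sub {L S : ℝ} (hL : 0 ≤ L) {q : ℕ} (hq : q * (L + 2) ≤ S + 2) (c : Fin 3 → Fin q) : tile L c ⊆ cube S := by
  intro x hx k
  rw [mem_tile] at hx
  have h1 := hx k
  have h2 : ((c k : ℕ) : ℝ) + 1 ≤ q := by exact_mod_cast (c k).2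
  have h3 : (0:ℝ) ≤ ((c k : ℕ) : ℝ) := by positivity
  have h4 := mul_le_mul_of_nonneg_left h2 (by linarith : 0 ≤ L + 2)
  constructor
  · have := mul_nonneg (by linarith : 0 ≤ L + 2) h3
    linarith [h1.1]
  · linarith [h1.2]

theorem bf_ne_zero {w : ℝ → ℝ} {a : ℕ → ℝ} {D : Set Pt} {ι : Type} [Fintype ι] {x : ι → Pt}
    (h : bf w a D ι x ≠ 0) : ∀ i, x i ∈ D := by
  by_contra hcon
  apply h
  unfold bf
  rw [indicator_of_notMem]
  simpa using hcon

/-- superadditivity on tiles -/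
theorem tile_lower {w : ℝ → ℝ} (hw : Measurable w) (hw2 : ∀ s, 2 ≤ s → 0 ≤ w s) (a : ℕ → ℝ) {L S : ℝ} (hL : 0 ≤ L)
    {q : ℕ} (hq : q * (L + 2) ≤ S + 2) (c : (Fin 3 → Fin q) → ℕ) (N : ℕ) (hN : ∑ b, c b = N)
    (F : (Fin N → Pt) → ℝ≥0∞)
    (hF : ∀ x : Fin N → Pt, (∀ i, x i ∈ cube S) → ENNReal.ofReal (Real.exp (ps w x + ∑ b, a (c b))) ≤ F x) :
    ∏ b, Zn w a L (c b) ≤ (N.factorial : ℝ≥0∞)⁻¹ * ∫⁻ x in Set.pi univ (fun _ : Fin N => cube S), F x := by
  have h1 := LF N c hN (fun b => tile L b) (fun b b' h => tile_disjoint hL h) (fun b => bf w a (tile L b))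
    (fun b => bf_inv _ _ _) (fun b => bf_meas hw _ (tile_meas L b)) (fun b ι _ x hx => bf_ne_zero hx)
    ((Set.pi univ (fun _ : Fin N => cube S)).indicator F) ?_
  · rw [lintegral_indicator (measurableSet_cubes S N)] at h1
    refine le_trans (le_of_eq ?_) h1
    refine Finset.prod_congr rfl fun b _ => ?_
    unfold Zn
    congr 1
    exact (bf_translate w a (cube L) (tv L b) (c b)).symm
  · intro σ hσ x hx
    have hxS : ∀ i, x i ∈ cube S := fun i => tile_sub hL hq (σ i) (hx i)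
    rw [indicator_of_mem (show x ∈ Set.pi univ (fun _ : Fin N => cube S) from fun i _ => hxS i)]
    refine le_trans ?_ (hF x hxS)
    have h2 : ∀ b, bf w a (tile L b) {i // σ i = b} (fun i => x i.1) =
        ENNReal.ofReal (Real.exp (ps w (fun i : {i // σ i = b} => x i.1) + a (c b))) := by
      intro b
      unfold bf
      rw [indicator_of_mem]
      · congr 3
        congr 1
        rw [← hσ]
        unfold fib
        rw [Fintype.card_subtype]
      · intro i _
        have := hx i.1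
        rw [i.2] at this
        exact this
    rw [Finset.prod_congr rfl (fun b _ => h2 b), ← ENNReal.ofReal_prod_of_nonneg (fun _ _ => (Real.exp_pos _).le), ← Real.exp_sum]
    apply ENNReal.ofReal_le_ofReal
    rw [Real.exp_le_exp, Finset.sum_add_distrib]
    have h3 := ps_fib w σ x
    have h4 : 0 ≤ (1/2) * ∑ i, ∑ j, (if σ i = σ j then (0:ℝ) else w (dist (x i) (x j))) := by
      refine mul_nonneg (by norm_num) (Finset.sum_nonneg fun i _ => Finset.sum_nonneg fun j _ => ?_)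
      split_ifs with hij
      · exact le_refl _
      · exact hw2 _ (tile_dist hL hij (hx i) (hx j))
    linarith

end Crest.H5.PP
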