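import Crest.Agent.H5.PP.Hom
import Crest.Agent.H5.PP.Tile

set_option autoImplicit false
set_option maxHeartbeats 400000
open MeasureTheory ENNReal Set Metric

namespace Crest.H5.PP

variable {b : Base}

theorem int_card_restrict (b : Base) (B : ℕ) (β μ θ : ℝ) (n : ℕ) (P : Set ℕ) :
    ∫⁻ ω, {ω : Cfg | ω.1 ∈ P}.indicator (fun ω => ENNReal.ofReal (Real.exp (Wc b B β μ θ n ω))) ω ∂(mS (Ln B n)) =
      ∑' c, P.indicator (fun c => Zn (wn b B β θ n) (an B μ θ n) (Ln B n) c) c := by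
  have hP : MeasurableSet {ω : Cfg | ω.1 ∈ P} := by
    have : Measurable (fun ω : Cfg => ω.1 ∈ P) := by
      apply measurable_cfg
      intro N
      show Measurable (fun _ : Fin N → Pt => N ∈ P)
      exact measurable_const
    exact this.setOf
  have hm : Measurable (fun ω => {ω : Cfg | ω.1 ∈ P}.indicator (fun ω => ENNReal.ofReal (Real.exp (Wc b B β μ θ n ω))) ω) :=
    (ENNReal.measurable_ofReal.comp (Real.measurable_exp.comp (measurable_Wc b B β μ θ n))).indicator hP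
  rw [lint_mS _ hm]
  congr 1
  funext N
  by_cases hN : N ∈ P
  · rw [indicator_of_mem hN]
    unfold Zn
    rw [bf_int _ _ (measurableSet_cube _)]
    congr 1
    apply lintegral_congr
    intro x
    rw [indicator_of_mem (show (⟨N, x⟩ : Cfg) ∈ {ω : Cfg | ω.1 ∈ P} from hN)]
    rfl
  · rw [indicator_of_notMem hN]
    have : ∀ x : Fin N → Pt, {ω : Cfg | ω.1 ∈ P}.indicator (fun ω => ENNReal.ofReal (Real.exp (Wc b B β μ θ n ω))) ⟨N, x⟩ = 0 := by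
      intro x
      exact indicator_of_notMem (show (⟨N, x⟩ : Cfg) ∉ {ω : Cfg | ω.1 ∈ P} from hN) _
    simp only [this, lintegral_zero, mul_zero]

theorem ρb_pos (R : Rg b) : 1 < R.ρb := by
  unfold Rg.ρb
  linarith [Real.exp_pos (R.C2 + 1)]

/-- an optimal occupation number -/
theorem exists_opt (R : Rg b) {β μ θ : ℝ} (h : R.Ok β μ θ) {B : ℕ} (hB : 2 ≤ B) (n : ℕ) :
    ∃ c : ℕ, (c : ℝ) ≤ R.ρb * (Ln B n : ℝ) ^ 3 ∧ 1 ≤ Zn (wn b B β θ n) (an B μ θ n) (Ln B n) c ∧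
      Xi b B β μ θ n ≤ ENNReal.ofReal (R.ρb * (Ln B n : ℝ) ^ 3 + 2) * Zn (wn b B β θ n) (an B μ θ n) (Ln B n) c := by
  have hL0 : (0:ℝ) < Ln B n := by exact_mod_cast Ln_pos hB n
  have hρ := ρb_pos R
  set L := (Ln B n : ℝ) with hL
  set m := ⌈R.ρb * L ^ 3⌉₊ with hm
  have hmpos : 0 < m := Nat.ceil_pos.mpr (by positivity)
  obtain ⟨c, hcm, hcmax⟩ := Finset.exists_max_image (Finset.range m) (fun c => Zn (wn b B β θ n) (an B μ θ n) L c)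
    ⟨0, Finset.mem_range.mpr hmpos⟩
  rw [Finset.mem_range] at hcm
  have h0 : Zn (wn b B β θ n) (an B μ θ n) L 0 = 1 := by
    rw [Zn_zero, an_zero, Real.exp_zero, ENNReal.ofReal_one]
  have h1 : 1 ≤ Zn (wn b B β θ n) (an B μ θ n) L c := by
    rw [← h0]
    exact hcmax 0 (Finset.mem_range.mpr hmpos)
  refine ⟨c, (Nat.lt_ceil.mp hcm).le, h1, ?_⟩
  rw [Xi_eq]
  have hsplit : ∀ d, Zn (wn b B β θ n) (an B μ θ n) L d ≤
      (if d ∈ Finset.range m then Zn (wn b B β θ n) (an B μ θ n) L d else 0) +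
      ({d : ℕ | R.ρb * L ^ 3 ≤ d}).indicator (fun d => Zn (wn b B β θ n) (an B μ θ n) L d) d := by
    intro d
    by_cases hd : d ∈ Finset.range m
    · rw [if_pos hd]; exact le_self_add
    · rw [if_neg hd, zero_add, indicator_of_mem]
      rw [Finset.mem_range, not_lt] at hd
      exact Nat.ceil_le.mp hd
  have h2 : ∑' d, (if d ∈ Finset.range m then Zn (wn b B β θ n) (an B μ θ n) L d else 0) ≤
      (m : ℝ≥0∞) * Zn (wn b B β θ n) (an B μ θ n) L c := by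
    rw [tsum_eq_sum (s := Finset.range m)]
    · calc _ ≤ ∑ _d ∈ Finset.range m, Zn (wn b B β θ n) (an B μ θ n) L c := by
            refine Finset.sum_le_sum fun d hd => ?_
            rw [if_pos hd]
            exact hcmax d hd
        _ = _ := by rw [Finset.sum_const, Finset.card_range, nsmul_eq_mul]
    · intro d hd
      rw [if_neg hd]
  have h3 : ∑' d, ({d : ℕ | R.ρb * L ^ 3 ≤ d}).indicator (fun d => Zn (wn b B β θ n) (an B μ θ n) L d) d ≤ 1 := by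
    rw [← int_card_restrict]
    refine (tail_card R hL0.le (Wc b B β μ θ n) (fun ω hω => Wc_le' R h hB n ω hω)).trans ?_
    rw [← ENNReal.ofReal_one]
    apply ENNReal.ofReal_le_ofReal
    rw [← Real.exp_zero, Real.exp_le_exp]
    have : 0 < L ^ 3 := by positivity
    linarith
  calc ∑' d, Zn (wn b B β θ n) (an B μ θ n) L d ≤ _ := ENNReal.tsum_le_tsum hsplit
    _ = _ := ENNReal.tsum_add
    _ ≤ (m : ℝ≥0∞) * Zn (wn b B β θ n) (an B μ θ n) L c + 1 := add_le_add h2 h3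
    _ ≤ (m : ℝ≥0∞) * Zn (wn b B β θ n) (an B μ θ n) L c + Zn (wn b B β θ n) (an B μ θ n) L c := by gcongr
    _ = ((m:ℝ≥0∞) + 1) * Zn (wn b B β θ n) (an B μ θ n) L c := by ring
    _ ≤ _ := by
        gcongr
        have h4 : (m : ℝ) ≤ R.ρb * L ^ 3 + 1 := (Nat.ceil_lt_add_one (by positivity)).le
        have h5 : ((m:ℝ≥0∞) + 1) = ENNReal.ofReal ((m:ℝ) + 1) := by
          rw [ENNReal.ofReal_add (by positivity) zero_le_one, ENNReal.ofReal_natCast, ENNReal.ofReal_one]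
        rw [h5]
        apply ENNReal.ofReal_le_ofReal
        linarith

noncomputable def Rg.C3 (R : Rg b) : ℝ := R.θh / 2 * (15 * R.ρb ^ 2 + R.ρb / v1)

/-- K1 for scale k in the big box -/
theorem ps_gk_lower {B : ℕ} (hB : 2 ≤ B) {n k M : ℕ} (hnk : n ≤ k) (hkM : k < M) {N : ℕ} (x : Fin N → Pt)
    (hx : ∀ i, x i ∈ cube (Ln B M)) :
    (1/2) * ((N:ℝ) ^ 2 / (Ln B M : ℝ) ^ 3) * (1 - 6 / (Hn B n : ℝ) ^ 4) - (1/2) * N / (v1 * (Hn B n : ℝ) ^ 4) ≤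
      ps (gk (rn B k)) x := by
  have hv := v1_pos
  have hLM : (0:ℝ) < Ln B M := by exact_mod_cast Ln_pos hB M
  have hH := Hn_ge2 hB n
  have hH0 : (0:ℝ) < Hn B n := by linarith
  have hr := rn_pos hB k
  have h1 := le_sum_gk hr hLM.le x hx
  rw [Fintype.card_fin] at h1
  rw [ps_gk x hr, Fintype.card_fin]
  set S := (Ln B M : ℝ) with hS
  set r := rn B k with hrdef
  have hrS : r / S ≤ 1 / (Hn B n : ℝ) ^ 4 := by
    have h2 : r ≤ (Hn B M : ℝ) ^ 8 := by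
      rw [hrdef]
      unfold rn
      have : (Hn B (k+1) : ℝ) ≤ Hn B M := by exact_mod_cast Hn_mono hB hkM
      gcongr
    have hHM : (Hn B n : ℝ) ≤ Hn B M := by exact_mod_cast Hn_mono hB (by omega)
    have hHM0 : (0:ℝ) < Hn B M := by linarith
    rw [hS, Ln_cast]
    calc r / (Hn B M : ℝ) ^ 12 ≤ (Hn B M : ℝ) ^ 8 / (Hn B M : ℝ) ^ 12 := by gcongr
      _ = 1 / (Hn B M : ℝ) ^ 4 := by field_simp
      _ ≤ _ := by gcongr
  have h3 : ((N:ℝ) ^ 2 / S ^ 3) * (1 - 6 / (Hn B n : ℝ) ^ 4) ≤ (N:ℝ) ^ 2 / (S + 2 * r) ^ 3 := by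
    have h4 : ((N:ℝ) ^ 2 / S ^ 3) * (1 - 6 / (Hn B n : ℝ) ^ 4) ≤ ((N:ℝ) ^ 2 / S ^ 3) * (1 - 6 * (r / S)) := by
      refine mul_le_mul_of_nonneg_left ?_ (by positivity)
      have : 6 / (Hn B n : ℝ) ^ 4 = 6 * (1 / (Hn B n : ℝ) ^ 4) := by ring
      rw [this]; linarith
    refine h4.trans ?_
    rw [le_div_iff₀ (by positivity)]
    have h5 : ((N:ℝ) ^ 2 / S ^ 3) * (1 - 6 * (r / S)) * (S + 2 * r) ^ 3 = (N:ℝ) ^ 2 * ((1 - 6 * (r / S)) * (1 + 2 * (r / S)) ^ 3) := by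
      field_simp
    rw [h5]
    have h6 : (1 - 6 * (r / S)) * (1 + 2 * (r / S)) ^ 3 ≤ 1 := by
      have hy : 0 ≤ r / S := by positivity
      have : (1 - 6 * (r / S)) * (1 + 2 * (r / S)) ^ 3 = 1 - 24 * (r/S) ^ 2 - 64 * (r/S) ^ 3 - 48 * (r/S) ^ 4 := by ring
      rw [this]
      nlinarith [pow_nonneg hy 2, pow_nonneg hy 3, pow_nonneg hy 4]
    calc _ ≤ (N:ℝ) ^ 2 * 1 := mul_le_mul_of_nonneg_left h6 (by positivity)
      _ = _ := mul_one _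
  have h7 : (1/2) * (N:ℝ) / (r ^ 3 * v1) ≤ (1/2) * N / (v1 * (Hn B n : ℝ) ^ 4) := by
    have h8 : (Hn B n : ℝ) ^ 4 ≤ r ^ 3 := by
      have h9 : rn B n ≤ r := rn_mono hB hnk
      have h10 := rn_cast B n
      calc (Hn B n : ℝ) ^ 4 ≤ (Hn B n : ℝ) ^ 48 := pow_le_pow_right₀ (by linarith) (by norm_num)
        _ = (rn B n) ^ 3 := by rw [h10]; ring
        _ ≤ _ := by
          have := rn_pos hB n
          gcongr
    rw [mul_comm v1]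
    gcongr
  linarith

theorem logY_le {ρ L : ℝ} (hρ : 1 ≤ ρ) (hL1 : 1 ≤ L) : Real.log (ρ * L ^ 3 + 2) ≤ (ρ + 5) * L := by
  have hL0 : 0 < L := by linarith
  have h0 : 1 ≤ L ^ 3 := one_le_pow₀ hL1
  have h1 : ρ * L ^ 3 + 2 ≤ (ρ + 2) * L ^ 3 := by nlinarith
  have h2 : Real.log (ρ * L ^ 3 + 2) ≤ Real.log ((ρ + 2) * L ^ 3) := Real.log_le_log (by positivity) h1
  rw [Real.log_mul (by positivity) (by positivity), Real.log_pow] at h2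
  have h3 : Real.log (ρ + 2) ≤ ρ + 2 := (Real.log_le_sub_one_of_pos (by linarith)).trans (by linarith)
  have h4 : Real.log L ≤ L := (Real.log_le_sub_one_of_pos hL0).trans (by linarith)
  push_cast at h2
  have h5 : ρ + 2 ≤ (ρ + 2) * L := by nlinarith
  linarith

theorem final_arith {p pM A ρ C3 H4 L S q lz Y : ℝ} (hH4 : 0 < H4) (hL0 : 0 < L) (hS0 : 0 < S) (hq0 : 0 ≤ q)
    (hp0 : 0 ≤ p) (hpA : p ≤ A) (hρ : 0 ≤ ρ)
    (hκ : 1 - 9 / H4 ≤ (q * L / S) ^ 3) (hq3 : q ^ 3 * L ^ 3 ≤ S ^ 3)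
    (hlog : q ^ 3 * lz ≤ C3 / H4 * S ^ 3 + pM * S ^ 3) (hlz : p * L ^ 3 - Y ≤ lz)
    (hY : Y ≤ (ρ + 5) * L) (hL2 : H4 ≤ L ^ 2) :
    p - (9 * A + ρ + 5 + C3) / H4 ≤ pM := by
  have hV0 : 0 < S ^ 3 := by positivity
  have hq30 : 0 ≤ q ^ 3 := by positivity
  have h1 : q ^ 3 * (p * L ^ 3 - Y) ≤ q ^ 3 * lz := mul_le_mul_of_nonneg_left hlz hq30
  have h2 : (1 - 9 / H4) * (p * S ^ 3) ≤ q ^ 3 * (p * L ^ 3) := by
    have e1 : q ^ 3 * (p * L ^ 3) = (q * L / S) ^ 3 * (p * S ^ 3) := by field_simp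
    rw [e1]
    exact mul_le_mul_of_nonneg_right hκ (by positivity)
  have h3 : q ^ 3 * Y ≤ (ρ + 5) / H4 * S ^ 3 := by
    have h4 : q ^ 3 ≤ S ^ 3 / L ^ 3 := by rw [le_div_iff₀ (by positivity)]; exact hq3
    calc q ^ 3 * Y ≤ q ^ 3 * ((ρ + 5) * L) := mul_le_mul_of_nonneg_left hY hq30
      _ ≤ S ^ 3 / L ^ 3 * ((ρ + 5) * L) := mul_le_mul_of_nonneg_right h4 (by positivity)
      _ = (ρ + 5) * S ^ 3 * (1 / L ^ 2) := by field_simp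
      _ ≤ (ρ + 5) * S ^ 3 * (1 / H4) := by gcongr
      _ = _ := by ring
  have h4 : (9 / H4) * (p * S ^ 3) ≤ (9 / H4) * (A * S ^ 3) := by gcongr
  have h5 : (p - (9 * A + ρ + 5 + C3) / H4) * S ^ 3 ≤ pM * S ^ 3 := by
    have e1 : (p - (9 * A + ρ + 5 + C3) / H4) * S ^ 3 = p * S ^ 3 - (9 / H4) * (A * S ^ 3) -
        (ρ + 5) / H4 * S ^ 3 - C3 / H4 * S ^ 3 := by ring
    rw [e1]
    linarith
  exact le_of_mul_le_mul_right h5 hV0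

/-- facts on the number of tiles -/
theorem tiles_facts {B : ℕ} (hB : 2 ≤ B) {n M : ℕ} (hn : n < M) :
    let L := (Ln B n : ℝ)
    let S := (Ln B M : ℝ)
    let q := (⌊S / (L + 2)⌋₊ : ℝ)
    q * (L + 2) ≤ S + 2 ∧ q * L ≤ S ∧ 1 - 9 / (Hn B n : ℝ) ^ 4 ≤ (q * L / S) ^ 3 ∧ q * L / S ≤ 1 := by
  intro L S q
  have hH := Hn_ge2 hB n
  have hH0 : (0:ℝ) < Hn B n := by linarith
  have hL0 : (0:ℝ) < L := by
    show (0:ℝ) < (Ln B n : ℝ)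
    exact_mod_cast Ln_pos hB n
  have hS0 : (0:ℝ) < S := by
    show (0:ℝ) < (Ln B M : ℝ)
    exact_mod_cast Ln_pos hB M
  have hq1 : q ≤ S / (L + 2) := Nat.floor_le (by positivity)
  have hq2 : S / (L + 2) - 1 < q := Nat.sub_one_lt_floor _
  have hq0 : 0 ≤ q := by positivity
  have hqS : q * (L + 2) ≤ S + 2 := by
    rw [le_div_iff₀ (by positivity)] at hq1; linarith
  have hqLS : q * L ≤ S := by
    rw [le_div_iff₀ (by positivity)] at hq1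
    nlinarith
  have hLS : L / S ≤ 1 / (Hn B n : ℝ) ^ 4 := (LnLM hB hn).trans (inv12_le hB n)
  have hLinv : 1 / L ≤ 1 / (Hn B n : ℝ) ^ 4 := by
    have : (Hn B n : ℝ) ^ 4 ≤ L := by
      show (Hn B n : ℝ) ^ 4 ≤ (Ln B n : ℝ)
      rw [Ln_cast]
      exact pow_le_pow_right₀ (by linarith) (by norm_num)
    gcongr
  have hqk : 1 - 3 / (Hn B n : ℝ) ^ 4 ≤ q * L / S := by
    have h1 : (S / (L + 2) - 1) * L / S ≤ q * L / S := by gcongr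
    refine le_trans ?_ h1
    have h2 : (S / (L + 2) - 1) * L / S = L / (L + 2) - L / S := by field_simp
    rw [h2]
    have h3 : 1 - 2 * (1 / L) ≤ L / (L + 2) := by
      rw [le_div_iff₀ (by positivity)]
      have : (1 - 2 * (1 / L)) * (L + 2) = L - 4 / L := by field_simp; ring
      rw [this]
      have : 0 < 4 / L := by positivity
      linarith
    have : 3 / (Hn B n : ℝ) ^ 4 = 3 * (1 / (Hn B n : ℝ) ^ 4) := by ring
    rw [this]; linarith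
  have hκ1 : q * L / S ≤ 1 := by rw [div_le_one hS0]; exact hqLS
  have hκ0 : 0 ≤ q * L / S := by positivity
  refine ⟨hqS, hqLS, ?_, hκ1⟩
  have h9 : 9 / (Hn B n : ℝ) ^ 4 = 3 * (3 / (Hn B n : ℝ) ^ 4) := by ring
  rw [h9]
  generalize q * L / S = y at *
  have : 1 - 3 * (3 / (Hn B n : ℝ) ^ 4) ≤ 1 - 3 * (1 - y) := by linarith
  refine this.trans ?_
  nlinarith [sq_nonneg (1 - y), mul_nonneg hκ0 (sq_nonneg (1 - y))]

/-- the discrepancy estimate -/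
theorem disc_le {z κ y V ρ H4 v N : ℝ} (hH4 : 0 < H4) (hv : 0 < v) (hV : 0 ≤ V) (hρ : 0 ≤ ρ) (hz0 : 0 ≤ z)
    (hκ0 : 0 ≤ κ) (hκ1 : κ ≤ 1) (hκ : 1 - 9 / H4 ≤ κ) (hz : z ≤ ρ ^ 2 * V) (hN : N ≤ ρ * V) (hy : y = z * κ) :
    (1/2) * z - ((1/2) * y * (1 - 6 / H4) - (1/2) * N / (v * H4)) ≤ (15 * ρ ^ 2 + ρ / v) / 2 / H4 * V := by
  subst hy
  have q1 : z * (1 - κ) ≤ ρ ^ 2 * V * (9 / H4) := by
    have h0 : 0 ≤ 1 - κ := by linarith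
    calc z * (1 - κ) ≤ (ρ ^ 2 * V) * (1 - κ) := mul_le_mul_of_nonneg_right hz h0
      _ ≤ _ := mul_le_mul_of_nonneg_left (by linarith) (by positivity)
  have q2 : z * κ * (6 / H4) ≤ ρ ^ 2 * V * (6 / H4) := by
    refine mul_le_mul_of_nonneg_right ?_ (by positivity)
    calc z * κ ≤ z * 1 := mul_le_mul_of_nonneg_left hκ1 hz0
      _ ≤ _ := by linarith
  have q3 : (1/2) * N / (v * H4) ≤ (1/2) * (ρ * V) / (v * H4) := by gcongr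
  have e1 : (15 * ρ ^ 2 + ρ / v) / 2 / H4 * V =
      (1/2) * (ρ ^ 2 * V * (9 / H4)) + (1/2) * (ρ ^ 2 * V * (6 / H4)) + (1/2) * (ρ * V) / (v * H4) := by
    field_simp; ring
  rw [e1]
  have e2 : (1/2) * z - ((1/2) * (z * κ) * (1 - 6 / H4) - (1/2) * N / (v * H4)) =
      (1/2) * (z * (1 - κ)) + (1/2) * (z * κ * (6 / H4)) + (1/2) * N / (v * H4) := by ring
  rw [e2]
  linarith

/-- pointwise comparison for the homogeneous filling -/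
theorem hpt_lower (R : Rg b) {β μ θ : ℝ} (h : R.Ok β μ θ) {B : ℕ} (hB : 2 ≤ B) {n M : ℕ} (hn : n < M)
    {c : ℕ} (hc : (c : ℝ) ≤ R.ρb * (Ln B n : ℝ) ^ 3) {q : ℕ} (hq : q = ⌊(Ln B M : ℝ) / (Ln B n + 2)⌋₊)
    {N : ℕ} (hN : (N:ℝ) = (q:ℝ) ^ 3 * c) (x : Fin N → Pt) (hx : ∀ i, x i ∈ cube (Ln B M)) :
    ps (wn b B β θ n) x + ∑ _b : Fin 3 → Fin q, an B μ θ n c ≤
      ps (wn b B β θ M) x + an B μ θ M N + R.C3 / (Hn B n : ℝ) ^ 4 * (Ln B M : ℝ) ^ 3 := by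
  have h' := h
  obtain ⟨hβ, hμ, hθl, hθh⟩ := h'
  have hθ0 : 0 < θ := R.θl_pos.trans_le hθl
  have hv := v1_pos
  have hH := Hn_ge2 hB n
  have hH0 : (0:ℝ) < Hn B n := by linarith
  have hH4 : (0:ℝ) < (Hn B n : ℝ) ^ 4 := by positivity
  have hρ := ρb_pos R
  have hL0 : (0:ℝ) < Ln B n := by exact_mod_cast Ln_pos hB n
  have hS0 : (0:ℝ) < Ln B M := by exact_mod_cast Ln_pos hB M
  obtain ⟨hqS, hqLS, hκ, hκ1⟩ := tiles_facts hB hn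
  rw [← hq] at hqS hqLS hκ hκ1
  have hc0 : (0:ℝ) ≤ c := by positivity
  have hq3 : (q:ℝ) ^ 3 * (Ln B n : ℝ) ^ 3 ≤ (Ln B M : ℝ) ^ 3 := by
    rw [← mul_pow]
    exact pow_le_pow_left₀ (by positivity) hqLS 3
  have hz : (q:ℝ) ^ 3 * (c:ℝ) ^ 2 / (Ln B n : ℝ) ^ 3 ≤ R.ρb ^ 2 * (Ln B M : ℝ) ^ 3 := by
    rw [div_le_iff₀ (by positivity)]
    calc (q:ℝ) ^ 3 * (c:ℝ) ^ 2 ≤ (q:ℝ) ^ 3 * (R.ρb * (Ln B n : ℝ) ^ 3) ^ 2 := by gcongr
      _ = R.ρb ^ 2 * ((q:ℝ) ^ 3 * (Ln B n : ℝ) ^ 3) * (Ln B n : ℝ) ^ 3 := by ring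
      _ ≤ R.ρb ^ 2 * (Ln B M : ℝ) ^ 3 * (Ln B n : ℝ) ^ 3 := by gcongr
  have hNV : (N:ℝ) ≤ R.ρb * (Ln B M : ℝ) ^ 3 := by
    rw [hN]
    calc (q:ℝ) ^ 3 * c ≤ (q:ℝ) ^ 3 * (R.ρb * (Ln B n : ℝ) ^ 3) := by gcongr
      _ = R.ρb * ((q:ℝ) ^ 3 * (Ln B n : ℝ) ^ 3) := by ring
      _ ≤ _ := by gcongr
  have hyz : (N:ℝ) ^ 2 / (Ln B M : ℝ) ^ 3 = ((q:ℝ) ^ 3 * (c:ℝ) ^ 2 / (Ln B n : ℝ) ^ 3) * ((q:ℝ) * Ln B n / Ln B M) ^ 3 := by
    rw [hN]; field_simp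
  have h1 : ps (wn b B β θ M) x = ps (wn b B β θ n) x + θ * ∑ k ∈ Finset.Ico n M, jn B k * ps (gk (rn B k)) x := by
    rw [ps_wn, ps_wn, ← Finset.sum_range_add_sum_Ico _ hn.le]; ring
  obtain ⟨g0, hg0⟩ : ∃ g0, g0 = (1/2) * ((N:ℝ) ^ 2 / (Ln B M : ℝ) ^ 3) * (1 - 6 / (Hn B n : ℝ) ^ 4) - (1/2) * N / (v1 * (Hn B n : ℝ) ^ 4) := ⟨_, rfl⟩
  have h2 : (tn B n - tn B M) * g0 ≤ ∑ k ∈ Finset.Ico n M, jn B k * ps (gk (rn B k)) x := by
    rw [← sum_jn_Ico B hn.le, Finset.sum_mul]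
    refine Finset.sum_le_sum fun k hk => ?_
    rw [Finset.mem_Ico] at hk
    rw [hg0]
    exact mul_le_mul_of_nonneg_left (ps_gk_lower hB hk.1 hk.2 x hx) (jn_nonneg hB k)
  have h3 : g0 ≤ (1/2) * ((N:ℝ) ^ 2 / (Ln B M : ℝ) ^ 3) := by
    rw [hg0]
    have q1 : 0 ≤ (1/2) * (N:ℝ) / (v1 * (Hn B n : ℝ) ^ 4) := by positivity
    have q2 : 0 ≤ (1/2) * ((N:ℝ) ^ 2 / (Ln B M : ℝ) ^ 3) * (6 / (Hn B n : ℝ) ^ 4) := by positivity
    linarith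
  have h4 : tn B M * g0 ≤ tn B M * ((1/2) * ((N:ℝ) ^ 2 / (Ln B M : ℝ) ^ 3)) := mul_le_mul_of_nonneg_left h3 (tn_pos hB M).le
  have h5 : tn B n * g0 ≤ ∑ k ∈ Finset.Ico n M, jn B k * ps (gk (rn B k)) x + tn B M * ((1/2) * ((N:ℝ) ^ 2 / (Ln B M : ℝ) ^ 3)) := by
    linarith
  have h6 := mul_le_mul_of_nonneg_left h5 hθ0.le
  have h7 : (1/2) * ((q:ℝ) ^ 3 * (c:ℝ) ^ 2 / (Ln B n : ℝ) ^ 3) - g0 ≤ (15 * R.ρb ^ 2 + R.ρb / v1) / 2 / (Hn B n : ℝ) ^ 4 * (Ln B M : ℝ) ^ 3 := by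
    rw [hg0]
    exact disc_le hH4 hv (by positivity) (by linarith) (by positivity) (by positivity)
      (pow_le_one₀ (by positivity) hκ1) hκ hz hNV hyz
  have h8 : θ * (tn B n * ((1/2) * ((q:ℝ) ^ 3 * (c:ℝ) ^ 2 / (Ln B n : ℝ) ^ 3))) - θ * (tn B n * g0) ≤ R.C3 / (Hn B n : ℝ) ^ 4 * (Ln B M : ℝ) ^ 3 := by
    have htn1 := tn_le_one hB n
    have htn0 := tn_pos hB n
    have q0 : 0 ≤ (15 * R.ρb ^ 2 + R.ρb / v1) / 2 / (Hn B n : ℝ) ^ 4 * (Ln B M : ℝ) ^ 3 := by positivity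
    have q1 : θ * (tn B n * ((1/2) * ((q:ℝ) ^ 3 * (c:ℝ) ^ 2 / (Ln B n : ℝ) ^ 3))) - θ * (tn B n * g0) =
        θ * (tn B n * ((1/2) * ((q:ℝ) ^ 3 * (c:ℝ) ^ 2 / (Ln B n : ℝ) ^ 3) - g0)) := by ring
    rw [q1]
    calc θ * (tn B n * ((1/2) * ((q:ℝ) ^ 3 * (c:ℝ) ^ 2 / (Ln B n : ℝ) ^ 3) - g0)) ≤
          θ * (tn B n * ((15 * R.ρb ^ 2 + R.ρb / v1) / 2 / (Hn B n : ℝ) ^ 4 * (Ln B M : ℝ) ^ 3)) := by gcongr
      _ ≤ θ * (1 * ((15 * R.ρb ^ 2 + R.ρb / v1) / 2 / (Hn B n : ℝ) ^ 4 * (Ln B M : ℝ) ^ 3)) := by gcongr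
      _ ≤ R.θh * (1 * ((15 * R.ρb ^ 2 + R.ρb / v1) / 2 / (Hn B n : ℝ) ^ 4 * (Ln B M : ℝ) ^ 3)) := by gcongr
      _ = _ := by unfold Rg.C3; ring
  have h9 : ∑ _b : Fin 3 → Fin q, an B μ θ n c = μ * N + θ * (tn B n * ((1/2) * ((q:ℝ) ^ 3 * (c:ℝ) ^ 2 / (Ln B n : ℝ) ^ 3))) := by
    rw [Finset.sum_const, nsmul_eq_mul]
    unfold an
    rw [hN]
    have : ((Finset.univ : Finset (Fin 3 → Fin q)).card : ℝ) = (q:ℝ) ^ 3 := by simp
    rw [this]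
    field_simp
  have h10 : an B μ θ M N = μ * N + θ * (tn B M * ((1/2) * ((N:ℝ) ^ 2 / (Ln B M : ℝ) ^ 3))) := by
    unfold an
    ring
  rw [h1, h9, h10]
  linarith

theorem Zn_le_Xi (b : Base) (B : ℕ) (β μ θ : ℝ) (n N : ℕ) :
    Zn (wn b B β θ n) (an B μ θ n) (Ln B n) N ≤ Xi b B β μ θ n := by
  rw [Xi_eq]; exact ENNReal.le_tsum N

theorem wn_nonneg_far (b : Base) {B : ℕ} (hB : 2 ≤ B) (β : ℝ) {θ : ℝ} (hθ : 0 ≤ θ) (n : ℕ) (s : ℝ) (hs : 2 ≤ s) :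
    0 ≤ wn b B β θ n s := by
  unfold wn
  rw [b.range s hs, mul_zero, zero_add]
  exact mul_nonneg hθ (Finset.sum_nonneg fun k _ => mul_nonneg (jn_nonneg hB k) (gk_nonneg _ _))

/-- the level-`n` lower bound -/
theorem pf_lower (R : Rg b) {β μ θ : ℝ} (h : R.Ok β μ θ) {B : ℕ} (hB : 2 ≤ B) {n M : ℕ} (hn : n < M) :
    pf b B β μ θ n - (9 * R.A + R.ρb + 5 + R.C3) / (Hn B n : ℝ) ^ 4 ≤ pf b B β μ θ M := by
  have hθ0 : 0 < θ := R.θl_pos.trans_le h.2.2.1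
  have hH := Hn_ge2 hB n
  have hH0 : (0:ℝ) < Hn B n := by linarith
  have hH4 : (0:ℝ) < (Hn B n : ℝ) ^ 4 := by positivity
  have hρ := ρb_pos R
  obtain ⟨c, hc, hc1, hcX⟩ := exists_opt R h hB n
  have hL0 : (0:ℝ) < Ln B n := by exact_mod_cast Ln_pos hB n
  have hL1 : (1:ℝ) ≤ Ln B n := by exact_mod_cast Ln_pos hB n
  have hS0 : (0:ℝ) < Ln B M := by exact_mod_cast Ln_pos hB M
  obtain ⟨q, hq⟩ : ∃ q, q = ⌊(Ln B M : ℝ) / (Ln B n + 2)⌋₊ := ⟨_, rfl⟩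
  obtain ⟨hqS, hqLS, hκ, hκ1⟩ := tiles_facts hB hn
  rw [← hq] at hqS hqLS hκ hκ1
  obtain ⟨N, hN⟩ : ∃ N, ∑ _b : Fin 3 → Fin q, c = N := ⟨_, rfl⟩
  have hNr : (N:ℝ) = (q:ℝ) ^ 3 * c := by
    rw [← hN]; simp
  have htile := tile_lower (measurable_wn b B β θ n) (fun s hs => wn_nonneg_far b hB β hθ0.le n s hs)
    (an B μ θ n) hL0.le hqS (fun _ : Fin 3 → Fin q => c) N hN
    (fun x => ENNReal.ofReal (Real.exp (R.C3 / (Hn B n : ℝ) ^ 4 * (Ln B M : ℝ) ^ 3)) *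
      ENNReal.ofReal (Real.exp (ps (wn b B β θ M) x + an B μ θ M N))) (by
      intro x hx
      rw [← ENNReal.ofReal_mul (Real.exp_pos _).le, ← Real.exp_add]
      apply ENNReal.ofReal_le_ofReal
      rw [Real.exp_le_exp]
      have := hpt_lower R h hB hn hc hq hNr x hx
      linarith)
  rw [Finset.prod_const, lintegral_const_mul' _ _ ENNReal.ofReal_ne_top] at htile
  have hcard : (Finset.univ : Finset (Fin 3 → Fin q)).card = q ^ 3 := by simp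
  rw [hcard] at htile
  have hZM : (N.factorial : ℝ≥0∞)⁻¹ * (ENNReal.ofReal (Real.exp (R.C3 / (Hn B n : ℝ) ^ 4 * (Ln B M : ℝ) ^ 3)) *
      ∫⁻ x in Set.pi univ (fun _ : Fin N => cube (Ln B M)), ENNReal.ofReal (Real.exp (ps (wn b B β θ M) x + an B μ θ M N))) ≤
      ENNReal.ofReal (Real.exp (R.C3 / (Hn B n : ℝ) ^ 4 * (Ln B M : ℝ) ^ 3)) * Xi b B β μ θ M := by
    rw [mul_left_comm]
    refine mul_le_mul_right ?_ _
    refine le_trans (le_of_eq ?_) (Zn_le_Xi b B β μ θ M N)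
    unfold Zn
    rw [bf_int _ _ (measurableSet_cube _)]
  have hfin := htile.trans hZM
  have hZfin : Zn (wn b B β θ n) (an B μ θ n) (Ln B n) c ≠ ⊤ :=
    ((Zn_le_Xi b B β μ θ n c).trans_lt (Xi_ne_top R h hB n).lt_top).ne
  obtain ⟨z, hzdef⟩ : ∃ z, z = (Zn (wn b B β θ n) (an B μ θ n) (Ln B n) c).toReal := ⟨_, rfl⟩
  have hz1 : 1 ≤ z := by
    have := ENNReal.toReal_mono hZfin hc1
    rw [hzdef]
    simpa using this
  have hreal : z ^ (q ^ 3) ≤ Real.exp (R.C3 / (Hn B n : ℝ) ^ 4 * (Ln B M : ℝ) ^ 3) * Xr b B β μ θ M := by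
    have h1 := ENNReal.toReal_mono (ENNReal.mul_ne_top ENNReal.ofReal_ne_top (Xi_ne_top R h hB M)) hfin
    rw [ENNReal.toReal_pow, ENNReal.toReal_mul, ENNReal.toReal_ofReal (Real.exp_pos _).le] at h1
    rw [hzdef]
    exact h1
  have hX1 := one_le_Xr R h hB M
  have hlog : (q:ℝ) ^ 3 * Real.log z ≤ R.C3 / (Hn B n : ℝ) ^ 4 * (Ln B M : ℝ) ^ 3 + Real.log (Xr b B β μ θ M) := by
    have h1 := Real.log_le_log (by positivity) hreal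
    rw [Real.log_pow, Real.log_mul (Real.exp_pos _).ne' (by linarith), Real.log_exp] at h1
    push_cast at h1
    exact h1
  have hXz : Xr b B β μ θ n ≤ (R.ρb * (Ln B n : ℝ) ^ 3 + 2) * z := by
    have h1 := ENNReal.toReal_mono (ENNReal.mul_ne_top ENNReal.ofReal_ne_top hZfin) hcX
    rw [ENNReal.toReal_mul, ENNReal.toReal_ofReal (by positivity), ← hzdef] at h1
    exact h1
  have hXn1 := one_le_Xr R h hB n
  have hlogz : Real.log (Xr b B β μ θ n) - Real.log (R.ρb * (Ln B n : ℝ) ^ 3 + 2) ≤ Real.log z := by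
    have h1 := Real.log_le_log (by linarith) hXz
    rw [Real.log_mul (by positivity) (by linarith)] at h1
    linarith
  have hpn : Real.log (Xr b B β μ θ n) = pf b B β μ θ n * (Ln B n : ℝ) ^ 3 := by
    unfold pf
    rw [div_mul_cancel₀ _ (by positivity)]
  have hpM : Real.log (Xr b B β μ θ M) = pf b B β μ θ M * (Ln B M : ℝ) ^ 3 := by
    unfold pf
    rw [div_mul_cancel₀ _ (by positivity)]
  rw [hpn] at hlogz
  rw [hpM] at hlog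
  have hL2 : (Hn B n : ℝ) ^ 4 ≤ (Ln B n : ℝ) ^ 2 := by
    rw [Ln_cast, ← pow_mul]
    exact pow_le_pow_right₀ (by linarith) (by norm_num)
  have hq3 : (q:ℝ) ^ 3 * (Ln B n : ℝ) ^ 3 ≤ (Ln B M : ℝ) ^ 3 := by
    rw [← mul_pow]
    exact pow_le_pow_left₀ (by positivity) hqLS 3
  exact final_arith hH4 hL0 hS0 (by positivity) (pf_nonneg R h hB n) (pf_le R h hB n) (by linarith) hκ hq3 hlog hlogz
    (logY_le hρ.le hL1) hL2

end Crest.H5.PP
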