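import Crest.Agent.H5.PP.Pot

set_option autoImplicit false
set_option maxHeartbeats 400000
open MeasureTheory ENNReal Set Metric Filter Topology

namespace Crest.H5.PP

/-- the pair potential -/
noncomputable def potl (b : Base) (B : ℕ) (θ : ℝ) (r : ℝ) : ℝ := b.φ r - θ * psi B r

theorem measurable_potl (b : Base) {B : ℕ} (hB : 2 ≤ B) (θ : ℝ) : Measurable (potl b B θ) :=
  b.meas.sub ((continuous_psi hB).measurable.const_mul _)

theorem ps_potl (b : Base) (B : ℕ) (θ β : ℝ) {ι : Type*} [Fintype ι] (x : ι → Pt) :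
    ps (fun r => -β * potl b B θ r) x = -β * ps b.φ x + β * θ * ps (psi B) x := by
  have : (fun r => -β * potl b B θ r) = fun r => (-β * b.φ r + (β * θ) * psi B r) := by
    funext r; unfold potl; ring
  rw [this, ps_add, ps_smul, ps_smul]

/-- the pair weights are admissible -/
noncomputable def twp (b : Base) {B : ℕ} (hB : 2 ≤ B) {θ : ℝ} (hθ0 : 0 ≤ θ) (hθ : 2 * θ * b.Ca ≤ b.K) {C : ℝ} (hC0 : 0 ≤ C)
    (hC : ∀ z : Pt, ∫⁻ y : Pt, ENNReal.ofReal (b.φ (dist y z)) ≤ ENNReal.ofReal C) (β : ℝ) (hβ : 0 < β) :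
    TW (fun r => -β * potl b B θ r) where
  meas := (measurable_potl b hB θ).const_mul _
  far := by
    intro s hs
    have h1 := psi_nonneg hB s
    unfold potl
    rw [b.range s hs]
    have : 0 ≤ β * (θ * psi B s) := by positivity
    linarith
  Bs := β * (θ * b.Ca)
  stab := by
    intro N x
    rw [ps_potl]
    have h1 := ps_psi_le b hB x
    have h2 := ps_φ_nonneg b x
    have hCa := Ca_pos b
    have hK := b.K_pos
    rw [Fintype.card_fin] at h1
    have h3 : β * θ * ps (psi B) x ≤ β * θ * (b.Ca * (2 * ps b.φ x / b.K + N)) :=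
      mul_le_mul_of_nonneg_left h1 (by positivity)
    have h4 : β * θ * (b.Ca * (2 * ps b.φ x / b.K)) ≤ β * ps b.φ x := by
      have e : β * θ * (b.Ca * (2 * ps b.φ x / b.K)) = (2 * θ * b.Ca / b.K) * (β * ps b.φ x) := by
        field_simp
      rw [e]
      have h5 : 2 * θ * b.Ca / b.K ≤ 1 := by rw [div_le_one hK]; exact hθ
      calc _ ≤ 1 * (β * ps b.φ x) := mul_le_mul_of_nonneg_right h5 (by positivity)
        _ = _ := one_mul _
    nlinarith
  Cw := β * C
  Cw_nonneg := by positivity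
  neg := by
    intro z
    calc ∫⁻ y : Pt, ENNReal.ofReal (-(-β * potl b B θ (dist y z)))
        ≤ ∫⁻ y : Pt, ENNReal.ofReal β * ENNReal.ofReal (b.φ (dist y z)) := by
          apply lintegral_mono
          intro y
          simp only
          rw [← ENNReal.ofReal_mul hβ.le]
          apply ENNReal.ofReal_le_ofReal
          have h1 := psi_nonneg hB (dist y z)
          unfold potl
          have : 0 ≤ β * (θ * psi B (dist y z)) := by positivity
          linarith
      _ = ENNReal.ofReal β * ∫⁻ y : Pt, ENNReal.ofReal (b.φ (dist y z)) := lintegral_const_mul' _ _ ENNReal.ofReal_ne_top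
      _ ≤ ENNReal.ofReal β * ENNReal.ofReal C := by gcongr; exact hC z
      _ = _ := (ENNReal.ofReal_mul hβ.le).symm

variable {b : Base}

/-- the ratio of the block volume to the kernel volume -/
theorem ratio_tendsto {B : ℕ} (hB : 2 ≤ B) : Tendsto (fun M => (Ln B M : ℝ) ^ 3 / (rn B M ^ 3 * v1)) atTop (𝓝 0) := by
  have hv := v1_pos
  have h0 : Tendsto (fun M : ℕ => 1 / v1 * (1 / (M : ℝ))) atTop (𝓝 0) := by
    have := (tendsto_one_div_atTop_nhds_zero_nat (𝕜 := ℝ)).const_mul (1 / v1)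
    rwa [mul_zero] at this
  refine squeeze_zero' (Eventually.of_forall fun M => ?_) ?_ h0
  · have := rn_pos hB M
    positivity
  · filter_upwards [eventually_gt_atTop 0] with M hM
    have hM' : (0:ℝ) < M := by exact_mod_cast hM
    have h1 : (M:ℝ) ≤ Hn B M := by exact_mod_cast M_le_Hn hB M
    have hH := Hn_ge2 hB M
    rw [rn_cast]
    have e : (Ln B M : ℝ) = (Hn B M : ℝ) ^ 12 := by unfold Ln; push_cast; rfl
    rw [e]
    set H := (Hn B M : ℝ) with hHdef
    have hH0 : 0 < H := by linarith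
    have e2 : (H ^ 12) ^ 3 / ((H ^ 16) ^ 3 * v1) = 1 / v1 * (1 / H ^ 12) := by field_simp
    rw [e2]
    have h2 : (M:ℝ) ≤ H ^ 12 := h1.trans (le_self_pow₀ (by linarith) (by norm_num))
    gcongr

theorem floor_ratio' {ρ : ℝ} (hρ : 0 ≤ ρ) : Tendsto (fun S : ℝ => (⌊ρ * S ^ 3⌋₊ : ℝ) / S ^ 3) atTop (𝓝 ρ) := by
  have h1 := (floor_ratio hρ).mul ratio2
  rw [mul_one] at h1
  refine h1.congr' ?_
  filter_upwards [eventually_gt_atTop 0] with S hS
  have : S + 2 ≠ 0 := by positivity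
  field_simp

/-- upper bound for the limiting free energy at the triple point -/
theorem partA (D : Dt b) {mc tc Pc : ℝ} (hin : InD D.p D.q mc tc) (hPc : ∀ i, D.P i (D.X 1 mc tc) = Pc)
    (hθ0 : 0 ≤ D.Λ * tc) (h : TW (fun r => -1 * potl b D.B (D.Λ * tc) r)) {ρ : ℝ} (hρ : 0 ≤ ρ) :
    AA h ρ + D.Λ * mc * ρ ≤ Pc := by
  have hB := D.hB
  have hv := v1_pos
  obtain ⟨θ, hθ⟩ : ∃ θ, θ = D.Λ * tc := ⟨_, rfl⟩
  obtain ⟨μ, hμ⟩ : ∃ μ, μ = D.Λ * mc := ⟨_, rfl⟩
  have hok : D.R.Ok 1 μ θ := by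
    have := D.ok (β := 1) (by norm_num) hin
    rw [hμ, hθ]; exact this
  have hX : D.X 1 mc tc = ![1, μ, θ] := by rw [hμ, hθ]; rfl
  rw [← hθ] at hθ0
  rw [← hμ]
  -- the finite volume inequality
  have hfin : ∀ M : ℕ, 0 < M → lz (fun r => -1 * potl b D.B (D.Λ * tc) r) (Ln D.B M) ⌊ρ * (Ln D.B M : ℝ) ^ 3⌋₊ / (Ln D.B M : ℝ) ^ 3 +
      μ * ((⌊ρ * (Ln D.B M : ℝ) ^ 3⌋₊ : ℝ) / (Ln D.B M : ℝ) ^ 3) ≤
      θ * (((⌊ρ * (Ln D.B M : ℝ) ^ 3⌋₊ : ℝ) / (Ln D.B M : ℝ) ^ 3) ^ 2 * ((Ln D.B M : ℝ) ^ 3 / (rn D.B M ^ 3 * v1))) +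
      (max (FF D.R D.B D.p D.q D.K' 0 M (D.X 1 mc tc)) (max (FF D.R D.B D.p D.q D.K' 1 M (D.X 1 mc tc)) (FF D.R D.B D.p D.q D.K' 2 M (D.X 1 mc tc))) +
        Real.log 6 / (Ln D.B M : ℝ) ^ 3) := by
    intro M hM
    have hLM : (0:ℝ) < Ln D.B M := by exact_mod_cast Ln_pos hB M
    obtain ⟨N, hN⟩ : ∃ N, N = ⌊ρ * (Ln D.B M : ℝ) ^ 3⌋₊ := ⟨_, rfl⟩
    rw [← hN]
    set V := (Ln D.B M : ℝ) ^ 3 with hV
    have hV0 : 0 < V := by positivity
    have hr := rn_pos hB M
    have hX' : D.R.Ok (D.X 1 mc tc 0) (D.X 1 mc tc 1) (D.X 1 mc tc 2) := D.ok (by norm_num) hin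
    have h1 := pf_le_FF D.R hB D.p D.q D.K' hX' hM
    refine le_trans ?_ (add_le_add_right h1 _)
    have e1 : pf b D.B (D.X 1 mc tc 0) (D.X 1 mc tc 1) (D.X 1 mc tc 2) M = pf b D.B 1 μ θ M := by
      rw [hμ, hθ]; rfl
    rw [e1]
    unfold pf
    rw [← hV]
    have e2 : θ * (((N:ℝ) / V) ^ 2 * (V / (rn D.B M ^ 3 * v1))) = (θ * ((N:ℝ) ^ 2 / (rn D.B M ^ 3 * v1))) / V := by
      field_simp
    have e3 : μ * ((N:ℝ) / V) = (μ * N) / V := by ring
    rw [e2, e3, ← add_div, ← add_div]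
    apply div_le_div_of_nonneg_right _ hV0.le
    -- exp form
    have hXr : 0 < Xr b D.B 1 μ θ M := by have := one_le_Xr D.R hok hB M; linarith
    have h2 : ENNReal.ofReal (Real.exp (μ * N - θ * ((N:ℝ) ^ 2 / (rn D.B M ^ 3 * v1)))) * Z (fun r => -1 * potl b D.B (D.Λ * tc) r) (Ln D.B M) N ≤
        Zn (wn b D.B 1 θ M) (an D.B μ θ M) (Ln D.B M) N := by
      have e4 := Zn_eq (fun r => -1 * potl b D.B (D.Λ * tc) r) (fun _ => μ * N - θ * ((N:ℝ) ^ 2 / (rn D.B M ^ 3 * v1))) (Ln D.B M) N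
      rw [← e4]
      unfold Zn
      rw [bf_int _ _ (measurableSet_cube _), bf_int _ _ (measurableSet_cube _)]
      refine mul_le_mul_right ?_ _
      apply lintegral_mono
      intro x
      apply ENNReal.ofReal_le_ofReal
      rw [Real.exp_le_exp]
      have h3 := ps_psi_tail hB x M
      rw [ps_potl, ps_wn, ← hθ]
      unfold an
      have h4 := tn_pos hB M
      have h5 : 0 ≤ θ * tn D.B M * (N:ℝ) ^ 2 / (2 * (Ln D.B M : ℝ) ^ 3) := by positivity
      have h6 := mul_le_mul_of_nonneg_left h3 hθ0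
      rw [mul_add] at h6
      linarith
    have h3 : Zn (wn b D.B 1 θ M) (an D.B μ θ M) (Ln D.B M) N ≤ Xi b D.B 1 μ θ M := by
      rw [Xi_eq]
      exact ENNReal.le_tsum N
    have h4 := h2.trans h3
    rw [Z_exp h hLM, ← ofReal_Xr D.R hok hB M, ← ENNReal.ofReal_mul (Real.exp_pos _).le, ← Real.exp_add,
      ENNReal.ofReal_le_ofReal_iff hXr.le] at h4
    have h5 := Real.log_le_log (Real.exp_pos _) h4
    rw [Real.log_exp] at h5
    linarith
  -- limits
  have hLt := Ln_tendsto hB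
  have t1 := ((tendsto_AA h hρ).comp hLt).mono_left UU_le
  have t2 := ((floor_ratio' hρ).comp hLt).mono_left UU_le
  have t3 := (ratio_tendsto hB).mono_left UU_le
  have t4 : Tendsto (fun M => Real.log 6 / (Ln D.B M : ℝ) ^ 3) UU (𝓝 0) :=
    (Tendsto.const_div_atTop ((tendsto_pow_atTop (by norm_num)).comp hLt) _).mono_left UU_le
  have tl := t1.add (t2.const_mul μ)
  have tr := (((t2.pow 2).mul t3).const_mul θ).add ((((D.P_lim 0 (D.X 1 mc tc)).max ((D.P_lim 1 (D.X 1 mc tc)).max (D.P_lim 2 (D.X 1 mc tc))))).add t4)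
  simp only [hPc, max_self, mul_zero, zero_add, add_zero] at tr
  refine le_of_tendsto_of_tendsto tl tr ?_
  have : ∀ᶠ M : ℕ in (UU : Filter ℕ), 0 < M := UU_le (eventually_gt_atTop 0)
  filter_upwards [this] with M hM
  exact hfin M hM

theorem log_ratio {ρ : ℝ} (hρ : 0 < ρ) : Tendsto (fun V : ℝ => Real.log (ρ * V + 2) / V) atTop (𝓝 0) := by
  have h0 : Tendsto (fun V : ℝ => ρ * V + 2) atTop atTop :=
    tendsto_atTop_add_const_right _ _ (Tendsto.const_mul_atTop hρ tendsto_id)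
  have h1 : Tendsto (fun V : ℝ => Real.log (ρ * V + 2) / (ρ * V + 2)) atTop (𝓝 0) :=
    (Real.isLittleO_log_id_atTop.tendsto_div_nhds_zero).comp h0
  have h2 : Tendsto (fun V : ℝ => (ρ * V + 2) / V) atTop (𝓝 ρ) := by
    have h3 : Tendsto (fun V : ℝ => ρ + 2 / V) atTop (𝓝 (ρ + 0)) :=
      (Tendsto.const_div_atTop tendsto_id 2).const_add ρ
    rw [add_zero] at h3
    refine h3.congr' ?_
    filter_upwards [eventually_gt_atTop 0] with V hV
    field_simp
  have h3 := h1.mul h2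
  rw [zero_mul] at h3
  refine h3.congr' ?_
  filter_upwards [eventually_gt_atTop 0] with V hV
  have : ρ * V + 2 ≠ 0 := by positivity
  field_simp

/-- the class pressures are dominated by the free energy of the pair potential -/
theorem partB (D : Dt b) {θ β μ Y : ℝ} (hθ : 0 ≤ θ) (hβ : 0 < β) (h : TW (fun r => -β * potl b D.B θ r))
    (hY : ∀ ρ', 0 ≤ ρ' → AA h ρ' + μ * ρ' ≤ Y) (i : Fin 3) : D.P i ![β, μ, β * θ] ≤ Y := by
  have hB := D.hB
  have hY0 : 0 ≤ Y := by
    have := hY 0 le_rfl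
    rw [AA_zero] at this
    linarith
  have hρb := ρb_pos D.R
  have hK'0 : 0 ≤ D.K' := by
    have := D.Λ_pos
    have := D.p_pos
    unfold Dt.K'; positivity
  have hfin : ∀ M : ℕ, FF D.R D.B D.p D.q D.K' i M ![β, μ, β * θ] ≤
      Real.log (D.R.ρb * (Ln D.B M : ℝ) ^ 3 + 2) / (Ln D.B M : ℝ) ^ 3 +
      (β * θ * D.R.ρb ^ 2 / 2 * tn D.B M + (((Ln D.B M : ℝ) + 2) / (Ln D.B M : ℝ)) ^ 3 * Y) := by
    intro M
    have hLM : (0:ℝ) < Ln D.B M := by exact_mod_cast Ln_pos hB M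
    obtain ⟨L, hL⟩ : ∃ L : ℝ, L = Ln D.B M := ⟨_, rfl⟩
    obtain ⟨V, hV⟩ : ∃ V : ℝ, V = L ^ 3 := ⟨_, rfl⟩
    rw [← hL] at hLM
    have hV0 : 0 < V := by rw [hV]; positivity
    obtain ⟨e, he⟩ : ∃ e : ℝ, e = β * θ * D.R.ρb ^ 2 / 2 * tn D.B M * V := ⟨_, rfl⟩
    have htn := tn_pos hB M
    have he0 : 0 ≤ e := by rw [he]; positivity
    set J := ∫ ω, Real.exp (∑ k, (![β, μ, β * θ] : Fin 3 → ℝ) k * ob b D.B M ω k) ∂(nu D.R D.B D.p D.q M i) with hJ
    have hJ0 : 0 ≤ J := integral_nonneg fun ω => (Real.exp_pos _).le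
    set T := Real.exp (e + (L + 2) ^ 3 * Y) with hT
    have hT1 : 1 ≤ T := by
      rw [hT]
      apply Real.one_le_exp
      positivity
    have hJle : J ≤ (D.R.ρb * V + 1) * T := by
      have hG : ENNReal.ofReal J ≤ ENNReal.ofReal ((D.R.ρb * V + 1) * T) := by
        rw [hJ, ofReal_integral_ob D.R hB D.p D.q M i]
        have hms : MeasurableSet (Gd D.R D.B M ∩ {ω : Cfg | ω.1 ∈ ci D.p D.q ((Ln D.B M : ℝ) ^ 3) i}) :=
          (measurableSet_Gd D.R D.B M).inter (measurableSet_ci _ _ _ _)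
        rw [← lintegral_indicator hms]
        have hmG : Measurable (fun ω : Cfg => if (ω.1 : ℝ) ≤ D.R.ρb * V then
            ENNReal.ofReal (Real.exp (ps (fun r => -β * potl b D.B θ r) ω.2 + (μ * ω.1 + e))) else 0) := by
          apply measurable_cfg
          intro N
          show Measurable (fun x : Fin N → Pt => if (N : ℝ) ≤ D.R.ρb * V then
            ENNReal.ofReal (Real.exp (ps (fun r => -β * potl b D.B θ r) x + (μ * N + e))) else 0)
          by_cases hN : (N : ℝ) ≤ D.R.ρb * V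
          · simp only [hN, if_true]
            exact ENNReal.measurable_ofReal.comp (Real.measurable_exp.comp ((measurable_ps h.meas).add_const _))
          · simp only [hN, if_false]
            exact measurable_const
        calc ∫⁻ ω, (Gd D.R D.B M ∩ {ω : Cfg | ω.1 ∈ ci D.p D.q ((Ln D.B M : ℝ) ^ 3) i}).indicator
              (fun ω => ENNReal.ofReal (Real.exp (Wc b D.B ((![β, μ, β * θ] : Fin 3 → ℝ) 0) ((![β, μ, β * θ] : Fin 3 → ℝ) 1) ((![β, μ, β * θ] : Fin 3 → ℝ) 2) M ω))) ω ∂(mS (Ln D.B M))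
            ≤ ∫⁻ ω, (if (ω.1 : ℝ) ≤ D.R.ρb * V then
            ENNReal.ofReal (Real.exp (ps (fun r => -β * potl b D.B θ r) ω.2 + (μ * ω.1 + e))) else 0) ∂(mS (Ln D.B M)) := by
              apply lintegral_mono
              intro ω
              by_cases hω : ω ∈ Gd D.R D.B M ∩ {ω : Cfg | ω.1 ∈ ci D.p D.q ((Ln D.B M : ℝ) ^ 3) i}
              · simp only [indicator_of_mem hω]
                obtain ⟨⟨hE, hN, hR⟩, _⟩ := hω
                rw [← hL, ← hV] at hN
                rw [if_pos hN]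
                apply ENNReal.ofReal_le_ofReal
                rw [Real.exp_le_exp]
                show Wc b D.B β μ (β * θ) M ω ≤ _
                rw [Wc_eq, ps_potl]
                have h1 := sum_le_ps_psi hB ω.2 M
                unfold Rn
                rw [Fintype.card_fin, ← hL, ← hV]
                have h2 : tn D.B M * (ω.1 : ℝ) ^ 2 / (2 * V) ≤ D.R.ρb ^ 2 / 2 * tn D.B M * V := by
                  rw [div_le_iff₀ (by positivity)]
                  have h3 : (ω.1 : ℝ) ^ 2 ≤ (D.R.ρb * V) ^ 2 := by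
                    have : (0:ℝ) ≤ ω.1 := by positivity
                    gcongr
                  calc tn D.B M * (ω.1 : ℝ) ^ 2 ≤ tn D.B M * (D.R.ρb * V) ^ 2 := mul_le_mul_of_nonneg_left h3 htn.le
                    _ = _ := by ring
                have h3 := mul_le_mul_of_nonneg_left (add_le_add h1 h2) (show 0 ≤ β * θ by positivity)
                have h4 : β * θ * (D.R.ρb ^ 2 / 2 * tn D.B M * V) = e := by rw [he]; ring
                rw [mul_add (β * θ) (ps (psi D.B) ω.2), h4] at h3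
                linarith
              · simp only [indicator_of_notMem hω]
                exact zero_le
          _ = ∑' N : ℕ, (N.factorial : ℝ≥0∞)⁻¹ * ∫⁻ x in Set.pi univ (fun _ : Fin N => cube (Ln D.B M)), (if (N : ℝ) ≤ D.R.ρb * V then
            ENNReal.ofReal (Real.exp (ps (fun r => -β * potl b D.B θ r) x + (μ * N + e))) else 0) := lint_mS _ hmG
          _ ≤ ∑' N : ℕ, (if N ∈ Finset.range (⌊D.R.ρb * V⌋₊ + 1) then ENNReal.ofReal T else 0) := by
              apply ENNReal.tsum_le_tsum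
              intro N
              by_cases hN : (N : ℝ) ≤ D.R.ρb * V
              · have hN' : N ∈ Finset.range (⌊D.R.ρb * V⌋₊ + 1) := by
                  rw [Finset.mem_range]
                  have := Nat.le_floor hN
                  omega
                simp only [hN, hN', if_true]
                have e1 := Zn_eq (fun r => -β * potl b D.B θ r) (fun n => μ * n + e) L N
                have e2 : Zn (fun r => -β * potl b D.B θ r) (fun n => μ * n + e) L N = (N.factorial : ℝ≥0∞)⁻¹ * ∫⁻ x in Set.pi univ (fun _ : Fin N => cube (Ln D.B M)),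
                    ENNReal.ofReal (Real.exp (ps (fun r => -β * potl b D.B θ r) x + (μ * N + e))) := by
                  unfold Zn
                  rw [bf_int _ _ (measurableSet_cube _), ← hL]
                rw [← e2, e1, Z_exp h hLM, ← ENNReal.ofReal_mul (Real.exp_pos _).le, ← Real.exp_add]
                apply ENNReal.ofReal_le_ofReal
                rw [hT, Real.exp_le_exp]
                have h1 := lz_le_AA h hLM N
                have hL2 : 0 < (L + 2) ^ 3 := by positivity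
                have h2 := hY (N / (L + 2) ^ 3) (by positivity)
                have h3 := mul_le_mul_of_nonneg_left h2 hL2.le
                have h4 : (L + 2) ^ 3 * (AA h (N / (L + 2) ^ 3) + μ * (N / (L + 2) ^ 3)) = (L + 2) ^ 3 * AA h (N / (L + 2) ^ 3) + μ * N := by
                  field_simp
                rw [h4] at h3
                linarith
              · simp only [hN, if_false]
                rw [lintegral_zero, mul_zero]
                exact zero_le
          _ = ENNReal.ofReal ((⌊D.R.ρb * V⌋₊ + 1) * T) := by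
              rw [tsum_eq_sum (s := Finset.range (⌊D.R.ρb * V⌋₊ + 1))]
              · rw [Finset.sum_congr rfl (fun N hN => if_pos hN), Finset.sum_const, Finset.card_range, nsmul_eq_mul,
                  ENNReal.ofReal_mul (by positivity)]
                congr 1
                rw [ENNReal.ofReal_add (by positivity) (by norm_num), ENNReal.ofReal_natCast, ENNReal.ofReal_one]
                push_cast
                rfl
              · intro N hN
                rw [if_neg hN]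
          _ ≤ ENNReal.ofReal ((D.R.ρb * V + 1) * T) := by
              apply ENNReal.ofReal_le_ofReal
              have : (⌊D.R.ρb * V⌋₊ : ℝ) ≤ D.R.ρb * V := Nat.floor_le (by positivity)
              gcongr
      rwa [ENNReal.ofReal_le_ofReal_iff (by positivity)] at hG
    unfold FF
    rw [← hL, ← hV, ← hJ]
    have h1 : Real.exp (-D.K' * V) ≤ T := by
      refine le_trans ?_ hT1
      rw [Real.exp_le_one_iff]
      nlinarith
    have h2 : Real.exp (-D.K' * V) + J ≤ (D.R.ρb * V + 2) * T := by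
      calc _ ≤ T + (D.R.ρb * V + 1) * T := add_le_add h1 hJle
        _ = _ := by ring
    have h3 := Real.log_le_log (by have := Real.exp_pos (-D.K' * V); linarith) h2
    rw [Real.log_mul (by positivity) (by positivity), hT, Real.log_exp] at h3
    rw [div_le_iff₀ hV0]
    have e3 : (Real.log (D.R.ρb * V + 2) / V + (β * θ * D.R.ρb ^ 2 / 2 * tn D.B M + ((L + 2) / L) ^ 3 * Y)) * V =
        Real.log (D.R.ρb * V + 2) + (e + (L + 2) ^ 3 * Y) := by
      rw [he, hV]
      field_simp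
    rw [e3]
    exact h3
  have hLt := Ln_tendsto hB
  have hV := (tendsto_pow_atTop (α := ℝ) (n := 3) (by norm_num)).comp hLt
  have t1 := ((log_ratio (show 0 < D.R.ρb by linarith)).comp hV).mono_left UU_le
  have t2 := ((tn_tendsto hB).const_mul (β * θ * D.R.ρb ^ 2 / 2)).mono_left UU_le
  have t3 := ((ratio2.comp hLt).mul_const Y).mono_left UU_le
  have t := t1.add (t2.add t3)
  rw [mul_zero, one_mul, zero_add, zero_add] at t
  exact le_of_tendsto_of_tendsto (D.P_lim i _) t (Eventually.of_forall hfin)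

theorem mix_diff {r0 r1 r2 a0 a1 a2 ρ : ℝ} (h0 : r0 < ρ) (h1 : r1 < ρ) (h2 : ρ < r2)
    (hT : 0 < (r2 - r1) * a0 - (r2 - r0) * a1 + (r1 - r0) * a2) :
    (r2 - ρ) / (r2 - r1) * a1 + (ρ - r1) / (r2 - r1) * a2 < (r2 - ρ) / (r2 - r0) * a0 + (ρ - r0) / (r2 - r0) * a2 := by
  have d0 : 0 < r2 - r0 := by linarith
  have d1 : 0 < r2 - r1 := by linarith
  have d : 0 < r2 - ρ := by linarith
  have e : (r2 - ρ) / (r2 - r0) * a0 + (ρ - r0) / (r2 - r0) * a2 - ((r2 - ρ) / (r2 - r1) * a1 + (ρ - r1) / (r2 - r1) * a2) =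
      (r2 - ρ) * ((r2 - r1) * a0 - (r2 - r0) * a1 + (r1 - r0) * a2) / ((r2 - r0) * (r2 - r1)) := by
    field_simp
    ring
  have h3 : 0 < (r2 - ρ) * ((r2 - r1) * a0 - (r2 - r0) * a1 + (r1 - r0) * a2) / ((r2 - r0) * (r2 - r1)) := by positivity
  linarith

/-- the main conclusion for the pair potential -/
theorem kinkD (D : Dt b) {C : ℝ} (hC0 : 0 ≤ C) (hC : ∀ z : Pt, ∫⁻ y : Pt, ENNReal.ofReal (b.φ (dist y z)) ≤ ENNReal.ofReal C) :
    ∃ θ : ℝ, 0 < θ ∧ 2 * θ * b.Ca ≤ b.K ∧ ∃ f : ℝ → ℝ → ℝ,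
      (∀ ρ : ℝ, 0 < ρ → ∀ β : ℝ, 0 < β → Tendsto (fun L : ℝ => -(1 / (β * L ^ 3)) *
        Real.log (Crest.ProbabilityR.Continuum.partitionFn (potl b D.B θ) L ⌊ρ * L ^ 3⌋₊ β)) atTop (𝓝 (f β ρ))) ∧
      ∀ ρ : ℝ, 3 * D.p / 2 < ρ → ρ < 11 * D.p / 6 → ∃ Dl Dr : ℝ,
        HasDerivWithinAt (fun β => f β ρ) Dl (Iio 1) 1 ∧ HasDerivWithinAt (fun β => f β ρ) Dr (Ioi 1) 1 ∧ Dr < Dl := by
  have hB := D.hB
  have hp := D.p_pos
  have hCa := Ca_pos b
  obtain ⟨mc, tc, Pc, r, a, g, hin, hPc, hg, hr, ha, hr0, hr1, hr2, hT⟩ := D.kink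
  obtain ⟨t0, t1, t2, m0, m1, _⟩ := dom_c hp D.qr hin
  have hΛ := D.Λ_pos
  have hok := D.ok (β := 1) (by norm_num) hin
  have hθ0 : 0 < D.Λ * tc := mul_pos hΛ t0
  have hθh : D.Λ * tc ≤ D.R.θh := hok.2.2.2
  have hθK : 2 * (D.Λ * tc) * b.Ca ≤ b.K := by
    have h1 := D.R.hK
    have h2 : D.Λ * tc * b.Ca ≤ D.R.θh * b.Ca := mul_le_mul_of_nonneg_right hθh hCa.le
    have h3 : 0 ≤ D.R.θh * b.Ca := mul_nonneg (θh_pos D.R).le hCa.le
    linarith
  set θ := D.Λ * tc with hθ
  have hφm := measurable_potl b hB θ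
  let tw : ∀ β : ℝ, 0 < β → TW (fun r => -β * potl b D.B θ r) := fun β hβ => twp b hB hθ0.le hθK hC0 hC β hβ
  let Φ : ℝ → ℝ → ℝ := fun ρ β => if h : 0 < β then AA (tw β h) ρ else 0
  have hΦ : ∀ ρ β (hβ : 0 < β), Φ ρ β = AA (tw β hβ) ρ := fun ρ β hβ => dif_pos hβ
  refine ⟨θ, hθ0, hθK, fun β ρ => -Φ ρ β / β, ?_, ?_⟩
  · intro ρ hρ β hβ
    have h1 := (tendsto_AA (tw β hβ) hρ.le).const_mul (-(1/β))
    simp only
    rw [hΦ ρ β hβ]
    have e : -(1/β) * AA (tw β hβ) ρ = -AA (tw β hβ) ρ / β := by ring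
    rw [e] at h1
    refine h1.congr' ?_
    filter_upwards [eventually_gt_atTop 0] with L hL
    rw [partitionFn_eq hφm]
    unfold lz
    field_simp
  · intro ρ hρ1 hρ2
    have hρ : 0 < ρ := by linarith
    -- lower bounds from the planes
    have hlow : ∀ β : ℝ, 0 < β → ∀ μ : ℝ, (∀ ρ', 0 ≤ ρ' → Φ ρ' β + μ * ρ' ≤ Φ ρ β + μ * ρ) →
        ∀ i, Pc + (β - 1) * a i + (μ - D.Λ * mc) * r i ≤ Φ ρ β + μ * ρ := by
      intro β hβ μ hμ i
      have h1 := partB D hθ0.le hβ (tw β hβ) (μ := μ) (Y := Φ ρ β + μ * ρ) (by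
        intro ρ' hρ'
        rw [← hΦ ρ' β hβ]
        exact hμ ρ' hρ') i
      have h2 := hg i ![β, μ, β * θ]
      rw [Fin.sum_univ_three] at h2
      have e0 : (![β, μ, β * θ] : Fin 3 → ℝ) 0 - D.X 1 mc tc 0 = β - 1 := rfl
      have e1 : (![β, μ, β * θ] : Fin 3 → ℝ) 1 - D.X 1 mc tc 1 = μ - D.Λ * mc := rfl
      have e2 : (![β, μ, β * θ] : Fin 3 → ℝ) 2 - D.X 1 mc tc 2 = β * θ - θ := rfl
      rw [e0, e1, e2] at h2
      rw [ha i, hr i]
      have e3 : g i 0 * (β - 1) + g i 1 * (μ - D.Λ * mc) + g i 2 * (β * θ - θ) =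
        (β - 1) * (g i 0 + D.Λ * tc * g i 2) + (μ - D.Λ * mc) * g i 1 := by
        rw [← hθ]; ring
      linarith
    have hlow2 : ∀ β : ℝ, 0 < β → ∀ i j : Fin 3, r i < ρ → ρ < r j →
        (Pc - D.Λ * mc * ρ) + (β - 1) * ((r j - ρ) / (r j - r i) * a i + (ρ - r i) / (r j - r i) * a j) ≤ Φ ρ β := by
      intro β hβ i j hi hj
      obtain ⟨μ, hμ⟩ := exists_slope (tw β hβ) hρ
      have hμ' : ∀ ρ', 0 ≤ ρ' → Φ ρ' β + μ * ρ' ≤ Φ ρ β + μ * ρ := by
        intro ρ' hρ'
        rw [hΦ _ _ hβ, hΦ _ _ hβ]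
        exact hμ ρ' hρ'
      have h1 := hlow β hβ μ hμ' i
      have h2 := hlow β hβ μ hμ' j
      have d : 0 < r j - r i := by linarith
      have w1 : 0 ≤ (r j - ρ) / (r j - r i) := div_nonneg (by linarith) d.le
      have w2 : 0 ≤ (ρ - r i) / (r j - r i) := div_nonneg (by linarith) d.le
      have ws : (r j - ρ) / (r j - r i) + (ρ - r i) / (r j - r i) = 1 := by
        rw [← add_div]
        rw [div_eq_one_iff_eq d.ne']
        ring
      have wr : (r j - ρ) / (r j - r i) * r i + (ρ - r i) / (r j - r i) * r j = ρ := by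
        field_simp
        ring
      set x := (r j - ρ) / (r j - r i)
      set y := (ρ - r i) / (r j - r i)
      have h3 := mul_le_mul_of_nonneg_left h1 w1
      have h4 := mul_le_mul_of_nonneg_left h2 w2
      have e : x * (Pc + (β - 1) * a i + (μ - D.Λ * mc) * r i) + y * (Pc + (β - 1) * a j + (μ - D.Λ * mc) * r j) =
          (x + y) * Pc + (β - 1) * (x * a i + y * a j) + (μ - D.Λ * mc) * (x * r i + y * r j) := by ring
      have e' : x * (Φ ρ β + μ * ρ) + y * (Φ ρ β + μ * ρ) = (x + y) * (Φ ρ β + μ * ρ) := by ring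
      have h5 := add_le_add h3 h4
      rw [e, e', ws, wr] at h5
      linarith
    -- equality at 1
    have hup : Φ ρ 1 ≤ Pc - D.Λ * mc * ρ := by
      rw [hΦ ρ 1 one_pos]
      have := partA D hin hPc hθ0.le (tw 1 one_pos) hρ.le
      linarith
    have hΦ1 : Φ ρ 1 = Pc - D.Λ * mc * ρ := by
      apply le_antisymm hup
      have := hlow2 1 one_pos 1 2 (by linarith) (by linarith)
      rw [sub_self, zero_mul, add_zero] at this
      exact this
    have hconv : ConvexOn ℝ (Ioi 0) (Φ ρ) := AA_convex hφm tw hρ.le (Φ ρ) (fun β hβ => hΦ ρ β hβ)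
    refine final_kink hconv (mix_diff (r0 := r 0) (r1 := r 1) (r2 := r 2) (a0 := a 0) (a1 := a 1) (a2 := a 2) (ρ := ρ) (by linarith) (by linarith) (by linarith) hT) ?_ ?_
    · intro β hβ
      rw [hΦ1]
      exact hlow2 β hβ 1 2 (by linarith) (by linarith)
    · intro β hβ
      rw [hΦ1]
      exact hlow2 β hβ 0 2 (by linarith) (by linarith)

end Crest.H5.PP
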