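import Crest.Agent.H5.PP.Cfg

set_option autoImplicit false
open MeasureTheory ENNReal Set Metric

namespace Crest.H5.PP

variable (b : Base)

/-- ranges of the parameters -/
structure Rg where
  θl : ℝ
  θh : ℝ
  μh : ℝ
  θl_pos : 0 < θl
  θl_le : θl ≤ θh
  μh_nonneg : 0 ≤ μh
  hK : 16 * θh * b.Ca ≤ b.K

variable {b}

def Rg.Ok (R : Rg b) (β μ θ : ℝ) : Prop := 1/2 ≤ β ∧ |μ| ≤ R.μh ∧ R.θl ≤ θ ∧ θ ≤ R.θh

noncomputable def Rg.C2 (R : Rg b) : ℝ := R.θh * b.Ca + R.μh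
noncomputable def Rg.A (R : Rg b) : ℝ := Real.exp R.C2
noncomputable def Rg.ρb (R : Rg b) : ℝ := Real.exp (R.C2 + 1) + 1
noncomputable def Rg.CE (R : Rg b) : ℝ := 8/3 * (R.A + 1)
noncomputable def Rg.Cp (R : Rg b) : ℝ := 2 * R.CE / b.K + R.ρb

variable (b)

/-- the exponent of the level-`n` model -/
noncomputable def Wc (B : ℕ) (β μ θ : ℝ) (n : ℕ) (ω : Cfg) : ℝ :=
  ps (wn b B β θ n) ω.2 + an B μ θ n ω.1

theorem measurable_Wc (B : ℕ) (β μ θ : ℝ) (n : ℕ) : Measurable (Wc b B β μ θ n) := by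
  apply measurable_cfg
  intro N
  show Measurable (fun x : Fin N → Pt => ps (wn b B β θ n) x + an B μ θ n N)
  exact (measurable_ps (measurable_wn b B β θ n)).add_const _

theorem measurable_psc {w : ℝ → ℝ} (hw : Measurable w) : Measurable (fun ω : Cfg => ps w ω.2) := by
  apply measurable_cfg
  intro N
  exact measurable_ps hw

theorem measurable_cardc : Measurable (fun ω : Cfg => (ω.1 : ℝ)) := by
  apply measurable_cfg
  intro N
  show Measurable (fun _ : Fin N → Pt => (N:ℝ))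
  exact measurable_const

theorem Wc_eq (B : ℕ) (β μ θ : ℝ) (n : ℕ) (ω : Cfg) :
    Wc b B β μ θ n ω = -β * ps b.φ ω.2 + μ * ω.1 + θ * Rn B n (Ln B n) ω.2 :=
  Wn_eq b B β μ θ n ω.2

/-- the grand canonical partition function of the level-`n` model in the box `L_n`. -/
noncomputable def Xi (B : ℕ) (β μ θ : ℝ) (n : ℕ) : ℝ≥0∞ :=
  ∫⁻ ω, ENNReal.ofReal (Real.exp (Wc b B β μ θ n ω)) ∂(mS (Ln B n))

theorem Xi_eq (B : ℕ) (β μ θ : ℝ) (n : ℕ) :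
    Xi b B β μ θ n = ∑' c, Zn (wn b B β θ n) (an B μ θ n) (Ln B n) c := by
  unfold Xi
  have hm : Measurable (fun ω => ENNReal.ofReal (Real.exp (Wc b B β μ θ n ω))) :=
    ENNReal.measurable_ofReal.comp (Real.measurable_exp.comp (measurable_Wc b B β μ θ n))
  rw [lint_mS _ hm]
  congr 1
  funext N
  unfold Zn
  rw [bf_int _ _ (measurableSet_cube _)]
  rfl

theorem ps_φ_nonneg {ι : Type*} [Fintype ι] (x : ι → Pt) : 0 ≤ ps b.φ x :=
  ps_nonneg x fun _ _ _ => b.nonneg _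

variable {b}

theorem Rn_bound (R : Rg b) {β μ θ : ℝ} (h : R.Ok β μ θ) {B : ℕ} (hB : 2 ≤ B) (n : ℕ) {S : ℝ} (hS : 1 ≤ S)
    {ι : Type*} [Fintype ι] (x : ι → Pt) (hx : ∀ i, x i ∈ cube S) :
    θ * Rn B n S x ≤ (1/8) * ps b.φ x + R.θh * b.Ca * Fintype.card ι := by
  obtain ⟨hβ, hμ, hθl, hθh⟩ := h
  have h1 := Rn_le b hB n hS x hx
  have hCa := Ca_pos b
  have hK := b.K_pos
  have hθ0 : 0 < θ := R.θl_pos.trans_le hθl
  have hE := ps_φ_nonneg b x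
  have h2 : θ * Rn B n S x ≤ R.θh * (b.Ca * (2 * ps b.φ x / b.K + Fintype.card ι)) := by
    have h3 : 0 ≤ b.Ca * (2 * ps b.φ x / b.K + Fintype.card ι) := by positivity
    exact (mul_le_mul_of_nonneg_left h1 hθ0.le).trans (mul_le_mul_of_nonneg_right hθh h3)
  refine h2.trans ?_
  have h4 : R.θh * (b.Ca * (2 * ps b.φ x / b.K)) ≤ (1/8) * ps b.φ x := by
    have h5 : R.θh * (b.Ca * (2 * ps b.φ x / b.K)) = (16 * R.θh * b.Ca / b.K) * ((1/8) * ps b.φ x) := by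
      field_simp
      ring
    rw [h5]
    have h6 : 16 * R.θh * b.Ca / b.K ≤ 1 := by rw [div_le_one hK]; exact R.hK
    calc _ ≤ 1 * ((1/8) * ps b.φ x) := mul_le_mul_of_nonneg_right h6 (by positivity)
      _ = _ := one_mul _
  nlinarith

theorem Wc_le (R : Rg b) {β μ θ : ℝ} (h : R.Ok β μ θ) {B : ℕ} (hB : 2 ≤ B) (n : ℕ)
    (ω : Cfg) (hω : ∀ i, ω.2 i ∈ cube (Ln B n)) :
    Wc b B β μ θ n ω ≤ -(3/8) * ps b.φ ω.2 + R.C2 * ω.1 := by
  rw [Wc_eq]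
  have hL : (1:ℝ) ≤ Ln B n := by exact_mod_cast Ln_pos hB n
  have h1 := Rn_bound R h hB n hL ω.2 hω
  obtain ⟨hβ, hμ, hθl, hθh⟩ := h
  have hE := ps_φ_nonneg b ω.2
  have hN : (0:ℝ) ≤ ω.1 := by positivity
  have h2 : μ * ω.1 ≤ R.μh * ω.1 := mul_le_mul_of_nonneg_right ((le_abs_self μ).trans hμ) hN
  have h3 : -β * ps b.φ ω.2 ≤ -(1/2) * ps b.φ ω.2 := by nlinarith
  rw [Fintype.card_fin] at h1
  unfold Rg.C2
  nlinarith

theorem Wc_le' (R : Rg b) {β μ θ : ℝ} (h : R.Ok β μ θ) {B : ℕ} (hB : 2 ≤ B) (n : ℕ)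
    (ω : Cfg) (hω : ∀ i, ω.2 i ∈ cube (Ln B n)) :
    Wc b B β μ θ n ω ≤ R.C2 * ω.1 := by
  have := Wc_le R h hB n ω hω
  have hE := ps_φ_nonneg b ω.2
  linarith

theorem Xi_le (R : Rg b) {β μ θ : ℝ} (h : R.Ok β μ θ) {B : ℕ} (hB : 2 ≤ B) (n : ℕ) :
    Xi b B β μ θ n ≤ ENNReal.ofReal (Real.exp (R.A * (Ln B n : ℝ) ^ 3)) := by
  unfold Xi
  refine (lint_mono_cube _ (g := fun ω => ENNReal.ofReal (Real.exp (R.C2 * ω.1))) ?_).trans ?_
  · intro ω hω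
    exact ENNReal.ofReal_le_ofReal (Real.exp_le_exp.mpr (Wc_le' R h hB n ω hω))
  · rw [lint_exp_card (by positivity)]
    rfl

theorem Zn_zero (w : ℝ → ℝ) (a : ℕ → ℝ) (L : ℝ) : Zn w a L 0 = ENNReal.ofReal (Real.exp (a 0)) := by
  unfold Zn
  rw [bf_int _ _ (measurableSet_cube _)]
  have h1 : ∀ x : Fin 0 → Pt, ps w x = 0 := fun x => by unfold ps; simp
  simp only [h1, zero_add, setLIntegral_const, Nat.factorial_zero, Nat.cast_one, inv_one, one_mul]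
  rw [volume_pi, Measure.pi_pi]
  simp

theorem an_zero (B : ℕ) (μ θ : ℝ) (n : ℕ) : an B μ θ n 0 = 0 := by simp [an]

theorem one_le_Xi (b : Base) (B : ℕ) (β μ θ : ℝ) (n : ℕ) : 1 ≤ Xi b B β μ θ n := by
  rw [Xi_eq]
  calc (1:ℝ≥0∞) = Zn (wn b B β θ n) (an B μ θ n) (Ln B n) 0 := by
        rw [Zn_zero, an_zero, Real.exp_zero, ENNReal.ofReal_one]
    _ ≤ _ := ENNReal.le_tsum 0

/-- real version -/
noncomputable def Xr (b : Base) (B : ℕ) (β μ θ : ℝ) (n : ℕ) : ℝ := (Xi b B β μ θ n).toReal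

theorem Xi_ne_top (R : Rg b) {β μ θ : ℝ} (h : R.Ok β μ θ) {B : ℕ} (hB : 2 ≤ B) (n : ℕ) :
    Xi b B β μ θ n ≠ ⊤ := ((Xi_le R h hB n).trans_lt ENNReal.ofReal_lt_top).ne

theorem ofReal_Xr (R : Rg b) {β μ θ : ℝ} (h : R.Ok β μ θ) {B : ℕ} (hB : 2 ≤ B) (n : ℕ) :
    ENNReal.ofReal (Xr b B β μ θ n) = Xi b B β μ θ n := ENNReal.ofReal_toReal (Xi_ne_top R h hB n)

theorem one_le_Xr (R : Rg b) {β μ θ : ℝ} (h : R.Ok β μ θ) {B : ℕ} (hB : 2 ≤ B) (n : ℕ) :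
    1 ≤ Xr b B β μ θ n := by
  have := ENNReal.toReal_mono (Xi_ne_top R h hB n) (one_le_Xi b B β μ θ n)
  simpa [Xr] using this

theorem Xr_le (R : Rg b) {β μ θ : ℝ} (h : R.Ok β μ θ) {B : ℕ} (hB : 2 ≤ B) (n : ℕ) :
    Xr b B β μ θ n ≤ Real.exp (R.A * (Ln B n : ℝ) ^ 3) := by
  have := ENNReal.toReal_mono ENNReal.ofReal_ne_top (Xi_le R h hB n)
  rwa [ENNReal.toReal_ofReal (Real.exp_pos _).le] at this

/-- large particle number is negligible -/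
theorem tail_card (R : Rg b) {S : ℝ} (hS : 0 ≤ S) (f : Cfg → ℝ) 
    (hf : ∀ ω : Cfg, (∀ i, ω.2 i ∈ cube S) → f ω ≤ R.C2 * ω.1) :
    ∫⁻ ω, {ω : Cfg | R.ρb * S ^ 3 ≤ ω.1}.indicator (fun ω => ENNReal.ofReal (Real.exp (f ω))) ω ∂(mS S) ≤
      ENNReal.ofReal (Real.exp (-S ^ 3)) := by
  refine (lint_mono_cube _ (g := fun ω => ENNReal.ofReal (Real.exp (-(R.ρb * S ^ 3))) *
    ENNReal.ofReal (Real.exp ((R.C2 + 1) * ω.1))) ?_).trans ?_
  · intro ω hω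
    by_cases hm : ω ∈ {ω : Cfg | R.ρb * S ^ 3 ≤ ω.1}
    · rw [indicator_of_mem hm, ← ENNReal.ofReal_mul (Real.exp_pos _).le, ← Real.exp_add]
      apply ENNReal.ofReal_le_ofReal
      rw [Real.exp_le_exp]
      have h1 : R.ρb * S ^ 3 ≤ ω.1 := hm
      linarith [hf ω hω]
    · rw [indicator_of_notMem hm]; exact zero_le
  · rw [lintegral_const_mul']
    · rw [lint_exp_card hS, ← ENNReal.ofReal_mul (Real.exp_pos _).le, ← Real.exp_add]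
      apply ENNReal.ofReal_le_ofReal
      rw [Real.exp_le_exp]
      unfold Rg.ρb
      nlinarith [pow_nonneg hS 3]
    · exact ENNReal.ofReal_ne_top

/-- large energy is negligible -/
theorem tail_energy (R : Rg b) {S : ℝ} (hS : 0 ≤ S) (f : Cfg → ℝ) 
    (hf : ∀ ω : Cfg, (∀ i, ω.2 i ∈ cube S) → f ω ≤ -(3/8) * ps b.φ ω.2 + R.C2 * ω.1) :
    ∫⁻ ω, {ω : Cfg | R.CE * S ^ 3 ≤ ps b.φ ω.2}.indicator (fun ω => ENNReal.ofReal (Real.exp (f ω))) ω ∂(mS S) ≤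
      ENNReal.ofReal (Real.exp (-S ^ 3)) := by
  refine (lint_mono_cube _ (g := fun ω => ENNReal.ofReal (Real.exp (-(3/8) * (R.CE * S ^ 3))) *
    ENNReal.ofReal (Real.exp (R.C2 * ω.1))) ?_).trans ?_
  · intro ω hω
    by_cases hm : ω ∈ {ω : Cfg | R.CE * S ^ 3 ≤ ps b.φ ω.2}
    · rw [indicator_of_mem hm, ← ENNReal.ofReal_mul (Real.exp_pos _).le, ← Real.exp_add]
      apply ENNReal.ofReal_le_ofReal
      rw [Real.exp_le_exp]
      have h1 : R.CE * S ^ 3 ≤ ps b.φ ω.2 := hm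
      linarith [hf ω hω]
    · rw [indicator_of_notMem hm]; exact zero_le
  · rw [lintegral_const_mul']
    · rw [lint_exp_card hS, ← ENNReal.ofReal_mul (Real.exp_pos _).le, ← Real.exp_add]
      apply ENNReal.ofReal_le_ofReal
      rw [Real.exp_le_exp]
      unfold Rg.CE Rg.A
      nlinarith [pow_nonneg hS 3]
    · exact ENNReal.ofReal_ne_top

end Crest.H5.PP
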