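import Crest.Agent.H5.PP.Upper2

set_option autoImplicit false
set_option maxHeartbeats 400000
open MeasureTheory ENNReal Set Metric

namespace Crest.H5.PP

open Crest.ProbabilityR.Continuum (packingSet packingNumber)

/-- separated points occupy different cells -/
theorem card_le_of_sep {ι : Type*} [Fintype ι] {l L : ℝ} (hl : 0 < l) (x : ι → Pt) (hx : ∀ i, x i ∈ cube L)
    (hsep : ∀ i j, i ≠ j → 2 * l < dist (x i) (x j)) : Fintype.card ι ≤ (gm l L) ^ 3 := by
  have hinj : Function.Injective (fun i => sB l (fun _ => 0) (gm l L) (x i)) := by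
    intro i j hij
    by_contra hne
    have h1 := (sB_eq_iff hl (adm_zero hl) (hx i) (hx j)).mp hij
    have h2 := dist_le_of_cl hl (x := x i) (y := x j) h1
    have h3 := hsep i j hne
    linarith
  have := Fintype.card_le_of_injective _ hinj
  simpa using this

theorem packing_bdd (L : ℝ) : BddAbove (packingSet L) := by
  refine ⟨(gm (1/4) L) ^ 3, ?_⟩
  rintro n ⟨X, hXc, hXL, hXs⟩
  rw [← hXc, ← Fintype.card_coe X]
  refine card_le_of_sep (by norm_num) (fun x : X => x.1) (fun x => hXL x.1 x.2) ?_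
  intro i j hij
  have := hXs i.1 i.2 j.1 j.2 (fun h => hij (Subtype.ext h))
  linarith

theorem packing_nonempty (L : ℝ) : (packingSet L).Nonempty := ⟨0, ∅, by simp⟩

theorem packing_mem (L : ℝ) : packingNumber L ∈ packingSet L := Nat.sSup_mem (packing_nonempty L) (packing_bdd L)

theorem le_packing {L : ℝ} (X : Finset Pt) (h1 : ∀ x ∈ X, x ∈ cube L) (h2 : ∀ x ∈ X, ∀ y ∈ X, x ≠ y → 1 ≤ dist x y) :
    X.card ≤ packingNumber L := le_csSup (packing_bdd L) ⟨X, rfl, h1, h2⟩

theorem packing_tile {L S : ℝ} (hL : 0 ≤ L) {q : ℕ} (hq : q * (L + 2) ≤ S + 2) :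
    q ^ 3 * packingNumber L ≤ packingNumber S := by
  classical
  obtain ⟨X, hXc, hXL, hXs⟩ := packing_mem L
  let f : (Fin 3 → Fin q) × Pt → Pt := fun cx => cx.2 + tv L cx.1
  have hf : ∀ c : Fin 3 → Fin q, ∀ x ∈ X, f (c, x) ∈ tile L c := by
    intro c x hx
    show x + tv L c - tv L c ∈ cube L
    rw [add_sub_cancel_right]
    exact hXL x hx
  have hinj : Set.InjOn f ((Finset.univ : Finset (Fin 3 → Fin q)) ×ˢ X : Finset _) := by
    rintro ⟨c, x⟩ hcx ⟨c', x'⟩ hcx' heq
    simp only [Finset.coe_product, Finset.coe_univ, mem_prod, mem_univ, true_and, Finset.mem_coe] at hcx hcx'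
    by_cases hc : c = c'
    · subst hc
      simp only [f] at heq
      rw [add_right_cancel heq]
    · exfalso
      have h1 := tile_dist hL hc (hf c x hcx) (hf c' x' hcx')
      rw [heq, dist_self] at h1
      linarith
  have hcard : (((Finset.univ : Finset (Fin 3 → Fin q)) ×ˢ X).image f).card = q ^ 3 * packingNumber L := by
    rw [Finset.card_image_of_injOn hinj, Finset.card_product, hXc]
    congr 1
    simp
  rw [← hcard]
  apply le_packing
  · intro y hy
    rw [Finset.mem_image] at hy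
    obtain ⟨⟨c, x⟩, hcx, rfl⟩ := hy
    rw [Finset.mem_product] at hcx
    exact tile_sub hL hq c (hf c x hcx.2)
  · intro y hy z hz hyz
    rw [Finset.mem_image] at hy hz
    obtain ⟨⟨c, x⟩, hcx, rfl⟩ := hy
    obtain ⟨⟨c', x'⟩, hcx', rfl⟩ := hz
    rw [Finset.mem_product] at hcx hcx'
    by_cases hc : c = c'
    · subst hc
      have hne : x ≠ x' := fun h => hyz (by rw [h])
      have := hXs x hcx.2 x' hcx'.2 hne
      simp only [f, dist_add_right]
      exact this
    · have := tile_dist hL hc (hf c x hcx.2) (hf c' x' hcx'.2)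
      linarith

theorem packing_le_gm (L : ℝ) : packingNumber L ≤ (gm (1/4) L) ^ 3 := by
  obtain ⟨X, hXc, hXL, hXs⟩ := packing_mem L
  rw [← hXc, ← Fintype.card_coe X]
  refine card_le_of_sep (by norm_num) (fun x : X => x.1) (fun x => hXL x.1 x.2) ?_
  intro i j hij
  have := hXs i.1 i.2 j.1 j.2 (fun h => hij (Subtype.ext h))
  linarith

theorem packing_one : 1 ≤ packingNumber 0 := by
  have := le_packing (L := 0) {(0 : Pt)} (by
    intro x hx
    rw [Finset.mem_singleton] at hx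
    subst hx
    intro k
    simp) (by
    intro x hx y hy hxy
    rw [Finset.mem_singleton] at hx hy
    exact absurd (hx.trans hy.symm) hxy)
  simpa using this

/-- limit of superadditive-type ratios -/
theorem tendsto_ratio_one (a : ℝ) : Filter.Tendsto (fun S : ℝ => ((S + a) / S) ^ 3) Filter.atTop (nhds 1) := by
  have h1 : Filter.Tendsto (fun S : ℝ => 1 + a / S) Filter.atTop (nhds (1 + 0)) :=
    tendsto_const_nhds.add (Filter.tendsto_id.const_div_atTop a)
  have h2 : Filter.Tendsto (fun S : ℝ => (1 + a / S) ^ 3) Filter.atTop (nhds ((1 + 0) ^ 3)) := h1.pow 3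
  have h3 : ((1:ℝ) + 0) ^ 3 = 1 := by norm_num
  rw [h3] at h2
  refine h2.congr' ?_
  filter_upwards [Filter.eventually_gt_atTop 0] with S hS
  field_simp

theorem packing_limit : ∃ p : ℝ, 0 < p ∧
    Filter.Tendsto (fun L : ℝ => (packingNumber L : ℝ) / L ^ 3) Filter.atTop (nhds p) ∧
    ∀ L : ℝ, 0 ≤ L → (packingNumber L : ℝ) ≤ p * (L + 2) ^ 3 := by
  set A : Set ℝ := {y | ∃ L : ℝ, 0 ≤ L ∧ y = (packingNumber L : ℝ) / (L + 2) ^ 3} with hA
  have hbdd : BddAbove A := by
    refine ⟨64, ?_⟩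
    rintro y ⟨L, hL, rfl⟩
    rw [div_le_iff₀ (by positivity)]
    have h1 : (packingNumber L : ℝ) ≤ ((gm (1/4) L : ℕ) : ℝ) ^ 3 := by exact_mod_cast packing_le_gm L
    have h2 : ((gm (1/4) L : ℕ) : ℝ) ≤ 4 * (L + 2) := by
      have := gm_le (l := 1/4) (by norm_num) hL
      linarith
    calc (packingNumber L : ℝ) ≤ ((gm (1/4) L : ℕ) : ℝ) ^ 3 := h1
      _ ≤ (4 * (L + 2)) ^ 3 := by gcongr
      _ = _ := by ring
  have hne : A.Nonempty := ⟨_, 0, le_refl _, rfl⟩
  set p := sSup A with hp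
  have hle : ∀ L : ℝ, 0 ≤ L → (packingNumber L : ℝ) / (L + 2) ^ 3 ≤ p := fun L hL => le_csSup hbdd ⟨L, hL, rfl⟩
  have hle' : ∀ L : ℝ, 0 ≤ L → (packingNumber L : ℝ) ≤ p * (L + 2) ^ 3 := by
    intro L hL
    have := hle L hL
    rwa [div_le_iff₀ (by positivity)] at this
  have hp0 : 0 < p := by
    have h1 := hle 0 (le_refl _)
    have h2 : (1:ℝ) ≤ packingNumber 0 := by exact_mod_cast packing_one
    have h3 : (1:ℝ) / 8 ≤ (packingNumber 0 : ℝ) / (0 + 2) ^ 3 := by
      have h8 : ((0:ℝ) + 2) ^ 3 = 8 := by norm_num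
      rw [h8]
      linarith
    linarith
  refine ⟨p, hp0, ?_, hle'⟩
  rw [Metric.tendsto_atTop]
  intro ε hε
  obtain ⟨y, ⟨L, hL, rfl⟩, hy⟩ := exists_lt_of_lt_csSup hne (show p - ε / 2 < sSup A by rw [← hp]; linarith)
  have t1 : Filter.Tendsto (fun S : ℝ => ((S + -L) / S) ^ 3 * ((packingNumber L : ℝ) / (L + 2) ^ 3)) Filter.atTop
      (nhds (1 * ((packingNumber L : ℝ) / (L + 2) ^ 3))) := (tendsto_ratio_one (-L)).mul_const _
  have t2 : Filter.Tendsto (fun S : ℝ => p * ((S + 2) / S) ^ 3) Filter.atTop (nhds (p * 1)) := (tendsto_ratio_one 2).const_mul _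
  rw [one_mul] at t1
  rw [mul_one] at t2
  have e1 := t1.eventually (lt_mem_nhds hy)
  have e2 := t2.eventually (gt_mem_nhds (show p < p + ε by linarith))
  have e3 := Filter.eventually_ge_atTop (L + 1)
  obtain ⟨S₀, hS₀⟩ := Filter.eventually_atTop.mp (e1.and (e2.and e3))
  refine ⟨S₀, fun S hS => ?_⟩
  obtain ⟨f1, f2, f3⟩ := hS₀ S hS
  have hS0 : 0 < S := by linarith
  rw [Real.dist_eq, abs_lt]
  constructor
  · have hq1 : (⌊(S + 2) / (L + 2)⌋₊ : ℝ) * (L + 2) ≤ S + 2 := by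
      rw [← le_div_iff₀ (by positivity)]
      exact Nat.floor_le (by positivity)
    have hq2 : S - L ≤ (⌊(S + 2) / (L + 2)⌋₊ : ℝ) * (L + 2) := by
      have h3 := Nat.sub_one_lt_floor ((S + 2) / (L + 2))
      have h4 := mul_lt_mul_of_pos_right h3 (show 0 < L + 2 by linarith)
      rw [sub_mul, div_mul_cancel₀ _ (by linarith)] at h4
      linarith
    have h5 := packing_tile hL hq1
    have h6 : (⌊(S + 2) / (L + 2)⌋₊ : ℝ) ^ 3 * packingNumber L ≤ packingNumber S := by exact_mod_cast h5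
    have h7 : ((S + -L) / S) ^ 3 * ((packingNumber L : ℝ) / (L + 2) ^ 3) ≤ (packingNumber S : ℝ) / S ^ 3 := by
      rw [div_pow, div_mul_div_comm, div_le_div_iff₀ (by positivity) (by positivity)]
      have h8 : (S + -L) ^ 3 ≤ ((⌊(S + 2) / (L + 2)⌋₊ : ℝ) * (L + 2)) ^ 3 := by
        apply pow_le_pow_left₀ (by linarith)
        linarith
      calc (S + -L) ^ 3 * packingNumber L * S ^ 3 ≤ ((⌊(S + 2) / (L + 2)⌋₊ : ℝ) * (L + 2)) ^ 3 * packingNumber L * S ^ 3 := by gcongr
        _ = ((⌊(S + 2) / (L + 2)⌋₊ : ℝ) ^ 3 * packingNumber L) * (S ^ 3 * (L + 2) ^ 3) := by ring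
        _ ≤ packingNumber S * (S ^ 3 * (L + 2) ^ 3) := by gcongr
    linarith
  · have h1 := hle' S hS0.le
    have h2 : (packingNumber S : ℝ) / S ^ 3 ≤ p * ((S + 2) / S) ^ 3 := by
      rw [div_pow, ← mul_div_assoc]
      gcongr
    linarith

/-- the clique number -/
theorem exists_clq : ∃ q : ℕ, 2 ≤ q ∧ IsClq q ∧ ∀ n, IsClq n → n ≤ q := by
  have hbound : ∀ n, IsClq n → n ≤ (gm (1/8) 2) ^ 3 := by
    rintro n ⟨w, hw⟩
    rcases Nat.eq_zero_or_pos n with rfl | hn
    · exact Nat.zero_le _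
    · let i0 : Fin n := ⟨0, hn⟩
      let v : Pt := WithLp.toLp 2 (fun _ => 1)
      have hd : ∀ i, dist (w i) (w i0) < 1 := by
        intro i
        by_cases h : i = i0
        · rw [h, dist_self]; norm_num
        · exact (hw i i0 h).2
      have := card_le_of_sep (l := 1/8) (L := 2) (by norm_num) (fun i : Fin n => w i - w i0 + v) ?_ ?_
      · rwa [Fintype.card_fin] at this
      · intro i k
        have h1 := coord_le_dist (w i) (w i0) k
        have h2 := (abs_le.mp (h1.trans (hd i).le))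
        have h3 : (w i - w i0 + v) k = w i k - w i0 k + 1 := by simp [v]
        show 0 ≤ (w i - w i0 + v) k ∧ (w i - w i0 + v) k ≤ 2
        rw [h3]
        constructor <;> linarith [h2.1, h2.2]
      · intro i j hij
        rw [dist_add_right, dist_sub_right]
        have := (hw i j hij).1
        linarith
  have h2 : IsClq 2 := by
    refine ⟨fun i => ((i : ℕ) : ℝ) • (3/4 : ℝ) • e0, ?_⟩
    have hn : ‖(3/4 : ℝ) • e0‖ = 3/4 := by rw [norm_smul, norm_e0]; norm_num
    have key : ∀ i j : Fin 2, i ≠ j → dist (((i : ℕ) : ℝ) • (3/4 : ℝ) • e0) (((j : ℕ) : ℝ) • (3/4 : ℝ) • e0) = 3/4 := by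
      intro i j hij
      rw [dist_eq_norm, ← sub_smul, norm_smul, hn]
      fin_cases i <;> fin_cases j <;> simp_all
    intro i j hij
    rw [key i j hij]
    norm_num
  classical
  refine ⟨Nat.findGreatest IsClq ((gm (1/8) 2) ^ 3), ?_, ?_, ?_⟩
  · exact Nat.le_findGreatest (hbound 2 h2) h2
  · exact Nat.findGreatest_spec (hbound 2 h2) h2
  · intro n hn
    exact Nat.le_findGreatest (hbound n hn) hn

/-- margins in a finite witness -/
theorem clq_margin {n : ℕ} (h : IsClq n) : ∃ w : Fin n → Pt, ∃ η : ℝ, 0 < η ∧ η ≤ 1/32 ∧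
    ∀ i j, i ≠ j → 1/2 + 3 * η ≤ dist (w i) (w j) ∧ dist (w i) (w j) ≤ 1 - 3 * η := by
  obtain ⟨w, hw⟩ := h
  refine ⟨w, ?_⟩
  have h1 : ∀ᶠ η : ℝ in nhdsWithin 0 (Set.Ioi 0), ∀ p : Fin n × Fin n, p.1 ≠ p.2 →
      1/2 + 3 * η ≤ dist (w p.1) (w p.2) ∧ dist (w p.1) (w p.2) ≤ 1 - 3 * η := by
    rw [Filter.eventually_all]
    intro p
    by_cases hp : p.1 = p.2
    · exact Filter.Eventually.of_forall fun _ h => absurd hp h
    · obtain ⟨a1, a2⟩ := hw p.1 p.2 hp
      have c1 : ∀ᶠ η : ℝ in nhds 0, 1/2 + 3 * η < dist (w p.1) (w p.2) := by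
        have : Filter.Tendsto (fun η : ℝ => 1/2 + 3 * η) (nhds 0) (nhds (1/2 + 3 * 0)) := by
          apply Continuous.tendsto; fun_prop
        exact this.eventually (gt_mem_nhds (by linarith))
      have c2 : ∀ᶠ η : ℝ in nhds 0, dist (w p.1) (w p.2) < 1 - 3 * η := by
        have : Filter.Tendsto (fun η : ℝ => 1 - 3 * η) (nhds 0) (nhds (1 - 3 * 0)) := by
          apply Continuous.tendsto; fun_prop
        exact this.eventually (lt_mem_nhds (by linarith))
      filter_upwards [nhdsWithin_le_nhds c1, nhdsWithin_le_nhds c2] with η e1 e2 _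
      exact ⟨e1.le, e2.le⟩
  have h2 : ∀ᶠ η : ℝ in nhdsWithin 0 (Set.Ioi 0), η ≤ 1/32 := by
    have : ∀ᶠ η : ℝ in nhds 0, η < 1/32 := gt_mem_nhds (by norm_num)
    filter_upwards [nhdsWithin_le_nhds this] with η h using h.le
  have h3 : ∀ᶠ η : ℝ in nhdsWithin 0 (Set.Ioi 0), 0 < η := self_mem_nhdsWithin
  obtain ⟨η, e1, e2, e3⟩ := (h1.and (h2.and h3)).exists
  exact ⟨η, e3, e2, fun i j hij => e1 (i, j) hij⟩

/-- a separated family of centers with a margin -/
theorem exists_centers {κ m S : ℝ} (hκ : 0 ≤ κ) :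
    ∃ c : Fin (packingNumber ((S - 2 * m) / (1 + κ))) → Pt,
      (∀ i j, i ≠ j → 1 + κ ≤ dist (c i) (c j)) ∧ (∀ i y, dist y (c i) ≤ m → y ∈ cube S) := by
  obtain ⟨X, hXc, hXL, hXs⟩ := packing_mem ((S - 2 * m) / (1 + κ))
  let e := (X.equivFin).symm
  rw [hXc] at e
  let v : Pt := WithLp.toLp 2 (fun _ => m)
  refine ⟨fun i => (1 + κ) • (e i).1 + v, ?_, ?_⟩
  · intro i j hij
    have hne : (e i).1 ≠ (e j).1 := fun h => hij (e.injective (Subtype.ext h))
    have h1 := hXs _ (e i).2 _ (e j).2 hne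
    rw [dist_add_right, dist_smul₀, Real.norm_eq_abs, abs_of_pos (by linarith)]
    nlinarith
  · intro i y hy k
    have h1 := hXL _ (e i).2 k
    have h2 := (abs_le.mp ((coord_le_dist y _ k).trans hy))
    have h3 : ((1 + κ) • (e i).1 + v) k = (1 + κ) * (e i).1 k + m := by simp [v]
    rw [h3] at h2
    obtain ⟨a1, a2⟩ := h1
    rw [le_div_iff₀ (by linarith)] at a2
    have a3 : 0 ≤ (1 + κ) * (e i).1 k := mul_nonneg (by linarith) a1
    constructor <;> linarith [h2.1, h2.2]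

end Crest.H5.PP
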