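import Crest.Agent.H5.PP.Main

set_option autoImplicit false
set_option maxHeartbeats 400000
open MeasureTheory ENNReal Set Metric Filter Topology

namespace Crest.H5.PP

open Crest.ProbabilityR.Continuum (packingSet packingNumber)

/-- the set where the short range potential is large -/
def Fset (δ : ℝ) : Set ℝ := Icc 0 (δ / 2) ∪ Icc δ 1

/-- the bounded short range potential -/
noncomputable def fs (δ η K r : ℝ) : ℝ := K * max 0 (1 - infDist r (Fset δ) / (δ * η))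

theorem Fset_nonempty {δ : ℝ} (hδ : 0 < δ) : (Fset δ).Nonempty := ⟨0, Or.inl ⟨le_refl _, by linarith⟩⟩

theorem continuous_fs (δ η K : ℝ) : Continuous (fs δ η K) := by
  unfold fs
  exact continuous_const.mul (continuous_const.max (continuous_const.sub ((continuous_infDist_pt _).div_const _)))

theorem fs_nonneg {δ η K : ℝ} (hK : 0 ≤ K) (r : ℝ) : 0 ≤ fs δ η K r := mul_nonneg hK (le_max_left _ _)

theorem fs_le {δ η K : ℝ} (hK : 0 ≤ K) (hδ : 0 < δ) (hη : 0 < η) (r : ℝ) : fs δ η K r ≤ K := by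
  unfold fs
  have h1 : 0 ≤ infDist r (Fset δ) / (δ * η) := div_nonneg infDist_nonneg (by positivity)
  have h2 : max 0 (1 - infDist r (Fset δ) / (δ * η)) ≤ 1 := max_le (by norm_num) (by linarith)
  calc _ ≤ K * 1 := mul_le_mul_of_nonneg_left h2 hK
    _ = K := mul_one K

theorem fs_eq {δ η K : ℝ} {r : ℝ} (hr : r ∈ Fset δ) : fs δ η K r = K := by
  unfold fs
  rw [infDist_zero_of_mem hr]
  simp

theorem fs_zero {δ η K : ℝ} (hδ : 0 < δ) (hη : 0 < η) {r : ℝ} (h : ∀ s ∈ Fset δ, δ * η ≤ |r - s|) : fs δ η K r = 0 := by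
  unfold fs
  have h1 : δ * η ≤ infDist r (Fset δ) := by
    rw [le_infDist (Fset_nonempty hδ)]
    intro s hs
    exact h s hs
  have h2 : 1 ≤ infDist r (Fset δ) / (δ * η) := by
    rw [le_div_iff₀ (by positivity)]; linarith
  rw [max_eq_left (by linarith), mul_zero]

theorem fs_Z1 {δ η K : ℝ} (hδ : 0 < δ) (hη : 0 < η) {r : ℝ} (h1 : δ * (1/2 + η) ≤ r) (h2 : r ≤ δ * (1 - η)) :
    fs δ η K r = 0 := by
  apply fs_zero hδ hη
  rintro s (⟨_, hs⟩ | ⟨hs, _⟩)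
  · rw [abs_of_nonneg (by nlinarith)]
    nlinarith
  · rw [abs_of_nonpos (by nlinarith)]
    nlinarith

theorem fs_Z2 {δ η K : ℝ} (hδ : 0 < δ) (hδ1 : δ ≤ 1) (hη : 0 < η) {r : ℝ} (h1 : 1 + δ * η ≤ r) : fs δ η K r = 0 := by
  apply fs_zero hδ hη
  have : 0 < δ * η := by positivity
  rintro s (⟨_, hs⟩ | ⟨_, hs⟩)
  · rw [abs_of_nonneg (by linarith)]
    linarith
  · rw [abs_of_nonneg (by linarith)]
    linarith

/-- admissible cores -/
structure Core (c : ℝ → ℝ → ℝ) : Prop where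
  meas : ∀ δ, 0 < δ → Measurable (c δ)
  nonneg : ∀ δ, 0 < δ → ∀ r, 0 ≤ c δ r
  zero : ∀ δ, 0 < δ → ∀ r, δ / 2 ≤ r → c δ r = 0

/-- the short range data -/
noncomputable def mkBase {c : ℝ → ℝ → ℝ} (hc : Core c) {δ η K : ℝ} (hδ : 0 < δ) (hδ1 : δ ≤ 1/8) (hη : 0 < η) (hη1 : η ≤ 1/32) (hK : 0 < K) : Base where
  φ := fun r => fs δ η K r + c δ r
  meas := (continuous_fs δ η K).measurable.add (hc.meas δ hδ)
  nonneg := fun r => add_nonneg (fs_nonneg hK.le r) (hc.nonneg δ hδ r)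
  range := by
    intro r hr
    have h1 : δ * η ≤ 1 := by nlinarith
    rw [fs_Z2 hδ (by linarith) hη (by linarith), hc.zero δ hδ r (by linarith), add_zero]
  a := δ / 4
  a_pos := by positivity
  a_le := by linarith
  K := K
  K_pos := hK
  core := by
    intro r h0 h1
    have h2 : fs δ η K r = K := fs_eq (Or.inl ⟨h0, by linarith⟩)
    have h3 := hc.nonneg δ hδ r
    rw [h2]; linarith

theorem mkBase_SR {c : ℝ → ℝ → ℝ} (hc : Core c) {δ η K : ℝ} (hδ : 0 < δ) (hδ1 : δ ≤ 1/8) (hη : 0 < η) (hη1 : η ≤ 1/32) (hK : 0 < K) :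
    SR δ (mkBase hc hδ hδ1 hη hη1 hK).K (mkBase hc hδ hδ1 hη hη1 hK).φ where
  δ_pos := hδ
  δ_le := by linarith
  K_nonneg := hK.le
  nonneg := (mkBase hc hδ hδ1 hη hη1 hK).nonneg
  F1 := by
    intro r h0 h1
    show K ≤ fs δ η K r + c δ r
    have h2 : fs δ η K r = K := fs_eq (Or.inl ⟨h0, h1⟩)
    have h3 := hc.nonneg δ hδ r
    rw [h2]; linarith
  F2 := by
    intro r h0 h1
    show K ≤ fs δ η K r + c δ r
    have h2 : fs δ η K r = K := fs_eq (Or.inr ⟨h0, h1⟩)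
    have h3 := hc.nonneg δ hδ r
    rw [h2]; linarith

theorem mkBase_ZR {c : ℝ → ℝ → ℝ} (hc : Core c) {δ η K : ℝ} (hδ : 0 < δ) (hδ1 : δ ≤ 1/8) (hη : 0 < η) (hη1 : η ≤ 1/32) (hK : 0 < K) :
    ZR δ η (mkBase hc hδ hδ1 hη hη1 hK).φ where
  Z1 := by
    intro r h1 h2
    show fs δ η K r + c δ r = 0
    rw [fs_Z1 hδ hη h1 h2, hc.zero δ hδ r (by nlinarith), add_zero]
  Z2 := by
    intro r h1
    show fs δ η K r + c δ r = 0
    have : 0 < δ * η := by positivity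
    rw [fs_Z2 hδ (by linarith) hη h1, hc.zero δ hδ r (by linarith), add_zero]

/-- the choice of `δ` -/
noncomputable def dl (Λ : ℝ) : ℝ := (Real.exp (-Λ) / v1) ^ ((1:ℝ)/3)

theorem dl_pos (Λ : ℝ) : 0 < dl Λ := by
  have := v1_pos
  unfold dl; positivity

theorem dl_cube (Λ : ℝ) : dl Λ ^ 3 * v1 = Real.exp (-Λ) := by
  have hv := v1_pos
  unfold dl
  have h0 : 0 ≤ Real.exp (-Λ) / v1 := by positivity
  rw [← Real.rpow_natCast, ← Real.rpow_mul h0]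
  norm_num
  rw [div_mul_cancel₀ _ hv.ne']

theorem dl_le {κ Λ : ℝ} (hκ : 0 < κ) (h : -Real.log (κ ^ 3 * v1 / 512) ≤ Λ) : 8 * dl Λ ≤ κ := by
  have hv := v1_pos
  have h1 : Real.exp (-Λ) ≤ κ ^ 3 * v1 / 512 := by
    calc Real.exp (-Λ) ≤ Real.exp (Real.log (κ ^ 3 * v1 / 512)) := Real.exp_le_exp.mpr (by linarith)
      _ = _ := Real.exp_log (by positivity)
  have h2 : (8 * dl Λ) ^ 3 ≤ κ ^ 3 := by
    have h3 : (8 * dl Λ) ^ 3 * v1 ≤ κ ^ 3 * v1 := by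
      have e : (8 * dl Λ) ^ 3 * v1 = 512 * (dl Λ ^ 3 * v1) := by ring
      rw [e, dl_cube]
      linarith
    exact le_of_mul_le_mul_right h3 hv
  exact le_of_pow_le_pow_left₀ (by norm_num) hκ.le h2

theorem exists_Dt {c : ℝ → ℝ → ℝ} (hc : Core c) {p : ℝ} (hp : 0 < p)
    (p_lim : Filter.Tendsto (fun L : ℝ => (packingNumber L : ℝ) / L ^ 3) Filter.atTop (nhds p))
    (p_le : ∀ L : ℝ, 0 ≤ L → (packingNumber L : ℝ) ≤ p * (L + 2) ^ 3) :
    ∃ (δ η K : ℝ) (hδ : 0 < δ) (hδ1 : δ ≤ 1/8) (hη : 0 < η) (hη1 : η ≤ 1/32) (hK : 0 < K),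
      ∃ D : Dt (mkBase hc hδ hδ1 hη hη1 hK), D.p = p := by
  have hv := v1_pos
  obtain ⟨q, hq2, hq, hqmax⟩ := exists_clq
  have eq1 : q - 1 + 1 = q := by omega
  rw [← eq1] at hq
  obtain ⟨w, η, hη, hη1, hw⟩ := clq_margin hq
  have hqr : (2:ℝ) ≤ q := by exact_mod_cast hq2
  have hq0 : (0:ℝ) < q := by linarith
  obtain ⟨ε, hε⟩ : ∃ ε : ℝ, ε = p / (2000 * q ^ 2) := ⟨_, rfl⟩
  have hε0 : 0 < ε := by rw [hε]; positivity
  obtain ⟨κ, hκ⟩ : ∃ κ : ℝ, κ = ε / (27 * p * q) := ⟨_, rfl⟩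
  have hκ0 : 0 < κ := by rw [hκ]; positivity
  have hκ1 : κ ≤ 1 := by
    rw [hκ, hε, div_div, div_le_one (by positivity)]
    have h1 : (1:ℝ) ≤ q ^ 2 := one_le_pow₀ (by linarith)
    have h2 : p ≤ 2000 * q ^ 2 * (27 * p * q) := by
      have h3 : (1:ℝ) ≤ 2000 * q ^ 2 * (27 * q) := by nlinarith
      calc p = 1 * p := (one_mul p).symm
        _ ≤ (2000 * q ^ 2 * (27 * q)) * p := mul_le_mul_of_nonneg_right h3 hp.le
        _ = _ := by ring
    exact h2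
  -- choice of Λ
  obtain ⟨Λ, hΛ⟩ : ∃ Λ : ℝ, Λ = max 1 (max ((3 + p) / ε) (max (-Real.log (κ ^ 3 * v1 / 512))
    (max (p * (-Real.log ((κ / 8) ^ 3 * v1)) / (ε / 3))
      (p * (Real.log (q.factorial) - Real.log ((κ / 8) ^ 3 * v1) - 3 * (q - 1) * Real.log η) / (ε / 3))))) := ⟨_, rfl⟩
  have hΛ1 : 1 ≤ Λ := by rw [hΛ]; exact le_max_left _ _
  have hΛ2 : (3 + p) / ε ≤ Λ := by rw [hΛ]; exact (le_max_left _ _).trans (le_max_right _ _)
  have hΛ3 : -Real.log (κ ^ 3 * v1 / 512) ≤ Λ := by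
    rw [hΛ]; exact (le_max_left _ _).trans ((le_max_right _ _).trans (le_max_right _ _))
  have hΛ4 : p * (-Real.log ((κ / 8) ^ 3 * v1)) / (ε / 3) ≤ Λ := by
    rw [hΛ]; exact (le_max_left _ _).trans ((le_max_right _ _).trans ((le_max_right _ _).trans (le_max_right _ _)))
  have hΛ5 : p * (Real.log (q.factorial) - Real.log ((κ / 8) ^ 3 * v1) - 3 * (q - 1) * Real.log η) / (ε / 3) ≤ Λ := by
    rw [hΛ]; exact (le_max_right _ _).trans ((le_max_right _ _).trans ((le_max_right _ _).trans (le_max_right _ _)))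

  have hΛ0 : 0 < Λ := by linarith
  obtain ⟨δ, hδdef⟩ : ∃ δ : ℝ, δ = dl Λ := ⟨_, rfl⟩
  have hδ : 0 < δ := by rw [hδdef]; exact dl_pos Λ
  have hδκ : 8 * δ ≤ κ := by rw [hδdef]; exact dl_le hκ0 hΛ3
  have hδ1 : δ ≤ 1/8 := by linarith
  have hδΛ : δ ^ 3 * v1 = Real.exp (-Λ) := by rw [hδdef]; exact dl_cube Λ
  -- the ranges
  obtain ⟨θl, hθl⟩ : ∃ θl : ℝ, θl = Λ * (2 / (p * q) - 1 / (8 * p * q ^ 2)) := ⟨_, rfl⟩
  obtain ⟨θh, hθh⟩ : ∃ θh : ℝ, θh = Λ * (2 / (p * q) + 1 / (8 * p * q ^ 2)) := ⟨_, rfl⟩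
  obtain ⟨μh, hμh⟩ : ∃ μh : ℝ, μh = Λ * (1 / q + 1 / (8 * q)) := ⟨_, rfl⟩
  have hx : 0 < 1 / (8 * p * (q:ℝ) ^ 2) := by positivity
  have hy : 1 / (8 * p * (q:ℝ) ^ 2) < 2 / (p * q) := by
    rw [div_lt_div_iff₀ (by positivity) (by positivity)]
    have : p * q * 1 < p * q * (16 * q) := by
      apply mul_lt_mul_of_pos_left _ (by positivity)
      linarith
    calc 1 * (p * q) = p * q * 1 := by ring
      _ < p * q * (16 * q) := this
      _ = _ := by ring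
  have hθl0 : 0 < θl := by rw [hθl]; exact mul_pos hΛ0 (by linarith)
  have hθlh : θl ≤ θh := by rw [hθl, hθh]; exact mul_le_mul_of_nonneg_left (by linarith) hΛ0.le
  have hθh0 : 0 < θh := by linarith
  have hμh0 : 0 ≤ μh := by rw [hμh]; positivity
  obtain ⟨Ca, hCa⟩ : ∃ Ca : ℝ, Ca = 32 / (δ / 4) ^ 3 := ⟨_, rfl⟩
  have hCa0 : 0 < Ca := by rw [hCa]; positivity
  obtain ⟨ρb, hρb⟩ : ∃ ρb : ℝ, ρb = Real.exp (θh * Ca + μh + 1) + 1 := ⟨_, rfl⟩
  have hρb0 : 0 < ρb := by rw [hρb]; positivity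
  obtain ⟨K, hKdef⟩ : ∃ K : ℝ, K = 16 * θh * Ca + 2 * (μh + θh * ρb) + 2 * Λ := ⟨_, rfl⟩
  have hK : 0 < K := by rw [hKdef]; positivity
  have hKa : 16 * θh * Ca ≤ K := by
    rw [hKdef]
    have : 0 ≤ 2 * (μh + θh * ρb) + 2 * Λ := by positivity
    linarith
  have hKb : 2 * Λ ≤ K := by
    rw [hKdef]
    have : 0 ≤ 16 * θh * Ca + 2 * (μh + θh * ρb) := by positivity
    linarith
  have hKc : μh + θh * ρb ≤ K / 2 := by
    rw [hKdef]
    have : 0 ≤ 16 * θh * Ca + 2 * Λ := by positivity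
    linarith
  let b : Base := mkBase hc hδ hδ1 hη hη1 hK
  have hbCa : b.Ca = Ca := by rw [hCa]; rfl
  have hbK : b.K = K := rfl
  let R : Rg b := ⟨θl, θh, μh, hθl0, hθlh, hμh0, by rw [hbCa, hbK]; exact hKa⟩
  have hRρ : R.ρb = ρb := by
    show Real.exp (θh * b.Ca + μh + 1) + 1 = ρb
    rw [hbCa, hρb]
  -- choice of B
  have hC6 := C6_pos R
  obtain ⟨B, hBgt⟩ := exists_nat_gt (max 2 (max (θh * R.C6) (θh * (3 * (q * p) ^ 2 + q * p / (2 * v1)) / (ε / 3 * Λ))))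
  have hB2r : (2:ℝ) < B := lt_of_le_of_lt (le_max_left _ _) hBgt
  have hBa : θh * R.C6 < B := lt_of_le_of_lt ((le_max_left _ _).trans (le_max_right _ _)) hBgt
  have hBb : θh * (3 * (q * p) ^ 2 + q * p / (2 * v1)) / (ε / 3 * Λ) < B := lt_of_le_of_lt ((le_max_right _ _).trans (le_max_right _ _)) hBgt
  have hB2 : 2 ≤ B := by exact_mod_cast hB2r.le
  have hB0 : (0:ℝ) < B := by linarith
  refine ⟨δ, η, K, hδ, hδ1, hη, hη1, hK, ⟨R, B, hB2, p, hp, p_lim, p_le, q, hq2, hqmax, δ, mkBase_SR hc hδ hδ1 hη hη1 hK,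
    η, hη, hη1, mkBase_ZR hc hδ hδ1 hη hη1 hK, w, hw, Λ, hΛ0, hδΛ, ε, hε, κ, hκ, hδκ, hKb, hθl, hθh, hμh, ?_, ?_, ?_, ?_, ?_⟩, rfl⟩
  · show μh + θh * R.ρb ≤ K / 2
    rw [hRρ]; exact hKc
  · show 2 + p + θh * (R.C6 / (B:ℝ) ^ 2) ≤ ε * Λ
    rw [div_le_iff₀ hε0] at hΛ2
    have h1 : θh * (R.C6 / (B:ℝ) ^ 2) ≤ 1 := by
      rw [← mul_div_assoc, div_le_one (by positivity)]
      nlinarith
    linarith
  · rw [div_le_iff₀ (by positivity)] at hΛ4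
    linarith
  · rw [div_le_iff₀ (by positivity)] at hΛ5
    linarith
  · show θh * (3 * (q * p) ^ 2 / (B:ℝ) ^ 4 + q * p / (2 * v1 * (B:ℝ) ^ 4)) ≤ ε / 3 * Λ
    rw [div_lt_iff₀ (by positivity)] at hBb
    have e : θh * (3 * (q * p) ^ 2 / (B:ℝ) ^ 4 + q * p / (2 * v1 * (B:ℝ) ^ 4)) = θh * (3 * (q * p) ^ 2 + q * p / (2 * v1)) / (B:ℝ) ^ 4 := by
      field_simp
    rw [e, div_le_iff₀ (by positivity)]
    have h1 : (B:ℝ) ≤ (B:ℝ) ^ 4 := le_self_pow₀ (by linarith) (by norm_num)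
    have h2 : 0 < ε / 3 * Λ := by positivity
    calc _ ≤ B * (ε / 3 * Λ) := hBb.le
      _ ≤ (B:ℝ) ^ 4 * (ε / 3 * Λ) := mul_le_mul_of_nonneg_right h1 h2.le
      _ = _ := by ring

/-- integrability of the short range part -/
theorem hint_of (b : Base) {M : ℝ} (hM : ∀ r, 0 < r → r < 2 → r ^ 2 * b.φ r ≤ M) :
    ∃ C : ℝ, 0 ≤ C ∧ ∀ z : Pt, ∫⁻ y : Pt, ENNReal.ofReal (b.φ (dist y z)) ≤ ENNReal.ofReal C := by
  have h1 : Integrable (fun x : Pt => b.φ ‖x‖) := by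
    rw [integrable_fun_norm_addHaar]
    have e1 : Module.finrank ℝ Pt - 1 = 2 := by rw [finrank_Pt]
    rw [e1]
    simp only [smul_eq_mul]
    have h2 : Ioi (0:ℝ) = Ioo 0 2 ∪ Ici 2 := (Ioo_union_Ici_eq_Ioi (by norm_num)).symm
    rw [h2]
    apply IntegrableOn.union
    · apply Measure.integrableOn_of_bounded (M := M)
      · simp
      · exact ((measurable_id.pow_const 2).mul b.meas).aestronglyMeasurable
      · filter_upwards [ae_restrict_mem measurableSet_Ioo] with r hr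
        rw [Real.norm_eq_abs, abs_of_nonneg (mul_nonneg (by positivity) (b.nonneg r))]
        exact hM r hr.1 hr.2
    · have : EqOn (fun y => y ^ 2 * b.φ y) (fun _ => 0) (Ici (2:ℝ)) := by
        intro y hy
        simp only
        rw [b.range y hy, mul_zero]
      rw [integrableOn_congr_fun this measurableSet_Ici]
      exact integrableOn_zero
  refine ⟨∫ x : Pt, b.φ ‖x‖, integral_nonneg fun x => b.nonneg _, fun z => le_of_eq ?_⟩
  rw [ofReal_integral_eq_lintegral_ofReal h1 (Eventually.of_forall fun x => b.nonneg _)]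
  have h2 := lintegral_sub_right_eq_self (μ := (volume : Measure Pt)) (fun x => ENNReal.ofReal (b.φ ‖x‖)) z
  rw [← h2]
  apply lintegral_congr
  intro y
  rw [dist_eq_norm]

end Crest.H5.PP
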