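import Mathlib

set_option autoImplicit false
set_option maxHeartbeats 400000
open MeasureTheory Set Filter Topology

namespace Crest.H5.PP

/-- supporting planes of log-sum-exp functionals -/
theorem exists_plane {Ω : Type*} [MeasurableSpace Ω] (ν : Measure Ω) [IsFiniteMeasure ν] {e0 D : ℝ} (he0 : 0 < e0)
    (o : Ω → Fin 3 → ℝ) (ho : ∀ k, Measurable (fun ω => o ω k)) (hoD : ∀ᵐ ω ∂ν, ∀ k, |o ω k| ≤ D) (hD : 0 ≤ D) (x : Fin 3 → ℝ) :
    ∃ g : Fin 3 → ℝ, (∀ k, |g k| ≤ D) ∧ ∀ y : Fin 3 → ℝ,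
      Real.log (e0 + ∫ ω, Real.exp (∑ k, x k * o ω k) ∂ν) + ∑ k, g k * (y k - x k) ≤
        Real.log (e0 + ∫ ω, Real.exp (∑ k, y k * o ω k) ∂ν) := by
  have hsm : ∀ z : Fin 3 → ℝ, Measurable (fun ω => ∑ k, z k * o ω k) := fun z =>
    Finset.measurable_sum _ fun k _ => (ho k).const_mul _
  have hbd : ∀ z : Fin 3 → ℝ, ∀ᵐ ω ∂ν, |∑ k, z k * o ω k| ≤ ∑ k, |z k| * D := by
    intro z
    filter_upwards [hoD] with ω hω
    refine (Finset.abs_sum_le_sum_abs _ _).trans (Finset.sum_le_sum fun k _ => ?_)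
    rw [abs_mul]
    exact mul_le_mul_of_nonneg_left (hω k) (abs_nonneg _)
  have hE : ∀ z : Fin 3 → ℝ, ∀ᵐ ω ∂ν, ‖Real.exp (∑ k, z k * o ω k)‖ ≤ Real.exp (∑ k, |z k| * D) := by
    intro z
    filter_upwards [hbd z] with ω hω
    rw [Real.norm_eq_abs, abs_of_pos (Real.exp_pos _), Real.exp_le_exp]
    exact (abs_le.mp hω).2
  have hint : ∀ z : Fin 3 → ℝ, Integrable (fun ω => Real.exp (∑ k, z k * o ω k)) ν := fun z =>
    Integrable.of_bound (Real.measurable_exp.comp (hsm z)).aestronglyMeasurable _ (hE z)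
  have hinto : ∀ k, Integrable (fun ω => o ω k * Real.exp (∑ j, x j * o ω j)) ν := by
    intro k
    refine Integrable.of_bound ((ho k).mul (Real.measurable_exp.comp (hsm x))).aestronglyMeasurable (D * Real.exp (∑ k, |x k| * D)) ?_
    filter_upwards [hoD, hE x] with ω h1 h2
    rw [norm_mul, Real.norm_eq_abs]
    exact mul_le_mul (h1 k) h2 (norm_nonneg _) hD
  set Z := e0 + ∫ ω, Real.exp (∑ k, x k * o ω k) ∂ν with hZ
  have hI0 : 0 ≤ ∫ ω, Real.exp (∑ k, x k * o ω k) ∂ν := integral_nonneg fun ω => (Real.exp_pos _).le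
  have hZ0 : 0 < Z := by linarith
  refine ⟨fun k => (∫ ω, o ω k * Real.exp (∑ j, x j * o ω j) ∂ν) / Z, ?_, ?_⟩
  · intro k
    rw [abs_div, abs_of_pos hZ0, div_le_iff₀ hZ0]
    calc |∫ ω, o ω k * Real.exp (∑ j, x j * o ω j) ∂ν| ≤ ∫ ω, D * Real.exp (∑ j, x j * o ω j) ∂ν := by
          rw [← Real.norm_eq_abs]
          refine norm_integral_le_of_norm_le ((hint x).const_mul D) ?_
          filter_upwards [hoD] with ω h1
          rw [norm_mul, Real.norm_eq_abs, Real.norm_eq_abs, abs_of_pos (Real.exp_pos _)]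
          exact mul_le_mul_of_nonneg_right (h1 k) (Real.exp_pos _).le
      _ = D * ∫ ω, Real.exp (∑ j, x j * o ω j) ∂ν := integral_const_mul _ _
      _ ≤ D * Z := mul_le_mul_of_nonneg_left (by linarith) hD
  · intro y
    set g : Fin 3 → ℝ := fun k => (∫ ω, o ω k * Real.exp (∑ j, x j * o ω j) ∂ν) / Z with hg
    set c := ∑ k, g k * (y k - x k) with hc
    have hgZ : ∀ k, ∫ ω, o ω k * Real.exp (∑ j, x j * o ω j) ∂ν = g k * Z := by
      intro k; rw [hg]; field_simp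
    have h1 : Real.exp c * ((1 - c) * ∫ ω, Real.exp (∑ k, x k * o ω k) ∂ν + ∑ k, (y k - x k) * (g k * Z)) ≤
        ∫ ω, Real.exp (∑ k, y k * o ω k) ∂ν := by
      have h2 : Real.exp c * ((1 - c) * ∫ ω, Real.exp (∑ k, x k * o ω k) ∂ν + ∑ k, (y k - x k) * (g k * Z)) =
          ∫ ω, Real.exp c * ((1 - c) * Real.exp (∑ k, x k * o ω k) + ∑ k, (y k - x k) * (o ω k * Real.exp (∑ j, x j * o ω j))) ∂ν := by
        rw [integral_const_mul, integral_add ((hint x).const_mul _) (integrable_finset_sum _ fun k _ => (hinto k).const_mul _),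
          integral_const_mul, integral_finset_sum _ (fun k _ => (hinto k).const_mul _)]
        congr 2
        refine Finset.sum_congr rfl fun k _ => ?_
        rw [integral_const_mul, hgZ]
      rw [h2]
      refine integral_mono ?_ (hint y) ?_
      · exact (((hint x).const_mul _).add (integrable_finset_sum _ fun k _ => (hinto k).const_mul _)).const_mul _
      · intro ω
        simp only
        have e1 : ∑ k, (y k - x k) * (o ω k * Real.exp (∑ j, x j * o ω j)) = (∑ k, (y k - x k) * o ω k) * Real.exp (∑ j, x j * o ω j) := by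
          rw [Finset.sum_mul]
          exact Finset.sum_congr rfl fun k _ => by ring
        have e2 : ∑ k, y k * o ω k = ∑ k, x k * o ω k + ∑ k, (y k - x k) * o ω k := by
          rw [← Finset.sum_add_distrib]
          exact Finset.sum_congr rfl fun k _ => by ring
        rw [e1, e2, Real.exp_add]
        set s := ∑ k, (y k - x k) * o ω k
        have h3 : Real.exp c * (1 + (s - c)) ≤ Real.exp s := by
          have := Real.add_one_le_exp (s - c)
          calc Real.exp c * (1 + (s - c)) ≤ Real.exp c * Real.exp (s - c) := mul_le_mul_of_nonneg_left (by linarith) (Real.exp_pos _).le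
            _ = Real.exp s := by rw [← Real.exp_add]; congr 1; ring
        have h4 := mul_le_mul_of_nonneg_left h3 (Real.exp_pos (∑ k, x k * o ω k)).le
        calc _ = Real.exp (∑ k, x k * o ω k) * (Real.exp c * (1 + (s - c))) := by ring
          _ ≤ _ := h4
    have h5 : Real.exp c * ((1 - c) * e0) ≤ e0 := by
      have h6 := Real.add_one_le_exp (-c)
      have h7 : Real.exp c * (1 - c) ≤ 1 := by
        calc Real.exp c * (1 - c) ≤ Real.exp c * Real.exp (-c) := mul_le_mul_of_nonneg_left (by linarith) (Real.exp_pos _).le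
          _ = 1 := by rw [← Real.exp_add]; simp
      nlinarith
    have h8 : ∑ k, (y k - x k) * (g k * Z) = c * Z := by
      rw [hc, Finset.sum_mul]
      exact Finset.sum_congr rfl fun k _ => by ring
    have h9 : Real.exp c * Z ≤ e0 + ∫ ω, Real.exp (∑ k, y k * o ω k) ∂ν := by
      rw [h8] at h1
      have : Real.exp c * Z = Real.exp c * ((1 - c) * e0) + Real.exp c * ((1 - c) * ∫ ω, Real.exp (∑ k, x k * o ω k) ∂ν + c * Z) := by
        rw [hZ]; ring
      linarith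
    have h10 := Real.log_le_log (by positivity) h9
    rw [Real.log_mul (Real.exp_pos _).ne' hZ0.ne', Real.log_exp] at h10
    linarith

/-- the ultrafilter used for limits -/
noncomputable abbrev UU : Ultrafilter ℕ := hyperfilter ℕ

theorem UU_le : (UU : Filter ℕ) ≤ atTop := Nat.hyperfilter_le_atTop

theorem exists_ulim (f : ℕ → ℝ) (C : ℝ) (h : ∀ᶠ n in (UU : Filter ℕ), |f n| ≤ C) :
    ∃ y, |y| ≤ C ∧ Tendsto f UU (𝓝 y) := by
  have h1 : ((UU.map f : Ultrafilter ℝ) : Filter ℝ) ≤ 𝓟 (Set.Icc (-C) C) := by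
    rw [Ultrafilter.coe_map, le_principal_iff]
    show f ⁻¹' (Set.Icc (-C) C) ∈ (UU : Filter ℕ)
    filter_upwards [h] with n hn
    exact ⟨(abs_le.mp hn).1, (abs_le.mp hn).2⟩
  obtain ⟨y, hy, hle⟩ := (isCompact_Icc).ultrafilter_le_nhds (UU.map f) h1
  exact ⟨y, abs_le.mpr ⟨hy.1, hy.2⟩, hle⟩

/-- a function with supporting planes of bounded slope at every point -/
def Pl (C : ℝ) (P : (Fin 3 → ℝ) → ℝ) : Prop :=
  ∀ x, ∃ g : Fin 3 → ℝ, (∀ k, |g k| ≤ C) ∧ ∀ y, P x + ∑ k, g k * (y k - x k) ≤ P y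

theorem Pl.lip {C : ℝ} {P : (Fin 3 → ℝ) → ℝ} (h : Pl C P) (x y : Fin 3 → ℝ) : |P y - P x| ≤ C * ∑ k, |y k - x k| := by
  have key : ∀ x y : Fin 3 → ℝ, P x - P y ≤ C * ∑ k, |y k - x k| := by
    intro x y
    obtain ⟨g, hg, hp⟩ := h x
    have h1 := hp y
    have h2 : |∑ k, g k * (y k - x k)| ≤ C * ∑ k, |y k - x k| := by
      rw [Finset.mul_sum]
      refine (Finset.abs_sum_le_sum_abs _ _).trans (Finset.sum_le_sum fun k _ => ?_)
      rw [abs_mul]
      exact mul_le_mul_of_nonneg_right (hg k) (abs_nonneg _)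
    have h3 := (abs_le.mp h2).1
    linarith
  rw [abs_le]
  have h1 := key x y
  have h2 := key y x
  simp only [abs_sub_comm (x _) (y _)] at h2
  constructor <;> linarith

theorem Pl.continuous {C : ℝ} {P : (Fin 3 → ℝ) → ℝ} (h : Pl C P) : Continuous P := by
  rw [continuous_iff_continuousAt]
  intro x
  have h1 : Tendsto (fun y : Fin 3 → ℝ => C * ∑ k, |y k - x k|) (𝓝 x) (𝓝 0) := by
    have : Continuous (fun y : Fin 3 → ℝ => C * ∑ k, |y k - x k|) := by fun_prop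
    have h2 := this.tendsto x
    simpa using h2
  rw [ContinuousAt, tendsto_iff_dist_tendsto_zero]
  refine squeeze_zero (fun _ => dist_nonneg) (fun y => ?_) h1
  rw [Real.dist_eq]
  exact h.lip x y

theorem Pl.convexOn {C : ℝ} {P : (Fin 3 → ℝ) → ℝ} (h : Pl C P) : ConvexOn ℝ univ P := by
  refine ⟨convex_univ, fun x _ y _ a b ha hb hab => ?_⟩
  obtain ⟨g, _, hp⟩ := h (a • x + b • y)
  have h1 := hp x
  have h2 := hp y
  have e : a * ∑ k, g k * (x k - (a • x + b • y) k) + b * ∑ k, g k * (y k - (a • x + b • y) k) = 0 := by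
    rw [Finset.mul_sum, Finset.mul_sum, ← Finset.sum_add_distrib]
    apply Finset.sum_eq_zero
    intro k _
    simp only [Pi.add_apply, Pi.smul_apply, smul_eq_mul]
    have hb' : b = 1 - a := by linarith
    rw [hb']; ring
  have q1 := mul_le_mul_of_nonneg_left h1 ha
  have q2 := mul_le_mul_of_nonneg_left h2 hb
  simp only [smul_eq_mul]
  have : P (a • x + b • y) = a * P (a • x + b • y) + b * P (a • x + b • y) := by
    rw [← add_mul, hab, one_mul]
  rw [this]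
  linarith

/-- ultralimits of functions with supporting planes -/
theorem exists_ulim_Pl {C C0 : ℝ} (F : ℕ → (Fin 3 → ℝ) → ℝ) (hF : ∀ᶠ M in (UU : Filter ℕ), Pl C (F M))
    (h0 : ∀ᶠ M in (UU : Filter ℕ), |F M 0| ≤ C0) :
    ∃ P : (Fin 3 → ℝ) → ℝ, (∀ x, Tendsto (fun M => F M x) UU (𝓝 (P x))) ∧ Pl C P := by
  have hb : ∀ x : Fin 3 → ℝ, ∀ᶠ M in (UU : Filter ℕ), |F M x| ≤ C0 + C * ∑ k, |x k| := by
    intro x
    filter_upwards [hF, h0] with M h1 h2
    have h3 := h1.lip 0 x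
    simp only [Pi.zero_apply, sub_zero] at h3
    have : |F M x| ≤ |F M 0| + |F M x - F M 0| := by
      have := abs_add_le (F M 0) (F M x - F M 0)
      rwa [add_sub_cancel] at this
    linarith
  choose P hP1 hP2 using fun x => exists_ulim (fun M => F M x) _ (hb x)
  refine ⟨P, hP2, ?_⟩
  intro x
  -- gradients
  have hg : ∀ M, ∃ g : Fin 3 → ℝ, Pl C (F M) → ((∀ k, |g k| ≤ C) ∧ ∀ y, F M x + ∑ k, g k * (y k - x k) ≤ F M y) := by
    intro M
    by_cases h : Pl C (F M)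
    · obtain ⟨g, hg⟩ := h x
      exact ⟨g, fun _ => hg⟩
    · exact ⟨0, fun h' => absurd h' h⟩
  choose g hg using hg
  have hgk : ∀ k, ∀ᶠ M in (UU : Filter ℕ), |g M k| ≤ C := by
    intro k
    filter_upwards [hF] with M h1
    exact (hg M h1).1 k
  choose G hG1 hG2 using fun k => exists_ulim (fun M => g M k) _ (hgk k)
  refine ⟨G, hG1, ?_⟩
  intro y
  have t1 : Tendsto (fun M => F M x + ∑ k, g M k * (y k - x k)) UU (𝓝 (P x + ∑ k, G k * (y k - x k))) := by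
    refine (hP2 x).add (tendsto_finset_sum _ fun k _ => ?_)
    exact (hG2 k).mul_const _
  refine le_of_tendsto_of_tendsto t1 (hP2 y) ?_
  filter_upwards [hF] with M h1
  exact (hg M h1).2 y

/-- the triple point lemma -/
theorem triple_point (f0 f1 f2 : ℝ × ℝ → ℝ) (c0 : Continuous f0) (c1 : Continuous f1) (c2 : Continuous f2)
    (v0 : ConvexOn ℝ univ f0) (v1 : ConvexOn ℝ univ f1) (v2 : ConvexOn ℝ univ f2) {ε a : ℝ} (hε : 0 < ε) (ha : 18 * ε ≤ a)
    (u0 : ∀ c : ℝ × ℝ, |c.1| ≤ a → |c.2| ≤ a → f0 c ≤ ε) (u1 : ∀ c : ℝ × ℝ, |c.1| ≤ a → |c.2| ≤ a → f1 c ≤ c.1 + ε)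
    (u2 : ∀ c : ℝ × ℝ, |c.1| ≤ a → |c.2| ≤ a → f2 c ≤ c.2 + ε)
    (l0 : ∀ c : ℝ × ℝ, |c.1| ≤ a → |c.2| ≤ a → -ε ≤ max (f0 c) (max (f1 c) (f2 c)))
    (l1 : ∀ c : ℝ × ℝ, |c.1| ≤ a → |c.2| ≤ a → c.1 - ε ≤ max (f0 c) (max (f1 c) (f2 c)))
    (l2 : ∀ c : ℝ × ℝ, |c.1| ≤ a → |c.2| ≤ a → c.2 - ε ≤ max (f0 c) (max (f1 c) (f2 c))) :
    ∃ c : ℝ × ℝ, |c.1| ≤ 6 * ε ∧ |c.2| ≤ 6 * ε ∧ f0 c = f1 c ∧ f1 c = f2 c := by
  set mx : ℝ × ℝ → ℝ := fun c => max (f0 c) (max (f1 c) (f2 c)) with hmx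
  have hmxc : Continuous mx := c0.max (c1.max c2)
  set Ψ : ℝ × ℝ → ℝ := fun c => mx c - (c.1 + c.2) / 3 with hΨ
  have hΨc : Continuous Ψ := by
    refine hmxc.sub ?_
    fun_prop
  have ha0 : 0 ≤ a := by linarith
  have hK : IsCompact (Set.Icc (-a) a ×ˢ Set.Icc (-a) a) := isCompact_Icc.prod isCompact_Icc
  obtain ⟨c, hcK, hmin⟩ := hK.exists_isMinOn ⟨(0, 0), by simp [ha0]⟩ hΨc.continuousOn
  have hca1 : |c.1| ≤ a := abs_le.mpr ⟨hcK.1.1, hcK.1.2⟩
  have hca2 : |c.2| ≤ a := abs_le.mpr ⟨hcK.2.1, hcK.2.2⟩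
  have h00 : Ψ c ≤ ε := by
    have h1 := hmin (show ((0:ℝ), (0:ℝ)) ∈ Set.Icc (-a) a ×ˢ Set.Icc (-a) a by simp [ha0])
    have h2 : Ψ c ≤ Ψ (0, 0) := h1
    refine h2.trans ?_
    have e0 := u0 (0, 0) (by simpa using ha0) (by simpa using ha0)
    have e1 := u1 (0, 0) (by simpa using ha0) (by simpa using ha0)
    have e2 := u2 (0, 0) (by simpa using ha0) (by simpa using ha0)
    simp only [zero_add] at e1 e2
    have : mx (0, 0) ≤ ε := max_le e0 (max_le e1 e2)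
    simp only [hΨ]
    linarith
  have m0 := l0 c hca1 hca2
  have m1 := l1 c hca1 hca2
  have m2 := l2 c hca1 hca2
  change -ε ≤ mx c at m0
  change c.1 - ε ≤ mx c at m1
  change c.2 - ε ≤ mx c at m2
  have h00' : mx c - (c.1 + c.2) / 3 ≤ ε := h00
  have hc1 : |c.1| ≤ 6 * ε := by
    rw [abs_le]; constructor <;> linarith
  have hc2 : |c.2| ≤ 6 * ε := by
    rw [abs_le]; constructor <;> linarith
  obtain ⟨b1, b2⟩ := abs_le.mp hc1
  obtain ⟨b3, b4⟩ := abs_le.mp hc2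
  set h := 12 * ε with hh
  have hh0 : 0 < h := by positivity
  -- generic convexity step
  have step : ∀ (f : ℝ × ℝ → ℝ), ConvexOn ℝ univ f → f c ≤ mx c → ∀ (d : ℝ × ℝ) (L : ℝ),
      f (c + h • d) ≤ mx c + 2 * ε + h * L → ∀ s : ℝ, 0 < s → s ≤ h → f (c + s • d) ≤ mx c + s * (L + 1/6) := by
    intro f hf hfc d L hL s hs hsh
    have hr0 : 0 ≤ s / h := by positivity
    have hr1 : s / h ≤ 1 := by rw [div_le_one hh0]; exact hsh
    have h1 := hf.2 (mem_univ c) (mem_univ (c + h • d)) (show 0 ≤ 1 - s / h by linarith) hr0 (by ring)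
    have e1 : (1 - s / h) • c + (s / h) • (c + h • d) = c + s • d := by
      rw [smul_add, smul_smul, div_mul_cancel₀ _ hh0.ne', ← add_assoc, ← add_smul]
      simp
    rw [e1] at h1
    simp only [smul_eq_mul] at h1
    have h2 : (1 - s / h) * f c ≤ (1 - s / h) * mx c := mul_le_mul_of_nonneg_left hfc (by linarith)
    have h3 := mul_le_mul_of_nonneg_left hL hr0
    have e2 : (1 - s / h) * mx c + s / h * (mx c + 2 * ε + h * L) = mx c + s * (L + 1/6) := by
      rw [hh]; field_simp; ring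
    linarith
  have hf0 : f0 c ≤ mx c := le_max_left _ _
  have hf1 : f1 c ≤ mx c := (le_max_left _ _).trans (le_max_right _ _)
  have hf2 : f2 c ≤ mx c := (le_max_right _ _).trans (le_max_right _ _)
  have hcd : ∀ d : ℝ × ℝ, |d.1| ≤ 1 → |d.2| ≤ 1 → ∀ s : ℝ, 0 < s → s ≤ h → |(c + s • d).1| ≤ a ∧ |(c + s • d).2| ≤ a := by
    intro d hd1 hd2 s hs hsh
    obtain ⟨q1, q2⟩ := abs_le.mp hd1
    obtain ⟨q3, q4⟩ := abs_le.mp hd2
    have e1 : (c + s • d).1 = c.1 + s * d.1 := rfl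
    have e2 : (c + s • d).2 = c.2 + s * d.2 := rfl
    rw [e1, e2, abs_le, abs_le]
    refine ⟨⟨?_, ?_⟩, ⟨?_, ?_⟩⟩ <;> nlinarith
  have hmin' : ∀ d : ℝ × ℝ, |d.1| ≤ 1 → |d.2| ≤ 1 → ∀ s : ℝ, 0 < s → s ≤ h → mx c ≤ mx (c + s • d) - s * (d.1 + d.2) / 3 := by
    intro d hd1 hd2 s hs hsh
    obtain ⟨q1, q2⟩ := hcd d hd1 hd2 s hs hsh
    have h1 : Ψ c ≤ Ψ (c + s • d) := hmin (show c + s • d ∈ Set.Icc (-a) a ×ˢ Set.Icc (-a) a from
      ⟨⟨(abs_le.mp q1).1, (abs_le.mp q1).2⟩, ⟨(abs_le.mp q2).1, (abs_le.mp q2).2⟩⟩)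
    have e1 : Ψ (c + s • d) = mx (c + s • d) - ((c.1 + s * d.1) + (c.2 + s * d.2)) / 3 := rfl
    have e2 : Ψ c = mx c - (c.1 + c.2) / 3 := rfl
    rw [e1, e2] at h1
    linarith
  -- continuity for an inactive function
  have inact : ∀ (f : ℝ × ℝ → ℝ), Continuous f → f c < mx c → ∀ d : ℝ × ℝ, ∃ s : ℝ, 0 < s ∧ s ≤ h ∧ f (c + s • d) < mx c - s := by
    intro f hf hlt d
    have ht : Tendsto (fun s : ℝ => f (c + s • d) + s) (𝓝[>] 0) (𝓝 (f (c + (0:ℝ) • d) + 0)) := by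
      have : Continuous (fun s : ℝ => f (c + s • d) + s) := by fun_prop
      exact (this.tendsto 0).mono_left nhdsWithin_le_nhds
    rw [zero_smul, add_zero, add_zero] at ht
    have e1 := ht.eventually (gt_mem_nhds hlt)
    have e2 : ∀ᶠ s : ℝ in 𝓝[>] 0, s < h := nhdsWithin_le_nhds (gt_mem_nhds hh0)
    have e3 : ∀ᶠ s : ℝ in 𝓝[>] 0, 0 < s := self_mem_nhdsWithin
    obtain ⟨s, a1, a2, a3⟩ := (e1.and (e2.and e3)).exists
    exact ⟨s, a3, a2.le, by linarith⟩
  have hh' : h ≤ h := le_refl h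
  refine ⟨c, hc1, hc2, ?_⟩
  have A2 : f2 c = mx c := by
    by_contra hne
    have hlt : f2 c < mx c := lt_of_le_of_ne hf2 hne
    obtain ⟨s, hs0, hsh, hs⟩ := inact f2 c2 hlt (0, 1)
    obtain ⟨q1, q2⟩ := hcd (0, 1) (by simp) (by simp) h hh0 hh'
    have s0 := step f0 v0 hf0 (0, 1) 0 (by have := u0 _ q1 q2; linarith) s hs0 hsh
    have s1 := step f1 v1 hf1 (0, 1) 0 (by
      have := u1 _ q1 q2
      have e : (c + h • ((0:ℝ), (1:ℝ))).1 = c.1 := by simp
      rw [e] at this; linarith) s hs0 hsh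
    have hm := hmin' (0, 1) (by simp) (by simp) s hs0 hsh
    have : mx (c + s • ((0:ℝ), (1:ℝ))) ≤ mx c + s * (0 + 1/6) := max_le s0 (max_le s1 (by linarith))
    simp only at hm
    linarith
  have A1 : f1 c = mx c := by
    by_contra hne
    have hlt : f1 c < mx c := lt_of_le_of_ne hf1 hne
    obtain ⟨s, hs0, hsh, hs⟩ := inact f1 c1 hlt (1, 0)
    obtain ⟨q1, q2⟩ := hcd (1, 0) (by simp) (by simp) h hh0 hh'
    have s0 := step f0 v0 hf0 (1, 0) 0 (by have := u0 _ q1 q2; linarith) s hs0 hsh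
    have s2 := step f2 v2 hf2 (1, 0) 0 (by
      have := u2 _ q1 q2
      have e : (c + h • ((1:ℝ), (0:ℝ))).2 = c.2 := by simp
      rw [e] at this; linarith) s hs0 hsh
    have hm := hmin' (1, 0) (by simp) (by simp) s hs0 hsh
    have : mx (c + s • ((1:ℝ), (0:ℝ))) ≤ mx c + s * (0 + 1/6) := max_le s0 (max_le (by linarith) s2)
    simp only at hm
    linarith
  have A0 : f0 c = mx c := by
    by_contra hne
    have hlt : f0 c < mx c := lt_of_le_of_ne hf0 hne
    obtain ⟨s, hs0, hsh, hs⟩ := inact f0 c0 hlt (-1, -1)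
    obtain ⟨q1, q2⟩ := hcd (-1, -1) (by simp) (by simp) h hh0 hh'
    have s1 := step f1 v1 hf1 (-1, -1) (-1) (by
      have := u1 _ q1 q2
      have e : (c + h • ((-1:ℝ), (-1:ℝ))).1 = c.1 - h := by simp; ring
      rw [e] at this; linarith) s hs0 hsh
    have s2 := step f2 v2 hf2 (-1, -1) (-1) (by
      have := u2 _ q1 q2
      have e : (c + h • ((-1:ℝ), (-1:ℝ))).2 = c.2 - h := by simp; ring
      rw [e] at this; linarith) s hs0 hsh
    have hm := hmin' (-1, -1) (by simp) (by simp) s hs0 hsh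
    have : mx (c + s • ((-1:ℝ), (-1:ℝ))) ≤ mx c + s * (-1 + 1/6) := max_le (by linarith) (max_le s1 s2)
    simp only at hm
    linarith
  exact ⟨A0.trans A1.symm, A1.trans A2.symm⟩

end Crest.H5.PP
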