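import Crest.Agent.H5.PP.Trial
import Crest.Agent.H5.PP.Soft

set_option autoImplicit false
set_option maxHeartbeats 400000
open MeasureTheory ENNReal Set Metric

namespace Crest.H5.PP

variable {b : Base}

/-- occupation classes -/
def ci (p q V : ℝ) (i : Fin 3) : Set ℕ :=
  if i = 0 then {N | (N:ℝ) < p / 2 * V}
  else if i = 1 then {N | p / 2 * V ≤ N ∧ (N:ℝ) < (q + 1) * p / 2 * V}
  else {N | (q + 1) * p / 2 * V ≤ N ∧ p / 2 * V ≤ N}

theorem ci_cover (p q V : ℝ) (N : ℕ) : ∃ i, N ∈ ci p q V i := by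
  by_cases h0 : (N:ℝ) < p / 2 * V
  · exact ⟨0, by simp [ci, h0]⟩
  · push Not at h0
    by_cases h1 : (N:ℝ) < (q + 1) * p / 2 * V
    · exact ⟨1, by simp [ci, h0, h1]⟩
    · push Not at h1
      exact ⟨2, by simp [ci, h0, h1]⟩

/-- observables -/
noncomputable def ob (b : Base) (B M : ℕ) (ω : Cfg) : Fin 3 → ℝ := ![-ps b.φ ω.2, (ω.1 : ℝ), Rn B M (Ln B M) ω.2]

theorem sum_ob (b : Base) (B M : ℕ) (x : Fin 3 → ℝ) (ω : Cfg) :
    ∑ k, x k * ob b B M ω k = Wc b B (x 0) (x 1) (x 2) M ω := by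
  rw [Wc_eq, Fin.sum_univ_three]
  simp [ob]

theorem measurable_ob (b : Base) (B M : ℕ) (k : Fin 3) : Measurable (fun ω => ob b B M ω k) := by
  fin_cases k
  · exact (measurable_psc b.meas).neg
  · exact measurable_cardc
  · exact measurable_Rnc B M _

theorem measurableSet_ci (p q V : ℝ) (i : Fin 3) : MeasurableSet {ω : Cfg | ω.1 ∈ ci p q V i} := by
  have : Measurable (fun ω : Cfg => ω.1 ∈ ci p q V i) := by
    apply measurable_cfg
    intro N
    show Measurable (fun _ : Fin N → Pt => N ∈ ci p q V i)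
    exact measurable_const
  exact this.setOf

/-- the class measures -/
noncomputable def nu (R : Rg b) (B : ℕ) (p q : ℝ) (M : ℕ) (i : Fin 3) : Measure Cfg :=
  (mS (Ln B M)).restrict (Gd R B M ∩ {ω : Cfg | ω.1 ∈ ci p q ((Ln B M : ℝ) ^ 3) i})

theorem mS_univ {S : ℝ} (hS : 0 ≤ S) : mS S univ = ENNReal.ofReal (Real.exp (S ^ 3)) := by
  have h1 := lint_exp_card hS 0
  simp only [zero_mul, Real.exp_zero, ENNReal.ofReal_one, lintegral_const, one_mul] at h1
  exact h1

theorem finite_nu (R : Rg b) (B : ℕ) (p q : ℝ) (M : ℕ) (i : Fin 3) : IsFiniteMeasure (nu R B p q M i) := by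
  constructor
  unfold nu
  refine (Measure.restrict_apply_le _ _).trans_lt ?_
  rw [mS_univ (by positivity)]
  exact ENNReal.ofReal_lt_top

noncomputable def Rg.Cg (R : Rg b) : ℝ := R.CE + R.ρb + R.ρb ^ 2 / 2 + R.C6

theorem Cg_pos (R : Rg b) : 0 < R.Cg := by
  have := CE_pos R
  have := ρb_pos R
  have := C6_pos R
  unfold Rg.Cg; positivity

theorem ob_bound (R : Rg b) {B : ℕ} (hB : 2 ≤ B) (p q : ℝ) (M : ℕ) (i : Fin 3) :
    ∀ᵐ ω ∂(nu R B p q M i), ∀ k, |ob b B M ω k| ≤ R.Cg * (Ln B M : ℝ) ^ 3 := by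
  have hms : MeasurableSet (Gd R B M ∩ {ω : Cfg | ω.1 ∈ ci p q ((Ln B M : ℝ) ^ 3) i}) :=
    (measurableSet_Gd R B M).inter (measurableSet_ci _ _ _ _)
  have hLM : (0:ℝ) < Ln B M := by exact_mod_cast Ln_pos hB M
  have hBr : (2:ℝ) ≤ B := by exact_mod_cast hB
  have hCE := CE_pos R
  have hρ := ρb_pos R
  have hC6 := C6_pos R
  unfold nu
  filter_upwards [ae_restrict_mem hms] with ω hω k
  obtain ⟨⟨hE, hN, hR⟩, _⟩ := hω
  set V := (Ln B M : ℝ) ^ 3 with hV
  have hV0 : 0 < V := by positivity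
  have hE0 := ps_φ_nonneg b ω.2
  have hR0 := Rn_nonneg hB M hLM.le ω.2
  have hN0 : (0:ℝ) ≤ ω.1 := by positivity
  have c1 : R.CE * V ≤ R.Cg * V := by
    apply mul_le_mul_of_nonneg_right _ hV0.le
    unfold Rg.Cg
    have : 0 ≤ R.ρb ^ 2 / 2 := by positivity
    linarith
  have c2 : R.ρb * V ≤ R.Cg * V := by
    apply mul_le_mul_of_nonneg_right _ hV0.le
    unfold Rg.Cg
    have : 0 ≤ R.ρb ^ 2 / 2 := by positivity
    linarith
  fin_cases k
  · show |-ps b.φ ω.2| ≤ _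
    rw [abs_neg, abs_of_nonneg hE0]
    linarith
  · show |(ω.1:ℝ)| ≤ _
    rw [abs_of_nonneg hN0]
    linarith
  · show |Rn B M (Ln B M) ω.2| ≤ _
    rw [abs_of_nonneg hR0]
    refine hR.trans ?_
    have h1 : (ω.1 : ℝ) ^ 2 / (2 * V) ≤ R.ρb ^ 2 / 2 * V := by
      rw [div_le_iff₀ (by positivity)]
      calc (ω.1 : ℝ) ^ 2 ≤ (R.ρb * V) ^ 2 := by gcongr
        _ = _ := by ring
    have h2 : R.C6 / (B:ℝ) ^ 2 * V ≤ R.C6 * V := by
      apply mul_le_mul_of_nonneg_right _ hV0.le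
      rw [div_le_iff₀ (by positivity)]
      have : (1:ℝ) ≤ (B:ℝ) ^ 2 := one_le_pow₀ (by linarith)
      nlinarith
    have e : R.Cg * V = R.CE * V + R.ρb * V + R.ρb ^ 2 / 2 * V + R.C6 * V := by unfold Rg.Cg; ring
    rw [e]
    have : 0 ≤ R.CE * V := by positivity
    have : 0 ≤ R.ρb * V := by positivity
    linarith

/-- class free energies (regularised by `exp (-K' V)`) -/
noncomputable def FF (R : Rg b) (B : ℕ) (p q K' : ℝ) (i : Fin 3) (M : ℕ) (x : Fin 3 → ℝ) : ℝ :=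
  Real.log (Real.exp (-K' * (Ln B M : ℝ) ^ 3) + ∫ ω, Real.exp (∑ k, x k * ob b B M ω k) ∂(nu R B p q M i)) / (Ln B M : ℝ) ^ 3

theorem FF_Pl (R : Rg b) {B : ℕ} (hB : 2 ≤ B) (p q K' : ℝ) (i : Fin 3) (M : ℕ) : Pl R.Cg (FF R B p q K' i M) := by
  have hfin := finite_nu R B p q M i
  have hLM : (0:ℝ) < Ln B M := by exact_mod_cast Ln_pos hB M
  set V := (Ln B M : ℝ) ^ 3 with hV
  have hV0 : 0 < V := by positivity
  have hCg := Cg_pos R
  intro x
  obtain ⟨g, hg, hp⟩ := exists_plane (nu R B p q M i) (Real.exp_pos (-K' * V)) (ob b B M) (measurable_ob b B M)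
    (ob_bound R hB p q M i) (by positivity) x
  refine ⟨fun k => g k / V, ?_, ?_⟩
  · intro k
    rw [abs_div, abs_of_pos hV0, div_le_iff₀ hV0]
    exact hg k
  · intro y
    have h1 := hp y
    unfold FF
    rw [← hV]
    have e : ∑ k, g k / V * (y k - x k) = (∑ k, g k * (y k - x k)) / V := by
      rw [Finset.sum_div]
      exact Finset.sum_congr rfl fun k _ => by ring
    rw [e, ← add_div]
    gcongr

theorem FF_ge (R : Rg b) {B : ℕ} (hB : 2 ≤ B) (p q K' : ℝ) (i : Fin 3) (M : ℕ) (x : Fin 3 → ℝ) :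
    -K' ≤ FF R B p q K' i M x := by
  have hLM : (0:ℝ) < Ln B M := by exact_mod_cast Ln_pos hB M
  have hI0 : 0 ≤ ∫ ω, Real.exp (∑ k, x k * ob b B M ω k) ∂(nu R B p q M i) := integral_nonneg fun ω => (Real.exp_pos _).le
  unfold FF
  rw [le_div_iff₀ (by positivity)]
  calc -K' * (Ln B M : ℝ) ^ 3 = Real.log (Real.exp (-K' * (Ln B M : ℝ) ^ 3)) := (Real.log_exp _).symm
    _ ≤ _ := Real.log_le_log (Real.exp_pos _) (by linarith)

theorem FF_zero (R : Rg b) {B : ℕ} (hB : 2 ≤ B) (p q : ℝ) {K' : ℝ} (hK' : 0 ≤ K') (i : Fin 3) (M : ℕ) :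
    |FF R B p q K' i M 0| ≤ K' + 2 := by
  have hfin := finite_nu R B p q M i
  have hLM : (4:ℝ) ≤ Ln B M := by exact_mod_cast Ln_ge hB M
  set V := (Ln B M : ℝ) ^ 3 with hV
  have hV1 : 1 ≤ V := one_le_pow₀ (by linarith)
  rw [abs_le]
  constructor
  · have := FF_ge R hB p q K' i M 0
    linarith
  · unfold FF
    rw [← hV]
    simp only [Pi.zero_apply, zero_mul, Finset.sum_const_zero, Real.exp_zero, integral_const, smul_eq_mul, mul_one]
    have h1 : (nu R B p q M i).real univ ≤ Real.exp V := by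
      unfold Measure.real nu
      have h2 : (mS (Ln B M)).restrict (Gd R B M ∩ {ω : Cfg | ω.1 ∈ ci p q ((Ln B M : ℝ) ^ 3) i}) univ ≤ ENNReal.ofReal (Real.exp V) := by
        rw [hV, ← mS_univ (by positivity)]
        exact Measure.restrict_apply_le _ _
      have h3 := ENNReal.toReal_mono ENNReal.ofReal_ne_top h2
      rwa [ENNReal.toReal_ofReal (Real.exp_pos _).le] at h3
    have h2 : Real.exp (-K' * V) ≤ Real.exp V := Real.exp_le_exp.mpr (by nlinarith)
    have h3 : Real.exp (-K' * V) + (nu R B p q M i).real univ ≤ Real.exp (2 * V) := by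
      have h4 : 2 * Real.exp V ≤ Real.exp V * Real.exp V := by
        have := Real.add_one_le_exp V
        nlinarith [Real.exp_pos V]
      have h5 : Real.exp (2 * V) = Real.exp V * Real.exp V := by rw [two_mul, Real.exp_add]
      linarith
    have h4 : 0 ≤ (nu R B p q M i).real univ := measureReal_nonneg
    rw [div_le_iff₀ (by linarith)]
    calc Real.log (Real.exp (-K' * V) + (nu R B p q M i).real univ) ≤ Real.log (Real.exp (2 * V)) :=
          Real.log_le_log (by have := Real.exp_pos (-K' * V); linarith) h3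
      _ = 2 * V := Real.log_exp _
      _ ≤ _ := by nlinarith

/-- the limiting class pressures -/
theorem exists_PP (R : Rg b) {B : ℕ} (hB : 2 ≤ B) (p q : ℝ) {K' : ℝ} (hK' : 0 ≤ K') (i : Fin 3) :
    ∃ P : (Fin 3 → ℝ) → ℝ, (∀ x, Filter.Tendsto (fun M => FF R B p q K' i M x) UU (nhds (P x))) ∧ Pl R.Cg P :=
  exists_ulim_Pl _ (Filter.Eventually.of_forall fun M => FF_Pl R hB p q K' i M)
    (Filter.Eventually.of_forall fun M => FF_zero R hB p q hK' i M)

theorem integrable_ob (R : Rg b) {B : ℕ} (hB : 2 ≤ B) (p q : ℝ) (M : ℕ) (i : Fin 3) (x : Fin 3 → ℝ) :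
    Integrable (fun ω => Real.exp (∑ k, x k * ob b B M ω k)) (nu R B p q M i) := by
  have hfin := finite_nu R B p q M i
  have hsm : Measurable (fun ω => ∑ k, x k * ob b B M ω k) :=
    Finset.measurable_sum _ fun k _ => (measurable_ob b B M k).const_mul _
  refine Integrable.of_bound (Real.measurable_exp.comp hsm).aestronglyMeasurable
    (Real.exp (∑ k, |x k| * (R.Cg * (Ln B M : ℝ) ^ 3))) ?_
  filter_upwards [ob_bound R hB p q M i] with ω hω
  rw [Real.norm_eq_abs, abs_of_pos (Real.exp_pos _), Real.exp_le_exp]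
  refine (le_abs_self _).trans ((Finset.abs_sum_le_sum_abs _ _).trans (Finset.sum_le_sum fun k _ => ?_))
  rw [abs_mul]
  exact mul_le_mul_of_nonneg_left (hω k) (abs_nonneg _)

theorem ofReal_integral_ob (R : Rg b) {B : ℕ} (hB : 2 ≤ B) (p q : ℝ) (M : ℕ) (i : Fin 3) (x : Fin 3 → ℝ) :
    ENNReal.ofReal (∫ ω, Real.exp (∑ k, x k * ob b B M ω k) ∂(nu R B p q M i)) =
      ∫⁻ ω in Gd R B M ∩ {ω : Cfg | ω.1 ∈ ci p q ((Ln B M : ℝ) ^ 3) i},
        ENNReal.ofReal (Real.exp (Wc b B (x 0) (x 1) (x 2) M ω)) ∂(mS (Ln B M)) := by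
  rw [ofReal_integral_eq_lintegral_ofReal (integrable_ob R hB p q M i x)
    (Filter.Eventually.of_forall fun ω => (Real.exp_pos _).le)]
  simp only [sum_ob]
  rfl

/-- the pressure is the maximum of the class pressures -/
theorem pf_le_FF (R : Rg b) {B : ℕ} (hB : 2 ≤ B) (p q K' : ℝ) {x : Fin 3 → ℝ} (h : R.Ok (x 0) (x 1) (x 2)) {M : ℕ} (hM : 0 < M) :
    pf b B (x 0) (x 1) (x 2) M ≤ max (FF R B p q K' 0 M x) (max (FF R B p q K' 1 M x) (FF R B p q K' 2 M x)) +
      Real.log 6 / (Ln B M : ℝ) ^ 3 := by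
  have hLM : (0:ℝ) < Ln B M := by exact_mod_cast Ln_pos hB M
  set V := (Ln B M : ℝ) ^ 3 with hV
  have hV0 : 0 < V := by positivity
  have hhom := homogeneity R h hB hM
  have hW := measurable_eW b B (x 0) (x 1) (x 2) M
  set F := fun ω => ENNReal.ofReal (Real.exp (Wc b B (x 0) (x 1) (x 2) M ω)) with hF
  have hG := measurableSet_Gd R B M
  have hsplit : Xi b B (x 0) (x 1) (x 2) M = ∫⁻ ω in Gd R B M, F ω ∂(mS (Ln B M)) + ∫⁻ ω in (Gd R B M)ᶜ, F ω ∂(mS (Ln B M)) :=
    (lintegral_add_compl F hG).symm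
  rw [lintegral_indicator hG.compl] at hhom
  set I := ∫⁻ ω in Gd R B M, F ω ∂(mS (Ln B M)) with hI
  have hcl : I ≤ ∑ i : Fin 3, ENNReal.ofReal (∫ ω, Real.exp (∑ k, x k * ob b B M ω k) ∂(nu R B p q M i)) := by
    simp only [ofReal_integral_ob R hB]
    have hsub : Gd R B M ⊆ ⋃ i : Fin 3, (Gd R B M ∩ {ω : Cfg | ω.1 ∈ ci p q ((Ln B M : ℝ) ^ 3) i}) := by
      intro ω hω
      obtain ⟨i, hi⟩ := ci_cover p q ((Ln B M : ℝ) ^ 3) ω.1
      exact mem_iUnion.mpr ⟨i, hω, hi⟩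
    refine (lintegral_mono_set hsub).trans ?_
    refine (lintegral_iUnion_le _ _).trans (le_of_eq ?_)
    rw [tsum_fintype]
  have hXfin := Xi_ne_top R h hB M
  have hI0 : ∀ i, 0 ≤ ∫ ω, Real.exp (∑ k, x k * ob b B M ω k) ∂(nu R B p q M i) := fun i => integral_nonneg fun ω => (Real.exp_pos _).le
  set J : Fin 3 → ℝ := fun i => ∫ ω, Real.exp (∑ k, x k * ob b B M ω k) ∂(nu R B p q M i) with hJ
  rw [← ENNReal.ofReal_sum_of_nonneg (fun i _ => hI0 i)] at hcl
  have hX : Xr b B (x 0) (x 1) (x 2) M ≤ 2 * ∑ i, J i := by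
    have h1 : Xi b B (x 0) (x 1) (x 2) M ≤ ENNReal.ofReal (∑ i, J i) + ENNReal.ofReal (1/2) * Xi b B (x 0) (x 1) (x 2) M := by
      calc Xi b B (x 0) (x 1) (x 2) M = I + _ := hsplit
        _ ≤ _ := add_le_add hcl hhom
    rw [← ofReal_Xr R h hB M, ← ENNReal.ofReal_mul (by norm_num), ← ENNReal.ofReal_add (Finset.sum_nonneg fun i _ => hI0 i) (by
      have := one_le_Xr R h hB M
      positivity)] at h1
    have hX1 := one_le_Xr R h hB M
    have hs0 : 0 ≤ ∑ i, J i := Finset.sum_nonneg fun i _ => hI0 i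
    rw [ENNReal.ofReal_le_ofReal_iff (by positivity)] at h1
    linarith
  have hX1 := one_le_Xr R h hB M
  have hFF : ∀ i, Real.log (Real.exp (-K' * V) + J i) = FF R B p q K' i M x * V := by
    intro i
    unfold FF
    rw [div_mul_cancel₀ _ hV0.ne']
  set m := max (FF R B p q K' 0 M x) (max (FF R B p q K' 1 M x) (FF R B p q K' 2 M x)) with hm
  have hle : ∀ i, FF R B p q K' i M x ≤ m := by
    intro i
    fin_cases i
    · exact le_max_left _ _
    · exact (le_max_left _ _).trans (le_max_right _ _)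
    · exact (le_max_right _ _).trans (le_max_right _ _)
  have hJle : ∀ i, J i ≤ Real.exp (m * V) := by
    intro i
    have hpos : 0 < Real.exp (-K' * V) + J i := by
      have := Real.exp_pos (-K' * V)
      have := hI0 i
      linarith
    have h1 : Real.exp (-K' * V) + J i = Real.exp (FF R B p q K' i M x * V) := by
      rw [← hFF, Real.exp_log hpos]
    have h2 : Real.exp (FF R B p q K' i M x * V) ≤ Real.exp (m * V) := Real.exp_le_exp.mpr (mul_le_mul_of_nonneg_right (hle i) hV0.le)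
    have := Real.exp_pos (-K' * V)
    linarith
  have hX6 : Xr b B (x 0) (x 1) (x 2) M ≤ 6 * Real.exp (m * V) := by
    rw [Fin.sum_univ_three] at hX
    have := hJle 0
    have := hJle 1
    have := hJle 2
    linarith
  have hlog := Real.log_le_log (by linarith) hX6
  rw [Real.log_mul (by norm_num) (Real.exp_pos _).ne', Real.log_exp] at hlog
  unfold pf
  rw [← hV, div_le_iff₀ hV0, add_mul, div_mul_cancel₀ _ hV0.ne']
  linarith

end Crest.H5.PP
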