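import Crest.Agent.H5.PP.Phase

set_option autoImplicit false
set_option maxHeartbeats 400000
open MeasureTheory ENNReal Set Metric

namespace Crest.H5.PP

open Crest.ProbabilityR.Continuum (packingSet packingNumber)

variable {b : Base}

/-- the three leading terms -/
noncomputable def ell (p q m t : ℝ) (i : Fin 3) : ℝ :=
  if i = 0 then 0 else if i = 1 then m * p + t * p ^ 2 / 2 else -(q - 1) * p + m * (q * p) + t * (q * p) ^ 2 / 2

/-- the numeric inequality behind the class upper bounds -/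
theorem G_le {p q m t Λ s ρb : ℝ} (hp : 0 < p) (hq : 1 ≤ q) (ht : 0 ≤ t) (hΛ : 0 ≤ Λ) (hs : 0 ≤ s)
    (c0 : m + t * p / 4 ≤ 0) (c1 : 0 ≤ m + 3 * t * p / 4) (c2 : m - 1 + t * p * (q + 3) / 4 ≤ 0)
    (c3 : 0 ≤ m - 1 + t * p * (3 * q + 1) / 4) (c4 : Λ * (m + t * ρb) ≤ s + Λ) {V : ℝ} (hV : 0 < V)
    (i : Fin 3) {N : ℕ} (hN : N ∈ ci p q V i) (hNb : (N:ℝ) ≤ ρb * V) :
    Λ * m * (N / V) + Λ * t * (N / V) ^ 2 / 2 - Λ * max 0 ((N:ℝ) / V - p) - s * max 0 ((N:ℝ) / V - q * p) ≤ Λ * ell p q m t i := by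
  have hρ0 : 0 ≤ (N:ℝ) / V := by positivity
  have hρb : (N:ℝ) / V ≤ ρb := by rw [div_le_iff₀ hV]; exact hNb
  have hm1 : 0 ≤ max 0 ((N:ℝ) / V - p) := le_max_left _ _
  have hm2 : 0 ≤ max 0 ((N:ℝ) / V - q * p) := le_max_left _ _
  have hm1' : (N:ℝ) / V - p ≤ max 0 ((N:ℝ) / V - p) := le_max_right _ _
  have hm2' : (N:ℝ) / V - q * p ≤ max 0 ((N:ℝ) / V - q * p) := le_max_right _ _
  have a1 := mul_nonneg hΛ hm1
  have a2 := mul_nonneg hs hm2
  have a1' := mul_le_mul_of_nonneg_left hm1' hΛ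
  have a2' := mul_le_mul_of_nonneg_left hm2' hs
  fin_cases i
  · have h1 : (N:ℝ) / V < p / 2 := by
      rw [div_lt_iff₀ hV]
      simpa [ci] using hN
    set ρ := (N:ℝ) / V
    simp only [ell]
    simp only [Fin.zero_eta, ↓reduceIte, mul_zero]
    have h2 : m + t * ρ / 2 ≤ 0 := by nlinarith
    have h3 : Λ * (ρ * (m + t * ρ / 2)) ≤ 0 := mul_nonpos_of_nonneg_of_nonpos hΛ (mul_nonpos_of_nonneg_of_nonpos hρ0 h2)
    nlinarith
  · have h1 : p / 2 ≤ (N:ℝ) / V ∧ (N:ℝ) / V < (q + 1) * p / 2 := by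
      rw [le_div_iff₀ hV, div_lt_iff₀ hV]
      simpa [ci] using hN
    set ρ := (N:ℝ) / V
    have e : ell p q m t ⟨1, by norm_num⟩ = m * p + t * p ^ 2 / 2 := by simp [ell]
    rw [e]
    rcases le_or_gt ρ p with h2 | h2
    · have h3 : 0 ≤ m + t * (p + ρ) / 2 := by nlinarith [h1.1]
      have h4 : 0 ≤ Λ * ((p - ρ) * (m + t * (p + ρ) / 2)) := mul_nonneg hΛ (mul_nonneg (by linarith) h3)
      nlinarith
    · have h3 : m - 1 + t * (ρ + p) / 2 ≤ 0 := by nlinarith [h1.2]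
      have h4 : Λ * ((ρ - p) * (m - 1 + t * (ρ + p) / 2)) ≤ 0 :=
        mul_nonpos_of_nonneg_of_nonpos hΛ (mul_nonpos_of_nonneg_of_nonpos (by linarith) h3)
      nlinarith
  · have h1 : (q + 1) * p / 2 ≤ (N:ℝ) / V := by
      rw [le_div_iff₀ hV]
      have : (q + 1) * p / 2 * V ≤ N ∧ p / 2 * V ≤ N := by simpa [ci] using hN
      exact this.1
    set ρ := (N:ℝ) / V
    have e : ell p q m t ⟨2, by norm_num⟩ = -(q - 1) * p + m * (q * p) + t * (q * p) ^ 2 / 2 := by simp [ell]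
    rw [e]
    rcases le_or_gt ρ (q * p) with h2 | h2
    · have h3 : 0 ≤ m - 1 + t * (q * p + ρ) / 2 := by nlinarith
      have h4 : 0 ≤ Λ * ((q * p - ρ) * (m - 1 + t * (q * p + ρ) / 2)) := mul_nonneg hΛ (mul_nonneg (by linarith) h3)
      nlinarith
    · have h5 : t * (ρ + q * p) / 2 ≤ t * ρb := by nlinarith
      have h3 : Λ * (m + t * (ρ + q * p) / 2) ≤ s + Λ := by
        refine le_trans ?_ c4
        exact mul_le_mul_of_nonneg_left (by linarith) hΛ
      have h4 : (ρ - q * p) * (Λ * (m + t * (ρ + q * p) / 2) - (s + Λ)) ≤ 0 :=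
        mul_nonpos_of_nonneg_of_nonpos (by linarith) (by linarith)
      nlinarith

/-- error term -/
noncomputable def Er (R : Rg b) (B : ℕ) (p q Λ s θ : ℝ) (M : ℕ) : ℝ :=
  2 + (packingNumber (Ln B M) : ℝ) / (Ln B M : ℝ) ^ 3 + θ * (R.C6 / (B:ℝ) ^ 2) +
    (Λ + s * q) * |(packingNumber (Ln B M) : ℝ) / (Ln B M : ℝ) ^ 3 - p| +
    Real.log (1 + (R.ρb * (Ln B M : ℝ) ^ 3 + 1) * (packingNumber (Ln B M) + 1)) / (Ln B M : ℝ) ^ 3

theorem FF_le (R : Rg b) {B : ℕ} (hB : 2 ≤ B) {δ K : ℝ} (h : SR δ K b.φ) {q : ℕ} (hq : ∀ n, IsClq n → n ≤ q)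
    {p K' s Λ : ℝ} {x : Fin 3 → ℝ} (hβ : 0 ≤ x 0) (hθ : 0 ≤ x 2) (hs : 0 ≤ s) (hΛ : 0 ≤ Λ) (hδΛ : δ ^ 3 * v1 = Real.exp (-Λ))
    (hsK : s + Λ ≤ x 0 * K) (i : Fin 3) (M : ℕ) {Y : ℝ} (hKY : -K' ≤ Y)
    (hG : ∀ N : ℕ, N ∈ ci p q ((Ln B M : ℝ) ^ 3) i → (N:ℝ) ≤ R.ρb * (Ln B M : ℝ) ^ 3 →
      x 1 * (N / (Ln B M : ℝ) ^ 3) + x 2 * (N / (Ln B M : ℝ) ^ 3) ^ 2 / 2 - Λ * max 0 ((N:ℝ) / (Ln B M : ℝ) ^ 3 - p) -
        s * max 0 ((N:ℝ) / (Ln B M : ℝ) ^ 3 - q * p) ≤ Y) :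
    FF R B p q K' i M x ≤ Y + Er R B p q Λ s (x 2) M := by
  have hLM : (0:ℝ) < Ln B M := by exact_mod_cast Ln_pos hB M
  have hρb := ρb_pos R
  have hC6 := C6_pos R
  have hBr : (2:ℝ) ≤ B := by exact_mod_cast hB
  obtain ⟨P, hPdef⟩ : ∃ P : ℕ, P = packingNumber (Ln B M) := ⟨_, rfl⟩
  have hPle : ∀ X : Finset Pt, (∀ x ∈ X, x ∈ cube (Ln B M)) → (∀ x ∈ X, ∀ y ∈ X, x ≠ y → 1 ≤ dist x y) → X.card ≤ P := by
    intro X h1 h2
    rw [hPdef]
    exact le_packing X h1 h2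
  unfold Er
  rw [← hPdef]
  set V := (Ln B M : ℝ) ^ 3 with hV
  have hV0 : 0 < V := by positivity
  obtain ⟨E, hE⟩ : ∃ E, E = 2 + (P:ℝ) / V + x 2 * (R.C6 / (B:ℝ) ^ 2) + (Λ + s * q) * |(P:ℝ) / V - p| := ⟨_, rfl⟩
  have hE0 : 0 ≤ E := by rw [hE]; positivity
  have hmax0 : ∀ N : ℕ, -(Λ * max 0 ((N:ℝ) - P)) ≤ V * (-(Λ * max 0 ((N:ℝ) / V - p)) + Λ * |(P:ℝ) / V - p|) := by
    intro N
    have h1 : max 0 ((N:ℝ) / V - p) ≤ max 0 ((N:ℝ) - P) / V + |(P:ℝ) / V - p| := by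
      apply max_le
      · positivity
      · have h2 : ((N:ℝ) - P) / V ≤ max 0 ((N:ℝ) - P) / V := by gcongr; exact le_max_right _ _
        have h3 := le_abs_self ((P:ℝ) / V - p)
        have h4 : ((N:ℝ) - P) / V = (N:ℝ) / V - P / V := by ring
        linarith
    have h2 := mul_le_mul_of_nonneg_left h1 hΛ
    have h3 := mul_le_mul_of_nonneg_left h2 hV0.le
    have e : V * (Λ * (max 0 ((N:ℝ) - P) / V + |(P:ℝ) / V - p|)) = Λ * max 0 ((N:ℝ) - P) + V * (Λ * |(P:ℝ) / V - p|) := by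
      field_simp
    rw [e] at h3
    linarith
  have hmax1 : ∀ N : ℕ, -(s * max 0 ((N:ℝ) - q * P)) ≤ V * (-(s * max 0 ((N:ℝ) / V - q * p)) + s * q * |(P:ℝ) / V - p|) := by
    intro N
    have h1 : max 0 ((N:ℝ) / V - q * p) ≤ max 0 ((N:ℝ) - q * P) / V + q * |(P:ℝ) / V - p| := by
      apply max_le
      · positivity
      · have h2 : ((N:ℝ) - q * P) / V ≤ max 0 ((N:ℝ) - q * P) / V := by gcongr; exact le_max_right _ _
        have h3 := le_abs_self ((P:ℝ) / V - p)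
        have h3' := mul_le_mul_of_nonneg_left h3 (show (0:ℝ) ≤ q by positivity)
        have h4 : ((N:ℝ) - q * P) / V = (N:ℝ) / V - q * (P / V) := by ring
        linarith
    have h2 := mul_le_mul_of_nonneg_left h1 hs
    have h3 := mul_le_mul_of_nonneg_left h2 hV0.le
    have e : V * (s * (max 0 ((N:ℝ) - q * P) / V + q * |(P:ℝ) / V - p|)) = s * max 0 ((N:ℝ) - q * P) + V * (s * q * |(P:ℝ) / V - p|) := by
      field_simp
    rw [e] at h3
    linarith
  -- canonical bound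
  have hcan : ∀ N : ℕ, (N.factorial : ℝ≥0∞)⁻¹ * ∫⁻ y in Set.pi univ (fun _ : Fin N => cube (Ln B M)), ENNReal.ofReal (Real.exp (-x 0 * ps b.φ y)) ≤
      ENNReal.ofReal ((P + 1) * Real.exp (2 * V + P - s * max 0 ((N:ℝ) - q * P) - Λ * max 0 ((N:ℝ) - P))) := by
    intro N
    rcases le_or_gt (N:ℝ) (q * P) with h1 | h1
    · have h2 := Zs_le (N := N) h hq hLM.le hPle hβ (le_refl (0:ℝ)) hΛ hδΛ (by linarith)
      refine h2.trans (ENNReal.ofReal_le_ofReal (mul_le_mul_of_nonneg_left ?_ (by positivity)))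
      rw [Real.exp_le_exp, max_eq_left (show (N:ℝ) - q * P ≤ 0 by linarith)]
      linarith
    · have h2 := Zs_le (N := N) h hq hLM.le hPle hβ hs hΛ hδΛ hsK
      refine h2.trans (ENNReal.ofReal_le_ofReal (mul_le_mul_of_nonneg_left ?_ (by positivity)))
      rw [Real.exp_le_exp, max_eq_right (show 0 ≤ (N:ℝ) - q * P by linarith)]
      linarith
  -- the integral
  set T := Gd R B M ∩ {ω : Cfg | ω.1 ∈ ci p q V i} with hT
  have hTm : MeasurableSet T := (measurableSet_Gd R B M).inter (measurableSet_ci _ _ _ _)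
  have hint : ENNReal.ofReal (∫ ω, Real.exp (∑ k, x k * ob b B M ω k) ∂(nu R B p q M i)) ≤
      ENNReal.ofReal ((R.ρb * V + 1) * ((P + 1) * Real.exp (V * (Y + E)))) := by
    rw [ofReal_integral_ob R hB, ← hV, ← hT, ← lintegral_indicator hTm]
    have hmeas : Measurable (T.indicator (fun ω => ENNReal.ofReal (Real.exp (Wc b B (x 0) (x 1) (x 2) M ω)))) :=
      (measurable_eW b B (x 0) (x 1) (x 2) M).indicator hTm
    rw [lint_mS _ hmeas]
    have hterm : ∀ N : ℕ, (N.factorial : ℝ≥0∞)⁻¹ * ∫⁻ y in Set.pi univ (fun _ : Fin N => cube (Ln B M)),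
        T.indicator (fun ω => ENNReal.ofReal (Real.exp (Wc b B (x 0) (x 1) (x 2) M ω))) ⟨N, y⟩ ≤
        if N ∈ Finset.range (⌊R.ρb * V⌋₊ + 1) then ENNReal.ofReal ((P + 1) * Real.exp (V * (Y + E))) else 0 := by
      intro N
      by_cases hN : N ∈ ci p q V i ∧ (N:ℝ) ≤ R.ρb * V
      · rw [if_pos (by rw [Finset.mem_range, Nat.lt_succ_iff]; exact Nat.le_floor hN.2)]
        have h1 : ∀ y : Fin N → Pt, T.indicator (fun ω => ENNReal.ofReal (Real.exp (Wc b B (x 0) (x 1) (x 2) M ω))) ⟨N, y⟩ ≤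
            ENNReal.ofReal (Real.exp (x 1 * N + x 2 * ((N:ℝ) ^ 2 / (2 * V) + R.C6 / (B:ℝ) ^ 2 * V))) * ENNReal.ofReal (Real.exp (-x 0 * ps b.φ y)) := by
          intro y
          by_cases hy : (⟨N, y⟩ : Cfg) ∈ T
          · rw [indicator_of_mem hy, ← ENNReal.ofReal_mul (Real.exp_pos _).le, ← Real.exp_add]
            apply ENNReal.ofReal_le_ofReal
            rw [Real.exp_le_exp, Wc_eq]
            have h2 := hy.1.2.2
            have h3 := mul_le_mul_of_nonneg_left h2 hθ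
            simp only at h3 ⊢
            linarith
          · rw [indicator_of_notMem hy]; exact zero_le
        calc _ ≤ (N.factorial : ℝ≥0∞)⁻¹ * ∫⁻ y in Set.pi univ (fun _ : Fin N => cube (Ln B M)),
              ENNReal.ofReal (Real.exp (x 1 * N + x 2 * ((N:ℝ) ^ 2 / (2 * V) + R.C6 / (B:ℝ) ^ 2 * V))) * ENNReal.ofReal (Real.exp (-x 0 * ps b.φ y)) := by
              refine mul_le_mul_right ?_ _
              exact lintegral_mono h1
          _ = ENNReal.ofReal (Real.exp (x 1 * N + x 2 * ((N:ℝ) ^ 2 / (2 * V) + R.C6 / (B:ℝ) ^ 2 * V))) *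
              ((N.factorial : ℝ≥0∞)⁻¹ * ∫⁻ y in Set.pi univ (fun _ : Fin N => cube (Ln B M)), ENNReal.ofReal (Real.exp (-x 0 * ps b.φ y))) := by
              rw [lintegral_const_mul' _ _ ENNReal.ofReal_ne_top, mul_left_comm]
          _ ≤ ENNReal.ofReal (Real.exp (x 1 * N + x 2 * ((N:ℝ) ^ 2 / (2 * V) + R.C6 / (B:ℝ) ^ 2 * V))) *
              ENNReal.ofReal ((P + 1) * Real.exp (2 * V + P - s * max 0 ((N:ℝ) - q * P) - Λ * max 0 ((N:ℝ) - P))) := mul_le_mul_right (hcan N) _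
          _ ≤ _ := by
              rw [← ENNReal.ofReal_mul (Real.exp_pos _).le]
              apply ENNReal.ofReal_le_ofReal
              rw [mul_left_comm, ← Real.exp_add]
              refine mul_le_mul_of_nonneg_left ?_ (by positivity)
              rw [Real.exp_le_exp]
              have g1 := hG N hN.1 hN.2
              have g2 := mul_le_mul_of_nonneg_left g1 hV0.le
              have g3 := hmax0 N
              have g4 := hmax1 N
              have e1 : V * (x 1 * (N / V) + x 2 * (N / V) ^ 2 / 2 - Λ * max 0 ((N:ℝ) / V - p) - s * max 0 ((N:ℝ) / V - q * p)) =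
                  x 1 * N + x 2 * ((N:ℝ) ^ 2 / (2 * V)) - V * (Λ * max 0 ((N:ℝ) / V - p)) - V * (s * max 0 ((N:ℝ) / V - q * p)) := by
                field_simp
              rw [e1] at g2
              have e2 : V * (Y + E) = V * Y + 2 * V + P + x 2 * (R.C6 / (B:ℝ) ^ 2 * V) + V * (Λ * |(P:ℝ) / V - p|) + V * (s * q * |(P:ℝ) / V - p|) := by
                rw [hE]; field_simp; ring
              rw [e2]
              linarith
      · have h0 : ∀ y : Fin N → Pt, T.indicator (fun ω => ENNReal.ofReal (Real.exp (Wc b B (x 0) (x 1) (x 2) M ω))) ⟨N, y⟩ = 0 := by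
          intro y
          apply indicator_of_notMem
          intro hy
          exact hN ⟨hy.2, hy.1.2.1⟩
        simp only [h0, lintegral_zero, mul_zero]
        exact zero_le
    refine (ENNReal.tsum_le_tsum hterm).trans ?_
    rw [tsum_eq_sum (s := Finset.range (⌊R.ρb * V⌋₊ + 1)) (fun N hN => by rw [if_neg hN])]
    calc _ = ∑ _N ∈ Finset.range (⌊R.ρb * V⌋₊ + 1), ENNReal.ofReal ((P + 1) * Real.exp (V * (Y + E))) :=
          Finset.sum_congr rfl fun N hN => by rw [if_pos hN]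
      _ = ENNReal.ofReal (((⌊R.ρb * V⌋₊ + 1 : ℕ) : ℝ) * ((P + 1) * Real.exp (V * (Y + E)))) := by
          rw [Finset.sum_const, Finset.card_range, nsmul_eq_mul,
            ENNReal.ofReal_mul (p := ((⌊R.ρb * V⌋₊ + 1 : ℕ) : ℝ)) (by positivity), ENNReal.ofReal_natCast]
      _ ≤ _ := by
          apply ENNReal.ofReal_le_ofReal
          have : (⌊R.ρb * V⌋₊ : ℝ) ≤ R.ρb * V := Nat.floor_le (by positivity)
          push_cast
          gcongr
  rw [ENNReal.ofReal_le_ofReal_iff (by positivity)] at hint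
  have hI0 : 0 ≤ ∫ ω, Real.exp (∑ k, x k * ob b B M ω k) ∂(nu R B p q M i) := integral_nonneg fun ω => (Real.exp_pos _).le
  have hreg : Real.exp (-K' * V) ≤ Real.exp (V * (Y + E)) := by
    rw [Real.exp_le_exp]
    nlinarith
  have htot : Real.exp (-K' * V) + ∫ ω, Real.exp (∑ k, x k * ob b B M ω k) ∂(nu R B p q M i) ≤
      (1 + (R.ρb * V + 1) * (P + 1)) * Real.exp (V * (Y + E)) := by
    have : (1 + (R.ρb * V + 1) * (P + 1)) * Real.exp (V * (Y + E)) = Real.exp (V * (Y + E)) + (R.ρb * V + 1) * ((P + 1) * Real.exp (V * (Y + E))) := by ring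
    linarith
  have hlog := Real.log_le_log (by have := Real.exp_pos (-K' * V); linarith) htot
  rw [Real.log_mul (by positivity) (Real.exp_pos _).ne', Real.log_exp] at hlog
  unfold FF
  rw [← hV, div_le_iff₀ hV0]
  refine hlog.trans (le_of_eq ?_)
  rw [hE]
  field_simp
  ring

/-- the error term tends to its limit -/
theorem Er_tendsto (R : Rg b) {B : ℕ} (hB : 2 ≤ B) {p : ℝ} (q Λ s θ : ℝ)
    (hp : Filter.Tendsto (fun L : ℝ => (packingNumber L : ℝ) / L ^ 3) Filter.atTop (nhds p))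
    (hp2 : ∀ L : ℝ, 0 ≤ L → (packingNumber L : ℝ) ≤ p * (L + 2) ^ 3) (hp0 : 0 < p) :
    Filter.Tendsto (fun M => Er R B p q Λ s θ M) Filter.atTop (nhds (2 + p + θ * (R.C6 / (B:ℝ) ^ 2))) := by
  have hρb := ρb_pos R
  have hLtop : Filter.Tendsto (fun M => (Ln B M : ℝ)) Filter.atTop Filter.atTop := by
    apply Filter.tendsto_atTop_mono (f := fun M : ℕ => (M:ℝ))
    · intro M
      have h1 : M ≤ Hn B M := M_le_Hn hB M
      have h2 : Hn B M ≤ Ln B M := by
        unfold Ln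
        exact Nat.le_self_pow (by norm_num) _
      exact_mod_cast h1.trans h2
    · exact tendsto_natCast_atTop_atTop
  have h1 := hp.comp hLtop
  have h2 : Filter.Tendsto (fun M => |(packingNumber (Ln B M) : ℝ) / (Ln B M : ℝ) ^ 3 - p|) Filter.atTop (nhds 0) := by
    have := (h1.sub_const p).abs
    simpa using this
  have h3 : Filter.Tendsto (fun M => Real.log (1 + (R.ρb * (Ln B M : ℝ) ^ 3 + 1) * (packingNumber (Ln B M) + 1)) / (Ln B M : ℝ) ^ 3)
      Filter.atTop (nhds 0) := by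
    have hb : ∀ M, Real.log (1 + (R.ρb * (Ln B M : ℝ) ^ 3 + 1) * (packingNumber (Ln B M) + 1)) / (Ln B M : ℝ) ^ 3 ≤
        (Real.log (1 + (R.ρb + 1) * (8 * p + 1)) + 6) / (Ln B M : ℝ) ^ 2 := by
      intro M
      have hL4 : (4:ℝ) ≤ Ln B M := by exact_mod_cast Ln_ge hB M
      set L := (Ln B M : ℝ)
      have hL1 : 1 ≤ L := by linarith
      have hP : (packingNumber L : ℝ) ≤ 8 * p * L ^ 3 := by
        refine (hp2 L (by linarith)).trans ?_
        have : L + 2 ≤ 2 * L := by linarith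
        calc p * (L + 2) ^ 3 ≤ p * (2 * L) ^ 3 := by gcongr
          _ = _ := by ring
      have hL3 : 1 ≤ L ^ 3 := one_le_pow₀ hL1
      have hin : 1 + (R.ρb * L ^ 3 + 1) * (packingNumber L + 1) ≤ (1 + (R.ρb + 1) * (8 * p + 1)) * L ^ 6 := by
        have a1 : R.ρb * L ^ 3 + 1 ≤ (R.ρb + 1) * L ^ 3 := by linarith
        have a2 : (packingNumber L : ℝ) + 1 ≤ (8 * p + 1) * L ^ 3 := by linarith
        have a3 : (R.ρb * L ^ 3 + 1) * (packingNumber L + 1) ≤ ((R.ρb + 1) * L ^ 3) * ((8 * p + 1) * L ^ 3) := by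
          gcongr
        have a4 : (1:ℝ) ≤ L ^ 6 := one_le_pow₀ hL1
        calc _ ≤ L ^ 6 + ((R.ρb + 1) * L ^ 3) * ((8 * p + 1) * L ^ 3) := add_le_add a4 a3
          _ = _ := by ring
      have hlog : Real.log (1 + (R.ρb * L ^ 3 + 1) * (packingNumber L + 1)) ≤ (Real.log (1 + (R.ρb + 1) * (8 * p + 1)) + 6) * L := by
        have b1 := Real.log_le_log (by positivity) hin
        rw [Real.log_mul (by positivity) (by positivity), Real.log_pow] at b1
        push_cast at b1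
        have b2 : Real.log L ≤ L := (Real.log_le_sub_one_of_pos (by linarith)).trans (by linarith)
        have b3 : 0 ≤ Real.log (1 + (R.ρb + 1) * (8 * p + 1)) := Real.log_nonneg (by
          have : 0 ≤ (R.ρb + 1) * (8 * p + 1) := by positivity
          linarith)
        nlinarith
      rw [div_le_div_iff₀ (by positivity) (by positivity)]
      calc _ ≤ ((Real.log (1 + (R.ρb + 1) * (8 * p + 1)) + 6) * L) * L ^ 2 := by gcongr
        _ = _ := by ring
    have hb0 : ∀ M, 0 ≤ Real.log (1 + (R.ρb * (Ln B M : ℝ) ^ 3 + 1) * (packingNumber (Ln B M) + 1)) / (Ln B M : ℝ) ^ 3 := by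
      intro M
      apply div_nonneg _ (by positivity)
      apply Real.log_nonneg
      have : 0 ≤ (R.ρb * (Ln B M : ℝ) ^ 3 + 1) * (packingNumber (Ln B M) + 1) := by positivity
      linarith
    have ht : Filter.Tendsto (fun M => (Real.log (1 + (R.ρb + 1) * (8 * p + 1)) + 6) / (Ln B M : ℝ) ^ 2) Filter.atTop (nhds 0) := by
      apply Filter.Tendsto.const_div_atTop
      exact (Filter.tendsto_pow_atTop (by norm_num)).comp hLtop
    exact squeeze_zero hb0 hb ht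
  have h4 := (((h1.const_add 2).add_const (θ * (R.C6 / (B:ℝ) ^ 2))).add (h2.const_mul (Λ + s * q))).add h3
  simp only [mul_zero, add_zero] at h4
  exact h4

end Crest.H5.PP
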