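import Crest.Agent.H5.PP.Level

set_option autoImplicit false
set_option maxHeartbeats 400000
open MeasureTheory ENNReal Set Metric

namespace Crest.H5.PP

theorem pow6_le {y : ℝ} (h0 : 0 ≤ y) (h1 : y ≤ 1) : (1 + y) ^ 6 ≤ 1 + 63 * y := by
  have h2 : y ^ 2 ≤ y := by nlinarith
  have h3 : y ^ 3 ≤ y := by nlinarith [mul_nonneg h0 h0]
  have h4 : y ^ 4 ≤ y := by nlinarith [pow_nonneg h0 3, pow_nonneg h0 2]
  have h5 : y ^ 5 ≤ y := by nlinarith [pow_nonneg h0 4, pow_nonneg h0 3]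
  have h6 : y ^ 6 ≤ y := by nlinarith [pow_nonneg h0 5, pow_nonneg h0 4]
  nlinarith

theorem pow3_le {y : ℝ} (h0 : 0 ≤ y) (h1 : y ≤ 1) : (1 + y) ^ 3 ≤ 1 + 7 * y := by
  have h2 : y ^ 2 ≤ y := by nlinarith
  have h3 : y ^ 3 ≤ y := by nlinarith [mul_nonneg h0 h0]
  nlinarith

theorem Hn_ge2 {B : ℕ} (hB : 2 ≤ B) (n : ℕ) : (2:ℝ) ≤ Hn B n := by
  exact_mod_cast hB.trans (le_Hn hB n)

theorem Ln_cast (B n : ℕ) : (Ln B n : ℝ) = (Hn B n : ℝ) ^ 12 := by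
  unfold Ln; push_cast; ring

theorem rn_cast (B n : ℕ) : rn B n = (Hn B n : ℝ) ^ 16 := by
  unfold rn; rw [Hn_succ]; push_cast; ring

theorem rn_mono {B : ℕ} (hB : 2 ≤ B) {k l : ℕ} (h : k ≤ l) : rn B k ≤ rn B l := by
  unfold rn
  have : (Hn B (k+1) : ℝ) ≤ Hn B (l+1) := by exact_mod_cast Hn_mono hB (Nat.succ_le_succ h)
  gcongr

theorem num1 {B : ℕ} (hB : 2 ≤ B) (n : ℕ) {r : ℝ} (hr : rn B n ≤ r) :
    (1 + 4 * (Ln B n : ℝ) / r) ^ 6 ≤ 1 + 252 / (Hn B n : ℝ) ^ 4 := by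
  have hH := Hn_ge2 hB n
  have hH0 : (0:ℝ) < Hn B n := by linarith
  have hr0 : 0 < r := (rn_pos hB n).trans_le hr
  have h1 : 4 * (Ln B n : ℝ) / r ≤ 4 / (Hn B n : ℝ) ^ 4 := by
    have h2 : 4 * (Ln B n : ℝ) / r ≤ 4 * (Ln B n : ℝ) / rn B n := by
      have := rn_pos hB n
      gcongr
    refine h2.trans (le_of_eq ?_)
    rw [Ln_cast, rn_cast]
    field_simp
  have h3 : 4 / (Hn B n : ℝ) ^ 4 ≤ 1 := by
    rw [div_le_one (by positivity)]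
    calc (4:ℝ) ≤ 2 ^ 4 := by norm_num
      _ ≤ _ := by gcongr
  have h4 : 0 ≤ 4 * (Ln B n : ℝ) / r := by positivity
  have h5 := pow6_le h4 (h1.trans h3)
  have h6 : 63 * (4 / (Hn B n : ℝ) ^ 4) = 252 / (Hn B n : ℝ) ^ 4 := by ring
  linarith

theorem H4_mono {B : ℕ} (hB : 2 ≤ B) (n : ℕ) : 252 / (Hn B (n+1) : ℝ) ^ 4 ≤ 252 / (Hn B n : ℝ) ^ 4 := by
  have hH := Hn_ge2 hB n
  have h1 : (Hn B n : ℝ) ≤ Hn B (n+1) := by exact_mod_cast Hn_mono hB (Nat.le_succ n)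
  have h0 : (0:ℝ) < Hn B n := by linarith
  gcongr

theorem num3 {B : ℕ} (hB : 2 ≤ B) {n M : ℕ} (h : n + 2 ≤ M) :
    (1 + 2 * (Ln B (n+1) : ℝ) / Ln B M) ^ 3 ≤ 1 + 252 / (Hn B n : ℝ) ^ 4 := by
  have hH := Hn_ge2 hB n
  have hH0 : (0:ℝ) < Hn B n := by linarith
  have hH1 : (Hn B n : ℝ) ≤ Hn B (n+1) := by exact_mod_cast Hn_mono hB (Nat.le_succ n)
  have hH2 : (Hn B (n+2) : ℝ) ≤ Hn B M := by exact_mod_cast Hn_mono hB h
  have hH10 : (0:ℝ) < Hn B (n+1) := by linarith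
  have e1 : (Hn B (n+2) : ℝ) = (Hn B (n+1) : ℝ) ^ 2 := by rw [Hn_succ]; push_cast; ring
  have hLM : (Hn B (n+1) : ℝ) ^ 24 ≤ Ln B M := by
    rw [Ln_cast]
    calc (Hn B (n+1) : ℝ) ^ 24 = ((Hn B (n+1) : ℝ) ^ 2) ^ 12 := by ring
      _ ≤ (Hn B M : ℝ) ^ 12 := by rw [← e1]; gcongr
  have h1 : 2 * (Ln B (n+1) : ℝ) / Ln B M ≤ 2 / (Hn B n : ℝ) ^ 4 := by
    have hp : (0:ℝ) < (Hn B (n+1) : ℝ) ^ 24 := by positivity
    calc 2 * (Ln B (n+1) : ℝ) / Ln B M ≤ 2 * (Ln B (n+1) : ℝ) / (Hn B (n+1) : ℝ) ^ 24 := by gcongr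
      _ = 2 / (Hn B (n+1) : ℝ) ^ 12 := by rw [Ln_cast]; field_simp
      _ ≤ 2 / (Hn B n : ℝ) ^ 12 := by gcongr
      _ ≤ 2 / (Hn B n : ℝ) ^ 4 := by
          have : (Hn B n : ℝ) ^ 4 ≤ (Hn B n : ℝ) ^ 12 := pow_le_pow_right₀ (by linarith) (by norm_num)
          gcongr
  have h3 : 2 / (Hn B n : ℝ) ^ 4 ≤ 1 := by
    rw [div_le_one (by positivity)]
    calc (2:ℝ) ≤ 2 ^ 4 := by norm_num
      _ ≤ _ := by gcongr
  have h4 : 0 ≤ 2 * (Ln B (n+1) : ℝ) / Ln B M := by positivity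
  have h5 := pow3_le h4 (h1.trans h3)
  have h6 : 7 * (2 / (Hn B n : ℝ) ^ 4) ≤ 252 / (Hn B n : ℝ) ^ 4 := by
    rw [← mul_div_assoc]; gcongr; norm_num
  linarith

/-- crossing probability -/
noncomputable def Pd (L : ℕ) (x y : Pt) : ℝ :=
  (1 / (L:ℝ) ^ 3) * ∑ U : Fin 3 → Fin L, (if blk L (ofs U) x = blk L (ofs U) y then (0:ℝ) else 1)

theorem Pd_nonneg (L : ℕ) (x y : Pt) : 0 ≤ Pd L x y := by
  unfold Pd
  refine mul_nonneg (by positivity) (Finset.sum_nonneg fun U _ => ?_)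
  split_ifs <;> norm_num

theorem Pd_self (L : ℕ) (x : Pt) : Pd L x x = 0 := by simp [Pd]

theorem Pd_le {L : ℕ} (hL : 0 < L) (x y : Pt) : Pd L x y ≤ 3 * (dist x y + 1) / L := by
  have hLr : (0:ℝ) < L := by exact_mod_cast hL
  have h1 := cross_count3 hL x y
  unfold Pd
  rw [one_div, inv_mul_le_iff₀ (by positivity)]
  refine h1.trans (le_of_eq ?_)
  field_simp

theorem gk_Pd {B : ℕ} (hB : 2 ≤ B) {k n : ℕ} (hk : k < n) (x y : Pt) :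
    gk (rn B k) (dist x y) * Pd (Ln B n) x y ≤ 9 / (Hn B n : ℝ) ^ 4 * gk (rn B k) (dist x y) := by
  have hH := Hn_ge2 hB n
  have hH0 : (0:ℝ) < Hn B n := by linarith
  by_cases h : 2 * rn B k ≤ |dist x y|
  · rw [gk_eq_zero h]; simp
  · push Not at h
    rw [abs_of_nonneg dist_nonneg] at h
    have h1 := Pd_le (Ln_pos hB n) x y
    have h2 : rn B k ≤ (Hn B n : ℝ) ^ 8 := by
      unfold rn
      have : (Hn B (k+1) : ℝ) ≤ Hn B n := by exact_mod_cast Hn_mono hB hk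
      gcongr
    have h3 : Pd (Ln B n) x y ≤ 9 / (Hn B n : ℝ) ^ 4 := by
      refine h1.trans ?_
      rw [Ln_cast]
      have h4 : 3 * (dist x y + 1) ≤ 9 * (Hn B n : ℝ) ^ 8 := by
        have : (1:ℝ) ≤ (Hn B n : ℝ) ^ 8 := one_le_pow₀ (by linarith)
        linarith
      calc 3 * (dist x y + 1) / (Hn B n : ℝ) ^ 12 ≤ 9 * (Hn B n : ℝ) ^ 8 / (Hn B n : ℝ) ^ 12 := by gcongr
        _ = 9 / (Hn B n : ℝ) ^ 4 := by field_simp
    rw [mul_comm]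
    exact mul_le_mul_of_nonneg_right h3 (gk_nonneg _ _)

theorem cross_le (b : Base) {B : ℕ} (hB : 2 ≤ B) {β θ : ℝ} (hβ : 0 ≤ β) (hθ : 0 ≤ θ) (n : ℕ)
    {ι : Type*} [Fintype ι] (x : ι → Pt) :
    (1/2) * ∑ i, ∑ j, wn b B β θ n (dist (x i) (x j)) * Pd (Ln B n) (x i) (x j) ≤
      9 / (Hn B n : ℝ) ^ 4 * (θ * ∑ k ∈ Finset.range n, jn B k * ps (gk (rn B k)) x) := by
  have hH := Hn_ge2 hB n
  have hH0 : (0:ℝ) < Hn B n := by linarith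
  have h1 : 9 / (Hn B n : ℝ) ^ 4 * (θ * ∑ k ∈ Finset.range n, jn B k * ps (gk (rn B k)) x) =
      (1/2) * ∑ i, ∑ j, 9 / (Hn B n : ℝ) ^ 4 * (θ * off (fun s => ∑ k ∈ Finset.range n, jn B k * gk (rn B k) s) x i j) := by
    have h2 : ∑ k ∈ Finset.range n, jn B k * ps (gk (rn B k)) x = ps (fun s => ∑ k ∈ Finset.range n, jn B k * gk (rn B k) s) x := by
      rw [ps_sum]
      exact Finset.sum_congr rfl fun k _ => by rw [ps_smul]
    rw [h2]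
    unfold ps
    simp only [← Finset.mul_sum]
    ring
  rw [h1]
  refine mul_le_mul_of_nonneg_left ?_ (by norm_num)
  refine Finset.sum_le_sum fun i _ => Finset.sum_le_sum fun j _ => ?_
  by_cases hij : i = j
  · subst hij
    rw [Pd_self]; simp
  · rw [off_ne _ _ hij]
    unfold wn
    have hP := Pd_nonneg (Ln B n) (x i) (x j)
    have hφ := b.nonneg (dist (x i) (x j))
    have h3 : (∑ k ∈ Finset.range n, jn B k * gk (rn B k) (dist (x i) (x j))) * Pd (Ln B n) (x i) (x j) ≤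
        9 / (Hn B n : ℝ) ^ 4 * ∑ k ∈ Finset.range n, jn B k * gk (rn B k) (dist (x i) (x j)) := by
      rw [Finset.sum_mul, Finset.mul_sum]
      refine Finset.sum_le_sum fun k hk => ?_
      have h4 := gk_Pd hB (Finset.mem_range.mp hk) (x i) (x j)
      have h5 := jn_nonneg hB k
      calc jn B k * gk (rn B k) (dist (x i) (x j)) * Pd (Ln B n) (x i) (x j)
          = jn B k * (gk (rn B k) (dist (x i) (x j)) * Pd (Ln B n) (x i) (x j)) := by ring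
        _ ≤ jn B k * (9 / (Hn B n : ℝ) ^ 4 * gk (rn B k) (dist (x i) (x j))) := mul_le_mul_of_nonneg_left h4 h5
        _ = _ := by ring
    have h6 : -β * b.φ (dist (x i) (x j)) * Pd (Ln B n) (x i) (x j) ≤ 0 := by
      have := mul_nonneg (mul_nonneg hβ hφ) hP
      linarith
    have h7 := mul_le_mul_of_nonneg_left h3 hθ
    rw [add_mul]
    calc _ ≤ 0 + θ * ((∑ k ∈ Finset.range n, jn B k * gk (rn B k) (dist (x i) (x j))) * Pd (Ln B n) (x i) (x j)) := by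
          rw [mul_assoc θ]
          linarith
      _ ≤ _ := by
          rw [zero_add]
          refine h7.trans (le_of_eq ?_)
          ring

/-- `Q` at level `n` in the level-`M` model -/
noncomputable def Qq (B M n : ℕ) (ω : Cfg) : ℝ :=
  if n < M then Qn B n ω.2 else (ω.1 : ℝ) ^ 2 / (Ln B M : ℝ) ^ 3

theorem Qq_le (b : Base) {B : ℕ} (hB : 2 ≤ B) (M n : ℕ) (ω : Cfg) (hω : ∀ i, ω.2 i ∈ cube (Ln B M)) :
    Qq B M n ω ≤ 2 * (b.Ca * pc (fun i => cl b.a (ω.2 i))) := by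
  have h0 := mul_nonneg (Ca_pos b).le (pc_nonneg (fun i => cl b.a (ω.2 i)))
  unfold Qq
  split_ifs
  · have := Qn_le b hB n ω.2 hω
    linarith
  · have hL : (1:ℝ) ≤ Ln B M := by exact_mod_cast Ln_pos hB M
    have := sq_le_cl b (b.a_le.trans hL) ω.2 hω
    rw [Fintype.card_fin] at this
    have e : (ω.1:ℝ) ^ 2 / (2 * (Ln B M : ℝ) ^ 3) = (1/2) * ((ω.1:ℝ) ^ 2 / (Ln B M : ℝ) ^ 3) := by ring
    rw [e] at this
    linarith

theorem Qq_nonneg (B M n : ℕ) (ω : Cfg) : 0 ≤ Qq B M n ω := by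
  unfold Qq
  split_ifs
  · exact Qn_nonneg _ _ _
  · positivity

/-- upper bound for the higher scales -/
theorem higher_le {B : ℕ} (hB : 2 ≤ B) {n M : ℕ} (h : n < M) (ω : Cfg) (hω : ∀ i, ω.2 i ∈ cube (Ln B M)) :
    ∑ k ∈ Finset.Ico n M, jn B k * ps (gk (rn B k)) ω.2 + tn B M * (ω.1:ℝ) ^ 2 / (2 * (Ln B M : ℝ) ^ 3) ≤
      (1/2) * (1 + 252 / (Hn B n : ℝ) ^ 4) * (jn B n * Qq B M n ω + tn B (n+1) * Qq B M (n+1) ω) := by
  have hLM : (0:ℝ) < Ln B M := by exact_mod_cast Ln_pos hB M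
  have hQn : Qq B M n ω = Qn B n ω.2 := by unfold Qq; rw [if_pos h]
  have hδ : (1:ℝ) ≤ 1 + 252 / (Hn B n : ℝ) ^ 4 := by
    have : (0:ℝ) ≤ 252 / (Hn B n : ℝ) ^ 4 := by positivity
    linarith
  have h1 : jn B n * ps (gk (rn B n)) ω.2 ≤ jn B n * ((1/2) * (1 + 252 / (Hn B n : ℝ) ^ 4) * Qn B n ω.2) := by
    refine mul_le_mul_of_nonneg_left ?_ (jn_nonneg hB n)
    refine (ps_gk_le_Qn hB n (rn_pos hB n) ω.2 hω).trans ?_
    have := Qn_nonneg B n ω.2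
    have := num1 hB n (le_refl (rn B n))
    gcongr
  rw [Finset.sum_eq_sum_Ico_succ_bot h]
  rcases Nat.lt_or_ge (n+1) M with h2 | h2
  · have hQn1 : Qq B M (n+1) ω = Qn B (n+1) ω.2 := by unfold Qq; rw [if_pos h2]
    have hQ0 := Qn_nonneg B (n+1) ω.2
    have h3 : ∑ k ∈ Finset.Ico (n+1) M, jn B k * ps (gk (rn B k)) ω.2 ≤
        ∑ k ∈ Finset.Ico (n+1) M, jn B k * ((1/2) * (1 + 252 / (Hn B n : ℝ) ^ 4) * Qn B (n+1) ω.2) := by
      refine Finset.sum_le_sum fun k hk => ?_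
      rw [Finset.mem_Ico] at hk
      refine mul_le_mul_of_nonneg_left ?_ (jn_nonneg hB k)
      refine (ps_gk_le_Qn hB (n+1) (rn_pos hB k) ω.2 hω).trans ?_
      have h4 := num1 hB (n+1) (rn_mono hB hk.1)
      have h5 := H4_mono hB n
      have h6 : (1 + 4 * (Ln B (n+1) : ℝ) / rn B k) ^ 6 ≤ 1 + 252 / (Hn B n : ℝ) ^ 4 := by linarith
      gcongr
    rw [← Finset.sum_mul, sum_jn_Ico B h2.le] at h3
    have h4 : tn B M * (ω.1:ℝ) ^ 2 / (2 * (Ln B M : ℝ) ^ 3) ≤ tn B M * ((1/2) * (1 + 252 / (Hn B n : ℝ) ^ 4) * Qn B (n+1) ω.2) := by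
      have h5 := sq_le_Qn hB (n+1) hLM ω.2 hω
      rw [Fintype.card_fin] at h5
      have h6 := num3 hB (show n + 2 ≤ M by omega)
      have h7 : (ω.1:ℝ) ^ 2 / (Ln B M : ℝ) ^ 3 ≤ (1 + 252 / (Hn B n : ℝ) ^ 4) * Qn B (n+1) ω.2 :=
        h5.trans (mul_le_mul_of_nonneg_right h6 hQ0)
      have e : tn B M * (ω.1:ℝ) ^ 2 / (2 * (Ln B M : ℝ) ^ 3) = tn B M * ((1/2) * ((ω.1:ℝ) ^ 2 / (Ln B M : ℝ) ^ 3)) := by ring
      rw [e]
      refine mul_le_mul_of_nonneg_left ?_ (tn_pos hB M).le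
      linarith
    rw [hQn, hQn1]
    nlinarith
  · have hM : M = n + 1 := by omega
    subst hM
    have hQn1 : Qq B (n+1) (n+1) ω = (ω.1:ℝ) ^ 2 / (Ln B (n+1) : ℝ) ^ 3 := by unfold Qq; rw [if_neg (lt_irrefl _)]
    rw [Finset.Ico_self, Finset.sum_empty, hQn, hQn1]
    have h4 : tn B (n+1) * (ω.1:ℝ) ^ 2 / (2 * (Ln B (n+1) : ℝ) ^ 3) ≤
        tn B (n+1) * ((1/2) * (1 + 252 / (Hn B n : ℝ) ^ 4) * ((ω.1:ℝ) ^ 2 / (Ln B (n+1) : ℝ) ^ 3)) := by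
      have e : tn B (n+1) * (ω.1:ℝ) ^ 2 / (2 * (Ln B (n+1) : ℝ) ^ 3) = tn B (n+1) * ((1/2) * ((ω.1:ℝ) ^ 2 / (Ln B (n+1) : ℝ) ^ 3)) := by ring
      rw [e]
      refine mul_le_mul_of_nonneg_left ?_ (tn_pos hB _).le
      have h5 : (0:ℝ) ≤ (ω.1:ℝ) ^ 2 / (Ln B (n+1) : ℝ) ^ 3 := by positivity
      nlinarith
    linarith

/-- averaged decoupling identity -/
theorem avg_dec (b : Base) {B : ℕ} (hB : 2 ≤ B) (β μ θ : ℝ) (n : ℕ) (S : ℝ) (ω : Cfg)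
    (hω : ∀ i, ω.2 i ∈ cube S) :
    (1 / (Ln B n : ℝ) ^ 3) * ∑ U : Fin 3 → Fin (Ln B n), dec b B β μ θ n S U ω =
      ps (wn b B β θ n) ω.2 - (1/2) * ∑ i, ∑ j, wn b B β θ n (dist (ω.2 i) (ω.2 j)) * Pd (Ln B n) (ω.2 i) (ω.2 j) +
      μ * ω.1 + (1/2) * θ * tn B n * Qn B n ω.2 := by
  have hL := Ln_pos hB n
  have hLr0 : (0:ℝ) < Ln B n := by exact_mod_cast hL
  simp only [dec_eq b hB β μ θ n S _ ω hω]
  rw [Finset.sum_add_distrib, Finset.sum_add_distrib, Finset.sum_sub_distrib]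
  simp only [Finset.sum_const, nsmul_eq_mul, card_U, ← Finset.mul_sum]
  have h1 : ∑ U : Fin 3 → Fin (Ln B n), ∑ i, ∑ j, wn b B β θ n (dist (ω.2 i) (ω.2 j)) *
      (if blk (Ln B n) (ofs U) (ω.2 i) = blk (Ln B n) (ofs U) (ω.2 j) then (0:ℝ) else 1) =
      (Ln B n : ℝ) ^ 3 * ∑ i, ∑ j, wn b B β θ n (dist (ω.2 i) (ω.2 j)) * Pd (Ln B n) (ω.2 i) (ω.2 j) := by
    rw [Finset.sum_comm, Finset.mul_sum]
    refine Finset.sum_congr rfl fun i _ => ?_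
    rw [Finset.sum_comm, Finset.mul_sum]
    refine Finset.sum_congr rfl fun j _ => ?_
    rw [← Finset.mul_sum]
    unfold Pd
    field_simp
  rw [h1]
  unfold Qn
  field_simp

/-- the level-`n` pointwise bound. -/
theorem pointwise {b : Base} (R : Rg b) {β μ θ : ℝ} (h : R.Ok β μ θ) {B : ℕ} (hB : 2 ≤ B) {n M : ℕ} (hn : n < M)
    (ω : Cfg) (hω : ∀ i, ω.2 i ∈ cube (Ln B M)) (hE : ps b.φ ω.2 ≤ R.CE * (Ln B M : ℝ) ^ 3)
    (hN : (ω.1 : ℝ) ≤ R.ρb * (Ln B M : ℝ) ^ 3) :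
    Wc b B β μ θ M ω ≤ (1 / (Ln B n : ℝ) ^ 3) * ∑ U : Fin 3 → Fin (Ln B n), dec b B β μ θ n (Ln B M) U ω -
      (θ/2) * tn B (n+1) * (Qq B M n ω - Qq B M (n+1) ω) +
      (261 * R.θh * b.Ca * R.Cp / (Hn B n : ℝ) ^ 4) * (Ln B M : ℝ) ^ 3 := by
  have h' := h
  obtain ⟨hβ, hμ, hθl, hθh⟩ := h'
  have hθ0 : 0 < θ := R.θl_pos.trans_le hθl
  have hH := Hn_ge2 hB n
  have hH0 : (0:ℝ) < Hn B n := by linarith
  have hLM : (0:ℝ) < Ln B M := by exact_mod_cast Ln_pos hB M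
  have hCa := Ca_pos b
  have hK := b.K_pos
  set V := (Ln B M : ℝ) ^ 3 with hV
  have hV0 : 0 < V := by positivity
  have hpc := pc_cl_le b ω.2
  rw [Fintype.card_fin] at hpc
  have hpcV : pc (fun i => cl b.a (ω.2 i)) ≤ R.Cp * V := by
    refine hpc.trans ?_
    unfold Rg.Cp
    have : 2 * ps b.φ ω.2 / b.K ≤ 2 * R.CE / b.K * V := by
      rw [div_mul_eq_mul_div, div_le_div_iff_of_pos_right hK]
      linarith
    linarith
  have hQn : Qq B M n ω = Qn B n ω.2 := by unfold Qq; rw [if_pos hn]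
  -- split W
  have e1 : Wc b B β μ θ M ω = ps (wn b B β θ n) ω.2 + μ * ω.1 +
      θ * (∑ k ∈ Finset.Ico n M, jn B k * ps (gk (rn B k)) ω.2 + tn B M * (ω.1:ℝ) ^ 2 / (2 * (Ln B M : ℝ) ^ 3)) := by
    rw [Wc_eq, ps_wn]
    unfold Rn
    rw [← Finset.sum_range_add_sum_Ico _ hn.le, Fintype.card_fin]
    ring
  have h1 := higher_le hB hn ω hω
  have h2 := avg_dec b hB β μ θ n (Ln B M) ω hω
  have h3 := cross_le b hB (by linarith : 0 ≤ β) hθ0.le n ω.2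
  have h4 : ∑ k ∈ Finset.range n, jn B k * ps (gk (rn B k)) ω.2 ≤ b.Ca * pc (fun i => cl b.a (ω.2 i)) := by
    have h5 : ∑ k ∈ Finset.range n, jn B k * ps (gk (rn B k)) ω.2 ≤
        ∑ k ∈ Finset.range n, jn B k * (b.Ca * pc (fun i => cl b.a (ω.2 i))) := by
      refine Finset.sum_le_sum fun k _ => ?_
      exact mul_le_mul_of_nonneg_left (ps_gk_le_cl b (rn_ge hB k) ω.2 hω) (jn_nonneg hB k)
    rw [← Finset.sum_mul, sum_jn] at h5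
    have h6 : 0 ≤ b.Ca * pc (fun i => cl b.a (ω.2 i)) := mul_nonneg hCa.le (pc_nonneg _)
    have := tn_pos hB n
    nlinarith
  have hcap : b.Ca * pc (fun i => cl b.a (ω.2 i)) ≤ b.Ca * (R.Cp * V) := mul_le_mul_of_nonneg_left hpcV hCa.le
  have hcap0 : 0 ≤ b.Ca * (R.Cp * V) := (mul_nonneg hCa.le (pc_nonneg _)).trans hcap
  have hX0 : 0 ≤ b.Ca * pc (fun i => cl b.a (ω.2 i)) := mul_nonneg hCa.le (pc_nonneg _)
  have h5 : 9 / (Hn B n : ℝ) ^ 4 * (θ * ∑ k ∈ Finset.range n, jn B k * ps (gk (rn B k)) ω.2) ≤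
      9 / (Hn B n : ℝ) ^ 4 * (R.θh * (b.Ca * (R.Cp * V))) := by
    refine mul_le_mul_of_nonneg_left ?_ (by positivity)
    calc θ * ∑ k ∈ Finset.range n, jn B k * ps (gk (rn B k)) ω.2 ≤ θ * (b.Ca * (R.Cp * V)) :=
          mul_le_mul_of_nonneg_left (h4.trans hcap) hθ0.le
      _ ≤ _ := mul_le_mul_of_nonneg_right hθh hcap0
  have h6 : jn B n * Qq B M n ω + tn B (n+1) * Qq B M (n+1) ω ≤ 2 * (b.Ca * (R.Cp * V)) := by
    have q1 := (Qq_le b hB M n ω hω)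
    have q2 := (Qq_le b hB M (n+1) ω hω)
    have j0 := jn_nonneg hB n
    have t0 := tn_pos hB (n+1)
    have jt : jn B n + tn B (n+1) ≤ 1 := by
      have : jn B n + tn B (n+1) = tn B n := by unfold jn; ring
      rw [this]; exact tn_le_one hB n
    have q3 : jn B n * Qq B M n ω + tn B (n+1) * Qq B M (n+1) ω ≤ (jn B n + tn B (n+1)) * (2 * (b.Ca * pc (fun i => cl b.a (ω.2 i)))) := by
      nlinarith
    refine q3.trans ?_
    nlinarith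
  have h7 : θ * ((1/2) * (252 / (Hn B n : ℝ) ^ 4) * (jn B n * Qq B M n ω + tn B (n+1) * Qq B M (n+1) ω)) ≤
      252 / (Hn B n : ℝ) ^ 4 * (R.θh * (b.Ca * (R.Cp * V))) := by
    have hd0 : (0:ℝ) ≤ 252 / (Hn B n : ℝ) ^ 4 := by positivity
    calc θ * ((1/2) * (252 / (Hn B n : ℝ) ^ 4) * (jn B n * Qq B M n ω + tn B (n+1) * Qq B M (n+1) ω))
        ≤ θ * ((1/2) * (252 / (Hn B n : ℝ) ^ 4) * (2 * (b.Ca * (R.Cp * V)))) := by gcongr
      _ = 252 / (Hn B n : ℝ) ^ 4 * (θ * (b.Ca * (R.Cp * V))) := by ring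
      _ ≤ _ := by gcongr
  have h8 := mul_le_mul_of_nonneg_left h1 hθ0.le
  have e2 : θ * ((1/2) * (1 + 252 / (Hn B n : ℝ) ^ 4) * (jn B n * Qq B M n ω + tn B (n+1) * Qq B M (n+1) ω)) =
      (θ/2) * (jn B n * Qq B M n ω + tn B (n+1) * Qq B M (n+1) ω) +
      θ * ((1/2) * (252 / (Hn B n : ℝ) ^ 4) * (jn B n * Qq B M n ω + tn B (n+1) * Qq B M (n+1) ω)) := by ring
  rw [e2] at h8
  have e3 : (261 * R.θh * b.Ca * R.Cp / (Hn B n : ℝ) ^ 4) * V = 9 / (Hn B n : ℝ) ^ 4 * (R.θh * (b.Ca * (R.Cp * V))) +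
      252 / (Hn B n : ℝ) ^ 4 * (R.θh * (b.Ca * (R.Cp * V))) := by ring
  rw [e3, e1, h2, ← hQn]
  have e4 : tn B n = jn B n + tn B (n+1) := by unfold jn; ring
  rw [e4]
  have e5 : (1/2) * θ * (jn B n + tn B (n+1)) * Qq B M n ω - (θ/2) * tn B (n+1) * (Qq B M n ω - Qq B M (n+1) ω) =
      (θ/2) * (jn B n * Qq B M n ω + tn B (n+1) * Qq B M (n+1) ω) := by ring
  linarith

end Crest.H5.PP
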