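import Crest.Agent.H5.PP.TPt

set_option autoImplicit false
set_option maxHeartbeats 400000
open MeasureTheory ENNReal Set Metric

namespace Crest.H5.PP

open Crest.ProbabilityR.Continuum (packingSet packingNumber)

variable {b : Base}

/-- coordinates -/
noncomputable def xm (p q : ℝ) (c : ℝ × ℝ) : ℝ := -(1/q) + c.1 / p - (c.2 - q * c.1) / (p * q * (q - 1))
noncomputable def xt (p q : ℝ) (c : ℝ × ℝ) : ℝ := 2 / (p * q) + 2 * (c.2 - q * c.1) / (p ^ 2 * q * (q - 1))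

noncomputable def kap (p q : ℝ) (i : Fin 3) : ℝ := if i = 0 then 0 else if i = 1 then p else q * p

theorem ell_coord1 {p q : ℝ} (hp : 0 < p) (hq : 2 ≤ q) (c : ℝ × ℝ) : ell p q (xm p q c) (xt p q c) 1 = c.1 := by
  have h1 : q - 1 ≠ 0 := by linarith
  have h2 : q ≠ 0 := by linarith
  have e : ell p q (xm p q c) (xt p q c) 1 = xm p q c * p + xt p q c * p ^ 2 / 2 := by simp [ell]
  rw [e]
  unfold xm xt
  field_simp
  ring

theorem ell_coord2 {p q : ℝ} (hp : 0 < p) (hq : 2 ≤ q) (c : ℝ × ℝ) : ell p q (xm p q c) (xt p q c) 2 = c.2 := by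
  have h1 : q - 1 ≠ 0 := by linarith
  have h2 : q ≠ 0 := by linarith
  have e : ell p q (xm p q c) (xt p q c) 2 = -(q - 1) * p + xm p q c * (q * p) + xt p q c * (q * p) ^ 2 / 2 := by simp [ell]
  rw [e]
  unfold xm xt
  field_simp
  ring

theorem ell_add_m {p q m t d : ℝ} (i : Fin 3) : ell p q (m + d) t i = ell p q m t i + kap p q i * d := by
  fin_cases i <;> simp [ell, kap] <;> ring

theorem ell_add_t {p q m t d : ℝ} (i : Fin 3) : ell p q m (t + d) i = ell p q m t i + d * (kap p q i) ^ 2 / 2 := by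
  fin_cases i <;> simp [ell, kap] <;> ring

theorem coord_bounds {p q e : ℝ} (hp : 0 < p) (hq : 2 ≤ q) {c : ℝ × ℝ} (h1 : |c.1| ≤ e) (h2 : |c.2| ≤ e) :
    |xm p q c + 1 / q| ≤ 5/2 * (e / p) ∧ |xt p q c - 2 / (p * q)| ≤ 3 * (e / p ^ 2) := by
  have hq1 : 0 < q - 1 := by linarith
  have hq0 : 0 < q := by linarith
  have he : 0 ≤ e := (abs_nonneg _).trans h1
  have hd : |c.2 - q * c.1| ≤ e * (1 + q) := by
    calc |c.2 - q * c.1| ≤ |c.2| + |q * c.1| := abs_sub _ _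
      _ = |c.2| + q * |c.1| := by rw [abs_mul, abs_of_pos hq0]
      _ ≤ e + q * e := by gcongr
      _ = _ := by ring
  have hr : (1 + q) / (q * (q - 1)) ≤ 3/2 := by
    rw [div_le_iff₀ (by positivity)]
    nlinarith
  have hk : |c.2 - q * c.1| / (q * (q - 1)) ≤ 3/2 * e := by
    calc |c.2 - q * c.1| / (q * (q - 1)) ≤ e * (1 + q) / (q * (q - 1)) := by gcongr
      _ = e * ((1 + q) / (q * (q - 1))) := by ring
      _ ≤ e * (3/2) := by gcongr
      _ = _ := by ring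
  constructor
  · have e1 : xm p q c + 1 / q = c.1 / p - (c.2 - q * c.1) / (p * q * (q - 1)) := by unfold xm; ring
    rw [e1]
    refine (abs_sub _ _).trans ?_
    rw [abs_div, abs_div, abs_of_pos hp, abs_of_pos (show 0 < p * q * (q - 1) by positivity)]
    have e2 : |c.2 - q * c.1| / (p * q * (q - 1)) = |c.2 - q * c.1| / (q * (q - 1)) / p := by
      field_simp
    rw [e2]
    calc |c.1| / p + |c.2 - q * c.1| / (q * (q - 1)) / p ≤ e / p + 3/2 * e / p := by gcongr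
      _ = _ := by ring
  · have e1 : xt p q c - 2 / (p * q) = 2 * (c.2 - q * c.1) / (p ^ 2 * q * (q - 1)) := by unfold xt; ring
    rw [e1, abs_div, abs_mul, abs_of_pos (show 0 < p ^ 2 * q * (q - 1) by positivity), abs_of_pos (show (0:ℝ) < 2 by norm_num)]
    have e2 : 2 * |c.2 - q * c.1| / (p ^ 2 * q * (q - 1)) = 2 * (|c.2 - q * c.1| / (q * (q - 1))) / p ^ 2 := by
      field_simp
    rw [e2]
    calc 2 * (|c.2 - q * c.1| / (q * (q - 1))) / p ^ 2 ≤ 2 * (3/2 * e) / p ^ 2 := by gcongr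
      _ = _ := by ring

namespace Dt

variable (D : Dt b)

noncomputable def A (c : ℝ × ℝ) : Fin 3 → ℝ := D.X 1 (xm D.p D.q c) (xt D.p D.q c)

theorem A_affine (c c' : ℝ × ℝ) {s r : ℝ} (h : s + r = 1) : D.A (s • c + r • c') = s • D.A c + r • D.A c' := by
  have hr : r = 1 - s := by linarith
  subst hr
  funext k
  fin_cases k
  · show (1:ℝ) = s * 1 + (1 - s) * 1
    ring
  · show D.Λ * xm D.p D.q (s • c + (1 - s) • c') = s * (D.Λ * xm D.p D.q c) + (1 - s) * (D.Λ * xm D.p D.q c')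
    unfold xm
    simp only [Prod.fst_add, Prod.snd_add, Prod.smul_fst, Prod.smul_snd, smul_eq_mul]
    ring
  · show D.Λ * xt D.p D.q (s • c + (1 - s) • c') = s * (D.Λ * xt D.p D.q c) + (1 - s) * (D.Λ * xt D.p D.q c')
    unfold xt
    simp only [Prod.fst_add, Prod.snd_add, Prod.smul_fst, Prod.smul_snd, smul_eq_mul]
    ring

theorem A_cont : Continuous D.A := by
  unfold A X xm xt
  apply continuous_pi
  intro k
  fin_cases k
  · exact continuous_const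
  · show Continuous fun c : ℝ × ℝ => D.Λ * (-(1/(D.q:ℝ)) + c.1 / D.p - (c.2 - D.q * c.1) / (D.p * D.q * (D.q - 1)))
    fun_prop
  · show Continuous fun c : ℝ × ℝ => D.Λ * (2 / (D.p * D.q) + 2 * (c.2 - D.q * c.1) / (D.p ^ 2 * D.q * (D.q - 1)))
    fun_prop

theorem ε_div : D.ε / D.p = 1 / (2000 * (D.q:ℝ) ^ 2) := by
  have := D.p_pos
  have := D.qr0
  rw [D.hε]; field_simp

theorem inD_of {c : ℝ × ℝ} (h1 : |c.1| ≤ 18 * D.ε) (h2 : |c.2| ≤ 18 * D.ε) :
    InD D.p D.q (xm D.p D.q c) (xt D.p D.q c) := by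
  have hp := D.p_pos
  have hq := D.qr
  have hq0 := D.qr0
  obtain ⟨a1, a2⟩ := coord_bounds hp hq h1 h2
  constructor
  · refine a1.trans ?_
    rw [D.hε]
    rw [show 5/2 * (18 * (D.p / (2000 * (D.q:ℝ) ^ 2)) / D.p) = 45 / (2000 * (D.q:ℝ) ^ 2) by field_simp; norm_num]
    rw [div_le_div_iff₀ (by positivity) (by positivity)]
    nlinarith
  · refine a2.trans ?_
    rw [D.hε]
    rw [show 3 * (18 * (D.p / (2000 * (D.q:ℝ) ^ 2)) / D.p ^ 2) = 54 / (2000 * D.p * (D.q:ℝ) ^ 2) by field_simp; norm_num]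
    rw [div_le_div_iff₀ (by positivity) (by positivity)]
    have : 0 < D.p * (D.q:ℝ) ^ 2 := by positivity
    nlinarith

theorem triple : ∃ mc tc Pc : ℝ, ∃ g : Fin 3 → Fin 3 → ℝ, InD D.p D.q mc tc ∧ (∀ i, D.P i (D.X 1 mc tc) = Pc) ∧
    (∀ i y, Pc + ∑ k, g i k * (y k - D.X 1 mc tc k) ≤ D.P i y) ∧
    (∀ i, |g i 1 - kap D.p D.q i| ≤ 32 * D.q * D.ε) ∧
    (∀ i, |(g i 0 + D.Λ * tc * g i 2) - D.Λ * tc * (kap D.p D.q i) ^ 2 / 2| ≤ 96 * D.q * D.ε * D.Λ) := by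
  have hp := D.p_pos
  have hq := D.qr
  have hq0 := D.qr0
  have hΛ := D.Λ_pos
  have hε := D.ε_pos
  have hcont : ∀ i, Continuous (fun c => D.P i (D.A c) / D.Λ) := fun i => ((D.P_Pl i).continuous.comp D.A_cont).div_const _
  have hconv : ∀ i, ConvexOn ℝ univ (fun c => D.P i (D.A c) / D.Λ) := by
    intro i
    refine ⟨convex_univ, fun c _ c' _ s r hs hr hsr => ?_⟩
    have h1 := (D.P_Pl i).convexOn.2 (mem_univ (D.A c)) (mem_univ (D.A c')) hs hr hsr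
    simp only
    rw [D.A_affine c c' hsr]
    simp only [smul_eq_mul] at h1 ⊢
    rw [← mul_div_assoc, ← mul_div_assoc, ← add_div]
    gcongr
  have hup : ∀ i (c : ℝ × ℝ), |c.1| ≤ 18 * D.ε → |c.2| ≤ 18 * D.ε →
      D.P i (D.A c) / D.Λ ≤ ell D.p D.q (xm D.p D.q c) (xt D.p D.q c) i + D.ε := by
    intro i c h1 h2
    have h3 := D.P_le i (β := 1) (by norm_num) (D.inD_of h1 h2)
    rw [div_le_iff₀ hΛ]
    refine h3.trans (le_of_eq ?_)
    ring
  have hlow : ∀ j (c : ℝ × ℝ), |c.1| ≤ 18 * D.ε → |c.2| ≤ 18 * D.ε →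
      ell D.p D.q (xm D.p D.q c) (xt D.p D.q c) j - D.ε ≤
        max (D.P 0 (D.A c) / D.Λ) (max (D.P 1 (D.A c) / D.Λ) (D.P 2 (D.A c) / D.Λ)) := by
    intro j c h1 h2
    have h3 := D.le_max j (D.inD_of h1 h2)
    have h4 : ∀ y, D.Λ * ell D.p D.q (xm D.p D.q c) (xt D.p D.q c) j - D.ε * D.Λ ≤ y →
        ell D.p D.q (xm D.p D.q c) (xt D.p D.q c) j - D.ε ≤ y / D.Λ := by
      intro y hy
      rw [le_div_iff₀ hΛ]
      linarith
    rcases le_max_iff.mp h3 with h5 | h5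
    · exact le_max_of_le_left (h4 _ h5)
    · rcases le_max_iff.mp h5 with h6 | h6
      · exact le_max_of_le_right (le_max_of_le_left (h4 _ h6))
      · exact le_max_of_le_right (le_max_of_le_right (h4 _ h6))
  have e0 : ∀ c : ℝ × ℝ, ell D.p D.q (xm D.p D.q c) (xt D.p D.q c) 0 = 0 := fun c => by simp [ell]
  have e1 : ∀ c : ℝ × ℝ, ell D.p D.q (xm D.p D.q c) (xt D.p D.q c) 1 = c.1 := fun c => ell_coord1 hp hq c
  have e2 : ∀ c : ℝ × ℝ, ell D.p D.q (xm D.p D.q c) (xt D.p D.q c) 2 = c.2 := fun c => ell_coord2 hp hq c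
  obtain ⟨c, hc1, hc2, h01, h12⟩ := triple_point _ _ _ (hcont 0) (hcont 1) (hcont 2) (hconv 0) (hconv 1) (hconv 2) hε (le_refl (18 * D.ε))
    (fun c a1 a2 => by have := hup 0 c a1 a2; rw [e0] at this; linarith)
    (fun c a1 a2 => by have := hup 1 c a1 a2; rw [e1] at this; exact this)
    (fun c a1 a2 => by have := hup 2 c a1 a2; rw [e2] at this; exact this)
    (fun c a1 a2 => by have := hlow 0 c a1 a2; rw [e0] at this; linarith)
    (fun c a1 a2 => by have := hlow 1 c a1 a2; rw [e1] at this; exact this)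
    (fun c a1 a2 => by have := hlow 2 c a1 a2; rw [e2] at this; exact this)
  have p01 : D.P 0 (D.A c) = D.P 1 (D.A c) := by
    rw [div_left_inj' hΛ.ne'] at h01; exact h01
  have p12 : D.P 1 (D.A c) = D.P 2 (D.A c) := by
    rw [div_left_inj' hΛ.ne'] at h12; exact h12
  have hc18 : InD D.p D.q (xm D.p D.q c) (xt D.p D.q c) := D.inD_of (hc1.trans (by linarith)) (hc2.trans (by linarith))
  obtain ⟨cb1, cb2⟩ := coord_bounds hp hq hc1 hc2
  obtain ⟨mc, hmc⟩ : ∃ mc, mc = xm D.p D.q c := ⟨_, rfl⟩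
  obtain ⟨tc, htc⟩ : ∃ tc, tc = xt D.p D.q c := ⟨_, rfl⟩
  have hAc : D.A c = D.X 1 mc tc := by rw [hmc, htc]; rfl
  rw [hAc] at p01 p12
  rw [← hmc, ← htc] at hc18
  rw [← hmc] at cb1
  rw [← htc] at cb2
  have cb1' : |mc + 1 / D.q| ≤ 1 / (16 * D.q) := by
    refine cb1.trans ?_
    rw [D.hε]
    rw [show 5/2 * (6 * (D.p / (2000 * (D.q:ℝ) ^ 2)) / D.p) = 15 / (2000 * (D.q:ℝ) ^ 2) by field_simp; norm_num]
    rw [div_le_div_iff₀ (by positivity) (by positivity)]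
    nlinarith
  have cb2' : |tc - 2 / (D.p * D.q)| ≤ 1 / (16 * D.p * (D.q:ℝ) ^ 2) := by
    refine cb2.trans ?_
    rw [D.hε]
    rw [show 3 * (6 * (D.p / (2000 * (D.q:ℝ) ^ 2)) / D.p ^ 2) = 18 / (2000 * D.p * (D.q:ℝ) ^ 2) by field_simp; norm_num]
    rw [div_le_div_iff₀ (by positivity) (by positivity)]
    have : 0 < D.p * (D.q:ℝ) ^ 2 := by positivity
    nlinarith
  have hPeq : ∀ i, D.P i (D.X 1 mc tc) = D.P 0 (D.X 1 mc tc) := by
    intro i
    fin_cases i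
    · rfl
    · exact p01.symm
    · exact (p01.trans p12).symm
  have hPlow : ∀ j, D.Λ * ell D.p D.q mc tc j - D.ε * D.Λ ≤ D.P 0 (D.X 1 mc tc) := by
    intro j
    have h3 := D.le_max j hc18
    rw [hPeq 1, hPeq 2, max_self, max_self] at h3
    exact h3
  obtain ⟨t0, t1, t2, m0, m1, _⟩ := dom_c hp hq hc18
  choose g hg1 hg2 using fun i => D.P_Pl i (D.X 1 mc tc)
  refine ⟨mc, tc, D.P 0 (D.X 1 mc tc), g, hc18, hPeq, ?_, ?_, ?_⟩
  · intro i y
    have := hg2 i y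
    rw [hPeq i] at this
    exact this
  · intro i
    have key : ∀ d : ℝ, |d| ≤ 1 / (16 * D.q) → d * (g i 1 - kap D.p D.q i) ≤ 2 * D.ε := by
      intro d hd
      have hin : InD D.p D.q (mc + d) tc := by
        refine ⟨?_, hc18.2⟩
        have h1 : |mc + d + 1 / D.q| ≤ |mc + 1 / D.q| + |d| := by
          have e : mc + d + 1 / D.q = (mc + 1 / D.q) + d := by ring
          rw [e]; exact abs_add_le _ _
        have h2 : 1 / (16 * (D.q:ℝ)) + 1 / (16 * D.q) = 1 / (8 * D.q) := by field_simp; norm_num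
        linarith
      have h1 := D.P_le i (β := 1) (by norm_num) hin
      have h2 := hg2 i (D.X 1 (mc + d) tc)
      rw [hPeq i] at h2
      have h3 := hPlow i
      rw [ell_add_m] at h1
      have e : ∑ k, g i k * (D.X 1 (mc + d) tc k - D.X 1 mc tc k) = g i 1 * (D.Λ * d) := by
        rw [Fin.sum_univ_three]
        show g i 0 * (1 - 1) + g i 1 * (D.Λ * (mc + d) - D.Λ * mc) + g i 2 * (D.Λ * tc - D.Λ * tc) = _
        ring
      rw [e] at h2
      have h4 : D.Λ * (d * (g i 1 - kap D.p D.q i)) ≤ D.Λ * (2 * D.ε) := by linarith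
      exact le_of_mul_le_mul_left h4 hΛ
    have hd0 : (0:ℝ) < 1 / (16 * D.q) := by positivity
    have k1 := key (1 / (16 * D.q)) (by rw [abs_of_pos hd0])
    have k2 := key (-(1 / (16 * D.q))) (by rw [abs_neg, abs_of_pos hd0])
    have e : 32 * (D.q:ℝ) * D.ε = 2 * D.ε * (16 * D.q) := by ring
    rw [e, abs_le]
    constructor
    · have h5 := mul_le_mul_of_nonneg_right k2 (show (0:ℝ) ≤ 16 * D.q by positivity)
      have e5 : -(1 / (16 * (D.q:ℝ))) * (g i 1 - kap D.p D.q i) * (16 * D.q) = -(g i 1 - kap D.p D.q i) := by field_simp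
      rw [e5] at h5
      linarith
    · have h5 := mul_le_mul_of_nonneg_right k1 (show (0:ℝ) ≤ 16 * D.q by positivity)
      have e5 : (1 / (16 * (D.q:ℝ))) * (g i 1 - kap D.p D.q i) * (16 * D.q) = (g i 1 - kap D.p D.q i) := by field_simp
      rw [e5] at h5
      exact h5
  · intro i
    obtain ⟨a, ha⟩ : ∃ a, a = g i 0 + D.Λ * tc * g i 2 := ⟨_, rfl⟩
    rw [← ha]
    have key : ∀ d : ℝ, |d| ≤ 1 / (48 * D.q) → d * (a - D.Λ * tc * (kap D.p D.q i) ^ 2 / 2) ≤ 2 * D.ε * D.Λ := by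
      intro d hd
      have hd1 : |d| ≤ 1/2 := by
        refine hd.trans ?_
        apply one_div_le_one_div_of_le (by norm_num)
        linarith
      have hin : InD D.p D.q mc (tc + d * tc) := by
        refine ⟨hc18.1, ?_⟩
        have h1 : |tc + d * tc - 2 / (D.p * D.q)| ≤ |tc - 2 / (D.p * D.q)| + |d * tc| := by
          have e : tc + d * tc - 2 / (D.p * D.q) = (tc - 2 / (D.p * D.q)) + d * tc := by ring
          rw [e]; exact abs_add_le _ _
        have h2 : |d * tc| ≤ 1 / (16 * D.p * (D.q:ℝ) ^ 2) := by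
          rw [abs_mul, abs_of_pos t0]
          calc |d| * tc ≤ 1 / (48 * D.q) * (3 / (D.p * D.q)) := by gcongr
            _ = _ := by field_simp; norm_num
        have h3 : 1 / (16 * D.p * (D.q:ℝ) ^ 2) + 1 / (16 * D.p * (D.q:ℝ) ^ 2) = 1 / (8 * D.p * (D.q:ℝ) ^ 2) := by field_simp; norm_num
        linarith
      have h1 := D.P_le i (β := 1 + d) (by have := (abs_le.mp hd1).1; linarith) hin
      have h2 := hg2 i (D.X (1 + d) mc (tc + d * tc))
      rw [hPeq i] at h2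
      have h3 := hPlow i
      rw [ell_add_t] at h1
      have e : ∑ k, g i k * (D.X (1 + d) mc (tc + d * tc) k - D.X 1 mc tc k) = d * a := by
        rw [Fin.sum_univ_three, ha]
        show g i 0 * ((1 + d) - 1) + g i 1 * (D.Λ * mc - D.Λ * mc) + g i 2 * (D.Λ * (tc + d * tc) - D.Λ * tc) = _
        ring
      rw [e] at h2
      linarith
    have hd0 : (0:ℝ) < 1 / (48 * D.q) := by positivity
    have k1 := key (1 / (48 * D.q)) (by rw [abs_of_pos hd0])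
    have k2 := key (-(1 / (48 * D.q))) (by rw [abs_neg, abs_of_pos hd0])
    have e : 96 * (D.q:ℝ) * D.ε * D.Λ = 2 * D.ε * D.Λ * (48 * D.q) := by ring
    rw [e, abs_le]
    constructor
    · have h5 := mul_le_mul_of_nonneg_right k2 (show (0:ℝ) ≤ 48 * D.q by positivity)
      have e5 : -(1 / (48 * (D.q:ℝ))) * (a - D.Λ * tc * (kap D.p D.q i) ^ 2 / 2) * (48 * D.q) = -(a - D.Λ * tc * (kap D.p D.q i) ^ 2 / 2) := by field_simp
      rw [e5] at h5
      linarith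
    · have h5 := mul_le_mul_of_nonneg_right k1 (show (0:ℝ) ≤ 48 * D.q by positivity)
      have e5 : (1 / (48 * (D.q:ℝ))) * (a - D.Λ * tc * (kap D.p D.q i) ^ 2 / 2) * (48 * D.q) = (a - D.Λ * tc * (kap D.p D.q i) ^ 2 / 2) := by field_simp
      rw [e5] at h5
      exact h5

end Dt

/-- the numerical strict inequality -/
theorem kink_core {q w z y ρ0 ρ1 ρ2 β0 β1 β2 : ℝ} (hq : 2 ≤ q) (hw1 : 1/2 ≤ w) (hw2 : w ≤ 3/2) (hz : z = 2 / (125 * q)) (hy : y = 6 / (125 * q))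
    (r0 : |ρ0| ≤ z) (r1 : |ρ1 - 1| ≤ z) (r2 : |ρ2 - q| ≤ z)
    (b0 : |β0| ≤ y) (b1 : |β1 - w / q| ≤ y) (b2 : |β2 - w * q| ≤ y) :
    0 < (ρ2 - ρ1) * β0 - (ρ2 - ρ0) * β1 + (ρ1 - ρ0) * β2 := by
  have hq0 : 0 < q := by linarith
  have hz0 : 0 < z := by rw [hz]; positivity
  have hy0 : 0 < y := by rw [hy]; positivity
  have hzq : z * q = 2/125 := by rw [hz]; field_simp
  have hyq : y * q = 6/125 := by rw [hy]; field_simp
  have hz1 : z ≤ 1/125 := by nlinarith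
  have hy1 : y ≤ 3/125 := by nlinarith
  obtain ⟨r0a, r0b⟩ := abs_le.mp r0
  obtain ⟨r1a, r1b⟩ := abs_le.mp r1
  obtain ⟨r2a, r2b⟩ := abs_le.mp r2
  obtain ⟨b0a, b0b⟩ := abs_le.mp b0
  obtain ⟨b1a, b1b⟩ := abs_le.mp b1
  obtain ⟨b2a, b2b⟩ := abs_le.mp b2
  obtain ⟨τ, hτ⟩ : ∃ τ, τ = w / q := ⟨_, rfl⟩
  rw [← hτ] at b1a b1b
  have hτq : τ * q = w := by rw [hτ]; field_simp
  have hτ0 : 0 < τ := by rw [hτ]; positivity
  have hτ1 : τ ≤ 3/4 := by nlinarith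
  -- first term
  have T1 : -(6/125) ≤ (ρ2 - ρ1) * β0 := by
    have h1 : 0 ≤ ρ2 - ρ1 := by linarith
    have h2 : ρ2 - ρ1 ≤ q := by linarith
    have h3 : (ρ2 - ρ1) * (-y) ≤ (ρ2 - ρ1) * β0 := mul_le_mul_of_nonneg_left b0a h1
    have h4 : (ρ2 - ρ1) * y ≤ q * y := mul_le_mul_of_nonneg_right h2 hy0.le
    linarith
  -- second term
  have T2 : (ρ2 - ρ0) * β1 ≤ w + 6/125 + 2/125 := by
    have h1 : 0 ≤ ρ2 - ρ0 := by linarith
    have h2 : ρ2 - ρ0 ≤ q + 2 * z := by linarith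
    have h3 : (ρ2 - ρ0) * β1 ≤ (ρ2 - ρ0) * (τ + y) := mul_le_mul_of_nonneg_left (by linarith) h1
    have h4 : (ρ2 - ρ0) * (τ + y) ≤ (q + 2 * z) * (τ + y) := mul_le_mul_of_nonneg_right h2 (by linarith)
    have h5 : 2 * z * (τ + y) ≤ 2 * (1/125) * 1 := by
      apply mul_le_mul (by linarith) (by linarith) (by linarith) (by norm_num)
    have e : (q + 2 * z) * (τ + y) = τ * q + y * q + 2 * z * (τ + y) := by ring
    rw [e, hτq, hyq] at h4
    linarith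
  -- third term
  have T3 : w * q - 9/125 ≤ (ρ1 - ρ0) * β2 := by
    have h1 : 1 - 2 * z ≤ ρ1 - ρ0 := by linarith
    have h2 : w * q - y ≤ β2 := by linarith
    have h3 : 0 ≤ w * q - y := by nlinarith
    have h4 : (1 - 2 * z) * (w * q - y) ≤ (ρ1 - ρ0) * β2 := mul_le_mul h1 h2 h3 (by linarith)
    have e : (1 - 2 * z) * (w * q - y) = w * q - y - 2 * (z * q) * w + 2 * z * y := by ring
    rw [e, hzq] at h4
    have : 0 ≤ 2 * z * y := by positivity
    linarith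
  nlinarith


namespace Dt

variable (D : Dt b)

theorem kink : ∃ mc tc Pc : ℝ, ∃ r a : Fin 3 → ℝ, ∃ g : Fin 3 → Fin 3 → ℝ, InD D.p D.q mc tc ∧ (∀ i, D.P i (D.X 1 mc tc) = Pc) ∧
    (∀ i y, Pc + ∑ k, g i k * (y k - D.X 1 mc tc k) ≤ D.P i y) ∧
    (∀ i, r i = g i 1) ∧ (∀ i, a i = g i 0 + D.Λ * tc * g i 2) ∧
    r 0 ≤ 3 * D.p / 2 ∧ r 1 ≤ 3 * D.p / 2 ∧ 11 * D.p / 6 ≤ r 2 ∧
    0 < (r 2 - r 1) * a 0 - (r 2 - r 0) * a 1 + (r 1 - r 0) * a 2 := by
  obtain ⟨mc, tc, Pc, g, hin, hP, hg, hr, ha⟩ := D.triple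
  have hp := D.p_pos
  have hq := D.qr
  have hq0 := D.qr0
  have hΛ := D.Λ_pos
  obtain ⟨t0, t1, t2, m0, m1, _⟩ := dom_c hp hq hin
  refine ⟨mc, tc, Pc, fun i => g i 1, fun i => g i 0 + D.Λ * tc * g i 2, g, hin, hP, hg, fun _ => rfl, fun _ => rfl, ?_⟩
  have hz : 32 * (D.q:ℝ) * D.ε = D.p * (2 / (125 * D.q)) := by rw [D.hε]; field_simp; norm_num
  have hy : 96 * (D.q:ℝ) * D.ε * D.Λ = (D.p * D.Λ) * (6 / (125 * D.q)) := by rw [D.hε]; field_simp; norm_num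
  rw [hz] at hr
  rw [hy] at ha
  have hr' : ∀ i, |g i 1 / D.p - kap D.p D.q i / D.p| ≤ 2 / (125 * (D.q:ℝ)) := by
    intro i
    rw [← sub_div, abs_div, abs_of_pos hp, div_le_iff₀ hp]
    have := hr i
    linarith
  have ha' : ∀ i, |(g i 0 + D.Λ * tc * g i 2) / (D.p * D.Λ) - tc * (kap D.p D.q i) ^ 2 / (2 * D.p)| ≤ 6 / (125 * (D.q:ℝ)) := by
    intro i
    have e : (g i 0 + D.Λ * tc * g i 2) / (D.p * D.Λ) - tc * (kap D.p D.q i) ^ 2 / (2 * D.p) =
        ((g i 0 + D.Λ * tc * g i 2) - D.Λ * tc * (kap D.p D.q i) ^ 2 / 2) / (D.p * D.Λ) := by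
      field_simp
    rw [e, abs_div, abs_of_pos (show 0 < D.p * D.Λ by positivity), div_le_iff₀ (by positivity)]
    have := ha i
    linarith
  have k0 : kap D.p D.q 0 = 0 := by simp [kap]
  have k1 : kap D.p D.q 1 = D.p := by simp [kap]
  have k2 : kap D.p D.q 2 = D.q * D.p := by simp [kap]
  have R0 := hr' 0
  have R1 := hr' 1
  have R2 := hr' 2
  have A0 := ha' 0
  have A1 := ha' 1
  have A2 := ha' 2
  rw [k0, zero_div, sub_zero] at R0
  rw [k1, div_self hp.ne'] at R1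
  rw [k2, mul_div_cancel_right₀ _ hp.ne'] at R2
  have c0 : tc * (kap D.p D.q 0) ^ 2 / (2 * D.p) = 0 := by rw [k0]; simp
  have c1 : tc * (kap D.p D.q 1) ^ 2 / (2 * D.p) = (tc * D.p * D.q / 2) / D.q := by rw [k1]; field_simp
  have c2 : tc * (kap D.p D.q 2) ^ 2 / (2 * D.p) = (tc * D.p * D.q / 2) * D.q := by rw [k2]; field_simp
  rw [c0, sub_zero] at A0
  rw [c1] at A1
  rw [c2] at A2
  have hw1 : 1/2 ≤ tc * D.p * D.q / 2 := by
    rw [div_le_iff₀ (by positivity)] at t2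
    linarith
  have hw2 : tc * D.p * D.q / 2 ≤ 3/2 := by
    rw [le_div_iff₀ (by positivity)] at t1
    linarith
  have hz1 : 2 / (125 * (D.q:ℝ)) ≤ 1/125 := by
    rw [div_le_div_iff₀ (by positivity) (by norm_num)]
    linarith
  refine ⟨?_, ?_, ?_, ?_⟩
  · have h1 := (abs_le.mp R0).2
    have h2 : g 0 1 / D.p ≤ 3/2 := by linarith
    rw [div_le_iff₀ hp] at h2
    show g 0 1 ≤ _
    linarith
  · have h1 := (abs_le.mp R1).2
    have h2 : g 1 1 / D.p ≤ 3/2 := by linarith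
    rw [div_le_iff₀ hp] at h2
    show g 1 1 ≤ _
    linarith
  · have h1 := (abs_le.mp R2).1
    have h2 : 11/6 ≤ g 2 1 / D.p := by linarith
    rw [le_div_iff₀ hp] at h2
    show _ ≤ g 2 1
    linarith
  · have h1 := kink_core hq hw1 hw2 rfl rfl R0 R1 R2 A0 A1 A2
    have h2 : 0 < D.p * (D.p * D.Λ) * ((g 2 1 / D.p - g 1 1 / D.p) * ((g 0 0 + D.Λ * tc * g 0 2) / (D.p * D.Λ)) -
        (g 2 1 / D.p - g 0 1 / D.p) * ((g 1 0 + D.Λ * tc * g 1 2) / (D.p * D.Λ)) +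
        (g 1 1 / D.p - g 0 1 / D.p) * ((g 2 0 + D.Λ * tc * g 2 2) / (D.p * D.Λ))) := mul_pos (by positivity) h1
    refine lt_of_lt_of_eq h2 ?_
    show _ = (g 2 1 - g 1 1) * (g 0 0 + D.Λ * tc * g 0 2) - (g 2 1 - g 0 1) * (g 1 0 + D.Λ * tc * g 1 2) + (g 1 1 - g 0 1) * (g 2 0 + D.Λ * tc * g 2 2)
    field_simp

end Dt

end Crest.H5.PP
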