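import Crest.Agent.H5.PP.Beta
import Crest.Agent.H5.PP.Triple

set_option autoImplicit false
set_option maxHeartbeats 400000
open MeasureTheory ENNReal Set Metric Filter Topology

namespace Crest.H5.PP

/-- the long range tail -/
noncomputable def psi (B : ℕ) (r : ℝ) : ℝ := ∑' k, jn B k * gk (rn B k) r

theorem two_pow_le_rn {B : ℕ} (hB : 2 ≤ B) (k : ℕ) : (2:ℝ) ^ k ≤ rn B k := by
  unfold rn
  have h1 : 2 ^ k ≤ Hn B (k+1) := by
    unfold Hn
    calc 2 ^ k ≤ 2 ^ (2 ^ (k+1)) := Nat.pow_le_pow_right (by norm_num) ((Nat.lt_two_pow_self (n := k)).le.trans (Nat.pow_le_pow_right (by norm_num) (Nat.le_succ k)))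
      _ ≤ B ^ (2 ^ (k+1)) := Nat.pow_le_pow_left hB _
  have h2 : (2:ℝ) ^ k ≤ Hn B (k+1) := by exact_mod_cast h1
  have h3 : (1:ℝ) ≤ Hn B (k+1) := by exact_mod_cast Hn_pos hB (k+1)
  calc (2:ℝ) ^ k ≤ Hn B (k+1) := h2
    _ = (Hn B (k+1) : ℝ) ^ 1 := (pow_one _).symm
    _ ≤ _ := pow_le_pow_right₀ h3 (by norm_num)

theorem term_bound {B : ℕ} (hB : 2 ≤ B) (k : ℕ) (r : ℝ) : jn B k * gk (rn B k) r ≤ 1 / v1 * (1/2) ^ k := by
  have hv := v1_pos
  have hr := rn_pos hB k
  have h1 : jn B k * gk (rn B k) r ≤ 1 * (1 / (rn B k ^ 3 * v1)) :=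
    mul_le_mul (jn_le_one hB k) (gk_le hr r) (gk_nonneg _ _) zero_le_one
  have h2 := two_pow_le_rn hB k
  have h3 : (1:ℝ) ≤ 2 ^ k := one_le_pow₀ (by norm_num)
  have h4 : (2:ℝ) ^ k ≤ rn B k ^ 3 := by
    calc (2:ℝ) ^ k ≤ ((2:ℝ) ^ k) ^ 3 := le_self_pow₀ h3 (by norm_num)
      _ ≤ _ := by gcongr
  calc jn B k * gk (rn B k) r ≤ 1 * (1 / (rn B k ^ 3 * v1)) := h1
    _ ≤ 1 * (1 / (2 ^ k * v1)) := by gcongr
    _ = _ := by rw [one_div_pow]; field_simp

theorem term_nonneg {B : ℕ} (hB : 2 ≤ B) (k : ℕ) (r : ℝ) : 0 ≤ jn B k * gk (rn B k) r :=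
  mul_nonneg (jn_nonneg hB k) (gk_nonneg _ _)

theorem summable_bound : Summable (fun k : ℕ => 1 / v1 * ((1:ℝ)/2) ^ k) :=
  (summable_geometric_of_lt_one (by norm_num) (by norm_num)).mul_left _

theorem summable_psi {B : ℕ} (hB : 2 ≤ B) (r : ℝ) : Summable (fun k => jn B k * gk (rn B k) r) :=
  Summable.of_nonneg_of_le (fun k => term_nonneg hB k r) (fun k => term_bound hB k r) summable_bound

theorem psi_nonneg {B : ℕ} (hB : 2 ≤ B) (r : ℝ) : 0 ≤ psi B r := tsum_nonneg fun k => term_nonneg hB k r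

theorem psi_le {B : ℕ} (hB : 2 ≤ B) (r : ℝ) : psi B r ≤ 2 / v1 := by
  have h1 : psi B r ≤ ∑' k : ℕ, 1 / v1 * ((1:ℝ)/2) ^ k :=
    (summable_psi hB r).tsum_le_tsum (fun k => term_bound hB k r) summable_bound
  rw [tsum_mul_left, tsum_geometric_of_lt_one (by norm_num) (by norm_num)] at h1
  refine h1.trans (le_of_eq ?_)
  field_simp
  norm_num

theorem continuous_psi {B : ℕ} (hB : 2 ≤ B) : Continuous (psi B) := by
  refine continuous_tsum (fun k => continuous_const.mul (continuous_gk _)) summable_bound ?_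
  intro k r
  rw [Real.norm_eq_abs, abs_of_nonneg (term_nonneg hB k r)]
  exact term_bound hB k r

theorem tn_tendsto {B : ℕ} (hB : 2 ≤ B) : Tendsto (tn B) atTop (𝓝 0) := by
  have h1 : ∀ᶠ k in atTop, tn B k ≤ 1 / (k:ℝ) := by
    filter_upwards [eventually_gt_atTop 0] with k hk
    unfold tn
    rw [if_neg (by omega)]
    have : (k:ℝ) ≤ Hn B k := by exact_mod_cast M_le_Hn hB k
    have hk' : (0:ℝ) < k := by exact_mod_cast hk
    gcongr
  exact squeeze_zero' (Eventually.of_forall fun k => (tn_pos hB k).le) h1 tendsto_one_div_atTop_nhds_zero_nat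

/-- partial sums of pair sums converge -/
theorem ps_psi_hasSum {B : ℕ} (hB : 2 ≤ B) {ι : Type*} [Fintype ι] (x : ι → Pt) :
    HasSum (fun k => jn B k * ps (gk (rn B k)) x) (ps (psi B) x) := by
  have h1 : ∀ i j : ι, HasSum (fun k => jn B k * off (gk (rn B k)) x i j) (off (psi B) x i j) := by
    intro i j
    by_cases h : i = j
    · subst h
      simp only [off_self, mul_zero]
      exact hasSum_zero
    · simp only [off_ne _ _ h]
      exact (summable_psi hB _).hasSum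
  have h2 : HasSum (fun k => (1/2) * ∑ i, ∑ j, jn B k * off (gk (rn B k)) x i j) ((1/2) * ∑ i, ∑ j, off (psi B) x i j) :=
    (hasSum_sum fun i _ => hasSum_sum fun j _ => h1 i j).mul_left _
  refine h2.congr_fun ?_ |> fun h => h
  intro k
  unfold ps
  simp only [← Finset.mul_sum]
  ring

theorem ps_psi_tendsto {B : ℕ} (hB : 2 ≤ B) {ι : Type*} [Fintype ι] (x : ι → Pt) :
    Tendsto (fun n => ∑ k ∈ Finset.range n, jn B k * ps (gk (rn B k)) x) atTop (𝓝 (ps (psi B) x)) :=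
  (ps_psi_hasSum hB x).tendsto_sum_nat

theorem sum_le_ps_psi {B : ℕ} (hB : 2 ≤ B) {ι : Type*} [Fintype ι] (x : ι → Pt) (M : ℕ) :
    ∑ k ∈ Finset.range M, jn B k * ps (gk (rn B k)) x ≤ ps (psi B) x :=
  sum_le_hasSum _ (fun k _ => mul_nonneg (jn_nonneg hB k) (ps_gk_nonneg x _)) (ps_psi_hasSum hB x)

theorem ps_psi_le_of {B : ℕ} (hB : 2 ≤ B) {ι : Type*} [Fintype ι] (x : ι → Pt) (M : ℕ) {Y : ℝ}
    (hY : 0 ≤ Y) (h : ∀ k, M ≤ k → ps (gk (rn B k)) x ≤ Y) :
    ps (psi B) x ≤ ∑ k ∈ Finset.range M, jn B k * ps (gk (rn B k)) x + tn B M * Y := by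
  refine le_of_tendsto (ps_psi_tendsto hB x) ?_
  filter_upwards [eventually_ge_atTop M] with n hn
  rw [← Finset.sum_range_add_sum_Ico _ hn]
  have h1 : ∑ k ∈ Finset.Ico M n, jn B k * ps (gk (rn B k)) x ≤ ∑ k ∈ Finset.Ico M n, jn B k * Y := by
    refine Finset.sum_le_sum fun k hk => ?_
    rw [Finset.mem_Ico] at hk
    exact mul_le_mul_of_nonneg_left (h k hk.1) (jn_nonneg hB k)
  rw [← Finset.sum_mul, sum_jn_Ico B hn] at h1
  have h2 : (tn B M - tn B n) * Y ≤ tn B M * Y := by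
    apply mul_le_mul_of_nonneg_right _ hY
    linarith [tn_pos hB n]
  linarith

/-- translation invariance -/
theorem ps_translate {ι : Type*} [Fintype ι] (w : ℝ → ℝ) (x : ι → Pt) (v : Pt) : ps w (fun i => x i + v) = ps w x := by
  unfold ps
  congr 1
  refine Finset.sum_congr rfl fun i _ => Finset.sum_congr rfl fun j _ => ?_
  by_cases h : i = j
  · subst h; simp
  · rw [off_ne _ _ h, off_ne _ _ h, dist_add_right]

variable (b : Base)

theorem ps_gk_le_gen {ι : Type*} [Fintype ι] {r : ℝ} (hr : 4 ≤ r) (x : ι → Pt) :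
    ps (gk r) x ≤ b.Ca * (2 * ps b.φ x / b.K + Fintype.card ι) := by
  set c := ∑ i, ‖x i‖ with hc
  have hcx : ∀ i k, |x i k| ≤ c := by
    intro i k
    have h1 : |x i k| ≤ ‖x i‖ := by
      have := coord_le_dist (x i) 0 k
      simpa using this
    exact h1.trans (Finset.single_le_sum (f := fun i => ‖x i‖) (fun _ _ => norm_nonneg _) (Finset.mem_univ i))
  let v : Pt := WithLp.toLp 2 (fun _ => c)
  have hin : ∀ i, x i + v ∈ cube (2 * c) := by
    intro i k
    have h1 := abs_le.mp (hcx i k)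
    have h2 : (x i + v) k = x i k + c := by simp [v]
    show 0 ≤ (x i + v) k ∧ (x i + v) k ≤ 2 * c
    rw [h2]
    constructor <;> linarith [h1.1, h1.2]
  have h1 := ps_gk_le_cl b hr (fun i => x i + v) hin
  have h2 := pc_cl_le b (fun i => x i + v)
  rw [ps_translate] at h1 h2
  exact h1.trans (mul_le_mul_of_nonneg_left h2 (Ca_pos b).le)

theorem ps_psi_le {B : ℕ} (hB : 2 ≤ B) {ι : Type*} [Fintype ι] (x : ι → Pt) :
    ps (psi B) x ≤ b.Ca * (2 * ps b.φ x / b.K + Fintype.card ι) := by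
  have hCa := Ca_pos b
  have hK := b.K_pos
  have hE := ps_φ_nonneg b x
  have h1 := ps_psi_le_of hB x 0 (Y := b.Ca * (2 * ps b.φ x / b.K + Fintype.card ι)) (by positivity)
    (fun k _ => ps_gk_le_gen b (rn_ge hB k) x)
  rw [tn_zero, Finset.range_zero, Finset.sum_empty, zero_add, one_mul] at h1
  exact h1

/-- the tail beyond level `M` in the box `L_M` -/
theorem ps_psi_tail {B : ℕ} (hB : 2 ≤ B) {N : ℕ} (x : Fin N → Pt) (M : ℕ) :
    ps (psi B) x ≤ ∑ k ∈ Finset.range M, jn B k * ps (gk (rn B k)) x + (N:ℝ) ^ 2 / (rn B M ^ 3 * v1) := by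
  have hv := v1_pos
  have hr := rn_pos hB M
  have h1 := ps_psi_le_of hB x M (Y := (N:ℝ) ^ 2 / (rn B M ^ 3 * v1)) (by positivity) ?_
  · have h2 : tn B M * ((N:ℝ) ^ 2 / (rn B M ^ 3 * v1)) ≤ 1 * ((N:ℝ) ^ 2 / (rn B M ^ 3 * v1)) :=
      mul_le_mul_of_nonneg_right (tn_le_one hB M) (by positivity)
    linarith
  · intro k hk
    have hrk : rn B M ≤ rn B k := rn_mono hB hk
    have h2 : ps (gk (rn B k)) x ≤ ps (fun _ => 1 / (rn B M ^ 3 * v1)) x := by
      apply ps_mono
      intro i j _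
      refine (gk_le (rn_pos hB k) _).trans ?_
      gcongr
    refine h2.trans ?_
    unfold ps
    have h3 : ∑ i : Fin N, ∑ j : Fin N, off (fun _ => 1 / (rn B M ^ 3 * v1)) x i j ≤ ∑ _i : Fin N, ∑ _j : Fin N, 1 / (rn B M ^ 3 * v1) := by
      refine Finset.sum_le_sum fun i _ => Finset.sum_le_sum fun j _ => ?_
      by_cases h : i = j
      · subst h; rw [off_self]; positivity
      · rw [off_ne _ _ h]
    simp only [Finset.sum_const, Finset.card_univ, Fintype.card_fin, nsmul_eq_mul] at h3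
    have h4 : (N:ℝ) * (N * (1 / (rn B M ^ 3 * v1))) = (N:ℝ) ^ 2 / (rn B M ^ 3 * v1) := by ring
    rw [h4] at h3
    have h5 : 0 ≤ (N:ℝ) ^ 2 / (rn B M ^ 3 * v1) := by positivity
    linarith

theorem psi_decay {B : ℕ} (hB : 2 ≤ B) {r : ℝ} (hr : 1 ≤ r) : psi B r ≤ 64 * B / v1 * r ^ (-(3 + 1/32 : ℝ)) := by
  have hv := v1_pos
  have hBr : (2:ℝ) ≤ B := by exact_mod_cast hB
  have hr0 : 0 < r := by linarith
  have hterm : ∀ k, jn B k * gk (rn B k) r ≤ (32 * B / v1 * r ^ (-(3 + 1/32 : ℝ))) * (1/2) ^ k := by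
    intro k
    by_cases h : 2 * rn B k ≤ |r|
    · rw [gk_eq_zero h, mul_zero]
      positivity
    · push Not at h
      rw [abs_of_pos hr0] at h
      have hH := Hn_ge2 hB k
      have hH0 : (0:ℝ) < Hn B k := by linarith
      have hH1 : (1:ℝ) ≤ Hn B k := by linarith
      rw [rn_cast] at h ⊢
      set H := (Hn B k : ℝ) with hHdef
      have hj : jn B k ≤ B / H := by
        refine (jn_le hB k).trans ?_
        unfold tn
        split_ifs with h0
        · subst h0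
          have : H = B := by rw [hHdef]; unfold Hn; simp
          rw [this, div_self (by linarith)]
        · gcongr
          linarith
      have hg := gk_le (show 0 < H ^ 16 by positivity) r
      have h1 : jn B k * gk (H ^ 16) r ≤ B / H * (1 / ((H ^ 16) ^ 3 * v1)) :=
        mul_le_mul hj hg (gk_nonneg _ _) (by positivity)
      refine h1.trans ?_
      -- r ^ (3 + 1/32) ≤ 16 H^48 sqrt H
      have hsq : 2 ^ k ≤ 2 * Real.sqrt H := by
        have h2 : ((2:ℝ) ^ k / 2) ^ 2 ≤ H := by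
          have h3 : 4 ^ k ≤ 4 * Hn B k := by
            have h4 : 2 * k ≤ 2 ^ k + 2 := by
              rcases Nat.eq_zero_or_pos k with h0 | h0
              · subst h0; norm_num
              · have : k ≤ 2 ^ (k - 1) := by
                  have := (Nat.lt_two_pow_self (n := k - 1))
                  omega
                have h5 : 2 ^ k = 2 * 2 ^ (k - 1) := by
                  rw [← pow_succ']
                  congr 1; omega
                omega
            calc 4 ^ k = 2 ^ (2 * k) := by rw [pow_mul]; norm_num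
              _ ≤ 2 ^ (2 ^ k + 2) := Nat.pow_le_pow_right (by norm_num) h4
              _ = 4 * 2 ^ (2 ^ k) := by rw [pow_add]; ring
              _ ≤ 4 * Hn B k := by
                  unfold Hn
                  exact Nat.mul_le_mul_left 4 (Nat.pow_le_pow_left hB _)
          have h4 : (4:ℝ) ^ k ≤ 4 * H := by
            rw [hHdef]; exact_mod_cast h3
          have h5 : ((2:ℝ) ^ k / 2) ^ 2 = 4 ^ k / 4 := by
            rw [div_pow, ← pow_mul, mul_comm k 2, pow_mul]; norm_num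
          rw [h5]; linarith
        have h3 := Real.le_sqrt_of_sq_le h2
        linarith
      have hr3 : r ^ 3 ≤ 8 * H ^ 48 := by
        calc r ^ 3 ≤ (2 * H ^ 16) ^ 3 := by gcongr
          _ = _ := by ring
      have hr32 : r ^ ((1:ℝ)/32) ≤ 2 * Real.sqrt H := by
        calc r ^ ((1:ℝ)/32) ≤ (2 * H ^ 16) ^ ((1:ℝ)/32) := Real.rpow_le_rpow hr0.le h.le (by norm_num)
          _ = 2 ^ ((1:ℝ)/32) * (H ^ 16) ^ ((1:ℝ)/32) := Real.mul_rpow (by norm_num) (by positivity)
          _ = 2 ^ ((1:ℝ)/32) * Real.sqrt H := by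
              congr 1
              rw [Real.sqrt_eq_rpow, ← Real.rpow_natCast, ← Real.rpow_mul hH0.le]
              congr 1; norm_num
          _ ≤ 2 * Real.sqrt H := by
              gcongr
              calc (2:ℝ) ^ ((1:ℝ)/32) ≤ 2 ^ (1:ℝ) := Real.rpow_le_rpow_of_exponent_le (by norm_num) (by norm_num)
                _ = 2 := Real.rpow_one 2
      have hrp : r ^ ((3 + 1/32 : ℝ)) = r ^ 3 * r ^ ((1:ℝ)/32) := by
        rw [Real.rpow_add hr0]
        congr 1
        rw [← Real.rpow_natCast]; norm_num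
      have hsH : Real.sqrt H * Real.sqrt H = H := Real.mul_self_sqrt hH0.le
      have hsH0 : 0 < Real.sqrt H := Real.sqrt_pos.mpr hH0
      have hR : r ^ ((3 + 1/32 : ℝ)) * 2 ^ k ≤ 32 * H ^ 49 := by
        rw [hrp]
        calc r ^ 3 * r ^ ((1:ℝ)/32) * 2 ^ k ≤ (8 * H ^ 48) * (2 * Real.sqrt H) * (2 * Real.sqrt H) := by gcongr
          _ = 32 * H ^ 48 * (Real.sqrt H * Real.sqrt H) := by ring
          _ = 32 * H ^ 49 := by rw [hsH]; ring
      have hrpos : 0 < r ^ ((3 + 1/32 : ℝ)) := by positivity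
      rw [Real.rpow_neg hr0.le]
      have e : 32 * B / v1 * (r ^ ((3 + 1/32 : ℝ)))⁻¹ * (1/2) ^ k = (B / v1) * (32 / (r ^ ((3 + 1/32 : ℝ)) * 2 ^ k)) := by
        rw [one_div_pow]; field_simp
      rw [e]
      have e2 : B / H * (1 / ((H ^ 16) ^ 3 * v1)) = (B / v1) * (1 / H ^ 49) := by field_simp
      rw [e2]
      apply mul_le_mul_of_nonneg_left _ (by positivity)
      rw [div_le_div_iff₀ (by positivity) (by positivity)]
      linarith
  have hsum : Summable (fun k : ℕ => (32 * B / v1 * r ^ (-(3 + 1/32 : ℝ))) * (1/2 : ℝ) ^ k) :=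
    (summable_geometric_of_lt_one (by norm_num) (by norm_num)).mul_left _
  have h1 : psi B r ≤ ∑' k : ℕ, (32 * B / v1 * r ^ (-(3 + 1/32 : ℝ))) * (1/2 : ℝ) ^ k :=
    (summable_psi hB r).tsum_le_tsum hterm hsum
  rw [tsum_mul_left, tsum_geometric_of_lt_one (by norm_num) (by norm_num)] at h1
  refine h1.trans (le_of_eq ?_)
  ring

theorem psi_lower {B : ℕ} (hB : 2 ≤ B) {r : ℝ} (hr0 : 0 ≤ r) (hr : r ≤ 3) :
    jn B 0 * (v1 / (rn B 0 ^ 3 * v1) ^ 2) ≤ psi B r := by
  have h1 : jn B 0 * gk (rn B 0) r ≤ psi B r := (summable_psi hB r).le_tsum 0 (fun k _ => term_nonneg hB k r)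
  exact (mul_le_mul_of_nonneg_left (gk_pos_lower (rn_ge hB 0) hr0 hr) (jn_nonneg hB 0)).trans h1

theorem jn_zero_pos {B : ℕ} (hB : 2 ≤ B) : 0 < jn B 0 := by
  unfold jn
  rw [tn_zero, tn_succ]
  have : (2:ℝ) ≤ Hn B (0+1) := Hn_ge2 hB _
  have h2 : 1 / (Hn B (0+1) : ℝ) ≤ 1/2 := one_div_le_one_div_of_le (by norm_num) this
  linarith

end Crest.H5.PP
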