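import Crest.Agent.H5.PP.PhaseUp

set_option autoImplicit false
set_option maxHeartbeats 400000
open MeasureTheory ENNReal Set Metric

namespace Crest.H5.PP

open Crest.ProbabilityR.Continuum (packingSet packingNumber)

variable {b : Base}

theorem Ln_tendsto {B : ℕ} (hB : 2 ≤ B) : Filter.Tendsto (fun M => (Ln B M : ℝ)) Filter.atTop Filter.atTop := by
  apply Filter.tendsto_atTop_mono (f := fun M : ℕ => (M:ℝ))
  · intro M
    have h1 : M ≤ Hn B M := M_le_Hn hB M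
    have h2 : Hn B M ≤ Ln B M := by
      unfold Ln
      exact Nat.le_self_pow (by norm_num) _
    exact_mod_cast h1.trans h2
  · exact tendsto_natCast_atTop_atTop

/-- density of the scaled packings -/
theorem scaled_packing {p : ℝ} (hp : Filter.Tendsto (fun L : ℝ => (packingNumber L : ℝ) / L ^ 3) Filter.atTop (nhds p))
    {κ : ℝ} (hκ : 0 ≤ κ) (a : ℝ) :
    Filter.Tendsto (fun L : ℝ => (packingNumber ((L - a) / (1 + κ)) : ℝ) / L ^ 3) Filter.atTop (nhds (p / (1 + κ) ^ 3)) := by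
  have h1 : Filter.Tendsto (fun L : ℝ => (L - a) / (1 + κ)) Filter.atTop Filter.atTop := by
    apply Filter.Tendsto.atTop_div_const (by linarith)
    exact Filter.tendsto_atTop_add_const_right _ (-a) Filter.tendsto_id
  have h2 := hp.comp h1
  have h3 := (tendsto_ratio_one (-a)).div_const ((1 + κ) ^ 3)
  have h4 := h2.mul h3
  have e : p * (1 / (1 + κ) ^ 3) = p / (1 + κ) ^ 3 := by ring
  rw [e] at h4
  refine h4.congr' ?_
  filter_upwards [Filter.eventually_gt_atTop (max 0 a)] with L hL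
  have hL0 : 0 < L := lt_of_le_of_lt (le_max_left _ _) hL
  have hLa : 0 < L - a := by linarith [lt_of_le_of_lt (le_max_right _ _) hL]
  simp only [Function.comp]
  have hk : (1 + κ) ≠ 0 := by linarith
  have e1 : L + -a = L - a := by ring
  rw [e1]
  field_simp

/-- the trial lower bound in the limit -/
theorem trial_lim (R : Rg b) {B : ℕ} (hB : 2 ≤ B) {p : ℝ}
    (hp : Filter.Tendsto (fun L : ℝ => (packingNumber L : ℝ) / L ^ 3) Filter.atTop (nhds p))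
    {δ η : ℝ} (hz : ZR δ η b.φ) (hδ : 0 < δ) (hη : 0 < η) (hη1 : η ≤ 1/32)
    {k : ℕ} (w : Fin (k+1) → Pt) (hw : ∀ i j, i ≠ j → 1/2 + 3 * η ≤ dist (w i) (w j) ∧ dist (w i) (w j) ≤ 1 - 3 * η)
    {κ : ℝ} (hκ : 8 * δ ≤ κ) (q' K' : ℝ) {x : Fin 3 → ℝ} (h : R.Ok (x 0) (x 1) (x 2)) {P : Fin 3 → ℝ}
    (hP : ∀ i, Filter.Tendsto (fun M => FF R B p q' K' i M x) UU (nhds (P i))) {ν : ℝ} (hν : ν = p / (1 + κ) ^ 3) :
    x 1 * ((k+1) * ν) + x 2 * ((1/2) * ((k+1) * ν) ^ 2 * (1 - 6 / (B : ℝ) ^ 4) - (1/2) * ((k+1) * ν) / (v1 * (B : ℝ) ^ 4)) +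
      ν * Real.log (((k+1).factorial : ℝ)⁻¹ * (((κ / 8) ^ 3 * v1) * ((δ * η) ^ 3 * v1) ^ k)) ≤ max (P 0) (max (P 1) (P 2)) := by
  obtain ⟨lz, hlz⟩ : ∃ lz, lz = Real.log (((k+1).factorial : ℝ)⁻¹ * (((κ / 8) ^ 3 * v1) * ((δ * η) ^ 3 * v1) ^ k)) := ⟨_, rfl⟩
  rw [← hlz]
  have hκ0 : 0 ≤ κ := by linarith
  set n : ℕ → ℕ := fun M => packingNumber (((Ln B M : ℝ) - 2 * (κ / 8 + 2 * δ)) / (1 + κ)) with hn
  have hνM : Filter.Tendsto (fun M => (n M : ℝ) / (Ln B M : ℝ) ^ 3) Filter.atTop (nhds ν) := by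
    rw [hν]
    exact (scaled_packing hp hκ0 (2 * (κ / 8 + 2 * δ))).comp (Ln_tendsto hB)
  have hLinv : Filter.Tendsto (fun M => Real.log 6 / (Ln B M : ℝ) ^ 3) Filter.atTop (nhds 0) :=
    Filter.Tendsto.const_div_atTop ((Filter.tendsto_pow_atTop (by norm_num)).comp (Ln_tendsto hB)) _
  have hlow : ∀ M : ℕ, 0 < M → x 1 * ((k+1) * ((n M : ℝ) / (Ln B M : ℝ) ^ 3)) +
      x 2 * ((1/2) * ((k+1) * ((n M : ℝ) / (Ln B M : ℝ) ^ 3)) ^ 2 * (1 - 6 / (B : ℝ) ^ 4) -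
        (1/2) * ((k+1) * ((n M : ℝ) / (Ln B M : ℝ) ^ 3)) / (v1 * (B : ℝ) ^ 4)) + ((n M : ℝ) / (Ln B M : ℝ) ^ 3) * lz ≤
      max (FF R B p q' K' 0 M x) (max (FF R B p q' K' 1 M x) (FF R B p q' K' 2 M x)) + Real.log 6 / (Ln B M : ℝ) ^ 3 := by
    intro M hM
    have hLM : (0:ℝ) < Ln B M := by exact_mod_cast Ln_pos hB M
    refine le_trans ?_ (pf_le_FF R hB p q' K' h hM)
    have h1 := trial R h hB M hz hδ hη hη1 w hw hκ (n := n M) (N := n M * (k+1)) rfl rfl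
    rw [← hlz] at h1
    have hV : (0:ℝ) < (Ln B M : ℝ) ^ 3 := by positivity
    rw [← div_le_iff₀ hV] at h1
    refine le_trans (le_of_eq ?_) h1
    push_cast
    have hv := v1_pos
    have hBr : (0:ℝ) < B := by
      have : (2:ℝ) ≤ B := by exact_mod_cast hB
      linarith
    field_simp
  have ht : Filter.Tendsto (fun M => x 1 * ((k+1) * ((n M : ℝ) / (Ln B M : ℝ) ^ 3)) +
      x 2 * ((1/2) * ((k+1) * ((n M : ℝ) / (Ln B M : ℝ) ^ 3)) ^ 2 * (1 - 6 / (B : ℝ) ^ 4) -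
        (1/2) * ((k+1) * ((n M : ℝ) / (Ln B M : ℝ) ^ 3)) / (v1 * (B : ℝ) ^ 4)) + ((n M : ℝ) / (Ln B M : ℝ) ^ 3) * lz) UU
      (nhds (x 1 * ((k+1) * ν) + x 2 * ((1/2) * ((k+1) * ν) ^ 2 * (1 - 6 / (B : ℝ) ^ 4) - (1/2) * ((k+1) * ν) / (v1 * (B : ℝ) ^ 4)) + ν * lz)) := by
    have h1 := hνM.mono_left UU_le
    have hc : Continuous (fun y : ℝ => x 1 * ((k+1) * y) + x 2 * ((1/2) * ((k+1) * y) ^ 2 * (1 - 6 / (B : ℝ) ^ 4) - (1/2) * ((k+1) * y) / (v1 * (B : ℝ) ^ 4)) + y * lz) := by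
      fun_prop
    exact (hc.tendsto ν).comp h1
  have hup : Filter.Tendsto (fun M => max (FF R B p q' K' 0 M x) (max (FF R B p q' K' 1 M x) (FF R B p q' K' 2 M x)) + Real.log 6 / (Ln B M : ℝ) ^ 3) UU
      (nhds (max (P 0) (max (P 1) (P 2)) + 0)) :=
    ((hP 0).max ((hP 1).max (hP 2))).add (hLinv.mono_left UU_le)
  rw [add_zero] at hup
  refine le_of_tendsto_of_tendsto ht hup ?_
  have : ∀ᶠ M : ℕ in (UU : Filter ℕ), 0 < M := UU_le (Filter.eventually_gt_atTop 0)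
  filter_upwards [this] with M hM
  exact hlow M hM

/-- nonnegativity of the limiting pressure -/
theorem zero_le_max (R : Rg b) {B : ℕ} (hB : 2 ≤ B) (p q' K' : ℝ) {x : Fin 3 → ℝ} (h : R.Ok (x 0) (x 1) (x 2)) {P : Fin 3 → ℝ}
    (hP : ∀ i, Filter.Tendsto (fun M => FF R B p q' K' i M x) UU (nhds (P i))) : 0 ≤ max (P 0) (max (P 1) (P 2)) := by
  have hLinv : Filter.Tendsto (fun M => Real.log 6 / (Ln B M : ℝ) ^ 3) Filter.atTop (nhds 0) :=
    Filter.Tendsto.const_div_atTop ((Filter.tendsto_pow_atTop (by norm_num)).comp (Ln_tendsto hB)) _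
  have hup : Filter.Tendsto (fun M => max (FF R B p q' K' 0 M x) (max (FF R B p q' K' 1 M x) (FF R B p q' K' 2 M x)) + Real.log 6 / (Ln B M : ℝ) ^ 3) UU
      (nhds (max (P 0) (max (P 1) (P 2)) + 0)) :=
    ((hP 0).max ((hP 1).max (hP 2))).add (hLinv.mono_left UU_le)
  rw [add_zero] at hup
  refine ge_of_tendsto hup ?_
  have : ∀ᶠ M : ℕ in (UU : Filter ℕ), 0 < M := UU_le (Filter.eventually_gt_atTop 0)
  filter_upwards [this] with M hM
  exact (pf_nonneg R h hB M).trans (pf_le_FF R hB p q' K' h hM)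

/-- all the numerical data -/
structure Dt (b : Base) where
  R : Rg b
  B : ℕ
  hB : 2 ≤ B
  p : ℝ
  p_pos : 0 < p
  p_lim : Filter.Tendsto (fun L : ℝ => (packingNumber L : ℝ) / L ^ 3) Filter.atTop (nhds p)
  p_le : ∀ L : ℝ, 0 ≤ L → (packingNumber L : ℝ) ≤ p * (L + 2) ^ 3
  q : ℕ
  q_ge : 2 ≤ q
  clq : ∀ n, IsClq n → n ≤ q
  δ : ℝ
  sr : SR δ b.K b.φ
  η : ℝ
  η_pos : 0 < η
  η_le : η ≤ 1/32
  zr : ZR δ η b.φ
  w : Fin (q - 1 + 1) → Pt
  hw : ∀ i j, i ≠ j → 1/2 + 3 * η ≤ dist (w i) (w j) ∧ dist (w i) (w j) ≤ 1 - 3 * η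
  Λ : ℝ
  Λ_pos : 0 < Λ
  hδΛ : δ ^ 3 * v1 = Real.exp (-Λ)
  ε : ℝ
  hε : ε = p / (2000 * q ^ 2)
  κ : ℝ
  hκ : κ = ε / (27 * p * q)
  hκδ : 8 * δ ≤ κ
  hK2 : 2 * Λ ≤ b.K
  θl_eq : R.θl = Λ * (2 / (p * q) - 1 / (8 * p * q ^ 2))
  θh_eq : R.θh = Λ * (2 / (p * q) + 1 / (8 * p * q ^ 2))
  μh_eq : R.μh = Λ * (1 / q + 1 / (8 * q))
  hc4 : R.μh + R.θh * R.ρb ≤ b.K / 2
  hU : 2 + p + R.θh * (R.C6 / (B:ℝ) ^ 2) ≤ ε * Λ
  hT1 : p * (-Real.log ((κ / 8) ^ 3 * v1)) ≤ ε / 3 * Λ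
  hT1' : p * (Real.log (q.factorial) - Real.log ((κ / 8) ^ 3 * v1) - 3 * (q - 1) * Real.log η) ≤ ε / 3 * Λ
  hT2 : R.θh * (3 * (q * p) ^ 2 / (B:ℝ) ^ 4 + q * p / (2 * v1 * (B:ℝ) ^ 4)) ≤ ε / 3 * Λ


/-- the parameter domain -/
def InD (p q m t : ℝ) : Prop := |m + 1 / q| ≤ 1 / (8 * q) ∧ |t - 2 / (p * q)| ≤ 1 / (8 * p * q ^ 2)

theorem dom_facts {p q m t : ℝ} (hp : 0 < p) (hq : 2 ≤ q) (h : InD p q m t) :
    ∃ a T : ℝ, m = a / q ∧ t = T / (p * q) ∧ -(9/8) ≤ a ∧ a ≤ -(7/8) ∧ 2 - 1 / (8 * q) ≤ T ∧ T ≤ 2 + 1 / (8 * q) := by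
  obtain ⟨hm, ht⟩ := h
  have hq0 : 0 < q := by linarith
  refine ⟨m * q, t * (p * q), by field_simp, by field_simp, ?_⟩
  have h1 : |m * q + 1| ≤ 1/8 := by
    have e : m * q + 1 = (m + 1 / q) * q := by field_simp
    rw [e, abs_mul, abs_of_pos hq0]
    calc |m + 1 / q| * q ≤ 1 / (8 * q) * q := by gcongr
      _ = 1/8 := by field_simp
  have h2 : |t * (p * q) - 2| ≤ 1 / (8 * q) := by
    have e : t * (p * q) - 2 = (t - 2 / (p * q)) * (p * q) := by field_simp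
    rw [e, abs_mul, abs_of_pos (show 0 < p * q by positivity)]
    calc |t - 2 / (p * q)| * (p * q) ≤ 1 / (8 * p * q ^ 2) * (p * q) := by gcongr
      _ = 1 / (8 * q) := by field_simp
  obtain ⟨a1, a2⟩ := abs_le.mp h1
  obtain ⟨a3, a4⟩ := abs_le.mp h2
  refine ⟨by linarith, by linarith, by linarith, by linarith⟩

theorem inv8q {q : ℝ} (hq : 2 ≤ q) : 0 < 1 / (8 * q) ∧ 1 / (8 * q) ≤ 1/16 ∧ 1 / (8 * q) * q = 1/8 := by
  have hq0 : 0 < q := by linarith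
  refine ⟨by positivity, ?_, by field_simp⟩
  apply one_div_le_one_div_of_le (by norm_num)
  linarith

theorem dom_c {p q m t : ℝ} (hp : 0 < p) (hq : 2 ≤ q) (h : InD p q m t) :
    0 < t ∧ t ≤ 3 / (p * q) ∧ 1 / (p * q) ≤ t ∧ m ≤ 0 ∧ -(9 / (8 * q)) ≤ m ∧ m + t * p / 4 ≤ 0 ∧ 0 ≤ m + 3 * t * p / 4 ∧
    m - 1 + t * p * (q + 3) / 4 ≤ 0 ∧ 0 ≤ m - 1 + t * p * (3 * q + 1) / 4 := by
  obtain ⟨a, T, rfl, rfl, ha1, ha2, hT1, hT2⟩ := dom_facts hp hq h
  have hq0 : 0 < q := by linarith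
  obtain ⟨i1, i2, i3⟩ := inv8q hq
  set z := 1 / (8 * q) with hz
  have hpq : 0 < p * q := by positivity
  refine ⟨?_, ?_, ?_, ?_, ?_, ?_, ?_, ?_, ?_⟩
  · apply div_pos _ hpq; linarith
  · apply div_le_div_of_nonneg_right _ hpq.le; linarith
  · apply div_le_div_of_nonneg_right _ hpq.le; linarith
  · apply div_nonpos_of_nonpos_of_nonneg _ hq0.le; linarith
  · have e : -(9 / (8 * q)) = -(9/8) / q := by field_simp
    rw [e]
    exact div_le_div_of_nonneg_right ha1 hq0.le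
  · have e : a / q + T / (p * q) * p / 4 = (a + T / 4) / q := by field_simp
    rw [e]
    apply div_nonpos_of_nonpos_of_nonneg _ hq0.le
    linarith
  · have e : a / q + 3 * (T / (p * q)) * p / 4 = (a + 3 * T / 4) / q := by field_simp
    rw [e]
    apply div_nonneg _ hq0.le
    linarith
  · have e : a / q - 1 + T / (p * q) * p * (q + 3) / 4 = (a - q + T * (q + 3) / 4) / q := by field_simp
    rw [e]
    apply div_nonpos_of_nonpos_of_nonneg _ hq0.le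
    nlinarith
  · have e : a / q - 1 + T / (p * q) * p * (3 * q + 1) / 4 = (a - q + T * (3 * q + 1) / 4) / q := by field_simp
    rw [e]
    apply div_nonneg _ hq0.le
    nlinarith

namespace Dt

variable (D : Dt b)

noncomputable def K' : ℝ := D.Λ * (2 * D.q * D.p)

theorem qr : (2:ℝ) ≤ D.q := by exact_mod_cast D.q_ge

theorem qr0 : (0:ℝ) < D.q := by linarith [D.qr]

theorem ε_pos : 0 < D.ε := by
  have := D.p_pos
  have := D.qr0
  rw [D.hε]; positivity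

theorem κ_pos : 0 < D.κ := by
  have := D.p_pos
  have := D.qr0
  have := D.ε_pos
  rw [D.hκ]; positivity

/-- the class pressures -/
noncomputable def P (i : Fin 3) : (Fin 3 → ℝ) → ℝ :=
  (exists_PP D.R D.hB D.p D.q (K' := D.K') (by
    have := D.Λ_pos
    have := D.p_pos
    unfold K'; positivity) i).choose

theorem P_lim (i : Fin 3) (x : Fin 3 → ℝ) : Filter.Tendsto (fun M => FF D.R D.B D.p D.q D.K' i M x) UU (nhds (D.P i x)) :=
  (exists_PP D.R D.hB D.p D.q (K' := D.K') (by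
    have := D.Λ_pos
    have := D.p_pos
    unfold K'; positivity) i).choose_spec.1 x

theorem P_Pl (i : Fin 3) : Pl D.R.Cg (D.P i) :=
  (exists_PP D.R D.hB D.p D.q (K' := D.K') (by
    have := D.Λ_pos
    have := D.p_pos
    unfold K'; positivity) i).choose_spec.2

/-- the point with coordinates `β, m, t` -/
noncomputable def X (β m t : ℝ) : Fin 3 → ℝ := ![β, D.Λ * m, D.Λ * t]

theorem ok {β m t : ℝ} (hβ : 1/2 ≤ β) (h : InD D.p D.q m t) : D.R.Ok (D.X β m t 0) (D.X β m t 1) (D.X β m t 2) := by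
  have hΛ := D.Λ_pos
  have hq0 := D.qr0
  have hp := D.p_pos
  refine ⟨hβ, ?_, ?_, ?_⟩
  · show |D.Λ * m| ≤ D.R.μh
    rw [abs_mul, abs_of_pos hΛ, D.μh_eq]
    apply mul_le_mul_of_nonneg_left _ hΛ.le
    have h1 := h.1
    have h2 : |m| ≤ |m + 1 / D.q| + |1 / (D.q:ℝ)| := by
      have := abs_sub (m + 1 / (D.q:ℝ)) (1 / D.q)
      rwa [add_sub_cancel_right] at this
    rw [abs_of_pos (show 0 < 1 / (D.q:ℝ) by positivity)] at h2
    linarith
  · show D.R.θl ≤ D.Λ * t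
    rw [D.θl_eq]
    apply mul_le_mul_of_nonneg_left _ hΛ.le
    have := (abs_le.mp h.2).1
    linarith
  · show D.Λ * t ≤ D.R.θh
    rw [D.θh_eq]
    apply mul_le_mul_of_nonneg_left _ hΛ.le
    have := (abs_le.mp h.2).2
    linarith

theorem ell_ge {m t : ℝ} (h : InD D.p D.q m t) (i : Fin 3) : -(2 * D.q * D.p) ≤ ell D.p D.q m t i := by
  have hq := D.qr
  have hp := D.p_pos
  obtain ⟨t0, _, _, m0, m1, _⟩ := dom_c hp hq h
  have hq0 := D.qr0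
  have hmq : -(9/8) ≤ m * D.q := by
    have := mul_le_mul_of_nonneg_right m1 hq0.le
    have e : -(9 / (8 * (D.q:ℝ))) * D.q = -(9/8) := by field_simp
    rw [e] at this; exact this
  fin_cases i
  · simp only [ell]
    simp only [Fin.zero_eta, ↓reduceIte]
    have : 0 < 2 * (D.q:ℝ) * D.p := by positivity
    linarith
  · have e : ell D.p D.q m t ⟨1, by norm_num⟩ = m * D.p + t * D.p ^ 2 / 2 := by simp [ell]
    rw [e]
    have h1 : 0 ≤ t * D.p ^ 2 / 2 := by positivity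
    have h2 : -(9/8) * D.p ≤ m * D.p * D.q := by nlinarith
    have h3 : m * D.p * D.q ≤ m * D.p := by
      have : m * D.p ≤ 0 := mul_nonpos_of_nonpos_of_nonneg m0 hp.le
      nlinarith
    nlinarith
  · have e : ell D.p D.q m t ⟨2, by norm_num⟩ = -(D.q - 1) * D.p + m * (D.q * D.p) + t * (D.q * D.p) ^ 2 / 2 := by simp [ell]
    rw [e]
    have h1 : 0 ≤ t * (D.q * D.p) ^ 2 / 2 := by positivity
    have h2 : -(9/8) * D.p ≤ m * (D.q * D.p) := by nlinarith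
    nlinarith

/-- the class upper bounds -/
theorem P_le (i : Fin 3) {β m t : ℝ} (hβ : 1/2 ≤ β) (h : InD D.p D.q m t) :
    D.P i (D.X β m t) ≤ D.Λ * ell D.p D.q m t i + D.ε * D.Λ := by
  have hΛ := D.Λ_pos
  have hq := D.qr
  have hp := D.p_pos
  obtain ⟨t0, t1, _, m0, m1, c0, c1, c2, c3⟩ := dom_c hp hq h
  have hok := D.ok hβ h
  have hs : 0 ≤ b.K / 2 - D.Λ := by have := D.hK2; linarith
  have hx0 : D.X β m t 0 = β := rfl
  have hx1 : D.X β m t 1 = D.Λ * m := rfl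
  have hx2 : D.X β m t 2 = D.Λ * t := rfl
  have hK := b.K_pos
  have hρ := ρb_pos D.R
  have hmμ : D.Λ * m ≤ D.R.μh := (le_abs_self _).trans hok.2.1
  have htθ : D.Λ * t ≤ D.R.θh := hok.2.2.2
  have hc4 : D.Λ * (m + t * D.R.ρb) ≤ (b.K / 2 - D.Λ) + D.Λ := by
    have h1 := D.hc4
    have h2 := mul_le_mul_of_nonneg_right htθ (by linarith : 0 ≤ D.R.ρb)
    linarith
  have hle : ∀ M : ℕ, FF D.R D.B D.p D.q D.K' i M (D.X β m t) ≤ D.Λ * ell D.p D.q m t i +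
      Er D.R D.B D.p D.q D.Λ (b.K / 2 - D.Λ) (D.X β m t 2) M := by
    intro M
    have hLM : (0:ℝ) < Ln D.B M := by exact_mod_cast Ln_pos D.hB M
    refine FF_le D.R D.hB D.sr D.clq (by rw [hx0]; linarith) (by rw [hx2]; positivity) hs hΛ.le D.hδΛ ?_ i M ?_ ?_
    · rw [hx0]; nlinarith
    · unfold K'
      have := D.ell_ge h i
      nlinarith
    · intro N hN hNb
      rw [hx1, hx2]
      exact G_le hp (by linarith) t0.le hΛ.le hs c0 c1 c2 c3 hc4 (by positivity) i hN hNb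
  have h1 := (Er_tendsto D.R D.hB D.q D.Λ (b.K / 2 - D.Λ) (D.X β m t 2) D.p_lim D.p_le hp).mono_left UU_le
  have h2 := h1.const_add (D.Λ * ell D.p D.q m t i)
  have h3 := le_of_tendsto_of_tendsto (D.P_lim i (D.X β m t)) h2 (Filter.Eventually.of_forall hle)
  refine h3.trans ?_
  have hBr : (2:ℝ) ≤ D.B := by exact_mod_cast D.hB
  have hC6 := C6_pos D.R
  have h4 : D.X β m t 2 * (D.R.C6 / (D.B:ℝ) ^ 2) ≤ D.R.θh * (D.R.C6 / (D.B:ℝ) ^ 2) := by
    rw [hx2]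
    apply mul_le_mul_of_nonneg_right htθ
    positivity
  have := D.hU
  linarith

theorem nu_bounds {κ p : ℝ} (hκ : 0 ≤ κ) (hp : 0 < p) : ∃ x : ℝ, 0 ≤ x ∧ x ≤ 3 * κ ∧ x ≤ 1 ∧ p / (1 + κ) ^ 3 = p * (1 - x) := by
  refine ⟨1 - 1 / (1 + κ) ^ 3, ?_, ?_, ?_, ?_⟩
  · have : 1 / (1 + κ) ^ 3 ≤ 1 := by
      rw [div_le_one (by positivity)]
      exact one_le_pow₀ (by linarith)
    linarith
  · have h1 : 1 - 3 * κ ≤ 1 / (1 + κ) ^ 3 := by
      rw [le_div_iff₀ (by positivity)]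
      have : (1 - 3 * κ) * (1 + κ) ^ 3 = 1 - 6 * κ ^ 2 - 8 * κ ^ 3 - 3 * κ ^ 4 := by ring
      rw [this]
      nlinarith [pow_nonneg hκ 2, pow_nonneg hκ 3, pow_nonneg hκ 4]
    linarith
  · have : 0 < 1 / (1 + κ) ^ 3 := by positivity
    linarith
  · ring

/-- lower bounds from trial states -/
theorem le_max (j : Fin 3) {m t : ℝ} (h : InD D.p D.q m t) :
    D.Λ * ell D.p D.q m t j - D.ε * D.Λ ≤ max (D.P 0 (D.X 1 m t)) (max (D.P 1 (D.X 1 m t)) (D.P 2 (D.X 1 m t))) := by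
  have hΛ := D.Λ_pos
  have hq := D.qr
  have hq0 := D.qr0
  have hp := D.p_pos
  have hε := D.ε_pos
  have hκ0 := D.κ_pos
  have hv := v1_pos
  have hη := D.η_pos
  obtain ⟨t0, t1, _, m0, m1, c0, c1, c2, c3⟩ := dom_c hp hq h
  have hok := D.ok (β := 1) (by norm_num) h
  have hx0 : D.X 1 m t 0 = 1 := rfl
  have hx1 : D.X 1 m t 1 = D.Λ * m := rfl
  have hx2 : D.X 1 m t 2 = D.Λ * t := rfl
  have htθ : D.Λ * t ≤ D.R.θh := hok.2.2.2
  have hBr : (2:ℝ) ≤ D.B := by exact_mod_cast D.hB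
  have hB0 : (0:ℝ) < D.B := by linarith
  obtain ⟨x, hx0', hx3, hx1', hν⟩ := nu_bounds hκ0.le hp
  -- the general trial computation
  have key : ∀ (k : ℕ) (w : Fin (k+1) → Pt), (∀ i j, i ≠ j → 1/2 + 3 * D.η ≤ dist (w i) (w j) ∧ dist (w i) (w j) ≤ 1 - 3 * D.η) →
      ((k:ℝ) + 1 ≤ D.q) →
      D.p * (Real.log ((k+1).factorial) - Real.log ((D.κ / 8) ^ 3 * v1) - 3 * k * Real.log D.η) ≤ D.ε / 3 * D.Λ →
      D.Λ * (m * ((k+1) * D.p) + t * ((k+1) * D.p) ^ 2 / 2 - k * D.p) - D.ε * D.Λ ≤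
        max (D.P 0 (D.X 1 m t)) (max (D.P 1 (D.X 1 m t)) (D.P 2 (D.X 1 m t))) := by
    intro k w hw hkq hcost
    have hδ := D.sr.δ_pos
    have h1 := trial_lim D.R D.hB D.p_lim D.zr hδ hη D.η_le w hw D.hκδ D.q D.K' hok (P := fun i => D.P i (D.X 1 m t))
      (fun i => D.P_lim i _) (ν := D.p * (1 - x)) hν.symm
    rw [hx1, hx2] at h1
    refine le_trans ?_ h1
    have hlz : Real.log (((k+1).factorial : ℝ)⁻¹ * (((D.κ / 8) ^ 3 * v1) * ((D.δ * D.η) ^ 3 * v1) ^ k)) =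
        -(Real.log ((k+1).factorial) - Real.log ((D.κ / 8) ^ 3 * v1) - 3 * k * Real.log D.η) - k * D.Λ := by
      have e1 : (D.δ * D.η) ^ 3 * v1 = D.η ^ 3 * Real.exp (-D.Λ) := by
        rw [← D.hδΛ]; ring
      rw [Real.log_mul (by positivity) (by positivity), Real.log_inv, Real.log_mul (by positivity) (by positivity),
        Real.log_pow, e1, Real.log_mul (by positivity) (Real.exp_pos _).ne', Real.log_exp, Real.log_pow]
      push_cast
      ring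
    rw [hlz]
    obtain ⟨C, hC⟩ : ∃ C, C = Real.log ((k+1).factorial) - Real.log ((D.κ / 8) ^ 3 * v1) - 3 * k * Real.log D.η := ⟨_, rfl⟩
    rw [← hC] at hcost ⊢
    have hk0 : (0:ℝ) ≤ k := by positivity
    have h1x : 0 ≤ 1 - x := by linarith
    -- cost
    have q1 : D.p * (1 - x) * C ≤ D.ε / 3 * D.Λ := by
      rcases le_or_gt 0 C with hC0 | hC0
      · calc D.p * (1 - x) * C ≤ D.p * 1 * C := by gcongr; linarith
          _ ≤ _ := by rw [mul_one]; exact hcost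
      · have : D.p * (1 - x) * C ≤ 0 := mul_nonpos_of_nonneg_of_nonpos (by positivity) hC0.le
        have : 0 ≤ D.ε / 3 * D.Λ := by positivity
        linarith
    -- tail error
    have hr0 : 0 ≤ ((k:ℝ) + 1) * (D.p * (1 - x)) := by positivity
    have hr1 : ((k:ℝ) + 1) * (D.p * (1 - x)) ≤ D.q * D.p := by
      calc ((k:ℝ) + 1) * (D.p * (1 - x)) ≤ D.q * (D.p * 1) := by
            gcongr
            linarith
        _ = _ := by ring
    have hqp0 : 0 ≤ D.q * D.p := by positivity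
    have q2 : D.Λ * t * ((1/2) * (((k:ℝ) + 1) * (D.p * (1 - x))) ^ 2 * (6 / (D.B:ℝ) ^ 4) +
        (1/2) * (((k:ℝ) + 1) * (D.p * (1 - x))) / (v1 * (D.B:ℝ) ^ 4)) ≤ D.ε / 3 * D.Λ := by
      refine le_trans ?_ D.hT2
      have e2 : D.R.θh * (3 * (D.q * D.p) ^ 2 / (D.B:ℝ) ^ 4 + D.q * D.p / (2 * v1 * (D.B:ℝ) ^ 4)) =
          D.R.θh * ((1/2) * (D.q * D.p) ^ 2 * (6 / (D.B:ℝ) ^ 4) + (1/2) * (D.q * D.p) / (v1 * (D.B:ℝ) ^ 4)) := by
        field_simp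
        ring
      rw [e2]
      have hθh := θh_pos D.R
      gcongr
    -- main term
    have q3 : D.Λ * (m * ((k+1) * D.p) + t * ((k+1) * D.p) ^ 2 / 2 - k * D.p) -
        D.Λ * (m * (((k:ℝ) + 1) * (D.p * (1 - x))) + t * (((k:ℝ) + 1) * (D.p * (1 - x))) ^ 2 / 2 - k * (D.p * (1 - x))) ≤ D.ε / 3 * D.Λ := by
      have e3 : D.Λ * (m * ((k+1) * D.p) + t * ((k+1) * D.p) ^ 2 / 2 - k * D.p) -
        D.Λ * (m * (((k:ℝ) + 1) * (D.p * (1 - x))) + t * (((k:ℝ) + 1) * (D.p * (1 - x))) ^ 2 / 2 - k * (D.p * (1 - x))) =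
        D.Λ * (x * (m * ((k+1) * D.p) - k * D.p) + t * ((k+1) * D.p) ^ 2 * (x - x ^ 2 / 2)) := by ring
      rw [e3]
      have a1 : x * (m * ((k+1) * D.p) - k * D.p) ≤ 0 := by
        apply mul_nonpos_of_nonneg_of_nonpos hx0'
        have : m * (((k:ℝ)+1) * D.p) ≤ 0 := mul_nonpos_of_nonpos_of_nonneg m0 (by positivity)
        have : 0 ≤ (k:ℝ) * D.p := by positivity
        linarith
      have a2 : t * (((k:ℝ)+1) * D.p) ^ 2 * (x - x ^ 2 / 2) ≤ (3 / (D.p * D.q)) * (D.q * D.p) ^ 2 * (3 * D.κ) := by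
        have b1 : x - x ^ 2 / 2 ≤ 3 * D.κ := by have := sq_nonneg x; linarith
        have b2 : 0 ≤ x - x ^ 2 / 2 := by
          have e : x - x ^ 2 / 2 = x * (1 - x / 2) := by ring
          rw [e]
          exact mul_nonneg hx0' (by linarith)
        gcongr
      have a3 : (3 / (D.p * D.q)) * (D.q * D.p) ^ 2 * (3 * D.κ) = D.ε / 3 := by
        rw [D.hκ]; field_simp; norm_num
      rw [a3] at a2
      have a4 := mul_le_mul_of_nonneg_left (add_le_add a1 a2) hΛ.le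
      linarith
    have e5 : D.Λ * m * ((↑k + 1) * (D.p * (1 - x))) +
        D.Λ * t * (1 / 2 * ((↑k + 1) * (D.p * (1 - x))) ^ 2 * (1 - 6 / (D.B:ℝ) ^ 4) - 1 / 2 * ((↑k + 1) * (D.p * (1 - x))) / (v1 * (D.B:ℝ) ^ 4)) +
        D.p * (1 - x) * (-C - k * D.Λ) =
        D.Λ * (m * (((k:ℝ) + 1) * (D.p * (1 - x))) + t * (((k:ℝ) + 1) * (D.p * (1 - x))) ^ 2 / 2 - k * (D.p * (1 - x))) -
        D.Λ * t * ((1/2) * (((k:ℝ) + 1) * (D.p * (1 - x))) ^ 2 * (6 / (D.B:ℝ) ^ 4) +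
        (1/2) * (((k:ℝ) + 1) * (D.p * (1 - x))) / (v1 * (D.B:ℝ) ^ 4)) - D.p * (1 - x) * C := by ring
    rw [e5]
    linarith
  have hεΛ : 0 < D.ε * D.Λ := by positivity
  fin_cases j
  · have h1 := zero_le_max D.R D.hB D.p D.q D.K' hok (P := fun i => D.P i (D.X 1 m t)) (fun i => D.P_lim i _)
    have e : ell D.p D.q m t ⟨0, by norm_num⟩ = 0 := by simp [ell]
    rw [e]
    refine le_trans ?_ h1
    linarith
  · have h1 := key 0 (fun _ => 0) (fun i j hij => absurd (Fin.ext (by omega)) hij) (by push_cast; linarith) (by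
      have := D.hT1
      simpa using this)
    have e : ell D.p D.q m t ⟨1, by norm_num⟩ = m * D.p + t * D.p ^ 2 / 2 := by simp [ell]
    rw [e]
    refine le_trans (le_of_eq ?_) h1
    push_cast
    ring
  · have hq1 : D.q - 1 + 1 = D.q := by have := D.q_ge; omega
    have hcast : ((D.q - 1 : ℕ) : ℝ) = D.q - 1 := by
      rw [Nat.cast_sub (by have := D.q_ge; omega)]; norm_num
    have h1 := key (D.q - 1) D.w D.hw (by rw [hcast]; linarith) (by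
      rw [hq1, hcast]
      exact D.hT1')
    have e : ell D.p D.q m t ⟨2, by norm_num⟩ = -(D.q - 1) * D.p + m * (D.q * D.p) + t * (D.q * D.p) ^ 2 / 2 := by simp [ell]
    rw [e]
    refine le_trans (le_of_eq ?_) h1
    rw [hcast]
    ring

end Dt

end Crest.H5.PP
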