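import Crest.Agent.H5.PP.Grid

set_option autoImplicit false
open MeasureTheory ENNReal Set Metric

namespace Crest.H5.PP

/-- scale sequence -/
def Hn (B k : ℕ) : ℕ := B ^ (2 ^ k)

/-- block scales -/
def Ln (B k : ℕ) : ℕ := Hn B k ^ 12

/-- kernel radii -/
noncomputable def rn (B k : ℕ) : ℝ := (Hn B (k+1) : ℝ) ^ 8

/-- remaining coupling -/
noncomputable def tn (B k : ℕ) : ℝ := if k = 0 then 1 else 1 / (Hn B k : ℝ)

/-- coupling at scale k -/
noncomputable def jn (B k : ℕ) : ℝ := tn B k - tn B (k+1)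

theorem Hn_succ (B k : ℕ) : Hn B (k+1) = Hn B k ^ 2 := by
  unfold Hn
  rw [pow_succ, pow_mul]

theorem Hn_pos {B : ℕ} (hB : 2 ≤ B) (k : ℕ) : 0 < Hn B k := by
  unfold Hn; positivity

theorem Hn_mono {B : ℕ} (hB : 2 ≤ B) {k l : ℕ} (h : k ≤ l) : Hn B k ≤ Hn B l := by
  unfold Hn
  exact Nat.pow_le_pow_right (by omega) (Nat.pow_le_pow_right (by norm_num) h)

theorem le_Hn {B : ℕ} (hB : 2 ≤ B) (k : ℕ) : B ≤ Hn B k := by
  have := Hn_mono hB (Nat.zero_le k)
  simpa [Hn] using this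

theorem tn_zero (B : ℕ) : tn B 0 = 1 := by simp [tn]

theorem tn_succ (B k : ℕ) : tn B (k+1) = 1 / (Hn B (k+1) : ℝ) := by simp [tn]

theorem tn_pos {B : ℕ} (hB : 2 ≤ B) (k : ℕ) : 0 < tn B k := by
  have : (0:ℝ) < Hn B k := by exact_mod_cast Hn_pos hB k
  unfold tn
  split_ifs <;> positivity

theorem tn_le_one {B : ℕ} (hB : 2 ≤ B) (k : ℕ) : tn B k ≤ 1 := by
  have h1 : (1:ℝ) ≤ Hn B k := by exact_mod_cast Hn_pos hB k
  unfold tn
  split_ifs
  · exact le_refl _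
  · rw [div_le_one (by linarith)]; exact h1

theorem tn_anti {B : ℕ} (hB : 2 ≤ B) (k : ℕ) : tn B (k+1) ≤ tn B k := by
  rcases Nat.eq_zero_or_pos k with rfl | hk
  · rw [tn_zero]; exact tn_le_one hB _
  · have h1 : (0:ℝ) < Hn B k := by exact_mod_cast Hn_pos hB k
    have h2 : (Hn B k : ℝ) ≤ Hn B (k+1) := by exact_mod_cast Hn_mono hB (Nat.le_succ k)
    rw [tn_succ, tn, if_neg (by omega)]
    exact one_div_le_one_div_of_le h1 h2

theorem jn_nonneg {B : ℕ} (hB : 2 ≤ B) (k : ℕ) : 0 ≤ jn B k := by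
  unfold jn; linarith [tn_anti hB k]

theorem sum_jn (B n : ℕ) : ∑ k ∈ Finset.range n, jn B k = 1 - tn B n := by
  induction n with
  | zero => simp [tn_zero]
  | succ n ih => rw [Finset.sum_range_succ, ih, jn]; ring

theorem sum_jn_Ico (B : ℕ) {n M : ℕ} (h : n ≤ M) : ∑ k ∈ Finset.Ico n M, jn B k = tn B n - tn B M := by
  rw [Finset.sum_Ico_eq_sub _ h, sum_jn, sum_jn]; ring

theorem jn_le {B : ℕ} (hB : 2 ≤ B) (k : ℕ) : jn B k ≤ tn B k := by
  unfold jn; linarith [tn_pos hB (k+1)]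

theorem jn_le_one {B : ℕ} (hB : 2 ≤ B) (k : ℕ) : jn B k ≤ 1 := (jn_le hB k).trans (tn_le_one hB k)

theorem rn_pos {B : ℕ} (hB : 2 ≤ B) (k : ℕ) : 0 < rn B k := by
  have : (0:ℝ) < Hn B (k+1) := by exact_mod_cast Hn_pos hB (k+1)
  unfold rn; positivity

theorem rn_ge {B : ℕ} (hB : 2 ≤ B) (k : ℕ) : 4 ≤ rn B k := by
  have h1 : (2:ℝ) ≤ Hn B (k+1) := by exact_mod_cast hB.trans (le_Hn hB (k+1))
  unfold rn
  calc (4:ℝ) ≤ 2 ^ 8 := by norm_num
    _ ≤ _ := by gcongr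

theorem Ln_pos {B : ℕ} (hB : 2 ≤ B) (k : ℕ) : 0 < Ln B k := by
  have := Hn_pos hB k
  unfold Ln; positivity

theorem Ln_ge {B : ℕ} (hB : 2 ≤ B) (k : ℕ) : 4 ≤ Ln B k := by
  have h1 : 2 ≤ Hn B k := hB.trans (le_Hn hB k)
  unfold Ln
  calc 4 ≤ 2 ^ 12 := by norm_num
    _ ≤ _ := Nat.pow_le_pow_left h1 12

/-- short range data -/
structure Base where
  φ : ℝ → ℝ
  meas : Measurable φ
  nonneg : ∀ r, 0 ≤ φ r
  range : ∀ r, 2 ≤ r → φ r = 0
  a : ℝ
  a_pos : 0 < a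
  a_le : a ≤ 1
  K : ℝ
  K_pos : 0 < K
  core : ∀ r, 0 ≤ r → r ≤ 2 * a → K ≤ φ r

variable (b : Base)

/-- pair weight at level n -/
noncomputable def wn (B : ℕ) (β θ : ℝ) (n : ℕ) : ℝ → ℝ :=
  fun s => -β * b.φ s + θ * ∑ k ∈ Finset.range n, jn B k * gk (rn B k) s

/-- number weight at level n -/
noncomputable def an (B : ℕ) (μ θ : ℝ) (n : ℕ) (c : ℕ) : ℝ :=
  μ * c + θ * tn B n * (c:ℝ) ^ 2 / (2 * (Ln B n : ℝ) ^ 3)

theorem measurable_gk (r : ℝ) : Measurable (gk r) := (continuous_gk r).measurable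

theorem measurable_wn (B : ℕ) (β θ : ℝ) (n : ℕ) : Measurable (wn b B β θ n) := by
  unfold wn
  refine (b.meas.const_mul _).add ((Finset.measurable_sum _ fun k _ => ?_).const_mul _)
  exact (measurable_gk _).const_mul _

theorem ps_wn {ι : Type*} [Fintype ι] (B : ℕ) (β θ : ℝ) (n : ℕ) (x : ι → Pt) :
    ps (wn b B β θ n) x = -β * ps b.φ x + θ * ∑ k ∈ Finset.range n, jn B k * ps (gk (rn B k)) x := by
  unfold wn
  rw [ps_add, ps_smul, ps_smul, ps_sum]
  congr 2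
  refine Finset.sum_congr rfl fun k _ => ?_
  rw [ps_smul]

/-- the total level-`n` interaction functional `R` -/
noncomputable def Rn {ι : Type*} [Fintype ι] (B n : ℕ) (S : ℝ) (x : ι → Pt) : ℝ :=
  ∑ k ∈ Finset.range n, jn B k * ps (gk (rn B k)) x + tn B n * (Fintype.card ι : ℝ) ^ 2 / (2 * S ^ 3)

theorem Wn_eq {N : ℕ} (B : ℕ) (β μ θ : ℝ) (n : ℕ) (x : Fin N → Pt) :
    ps (wn b B β θ n) x + an B μ θ n N = -β * ps b.φ x + μ * N + θ * Rn B n (Ln B n) x := by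
  rw [ps_wn]
  unfold an Rn
  simp only [Fintype.card_fin]
  ring

/-- cell labels -/
noncomputable def cl (a : ℝ) (x : Pt) : Fin 3 → ℤ := blk a (fun _ => 0) x

theorem dist_le_of_cl {a : ℝ} (ha : 0 < a) {x y : Pt} (h : cl a x = cl a y) : dist x y ≤ 2 * a := by
  apply dist_le_of_coord ha.le
  intro k
  have h1 := congrFun h k
  unfold cl blk at h1
  have h2 := Int.abs_sub_lt_one_of_floor_eq_floor h1
  rw [sub_zero, sub_zero, ← sub_div, abs_div, abs_of_pos ha, div_lt_one ha] at h2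
  exact h2.le

theorem pc_cl_le {ι : Type*} [Fintype ι] (x : ι → Pt) :
    pc (fun i => cl b.a (x i)) ≤ 2 * ps b.φ x / b.K + Fintype.card ι := by
  have hK := b.K_pos
  have h1 : b.K * (pc (fun i => cl b.a (x i)) - Fintype.card ι) ≤ 2 * ps b.φ x := by
    have h2 : pc (fun i => cl b.a (x i)) - Fintype.card ι = ∑ i, ∑ j, off (fun _ => if cl b.a (x i) = cl b.a (x j) then (1:ℝ) else 0) x i j := by
      unfold pc
      have h3 : ((Fintype.card ι : ℕ) : ℝ) = ∑ _i : ι, (1:ℝ) := by simp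
      rw [h3, ← Finset.sum_sub_distrib]
      refine Finset.sum_congr rfl fun i _ => ?_
      rw [sub_eq_iff_eq_add]
      have h4 : ∀ j, (if cl b.a (x i) = cl b.a (x j) then (1:ℝ) else 0) =
          off (fun _ => if cl b.a (x i) = cl b.a (x j) then (1:ℝ) else 0) x i j + (open Classical in if i = j then 1 else 0) := by
        intro j
        by_cases h : i = j
        · subst h; simp
        · rw [off_ne _ _ h, if_neg h, add_zero]
      rw [Finset.sum_congr rfl (fun j _ => h4 j), Finset.sum_add_distrib]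
      congr 1
      classical
      simp
    rw [h2]
    unfold ps
    rw [← mul_assoc, show (2:ℝ) * (1/2) = 1 by norm_num, one_mul, Finset.mul_sum]
    refine Finset.sum_le_sum fun i _ => ?_
    rw [Finset.mul_sum]
    refine Finset.sum_le_sum fun j _ => ?_
    by_cases h : i = j
    · subst h; simp
    · rw [off_ne _ _ h, off_ne _ _ h]
      split_ifs with hc
      · rw [mul_one]
        exact b.core _ dist_nonneg (dist_le_of_cl b.a_pos hc)
      · rw [mul_zero]; exact b.nonneg _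
  have h5 : pc (fun i => cl b.a (x i)) - Fintype.card ι ≤ 2 * ps b.φ x / b.K := by
    rw [le_div_iff₀ hK]; linarith
  linarith

/-- the cell constant -/
noncomputable def Base.Ca : ℝ := 32 / b.a ^ 3

theorem Ca_pos : 0 < b.Ca := by
  have := b.a_pos
  unfold Base.Ca; positivity

theorem ps_gk_le_cl {ι : Type*} [Fintype ι] {r S : ℝ} (hr : 4 ≤ r) (x : ι → Pt) (hx : ∀ i, x i ∈ cube S) :
    ps (gk r) x ≤ b.Ca * pc (fun i => cl b.a (x i)) := by
  have ha := b.a_pos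
  have ha1 := b.a_le
  have h1 := ps_gk_le_grid (by linarith : 0 < r) ha (adm_zero ha) x hx
  refine h1.trans ?_
  refine mul_le_mul_of_nonneg_right ?_ (pc_nonneg _)
  have h2 : 4 * b.a / r ≤ 1 := by rw [div_le_one (by linarith)]; linarith
  have h3 : (1 + 4 * b.a / r) ^ 6 ≤ 64 := by
    have h4 : 0 ≤ 4 * b.a / r := by positivity
    calc (1 + 4 * b.a / r) ^ 6 ≤ (1 + 1) ^ 6 := by gcongr
      _ = 64 := by norm_num
  unfold Base.Ca
  rw [← mul_div_assoc]
  gcongr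
  linarith

theorem sq_le_cl {ι : Type*} [Fintype ι] {S : ℝ} (hS : b.a ≤ S) (x : ι → Pt) (hx : ∀ i, x i ∈ cube S) :
    (Fintype.card ι : ℝ) ^ 2 / (2 * S ^ 3) ≤ b.Ca * pc (fun i => cl b.a (x i)) := by
  have ha := b.a_pos
  have hS0 : 0 < S := by linarith
  have h1 := card_sq_le_grid hS0.le ha (adm_zero ha) x hx
  rw [div_le_iff₀ (by positivity)]
  refine h1.trans ?_
  have h2 : ((S + 2 * b.a) / b.a) ^ 3 ≤ b.Ca * (2 * S ^ 3) := by
    unfold Base.Ca
    rw [div_pow, div_le_iff₀ (by positivity)]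
    have : S + 2 * b.a ≤ 3 * S := by linarith
    calc (S + 2 * b.a) ^ 3 ≤ (3 * S) ^ 3 := by gcongr
      _ ≤ _ := by
        have h3 : 32 / b.a ^ 3 * (2 * S ^ 3) * b.a ^ 3 = 64 * S ^ 3 := by field_simp; ring
        rw [h3]
        have : 0 < S ^ 3 := by positivity
        nlinarith
  calc _ ≤ b.Ca * (2 * S ^ 3) * pc (fun i => cl b.a (x i)) := mul_le_mul_of_nonneg_right h2 (pc_nonneg _)
    _ = _ := by ring

/-- superstability bound on `R`. -/
theorem Rn_le {ι : Type*} [Fintype ι] {B : ℕ} (hB : 2 ≤ B) (n : ℕ) {S : ℝ} (hS : 1 ≤ S) (x : ι → Pt) (hx : ∀ i, x i ∈ cube S) :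
    Rn B n S x ≤ b.Ca * (2 * ps b.φ x / b.K + Fintype.card ι) := by
  have h1 := pc_cl_le b x
  have hCa := Ca_pos b
  have h2 : Rn B n S x ≤ b.Ca * pc (fun i => cl b.a (x i)) := by
    unfold Rn
    have h3 : ∑ k ∈ Finset.range n, jn B k * ps (gk (rn B k)) x ≤
        ∑ k ∈ Finset.range n, jn B k * (b.Ca * pc (fun i => cl b.a (x i))) := by
      refine Finset.sum_le_sum fun k _ => ?_
      exact mul_le_mul_of_nonneg_left (ps_gk_le_cl b (rn_ge hB k) x hx) (jn_nonneg hB k)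
    rw [← Finset.sum_mul, sum_jn] at h3
    have h4 : tn B n * (Fintype.card ι : ℝ) ^ 2 / (2 * S ^ 3) ≤ tn B n * (b.Ca * pc (fun i => cl b.a (x i))) := by
      rw [mul_div_assoc]
      exact mul_le_mul_of_nonneg_left (sq_le_cl b (b.a_le.trans hS) x hx) (tn_pos hB n).le
    nlinarith
  exact h2.trans (mul_le_mul_of_nonneg_left h1 hCa.le)

theorem Rn_nonneg {ι : Type*} [Fintype ι] {B : ℕ} (hB : 2 ≤ B) (n : ℕ) {S : ℝ} (hS : 0 ≤ S) (x : ι → Pt) :
    0 ≤ Rn B n S x := by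
  unfold Rn
  have := tn_pos hB n
  refine add_nonneg (Finset.sum_nonneg fun k _ => mul_nonneg (jn_nonneg hB k) (ps_gk_nonneg x _)) (by positivity)

end Crest.H5.PP
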