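import Crest.Agent.H5.PP.Tile

set_option autoImplicit false
set_option maxHeartbeats 400000
open MeasureTheory ENNReal Set Metric

namespace Crest.H5.PP

/-- admissible pair weights -/
structure TW (w : ℝ → ℝ) where
  meas : Measurable w
  far : ∀ s, 2 ≤ s → 0 ≤ w s
  Bs : ℝ
  stab : ∀ (N : ℕ) (x : Fin N → Pt), ps w x ≤ Bs * N
  Cw : ℝ
  Cw_nonneg : 0 ≤ Cw
  neg : ∀ z : Pt, ∫⁻ y : Pt, ENNReal.ofReal (-w (dist y z)) ≤ ENNReal.ofReal Cw

noncomputable def lz (w : ℝ → ℝ) (S : ℝ) (N : ℕ) : ℝ := Real.log (Z w S N).toReal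

theorem Z_eq (w : ℝ → ℝ) (S : ℝ) (N : ℕ) :
    Z w S N = (N.factorial : ℝ≥0∞)⁻¹ * ∫⁻ x in Set.pi univ (fun _ : Fin N => cube S), ENNReal.ofReal (Real.exp (ps w x)) := by
  unfold Z
  rw [bf_int _ _ (measurableSet_cube S)]
  simp only [add_zero]

theorem vol_cubes (S : ℝ) (N : ℕ) : volume (Set.pi univ (fun _ : Fin N => cube S)) = (ENNReal.ofReal S ^ 3) ^ N := by
  rw [volume_pi, Measure.pi_pi]
  simp only [vol_cube, Finset.prod_const, Finset.card_univ, Fintype.card_fin]

variable {w : ℝ → ℝ}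

theorem Z_le (h : TW w) {S : ℝ} (hS : 0 ≤ S) (N : ℕ) : Z w S N ≤ ENNReal.ofReal (Real.exp (Real.exp h.Bs * S ^ 3)) := by
  rw [Z_eq]
  calc (N.factorial : ℝ≥0∞)⁻¹ * ∫⁻ x in Set.pi univ (fun _ : Fin N => cube S), ENNReal.ofReal (Real.exp (ps w x))
      ≤ (N.factorial : ℝ≥0∞)⁻¹ * ∫⁻ _x in Set.pi univ (fun _ : Fin N => cube S), ENNReal.ofReal (Real.exp (h.Bs * N)) := by
        refine mul_le_mul_right ?_ _
        apply lintegral_mono
        intro x
        exact ENNReal.ofReal_le_ofReal (Real.exp_le_exp.mpr (h.stab N x))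
    _ = ENNReal.ofReal ((Real.exp h.Bs * S ^ 3) ^ N / N.factorial) := by
        rw [setLIntegral_const, vol_cubes, ← ENNReal.ofReal_pow hS, ← ENNReal.ofReal_pow (by positivity),
          ← ENNReal.ofReal_mul (by positivity), ← ENNReal.ofReal_natCast, ← ENNReal.ofReal_inv_of_pos (by positivity),
          ← ENNReal.ofReal_mul (by positivity)]
        congr 1
        rw [mul_pow, ← Real.exp_nat_mul, mul_comm h.Bs]
        field_simp
    _ ≤ _ := by
        apply ENNReal.ofReal_le_ofReal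
        exact Real.pow_div_factorial_le_exp _ (by positivity) N

theorem Z_ne_top (h : TW w) {S : ℝ} (hS : 0 ≤ S) (N : ℕ) : Z w S N ≠ ⊤ := ((Z_le h hS N).trans_lt ENNReal.ofReal_lt_top).ne

theorem Z_ne_zero (hw : Measurable w) {S : ℝ} (hS : 0 < S) (N : ℕ) : Z w S N ≠ 0 := by
  rw [Z_eq]
  refine mul_ne_zero (ENNReal.inv_ne_zero.mpr (ENNReal.natCast_ne_top _)) ?_
  rw [← lintegral_indicator (measurableSet_cubes S N)]
  intro h0
  have hm : Measurable (fun x : Fin N → Pt => (Set.pi univ (fun _ : Fin N => cube S)).indicator (fun x => ENNReal.ofReal (Real.exp (ps w x))) x) :=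
    (ENNReal.measurable_ofReal.comp (Real.measurable_exp.comp (measurable_ps hw))).indicator (measurableSet_cubes S N)
  rw [lintegral_eq_zero_iff hm] at h0
  have h1 : volume (Set.pi univ (fun _ : Fin N => cube S)) = 0 := by
    refine measure_mono_null ?_ (ae_iff.mp h0)
    intro x hx
    show ¬ ((Set.pi univ (fun _ : Fin N => cube S)).indicator (fun x => ENNReal.ofReal (Real.exp (ps w x))) x = 0)
    rw [indicator_of_mem hx]
    exact (ENNReal.ofReal_pos.mpr (Real.exp_pos _)).ne'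
  rw [vol_cubes] at h1
  have h2 : ENNReal.ofReal S ≠ 0 := (ENNReal.ofReal_pos.mpr hS).ne'
  exact pow_ne_zero _ (pow_ne_zero _ h2) h1

theorem Zr_pos (h : TW w) {S : ℝ} (hS : 0 < S) (N : ℕ) : 0 < (Z w S N).toReal :=
  ENNReal.toReal_pos (Z_ne_zero h.meas hS N) (Z_ne_top h hS.le N)

theorem Z_exp (h : TW w) {S : ℝ} (hS : 0 < S) (N : ℕ) : Z w S N = ENNReal.ofReal (Real.exp (lz w S N)) := by
  unfold lz
  rw [Real.exp_log (Zr_pos h hS N), ENNReal.ofReal_toReal (Z_ne_top h hS.le N)]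

theorem lz_le (h : TW w) {S : ℝ} (hS : 0 < S) (N : ℕ) : lz w S N ≤ Real.exp h.Bs * S ^ 3 := by
  have h1 := Z_le h hS.le N
  rw [Z_exp h hS, ENNReal.ofReal_le_ofReal_iff (Real.exp_pos _).le, Real.exp_le_exp] at h1
  exact h1

theorem lz_zero (w : ℝ → ℝ) (S : ℝ) : lz w S 0 = 0 := by
  unfold lz
  rw [Z_eq]
  have h1 : ∀ x : Fin 0 → Pt, ps w x = 0 := fun x => by unfold ps; simp
  simp only [h1, Real.exp_zero, ENNReal.ofReal_one, Nat.factorial_zero, Nat.cast_one, inv_one, one_mul]
  rw [setLIntegral_one, vol_cubes]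
  simp

/-- superadditivity -/
theorem lz_tile (h : TW w) {L S : ℝ} (hL : 0 < L) (hS : 0 < S) {q : ℕ} (hq : q * (L + 2) ≤ S + 2) (c : (Fin 3 → Fin q) → ℕ)
    (N : ℕ) (hN : ∑ b, c b = N) : ∑ b, lz w L (c b) ≤ lz w S N := by
  have h1 := tile_lower h.meas h.far (fun _ => 0) hL.le hq c N hN (fun x => ENNReal.ofReal (Real.exp (ps w x))) (by
    intro x _
    simp)
  have h2 : ∀ b, Zn w (fun _ => 0) L (c b) = ENNReal.ofReal (Real.exp (lz w L (c b))) := by
    intro b
    rw [← Z_exp h hL]; rfl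
  rw [Finset.prod_congr rfl (fun b _ => h2 b), ← ENNReal.ofReal_prod_of_nonneg (fun _ _ => (Real.exp_pos _).le), ← Real.exp_sum,
    ← Z_eq, Z_exp h hS, ENNReal.ofReal_le_ofReal_iff (Real.exp_pos _).le, Real.exp_le_exp] at h1
  exact h1

/-- pair sum with one more point -/
theorem ps_cons {N : ℕ} (w : ℝ → ℝ) (y : Pt) (z : Fin N → Pt) :
    ps w (Fin.cons y z : Fin (N+1) → Pt) = ps w z + ∑ i, w (dist y (z i)) := by
  unfold ps
  rw [Fin.sum_univ_succ]
  have e1 : ∑ j, off w (Fin.cons y z : Fin (N+1) → Pt) 0 j = ∑ i, w (dist y (z i)) := by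
    rw [Fin.sum_univ_succ, off_self, zero_add]
    refine Finset.sum_congr rfl fun i _ => ?_
    rw [off_ne _ _ (Fin.succ_ne_zero i).symm]
    simp
  have e2 : ∀ i : Fin N, ∑ j, off w (Fin.cons y z : Fin (N+1) → Pt) i.succ j = w (dist y (z i)) + ∑ j, off w z i j := by
    intro i
    rw [Fin.sum_univ_succ, off_ne _ _ (Fin.succ_ne_zero i)]
    congr 1
    · simp [dist_comm]
    · refine Finset.sum_congr rfl fun j _ => ?_
      by_cases hij : i = j
      · subst hij; simp
      · rw [off_ne _ _ hij, off_ne _ _ (fun h' => hij (Fin.succ_injective _ h'))]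
        simp
  rw [e1, Finset.sum_congr rfl (fun i _ => e2 i), Finset.sum_add_distrib]
  ring

/-- the Jensen step for one inserted point -/
theorem insert_one (h : TW w) {S : ℝ} (hS : 0 < S) {N : ℕ} (z : Fin N → Pt) :
    ENNReal.ofReal (S ^ 3 * Real.exp (-(h.Cw * N / S ^ 3))) ≤ ∫⁻ y in cube S, ENNReal.ofReal (Real.exp (∑ i, w (dist y (z i)))) := by
  obtain ⟨c, hc⟩ : ∃ c, c = h.Cw * N / S ^ 3 := ⟨_, rfl⟩
  have hCw := h.Cw_nonneg
  have hc0 : 0 ≤ c := by rw [hc]; positivity
  rw [← hc]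
  have hwm : ∀ i : Fin N, Measurable (fun y : Pt => w (dist y (z i))) := fun i => h.meas.comp (measurable_id.dist measurable_const)
  have hint : ∫⁻ y in cube S, ∑ i, ENNReal.ofReal (-w (dist y (z i))) ≤ ENNReal.ofReal (c * S ^ 3) := by
    calc ∫⁻ y in cube S, ∑ i, ENNReal.ofReal (-w (dist y (z i))) ≤ ∫⁻ y, ∑ i, ENNReal.ofReal (-w (dist y (z i))) := setLIntegral_le_lintegral _ _
      _ = ∑ i, ∫⁻ y, ENNReal.ofReal (-w (dist y (z i))) := lintegral_finsetSum _ (fun i _ => ENNReal.measurable_ofReal.comp (hwm i).neg)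
      _ ≤ ∑ _i : Fin N, ENNReal.ofReal h.Cw := Finset.sum_le_sum fun i _ => h.neg (z i)
      _ = ENNReal.ofReal (c * S ^ 3) := by
          rw [Finset.sum_const, Finset.card_univ, Fintype.card_fin, nsmul_eq_mul, ← ENNReal.ofReal_natCast, ← ENNReal.ofReal_mul (by positivity)]
          congr 1
          rw [hc]; field_simp
  have hpt : ∀ y : Pt, ENNReal.ofReal (Real.exp (-c) * (1 + c)) ≤ ENNReal.ofReal (Real.exp (∑ i, w (dist y (z i)))) +
      ENNReal.ofReal (Real.exp (-c)) * ∑ i, ENNReal.ofReal (-w (dist y (z i))) := by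
    intro y
    have h1 : ∑ i, ENNReal.ofReal (-w (dist y (z i))) = ENNReal.ofReal (∑ i, max 0 (-w (dist y (z i)))) := by
      rw [ENNReal.ofReal_sum_of_nonneg (fun i _ => le_max_left _ _)]
      refine Finset.sum_congr rfl fun i _ => ?_
      rw [max_comm, ENNReal.ofReal_max, ENNReal.ofReal_zero, max_eq_left zero_le]
    have hs0 : 0 ≤ ∑ i, max 0 (-w (dist y (z i))) := Finset.sum_nonneg fun i _ => le_max_left _ _
    rw [h1, ← ENNReal.ofReal_mul (Real.exp_pos _).le, ← ENNReal.ofReal_add (Real.exp_pos _).le (by positivity)]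
    apply ENNReal.ofReal_le_ofReal
    set s := ∑ i, max 0 (-w (dist y (z i))) with hs
    have h2 : -s ≤ ∑ i, w (dist y (z i)) := by
      rw [hs, ← Finset.sum_neg_distrib]
      refine Finset.sum_le_sum fun i _ => ?_
      have := le_max_right 0 (-w (dist y (z i)))
      linarith
    have h3 : Real.exp (-s) ≤ Real.exp (∑ i, w (dist y (z i))) := Real.exp_le_exp.mpr h2
    have h4 : Real.exp (-c) * (1 + (c - s)) ≤ Real.exp (-s) := by
      have := Real.add_one_le_exp (c - s)
      calc Real.exp (-c) * (1 + (c - s)) ≤ Real.exp (-c) * Real.exp (c - s) := mul_le_mul_of_nonneg_left (by linarith) (Real.exp_pos _).le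
        _ = Real.exp (-s) := by rw [← Real.exp_add]; congr 1; ring
    linarith
  have hmm : Measurable (fun y : Pt => ENNReal.ofReal (Real.exp (∑ i, w (dist y (z i))))) :=
    ENNReal.measurable_ofReal.comp (Real.measurable_exp.comp (Finset.measurable_sum _ fun i _ => hwm i))
  have hI : ENNReal.ofReal (Real.exp (-c) * (1 + c)) * ENNReal.ofReal (S ^ 3) ≤
      (∫⁻ y in cube S, ENNReal.ofReal (Real.exp (∑ i, w (dist y (z i))))) + ENNReal.ofReal (Real.exp (-c)) * ENNReal.ofReal (c * S ^ 3) := by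
    calc ENNReal.ofReal (Real.exp (-c) * (1 + c)) * ENNReal.ofReal (S ^ 3) = ∫⁻ _y in cube S, ENNReal.ofReal (Real.exp (-c) * (1 + c)) := by
          rw [setLIntegral_const, vol_cube, ENNReal.ofReal_pow hS.le]
      _ ≤ ∫⁻ y in cube S, (ENNReal.ofReal (Real.exp (∑ i, w (dist y (z i)))) +
          ENNReal.ofReal (Real.exp (-c)) * ∑ i, ENNReal.ofReal (-w (dist y (z i)))) := lintegral_mono hpt
      _ = (∫⁻ y in cube S, ENNReal.ofReal (Real.exp (∑ i, w (dist y (z i))))) +
          ENNReal.ofReal (Real.exp (-c)) * ∫⁻ y in cube S, ∑ i, ENNReal.ofReal (-w (dist y (z i))) := by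
          rw [lintegral_add_left hmm, lintegral_const_mul' _ _ ENNReal.ofReal_ne_top]
      _ ≤ _ := by gcongr
  rw [← ENNReal.ofReal_mul (by positivity), ← ENNReal.ofReal_mul (Real.exp_pos _).le] at hI
  have e : Real.exp (-c) * (1 + c) * S ^ 3 = S ^ 3 * Real.exp (-c) + Real.exp (-c) * (c * S ^ 3) := by ring
  rw [e, ENNReal.ofReal_add (by positivity) (by positivity)] at hI
  exact (ENNReal.add_le_add_iff_right ENNReal.ofReal_ne_top).mp hI

/-- the insertion inequality -/
theorem Z_ins (h : TW w) {S : ℝ} (hS : 0 < S) (N : ℕ) :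
    ENNReal.ofReal (S ^ 3 * Real.exp (-(h.Cw * N / S ^ 3)) / (N + 1)) * Z w S N ≤ Z w S (N+1) := by
  rw [Z_eq, Z_eq]
  have hmp := (volume_preserving_piFinSuccAbove (fun _ : Fin (N+1) => Pt) 0).symm
  set V' := Set.pi univ (fun _ : Fin (N+1) => cube S)
  set V := Set.pi univ (fun _ : Fin N => cube S)
  have hexp : ∀ n : ℕ, Measurable (fun x : Fin n → Pt => ENNReal.ofReal (Real.exp (ps w x))) := fun n =>
    ENNReal.measurable_ofReal.comp (Real.measurable_exp.comp (measurable_ps h.meas))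
  have e1 : ∫⁻ x in V', ENNReal.ofReal (Real.exp (ps w x)) =
      ∫⁻ z : Fin N → Pt, ∫⁻ y : Pt, V'.indicator (fun x => ENNReal.ofReal (Real.exp (ps w x))) (Fin.cons y z) := by
    rw [← lintegral_indicator (measurableSet_cubes S (N+1)), ← hmp.lintegral_comp_emb (MeasurableEquiv.measurableEmbedding _)]
    have hm : Measurable (fun x : Pt × (Fin N → Pt) => V'.indicator (fun x => ENNReal.ofReal (Real.exp (ps w x)))
        ((MeasurableEquiv.piFinSuccAbove (fun _ : Fin (N+1) => Pt) 0).symm x)) :=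
      ((hexp (N+1)).indicator (measurableSet_cubes S (N+1))).comp (MeasurableEquiv.measurable _)
    rw [Measure.volume_eq_prod, lintegral_prod_symm _ hm.aemeasurable]
    apply lintegral_congr
    intro z
    apply lintegral_congr
    intro y
    congr 1
    funext i
    refine Fin.cases ?_ (fun j => ?_) i <;> rfl
  have e2 : ∀ z : Fin N → Pt, V.indicator (fun z => ENNReal.ofReal (Real.exp (ps w z))) z * ENNReal.ofReal (S ^ 3 * Real.exp (-(h.Cw * N / S ^ 3))) ≤
      ∫⁻ y : Pt, V'.indicator (fun x => ENNReal.ofReal (Real.exp (ps w x))) (Fin.cons y z) := by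
    intro z
    by_cases hz : z ∈ V
    · rw [indicator_of_mem hz]
      have h1 : ∀ y : Pt, V'.indicator (fun x => ENNReal.ofReal (Real.exp (ps w x))) (Fin.cons y z) =
          (cube S).indicator (fun y => ENNReal.ofReal (Real.exp (ps w z)) * ENNReal.ofReal (Real.exp (∑ i, w (dist y (z i))))) y := by
        intro y
        by_cases hy : y ∈ cube S
        · rw [indicator_of_mem hy, indicator_of_mem, ps_cons, Real.exp_add, ENNReal.ofReal_mul (Real.exp_pos _).le]
          intro i _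
          refine Fin.cases ?_ (fun j => ?_) i
          · simpa using hy
          · simpa using hz j (mem_univ _)
        · rw [indicator_of_notMem hy, indicator_of_notMem]
          intro h'
          have := h' 0 (mem_univ _)
          simp at this
          exact hy this
      simp only [h1]
      rw [lintegral_indicator (measurableSet_cube S), lintegral_const_mul' _ _ ENNReal.ofReal_ne_top]
      exact mul_le_mul_right (insert_one h hS z) _
    · rw [indicator_of_notMem hz, zero_mul]; exact zero_le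
  have e3 : (∫⁻ z in V, ENNReal.ofReal (Real.exp (ps w z))) * ENNReal.ofReal (S ^ 3 * Real.exp (-(h.Cw * N / S ^ 3))) ≤
      ∫⁻ x in V', ENNReal.ofReal (Real.exp (ps w x)) := by
    rw [e1, ← lintegral_indicator (measurableSet_cubes S N), ← lintegral_mul_const _ ((hexp N).indicator (measurableSet_cubes S N))]
    exact lintegral_mono e2
  have e4 : ((N+1).factorial : ℝ≥0∞)⁻¹ = ENNReal.ofReal (1 / (N+1)) * (N.factorial : ℝ≥0∞)⁻¹ := by
    rw [← ENNReal.ofReal_natCast, ← ENNReal.ofReal_natCast, ← ENNReal.ofReal_inv_of_pos (by positivity), ← ENNReal.ofReal_inv_of_pos (by positivity),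
      ← ENNReal.ofReal_mul (by positivity), Nat.factorial_succ]
    congr 1
    push_cast
    field_simp
  rw [e4]
  have e5 : ENNReal.ofReal (S ^ 3 * Real.exp (-(h.Cw * N / S ^ 3)) / (N + 1)) = ENNReal.ofReal (1 / (N+1)) * ENNReal.ofReal (S ^ 3 * Real.exp (-(h.Cw * N / S ^ 3))) := by
    rw [← ENNReal.ofReal_mul (by positivity)]
    congr 1
    ring
  rw [e5]
  calc _ = ENNReal.ofReal (1 / (N+1)) * (N.factorial : ℝ≥0∞)⁻¹ *
        ((∫⁻ z in V, ENNReal.ofReal (Real.exp (ps w z))) * ENNReal.ofReal (S ^ 3 * Real.exp (-(h.Cw * N / S ^ 3)))) := by ring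
    _ ≤ _ := by gcongr

theorem lz_ins (h : TW w) {S : ℝ} (hS : 0 < S) (N : ℕ) :
    lz w S N + Real.log (S ^ 3 / (N + 1)) - h.Cw * N / S ^ 3 ≤ lz w S (N+1) := by
  have h1 := Z_ins h hS N
  rw [Z_exp h hS, Z_exp h hS, ← ENNReal.ofReal_mul (by positivity), ENNReal.ofReal_le_ofReal_iff (Real.exp_pos _).le] at h1
  have h2 := Real.log_le_log (by positivity) h1
  rw [Real.log_exp, Real.log_mul (by positivity) (Real.exp_pos _).ne', Real.log_exp] at h2
  have e : S ^ 3 * Real.exp (-(h.Cw * N / S ^ 3)) / (N + 1) = (S ^ 3 / (N + 1)) * Real.exp (-(h.Cw * N / S ^ 3)) := by ring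
  rw [e, Real.log_mul (by positivity) (Real.exp_pos _).ne', Real.log_exp] at h2
  linarith

/-- cost of insertions up to density `ρ` -/
noncomputable def Cr (h : TW w) (ρ : ℝ) : ℝ := Real.log (ρ + 1) + h.Cw * ρ

theorem Cr_nonneg (h : TW w) {ρ : ℝ} (hρ : 0 ≤ ρ) : 0 ≤ Cr h ρ := by
  unfold Cr
  have := Real.log_nonneg (show 1 ≤ ρ + 1 by linarith)
  have := mul_nonneg h.Cw_nonneg hρ
  linarith

theorem lz_add (h : TW w) {S ρ : ℝ} (hS : 0 < S) (N k : ℕ) (hNk : ((N + k : ℕ) : ℝ) ≤ ρ * S ^ 3) :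
    lz w S N - k * Cr h ρ ≤ lz w S (N + k) := by
  induction k with
  | zero => simp
  | succ k ih =>
    have hS3 : 0 < S ^ 3 := by positivity
    have hle : ((N + k : ℕ) : ℝ) ≤ ρ * S ^ 3 := by
      refine le_trans ?_ hNk
      exact_mod_cast (by omega : N + k ≤ N + (k+1))
    have h1 := ih hle
    have h2 := lz_ins h hS (N + k)
    have h3 : -Real.log (ρ + 1) ≤ Real.log (S ^ 3 / (((N + k : ℕ) : ℝ) + 1)) := by
      rw [← Real.log_inv]
      apply Real.log_le_log
      · have : 0 ≤ ρ := by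
          by_contra hneg
          push Not at hneg
          have : ρ * S ^ 3 < 0 := mul_neg_of_neg_of_pos hneg hS3
          have h0 : (0:ℝ) ≤ ((N + k : ℕ) : ℝ) := by positivity
          linarith
        positivity
      · rw [inv_eq_one_div, div_le_div_iff₀ _ (by positivity)]
        · push_cast at hNk ⊢
          nlinarith
        · have : 0 ≤ ρ := by
            by_contra hneg
            push Not at hneg
            have : ρ * S ^ 3 < 0 := mul_neg_of_neg_of_pos hneg hS3
            have h0 : (0:ℝ) ≤ ((N + k : ℕ) : ℝ) := by positivity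
            linarith
          linarith
    have h4 : h.Cw * ((N + k : ℕ) : ℝ) / S ^ 3 ≤ h.Cw * ρ := by
      rw [div_le_iff₀ hS3, mul_assoc]
      exact mul_le_mul_of_nonneg_left hle h.Cw_nonneg
    have e : N + (k + 1) = N + k + 1 := by omega
    rw [e]
    push_cast at h1 h2 h3 h4 ⊢
    unfold Cr at *
    linarith

end Crest.H5.PP
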