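import Crest.Agent.H5.PP.Thermo

set_option autoImplicit false
set_option maxHeartbeats 400000
open MeasureTheory ENNReal Set Metric Filter Topology

namespace Crest.H5.PP

variable {w : ℝ → ℝ}

theorem sum_fun0 {M : Type*} [AddCommMonoid M] (q : ℕ) (f : Fin q → M) :
    ∑ b : Fin 3 → Fin q, f (b 0) = (q ^ 2) • ∑ i, f i := by
  rw [← (Fin.consEquiv (fun _ : Fin 3 => Fin q)).sum_comp, Fintype.sum_prod_type, Finset.smul_sum]
  refine Finset.sum_congr rfl fun i _ => ?_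
  have : ∀ z : (∀ i : Fin 2, Fin q), f ((Fin.consEquiv (fun _ : Fin 3 => Fin q)) (i, z) 0) = f i := fun z => rfl
  rw [Finset.sum_congr rfl (fun z _ => this z), Finset.sum_const]
  congr 1
  simp

theorem sum_modNat {M : Type*} [AddCommMonoid M] (m n : ℕ) (f : Fin n → M) :
    ∑ i : Fin (m * n), f i.modNat = m • ∑ j, f j := by
  have h1 := (finProdFinEquiv (m := m) (n := n)).symm.sum_comp (fun p : Fin m × Fin n => f p.2)
  have h2 : ∑ i : Fin (m * n), f i.modNat = ∑ i : Fin (m * n), f ((finProdFinEquiv (m := m) (n := n)).symm i).2 := rfl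
  rw [h2, h1, Fintype.sum_prod_type]
  simp

/-- candidates for the limit -/
def mixSet (h : TW w) (ρ : ℝ) : Set ℝ :=
  {y | ∃ L : ℝ, 0 < L ∧ ∃ n : ℕ, 0 < n ∧ ∃ Nf : Fin n → ℕ, (∑ j, (Nf j : ℝ)) ≤ ρ * (n * (L + 2) ^ 3) ∧
    y = (∑ j, lz w L (Nf j)) / (n * (L + 2) ^ 3) - Cr h ρ * (ρ - (∑ j, (Nf j : ℝ)) / (n * (L + 2) ^ 3))}

noncomputable def AA (h : TW w) (ρ : ℝ) : ℝ := sSup (mixSet h ρ)

theorem mixSet_nonempty (h : TW w) {ρ : ℝ} (hρ : 0 ≤ ρ) : (mixSet h ρ).Nonempty := by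
  refine ⟨_, 1, one_pos, 1, one_pos, fun _ => 0, ?_, rfl⟩
  simp
  positivity

theorem mixSet_bdd (h : TW w) {ρ : ℝ} (hρ : 0 ≤ ρ) : BddAbove (mixSet h ρ) := by
  refine ⟨Real.exp h.Bs, ?_⟩
  rintro y ⟨L, hL, n, hn, Nf, hN, rfl⟩
  have hnr : (0:ℝ) < n := by exact_mod_cast hn
  have h1 : (∑ j, lz w L (Nf j)) / (n * (L + 2) ^ 3) ≤ Real.exp h.Bs := by
    rw [div_le_iff₀ (by positivity)]
    calc ∑ j, lz w L (Nf j) ≤ ∑ _j : Fin n, Real.exp h.Bs * L ^ 3 := Finset.sum_le_sum fun j _ => lz_le h hL _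
      _ = n * (Real.exp h.Bs * L ^ 3) := by simp
      _ ≤ n * (Real.exp h.Bs * (L + 2) ^ 3) := by gcongr; linarith
      _ = _ := by ring
  have h2 : 0 ≤ Cr h ρ * (ρ - (∑ j, (Nf j : ℝ)) / (n * (L + 2) ^ 3)) := by
    apply mul_nonneg (Cr_nonneg h hρ)
    rw [sub_nonneg, div_le_iff₀ (by positivity)]
    exact hN
  linarith

theorem mixing (h : TW w) {ρ : ℝ} (hρ : 0 ≤ ρ) {y : ℝ} (hy : y ∈ mixSet h ρ) {ε : ℝ} (hε : 0 < ε) :
    ∀ᶠ S in atTop, y - ε ≤ lz w S ⌊ρ * S ^ 3⌋₊ / S ^ 3 := by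
  obtain ⟨L, hL, n, hn, Nf, hN, rfl⟩ := hy
  have hnr : (0:ℝ) < n := by exact_mod_cast hn
  obtain ⟨σ, hσ⟩ : ∃ σ : ℝ, σ = ∑ j, (Nf j : ℝ) := ⟨_, rfl⟩
  obtain ⟨τ, hτ⟩ : ∃ τ : ℝ, τ = ∑ j, lz w L (Nf j) := ⟨_, rfl⟩
  rw [← hσ] at hN ⊢
  rw [← hτ]
  have hC := Cr_nonneg h hρ
  -- the lower function
  have key : ∀ S : ℝ, 0 < S → ((⌊S / (n * (L + 2))⌋₊ * n : ℕ) : ℝ) ^ 3 / n * τ / S ^ 3 -
      Cr h ρ * (ρ - ((⌊S / (n * (L + 2))⌋₊ * n : ℕ) : ℝ) ^ 3 / n * σ / S ^ 3) ≤ lz w S ⌊ρ * S ^ 3⌋₊ / S ^ 3 := by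
    intro S hS
    set m := ⌊S / (n * (L + 2))⌋₊ with hm
    have hqL : ((m * n : ℕ) : ℝ) * (L + 2) ≤ S := by
      have h1 : (m : ℝ) ≤ S / (n * (L + 2)) := Nat.floor_le (by positivity)
      rw [le_div_iff₀ (by positivity)] at h1
      push_cast
      linarith
    set c : (Fin 3 → Fin (m * n)) → ℕ := fun b => Nf (b 0).modNat with hc
    have hcs : ((∑ b, c b : ℕ) : ℝ) = ((m * n : ℕ) : ℝ) ^ 3 / n * σ := by
      have h1 : ∑ b, c b = (m * n) ^ 2 • (m • ∑ j, Nf j) := by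
        rw [hc, sum_fun0 (m * n) (fun i => Nf i.modNat), sum_modNat]
      rw [h1, hσ]
      push_cast
      simp only [smul_eq_mul]
      push_cast
      field_simp
    have hls : ∑ b, lz w L (c b) = ((m * n : ℕ) : ℝ) ^ 3 / n * τ := by
      have h1 : ∑ b, lz w L (c b) = (m * n) ^ 2 • (m • ∑ j, lz w L (Nf j)) := by
        rw [hc, sum_fun0 (m * n) (fun i => lz w L (Nf i.modNat)), sum_modNat m n (fun j => lz w L (Nf j))]
      rw [h1, hτ, nsmul_eq_mul, nsmul_eq_mul]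
      push_cast
      field_simp
    have h2 := lz_tile h hL hS (q := m * n) (by linarith) c (∑ b, c b) rfl
    have hle : ((∑ b, c b : ℕ) : ℝ) ≤ ρ * S ^ 3 := by
      rw [hcs]
      calc ((m * n : ℕ) : ℝ) ^ 3 / n * σ ≤ ((m * n : ℕ) : ℝ) ^ 3 / n * (ρ * (n * (L + 2) ^ 3)) := by gcongr
        _ = ρ * (((m * n : ℕ) : ℝ) * (L + 2)) ^ 3 := by field_simp
        _ ≤ _ := by gcongr
    obtain ⟨k, hk⟩ : ∃ k, ⌊ρ * S ^ 3⌋₊ = ∑ b, c b + k := ⟨⌊ρ * S ^ 3⌋₊ - ∑ b, c b, by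
      have := Nat.le_floor hle
      omega⟩
    have hfl : ((∑ b, c b + k : ℕ) : ℝ) ≤ ρ * S ^ 3 := by
      rw [← hk]; exact Nat.floor_le (by positivity)
    have h3 := lz_add h hS (∑ b, c b) k hfl
    rw [← hk] at h3
    have hS3 : 0 < S ^ 3 := by positivity
    rw [le_div_iff₀ hS3]
    push_cast at hfl
    have hcs' : (∑ b, (c b : ℝ)) = ((m * n : ℕ) : ℝ) ^ 3 / n * σ := by rw [← hcs]; push_cast; rfl
    rw [hcs'] at hfl
    have h4 : (k:ℝ) ≤ ρ * S ^ 3 - ((m * n : ℕ) : ℝ) ^ 3 / n * σ := by linarith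
    have h5 := mul_le_mul_of_nonneg_left h4 hC
    have e : (((m * n : ℕ) : ℝ) ^ 3 / n * τ / S ^ 3 - Cr h ρ * (ρ - ((m * n : ℕ) : ℝ) ^ 3 / n * σ / S ^ 3)) * S ^ 3 =
        ((m * n : ℕ) : ℝ) ^ 3 / n * τ - Cr h ρ * (ρ * S ^ 3 - ((m * n : ℕ) : ℝ) ^ 3 / n * σ) := by
      field_simp
    rw [e]
    linarith
  have hq : Tendsto (fun S : ℝ => ((⌊S / (n * (L + 2))⌋₊ * n : ℕ) : ℝ) / S) atTop (𝓝 (1 / (L + 2))) := by
    have h1 := tendsto_nat_floor_mul_div_atTop (R := ℝ) (a := 1 / (n * (L + 2))) (by positivity)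
    have h2 := h1.mul_const (n:ℝ)
    have e : 1 / ((n:ℝ) * (L + 2)) * n = 1 / (L + 2) := by field_simp
    rw [e] at h2
    refine h2.congr (fun S => ?_)
    have e2 : 1 / ((n:ℝ) * (L + 2)) * S = S / (n * (L + 2)) := by ring
    rw [e2]
    push_cast
    ring
  have hq3 : Tendsto (fun S : ℝ => ((⌊S / (n * (L + 2))⌋₊ * n : ℕ) : ℝ) ^ 3 / n * τ / S ^ 3 -
      Cr h ρ * (ρ - ((⌊S / (n * (L + 2))⌋₊ * n : ℕ) : ℝ) ^ 3 / n * σ / S ^ 3)) atTop
      (𝓝 (τ / (n * (L + 2) ^ 3) - Cr h ρ * (ρ - σ / (n * (L + 2) ^ 3)))) := by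
    have h1 := hq.pow 3
    have h2 := (h1.mul_const (τ / n)).sub ((((h1.mul_const (σ / n)).const_sub ρ)).const_mul (Cr h ρ))
    have e : (1 / (L + 2)) ^ 3 * (τ / n) - Cr h ρ * (ρ - (1 / (L + 2)) ^ 3 * (σ / n)) =
        τ / (n * (L + 2) ^ 3) - Cr h ρ * (ρ - σ / (n * (L + 2) ^ 3)) := by field_simp
    rw [e] at h2
    refine h2.congr' ?_
    filter_upwards [eventually_gt_atTop 0] with S hS
    field_simp
  have hev := hq3.eventually (lt_mem_nhds (show τ / (n * (L + 2) ^ 3) - Cr h ρ * (ρ - σ / (n * (L + 2) ^ 3)) - ε <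
    τ / (n * (L + 2) ^ 3) - Cr h ρ * (ρ - σ / (n * (L + 2) ^ 3)) by linarith))
  filter_upwards [hev, eventually_gt_atTop 0] with S h1 hS
  exact h1.le.trans (key S hS)

theorem mem_mixSet_self (h : TW w) {ρ S : ℝ} (hρ : 0 ≤ ρ) (hS : 0 < S) :
    lz w S ⌊ρ * S ^ 3⌋₊ / (S + 2) ^ 3 - Cr h ρ * (ρ - ⌊ρ * S ^ 3⌋₊ / (S + 2) ^ 3) ∈ mixSet h ρ := by
  refine ⟨S, hS, 1, one_pos, fun _ => ⌊ρ * S ^ 3⌋₊, ?_, ?_⟩
  · simp only [Finset.univ_unique, Finset.sum_const, Finset.card_singleton, one_smul, Nat.cast_one, one_mul]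
    calc (⌊ρ * S ^ 3⌋₊ : ℝ) ≤ ρ * S ^ 3 := Nat.floor_le (by positivity)
      _ ≤ _ := by gcongr; linarith
  · simp

theorem le_AA (h : TW w) {ρ : ℝ} (hρ : 0 ≤ ρ) {y : ℝ} (hy : y ∈ mixSet h ρ) : y ≤ AA h ρ :=
  le_csSup (mixSet_bdd h hρ) hy

theorem floor_ratio {ρ : ℝ} (hρ : 0 ≤ ρ) : Tendsto (fun S : ℝ => (⌊ρ * S ^ 3⌋₊ : ℝ) / (S + 2) ^ 3) atTop (𝓝 ρ) := by
  have h1 : Tendsto (fun S : ℝ => (⌊ρ * S ^ 3⌋₊ : ℝ) / S ^ 3) atTop (𝓝 ρ) :=
    (tendsto_nat_floor_mul_div_atTop (R := ℝ) hρ).comp (tendsto_pow_atTop (by norm_num))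
  have h2 : Tendsto (fun S : ℝ => (S / (S + 2)) ^ 3) atTop (𝓝 1) := by
    have a1 : Tendsto (fun S : ℝ => 1 - 2 / (S + 2)) atTop (𝓝 (1 - 0)) :=
      ((tendsto_atTop_add_const_right _ 2 tendsto_id).const_div_atTop 2).const_sub 1
    have a2 := a1.pow 3
    have e : ((1:ℝ) - 0) ^ 3 = 1 := by norm_num
    rw [e] at a2
    refine a2.congr' ?_
    filter_upwards [eventually_gt_atTop 0] with S hS
    have : S + 2 ≠ 0 := by positivity
    congr 1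
    field_simp
    ring
  have h3 := h1.mul h2
  rw [mul_one] at h3
  refine h3.congr' ?_
  filter_upwards [eventually_gt_atTop 0] with S hS
  field_simp

theorem ratio2 : Tendsto (fun S : ℝ => ((S + 2) / S) ^ 3) atTop (𝓝 1) := by
  have h1 : Tendsto (fun S : ℝ => 1 + 2 / S) atTop (𝓝 (1 + 0)) :=
    tendsto_const_nhds.add (tendsto_id.const_div_atTop 2)
  have h2 := h1.pow 3
  have h3 : ((1:ℝ) + 0) ^ 3 = 1 := by norm_num
  rw [h3] at h2
  refine h2.congr' ?_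
  filter_upwards [eventually_gt_atTop 0] with S hS
  congr 1
  field_simp

/-- existence of the thermodynamic limit -/
theorem tendsto_AA (h : TW w) {ρ : ℝ} (hρ : 0 ≤ ρ) :
    Tendsto (fun S : ℝ => lz w S ⌊ρ * S ^ 3⌋₊ / S ^ 3) atTop (𝓝 (AA h ρ)) := by
  have hupper : ∀ S : ℝ, 0 < S → lz w S ⌊ρ * S ^ 3⌋₊ / S ^ 3 ≤ ((S + 2) / S) ^ 3 * (AA h ρ + Cr h ρ * (ρ - ⌊ρ * S ^ 3⌋₊ / (S + 2) ^ 3)) := by
    intro S hS
    have h1 := le_AA h hρ (mem_mixSet_self h hρ hS)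
    have h2 : lz w S ⌊ρ * S ^ 3⌋₊ / (S + 2) ^ 3 ≤ AA h ρ + Cr h ρ * (ρ - ⌊ρ * S ^ 3⌋₊ / (S + 2) ^ 3) := by linarith
    have h3 := mul_le_mul_of_nonneg_left h2 (show 0 ≤ ((S + 2) / S) ^ 3 by positivity)
    refine le_trans (le_of_eq ?_) h3
    field_simp
  have hut : Tendsto (fun S : ℝ => ((S + 2) / S) ^ 3 * (AA h ρ + Cr h ρ * (ρ - ⌊ρ * S ^ 3⌋₊ / (S + 2) ^ 3))) atTop (𝓝 (AA h ρ)) := by
    have h1 := ratio2.mul ((((floor_ratio hρ).const_sub ρ).const_mul (Cr h ρ)).const_add (AA h ρ))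
    simpa using h1
  rw [tendsto_order]
  constructor
  · intro a ha
    obtain ⟨y, hy, hay⟩ := exists_lt_of_lt_csSup (mixSet_nonempty h hρ) ha
    have h1 := mixing h hρ hy (ε := (y - a) / 2) (by linarith)
    filter_upwards [h1] with S hS
    linarith
  · intro a ha
    have h1 := hut.eventually (gt_mem_nhds ha)
    filter_upwards [h1, eventually_gt_atTop 0] with S h2 hS
    exact (hupper S hS).trans_lt h2

/-- the uniform upper bound -/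
theorem lz_le_AA (h : TW w) {S : ℝ} (hS : 0 < S) (N : ℕ) : lz w S N ≤ (S + 2) ^ 3 * AA h (N / (S + 2) ^ 3) := by
  have hρ : (0:ℝ) ≤ N / (S + 2) ^ 3 := by positivity
  have hmem : lz w S N / (S + 2) ^ 3 ∈ mixSet h (N / (S + 2) ^ 3) := by
    refine ⟨S, hS, 1, one_pos, fun _ => N, ?_, ?_⟩
    · simp only [Finset.univ_unique, Finset.sum_const, Finset.card_singleton, one_smul, Nat.cast_one, one_mul]
      rw [div_mul_cancel₀ _ (by positivity)]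
    · simp
  have := le_AA h hρ hmem
  rw [div_le_iff₀ (by positivity)] at this
  linarith

theorem AA_zero (h : TW w) : AA h 0 = 0 := by
  have h1 := tendsto_AA h (le_refl (0:ℝ))
  have h2 : Tendsto (fun S : ℝ => lz w S ⌊(0:ℝ) * S ^ 3⌋₊ / S ^ 3) atTop (𝓝 0) := by
    refine tendsto_const_nhds.congr (fun S => ?_)
    rw [zero_mul, Nat.floor_zero, lz_zero, zero_div]
  exact tendsto_nhds_unique h1 h2

/-- rational mixtures -/
theorem AA_mix (h : TW w) {x y ρ : ℝ} (hx : 0 ≤ x) (hy : 0 ≤ y) (hρ : 0 ≤ ρ) {k l : ℕ} (hkl : 0 < k + l)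
    (hle : k * x + l * y ≤ (k + l) * ρ) :
    (k * AA h x + l * AA h y) / (k + l) - Cr h ρ * (ρ - (k * x + l * y) / (k + l)) ≤ AA h ρ := by
  have hklr : (0:ℝ) < (k:ℝ) + l := by exact_mod_cast hkl
  have hmem : ∀ L : ℝ, 0 < L → (k * lz w L ⌊x * L ^ 3⌋₊ + l * lz w L ⌊y * L ^ 3⌋₊) / ((k + l) * (L + 2) ^ 3) -
      Cr h ρ * (ρ - (k * ⌊x * L ^ 3⌋₊ + l * ⌊y * L ^ 3⌋₊) / ((k + l) * (L + 2) ^ 3)) ≤ AA h ρ := by
    intro L hL
    apply le_AA h hρ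
    have hsum : ∑ j : Fin (k + l), ((Fin.append (fun _ : Fin k => ⌊x * L ^ 3⌋₊) (fun _ : Fin l => ⌊y * L ^ 3⌋₊) j : ℕ) : ℝ) =
        k * ⌊x * L ^ 3⌋₊ + l * ⌊y * L ^ 3⌋₊ := by
      rw [Fin.sum_univ_add]
      simp
    refine ⟨L, hL, k + l, hkl, Fin.append (fun _ : Fin k => ⌊x * L ^ 3⌋₊) (fun _ : Fin l => ⌊y * L ^ 3⌋₊), ?_, ?_⟩
    · rw [hsum]
      have h1 : (⌊x * L ^ 3⌋₊ : ℝ) ≤ x * L ^ 3 := Nat.floor_le (by positivity)
      have h2 : (⌊y * L ^ 3⌋₊ : ℝ) ≤ y * L ^ 3 := Nat.floor_le (by positivity)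
      push_cast
      calc (k:ℝ) * ⌊x * L ^ 3⌋₊ + l * ⌊y * L ^ 3⌋₊ ≤ k * (x * L ^ 3) + l * (y * L ^ 3) := by gcongr
        _ = (k * x + l * y) * L ^ 3 := by ring
        _ ≤ ((k + l) * ρ) * (L + 2) ^ 3 := by
            apply mul_le_mul hle (by gcongr; linarith) (by positivity) (by positivity)
        _ = _ := by ring
    · rw [hsum]
      congr 1
      · push_cast
        congr 1
        rw [Fin.sum_univ_add]
        simp
      · push_cast; rfl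
  have ht : Tendsto (fun L : ℝ => (k * lz w L ⌊x * L ^ 3⌋₊ + l * lz w L ⌊y * L ^ 3⌋₊) / ((k + l) * (L + 2) ^ 3) -
      Cr h ρ * (ρ - (k * ⌊x * L ^ 3⌋₊ + l * ⌊y * L ^ 3⌋₊) / ((k + l) * (L + 2) ^ 3))) atTop
      (𝓝 ((k * AA h x + l * AA h y) / (k + l) - Cr h ρ * (ρ - (k * x + l * y) / (k + l)))) := by
    have hr : Tendsto (fun S : ℝ => (S / (S + 2)) ^ 3) atTop (𝓝 1) := by
      have := ratio2.inv₀ (by norm_num)
      rw [inv_one] at this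
      refine this.congr (fun S => ?_)
      rw [← inv_pow, inv_div]
    have t1 := ((((tendsto_AA h hx).const_mul (k:ℝ)).add ((tendsto_AA h hy).const_mul (l:ℝ))).mul hr).div_const ((k:ℝ) + l)
    have t2 := (((floor_ratio hx).const_mul (k:ℝ)).add ((floor_ratio hy).const_mul (l:ℝ))).div_const ((k:ℝ) + l)
    have t3 := t1.sub ((t2.const_sub ρ).const_mul (Cr h ρ))
    rw [mul_one] at t3
    refine t3.congr' ?_
    filter_upwards [eventually_gt_atTop 0] with L hL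
    have hL2 : L + 2 ≠ 0 := by positivity
    field_simp
  exact le_of_tendsto ht (by filter_upwards [eventually_gt_atTop 0] with L hL using hmem L hL)

/-- concavity in the density -/
theorem AA_concave (h : TW w) : ConcaveOn ℝ (Ici 0) (AA h) := by
  apply LinearOrder.concaveOn_of_lt (convex_Ici 0)
  intro x hx y hy hxy a b ha hb hab
  rw [mem_Ici] at hx hy
  simp only [smul_eq_mul]
  have hρ : 0 ≤ a * x + b * y := by positivity
  have hlim : Tendsto (fun n : ℕ => (⌈a * n⌉₊ : ℝ) / n) atTop (𝓝 a) :=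
    (tendsto_nat_ceil_mul_div_atTop (R := ℝ) ha.le).comp tendsto_natCast_atTop_atTop
  have hineq : ∀ n : ℕ, 0 < n → ((⌈a * n⌉₊ : ℝ) / n) * AA h x + (1 - (⌈a * n⌉₊ : ℝ) / n) * AA h y -
      Cr h (a * x + b * y) * ((a * x + b * y) - (((⌈a * n⌉₊ : ℝ) / n) * x + (1 - (⌈a * n⌉₊ : ℝ) / n) * y)) ≤ AA h (a * x + b * y) := by
    intro n hn
    have hnr : (0:ℝ) < n := by exact_mod_cast hn
    obtain ⟨k, hk⟩ : ∃ k, k = ⌈a * n⌉₊ := ⟨_, rfl⟩
    rw [← hk]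
    have hkn : k ≤ n := by
      rw [hk]
      apply Nat.ceil_le.mpr
      nlinarith
    have hka : a * n ≤ k := by rw [hk]; exact Nat.le_ceil _
    obtain ⟨l, hl⟩ : ∃ l, n = k + l := ⟨n - k, by omega⟩
    have hnl : (n:ℝ) = k + l := by exact_mod_cast hl
    have h1 := AA_mix h hx hy hρ (k := k) (l := l) (by omega) (by
      rw [← hnl]
      have : (l:ℝ) = n - k := by linarith
      rw [this]
      have hb' : b = 1 - a := by linarith
      rw [hb']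
      nlinarith)
    refine le_trans (le_of_eq ?_) h1
    have e1 : (1:ℝ) - k / n = l / n := by
      rw [eq_div_iff hnr.ne', sub_mul, div_mul_cancel₀ _ hnr.ne']
      linarith
    rw [e1, ← hnl]
    field_simp
  have ht : Tendsto (fun n : ℕ => ((⌈a * n⌉₊ : ℝ) / n) * AA h x + (1 - (⌈a * n⌉₊ : ℝ) / n) * AA h y -
      Cr h (a * x + b * y) * ((a * x + b * y) - (((⌈a * n⌉₊ : ℝ) / n) * x + (1 - (⌈a * n⌉₊ : ℝ) / n) * y))) atTop
      (𝓝 (a * AA h x + (1 - a) * AA h y - Cr h (a * x + b * y) * ((a * x + b * y) - (a * x + (1 - a) * y)))) := by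
    exact ((hlim.mul_const _).add ((hlim.const_sub 1).mul_const _)).sub
      ((((hlim.mul_const _).add ((hlim.const_sub 1).mul_const _)).const_sub _).const_mul _)
  have hb' : 1 - a = b := by linarith
  rw [hb', sub_self, mul_zero, sub_zero] at ht
  exact le_of_tendsto ht (by filter_upwards [eventually_gt_atTop 0] with n hn using hineq n hn)

/-- supporting line -/
theorem exists_slope (h : TW w) {ρ : ℝ} (hρ : 0 < ρ) : ∃ μ : ℝ, ∀ ρ' : ℝ, 0 ≤ ρ' → AA h ρ' + μ * ρ' ≤ AA h ρ + μ * ρ := by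
  have hconv : ConvexOn ℝ (Ici 0) (fun x => -AA h x) := (AA_concave h).neg
  have hint : ρ ∈ interior (Ici (0:ℝ)) := by rw [interior_Ici]; exact hρ
  refine ⟨derivWithin (fun x => -AA h x) (Ioi ρ) ρ, ?_⟩
  intro ρ' hρ'
  set s := derivWithin (fun x => -AA h x) (Ioi ρ) ρ
  rcases lt_trichotomy ρ ρ' with h1 | h1 | h1
  · have h2 := hconv.rightDeriv_le_slope_of_mem_interior hint hρ' h1
    rw [slope_def_field, le_div_iff₀ (by linarith)] at h2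
    have : s * (ρ' - ρ) ≤ -AA h ρ' - -AA h ρ := h2
    linarith
  · rw [h1]
  · have h2 := hconv.slope_le_leftDeriv_of_mem_interior hρ' hint h1
    have h3 := hconv.leftDeriv_le_rightDeriv_of_mem_interior hint
    rw [slope_def_field, div_le_iff₀ (by linarith)] at h2
    have h4 : -AA h ρ - -AA h ρ' ≤ derivWithin (fun x => -AA h x) (Iio ρ) ρ * (ρ - ρ') := h2
    have h5 : derivWithin (fun x => -AA h x) (Iio ρ) ρ * (ρ - ρ') ≤ s * (ρ - ρ') := mul_le_mul_of_nonneg_right h3 (by linarith)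
    linarith

end Crest.H5.PP
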