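import Crest.Agent.H5.PP.Pack

set_option autoImplicit false
set_option maxHeartbeats 400000
open MeasureTheory ENNReal Set Metric

namespace Crest.H5.PP

open Crest.ProbabilityR.Continuum (packingSet packingNumber)

/-- the family: zero-energy configurations in `D`. -/
noncomputable def zf (φ : ℝ → ℝ) (D : Set Pt) : Fam := fun ι _ x =>
  (Set.univ.pi fun _ => D).indicator ({x : ι → Pt | ∀ i j, i ≠ j → φ (dist (x i) (x j)) = 0}.indicator (fun _ => (1:ℝ≥0∞))) x

theorem zf_inv (φ : ℝ → ℝ) (D : Set Pt) : (zf φ D).Inv := by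
  intro ι ι' _ _ e x
  unfold zf
  have h1 : (∀ i, x (e i) ∈ D) ↔ (∀ i, x i ∈ D) := by
    constructor
    · intro h i
      have := h (e.symm i)
      simpa using this
    · intro h i; exact h _
  have h2 : (∀ i j, i ≠ j → φ (dist (x (e i)) (x (e j))) = 0) ↔ (∀ i j, i ≠ j → φ (dist (x i) (x j)) = 0) := by
    constructor
    · intro h i j hij
      have := h (e.symm i) (e.symm j) (fun h' => hij (e.symm.injective h'))
      simpa using this
    · intro h i j hij
      exact h _ _ (fun h' => hij (e.injective h'))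
  by_cases a1 : ∀ i, x i ∈ D
  · rw [indicator_of_mem (show (fun i => x (e i)) ∈ Set.univ.pi fun _ => D from fun i _ => h1.mpr a1 i),
      indicator_of_mem (show x ∈ Set.univ.pi fun _ => D from fun i _ => a1 i)]
    by_cases a2 : ∀ i j, i ≠ j → φ (dist (x i) (x j)) = 0
    · rw [indicator_of_mem (show (fun i => x (e i)) ∈ {x : ι → Pt | ∀ i j, i ≠ j → φ (dist (x i) (x j)) = 0} from h2.mpr a2),
        indicator_of_mem (show x ∈ {x : ι' → Pt | ∀ i j, i ≠ j → φ (dist (x i) (x j)) = 0} from a2)]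
    · rw [indicator_of_notMem (show (fun i => x (e i)) ∉ {x : ι → Pt | ∀ i j, i ≠ j → φ (dist (x i) (x j)) = 0} from fun h => a2 (h2.mp h)),
        indicator_of_notMem (show x ∉ {x : ι' → Pt | ∀ i j, i ≠ j → φ (dist (x i) (x j)) = 0} from a2)]
  · rw [indicator_of_notMem (show (fun i => x (e i)) ∉ Set.univ.pi fun _ => D from fun h => a1 (h1.mp fun i => h i (mem_univ _))),
      indicator_of_notMem (show x ∉ Set.univ.pi fun _ => D from fun h => a1 fun i => h i (mem_univ _))]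

theorem measurableSet_zero {φ : ℝ → ℝ} (hφ : Measurable φ) (ι : Type) [Fintype ι] :
    MeasurableSet {x : ι → Pt | ∀ i j, i ≠ j → φ (dist (x i) (x j)) = 0} := by
  have : {x : ι → Pt | ∀ i j, i ≠ j → φ (dist (x i) (x j)) = 0} = ⋂ i, ⋂ j, {x : ι → Pt | i ≠ j → φ (dist (x i) (x j)) = 0} := by
    ext x; simp
  rw [this]
  refine MeasurableSet.iInter fun i => MeasurableSet.iInter fun j => ?_
  by_cases h : i = j
  · subst h; simp
  · have : {x : ι → Pt | i ≠ j → φ (dist (x i) (x j)) = 0} = {x : ι → Pt | φ (dist (x i) (x j)) = 0} := by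
      ext x; simp [h]
    rw [this]
    have hm : Measurable (fun x : ι → Pt => φ (dist (x i) (x j))) := hφ.comp ((measurable_pi_apply i).dist (measurable_pi_apply j))
    exact hm (measurableSet_singleton 0)

theorem zf_meas {φ : ℝ → ℝ} (hφ : Measurable φ) {D : Set Pt} (hD : MeasurableSet D) : (zf φ D).Meas := by
  intro ι _
  refine Measurable.indicator ?_ (MeasurableSet.univ_pi fun _ => hD)
  exact measurable_const.indicator (measurableSet_zero hφ ι)

/-- the volume of a leader/follower set -/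
theorem vol_leader {k : ℕ} (C : Pt) (u : Fin k → Pt) {ρ0 ρ1 : ℝ} (h0 : 0 ≤ ρ0) (h1 : 0 ≤ ρ1) :
    ∫⁻ x : Fin (k+1) → Pt, (if dist (x 0) C < ρ0 then (1:ℝ≥0∞) else 0) * ∏ j : Fin k, (if dist (x j.succ) (x 0 + u j) < ρ1 then (1:ℝ≥0∞) else 0) =
      ENNReal.ofReal (ρ0 ^ 3 * v1) * ENNReal.ofReal (ρ1 ^ 3 * v1) ^ k := by
  classical
  have hmp := (volume_preserving_piFinSuccAbove (fun _ : Fin (k+1) => Pt) 0).symm
  rw [← hmp.lintegral_comp_emb (MeasurableEquiv.measurableEmbedding _)]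
  have e1 : ∀ x : Pt × (Fin k → Pt),
      ((if dist ((MeasurableEquiv.piFinSuccAbove (fun _ : Fin (k+1) => Pt) 0).symm x 0) C < ρ0 then (1:ℝ≥0∞) else 0) *
        ∏ j : Fin k, (if dist ((MeasurableEquiv.piFinSuccAbove (fun _ : Fin (k+1) => Pt) 0).symm x j.succ)
          ((MeasurableEquiv.piFinSuccAbove (fun _ : Fin (k+1) => Pt) 0).symm x 0 + u j) < ρ1 then (1:ℝ≥0∞) else 0)) =
      (if dist x.1 C < ρ0 then (1:ℝ≥0∞) else 0) * ∏ j : Fin k, (if dist (x.2 j) (x.1 + u j) < ρ1 then (1:ℝ≥0∞) else 0) := by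
    intro x; rfl
  have hm1 : ∀ j : Fin k, Measurable (fun x : Pt × (Fin k → Pt) => (if dist (x.2 j) (x.1 + u j) < ρ1 then (1:ℝ≥0∞) else 0)) := by
    intro j
    exact measurable_ballind ((measurable_pi_apply j).comp measurable_snd) (measurable_fst.add_const _) ρ1
  have hm0 : Measurable (fun x : Pt × (Fin k → Pt) => (if dist x.1 C < ρ0 then (1:ℝ≥0∞) else 0)) := by
    exact measurable_ballind measurable_fst measurable_const ρ0
  have e2 : ∫⁻ x : Pt × (Fin k → Pt), (if dist x.1 C < ρ0 then (1:ℝ≥0∞) else 0) * ∏ j : Fin k, (if dist (x.2 j) (x.1 + u j) < ρ1 then (1:ℝ≥0∞) else 0) =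
      ENNReal.ofReal (ρ0 ^ 3 * v1) * ENNReal.ofReal (ρ1 ^ 3 * v1) ^ k := by
    have hmm : Measurable (fun x : Pt × (Fin k → Pt) => (if dist x.1 C < ρ0 then (1:ℝ≥0∞) else 0) * ∏ j : Fin k, (if dist (x.2 j) (x.1 + u j) < ρ1 then (1:ℝ≥0∞) else 0)) :=
      hm0.mul (Finset.measurable_prod _ fun j _ => hm1 j)
    rw [Measure.volume_eq_prod, lintegral_prod _ hmm.aemeasurable]
    have e3 : ∀ y : Pt, ∫⁻ z : Fin k → Pt, (if dist y C < ρ0 then (1:ℝ≥0∞) else 0) * ∏ j : Fin k, (if dist (z j) (y + u j) < ρ1 then (1:ℝ≥0∞) else 0) =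
        (if dist y C < ρ0 then (1:ℝ≥0∞) else 0) * ENNReal.ofReal (ρ1 ^ 3 * v1) ^ k := by
      intro y
      have hmj : ∀ j : Fin k, Measurable (fun z : Pt => (if dist z (y + u j) < ρ1 then (1:ℝ≥0∞) else 0)) :=
        fun j => measurable_ballind measurable_id measurable_const ρ1
      have hmpz : Measurable (fun z : Fin k → Pt => ∏ j : Fin k, (if dist (z j) (y + u j) < ρ1 then (1:ℝ≥0∞) else 0)) :=
        Finset.measurable_prod _ fun j _ => (hmj j).comp (measurable_pi_apply j)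
      rw [lintegral_const_mul _ hmpz]
      congr 1
      have h2 := lint_pi_prod (B := Fin k) (fun _ => (volume : Measure Pt)) (fun j z => if dist z (y + u j) < ρ1 then (1:ℝ≥0∞) else 0) hmj
      refine h2.trans ?_
      simp only [vol_ball_ind _ h1, Finset.prod_const, Finset.card_univ, Fintype.card_fin]
    simp only [e3]
    have hm00 : Measurable (fun y : Pt => (if dist y C < ρ0 then (1:ℝ≥0∞) else 0)) :=
      measurable_ballind measurable_id measurable_const ρ0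
    rw [lintegral_mul_const _ hm00]
    congr 1
    exact vol_ball_ind C h0
  rw [← e2]
  exact lintegral_congr e1

/-- zero set of the short range potential -/
structure ZR (δ η : ℝ) (φ : ℝ → ℝ) : Prop where
  Z1 : ∀ r, δ * (1/2 + η) ≤ r → r ≤ δ * (1 - η) → φ r = 0
  Z2 : ∀ r, 1 + δ * η ≤ r → φ r = 0

/-- integral over one cluster -/
theorem cluster_int {δ η : ℝ} {φ : ℝ → ℝ} (hz : ZR δ η φ) (hδ : 0 < δ) (hη : 0 < η) (hη1 : η ≤ 1/32)
    {k : ℕ} (w : Fin (k+1) → Pt) (hw : ∀ i j, i ≠ j → 1/2 + 3 * η ≤ dist (w i) (w j) ∧ dist (w i) (w j) ≤ 1 - 3 * η)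
    (C : Pt) {ρ0 : ℝ} (h0 : 0 ≤ ρ0) :
    ENNReal.ofReal (ρ0 ^ 3 * v1) * ENNReal.ofReal ((δ * η) ^ 3 * v1) ^ k ≤ (zf φ (ball C (ρ0 + 2 * δ))).int (k+1) := by
  classical
  rw [← vol_leader C (fun j => δ • (w j.succ - w 0)) h0 (by positivity : 0 ≤ δ * η)]
  unfold Fam.int
  apply lintegral_mono
  intro x
  simp only
  by_cases hx : dist (x 0) C < ρ0 ∧ ∀ j : Fin k, dist (x j.succ) (x 0 + δ • (w j.succ - w 0)) < δ * η
  · obtain ⟨hx0, hxj⟩ := hx
    have hnear : ∀ i, dist (x i) (x 0 + δ • (w i - w 0)) < δ * η := by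
      intro i
      refine Fin.cases ?_ (fun j => hxj j) i
      rw [sub_self, smul_zero, add_zero, dist_self]
      positivity
    have hD : ∀ i, x i ∈ ball C (ρ0 + 2 * δ) := by
      intro i
      rw [mem_ball]
      have h2 : dist (x 0 + δ • (w i - w 0)) (x 0) ≤ δ := by
        rw [dist_eq_norm, add_sub_cancel_left, norm_smul, Real.norm_eq_abs, abs_of_pos hδ]
        by_cases hi : i = 0
        · subst hi; simp; exact hδ.le
        · have := (hw i 0 hi).2
          rw [dist_eq_norm] at this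
          nlinarith
      have h3 := hnear i
      have h4 : dist (x i) C ≤ dist (x i) (x 0 + δ • (w i - w 0)) + dist (x 0 + δ • (w i - w 0)) (x 0) + dist (x 0) C :=
        dist_triangle4 _ _ _ _
      nlinarith
    have hzero : ∀ i j, i ≠ j → φ (dist (x i) (x j)) = 0 := by
      intro i j hij
      have d1 := hnear i
      have d2 := hnear j
      have d3 : dist (x 0 + δ • (w i - w 0)) (x 0 + δ • (w j - w 0)) = δ * dist (w i) (w j) := by
        rw [dist_add_left, dist_smul₀, dist_sub_right, Real.norm_eq_abs, abs_of_pos hδ]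
      have hwij := hw i j hij
      apply hz.Z1
      · have h4 : dist (x 0 + δ • (w i - w 0)) (x 0 + δ • (w j - w 0)) ≤
            dist (x 0 + δ • (w i - w 0)) (x i) + dist (x i) (x j) + dist (x j) (x 0 + δ • (w j - w 0)) := dist_triangle4 _ _ _ _
        rw [d3, dist_comm (x 0 + δ • (w i - w 0)) (x i)] at h4
        have := mul_le_mul_of_nonneg_left hwij.1 hδ.le
        linarith
      · have h4 : dist (x i) (x j) ≤ dist (x i) (x 0 + δ • (w i - w 0)) +
            dist (x 0 + δ • (w i - w 0)) (x 0 + δ • (w j - w 0)) + dist (x 0 + δ • (w j - w 0)) (x j) := dist_triangle4 _ _ _ _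
        rw [d3, dist_comm (x 0 + δ • (w j - w 0)) (x j)] at h4
        have := mul_le_mul_of_nonneg_left hwij.2 hδ.le
        linarith
    unfold zf
    rw [indicator_of_mem (show x ∈ Set.univ.pi fun _ => ball C (ρ0 + 2 * δ) from fun i _ => hD i), indicator_of_mem (show x ∈ {x : Fin (k+1) → Pt | ∀ i j, i ≠ j → φ (dist (x i) (x j)) = 0} from hzero)]
    rw [if_pos hx0, one_mul, Finset.prod_eq_one]
    intro j _
    rw [if_pos (hxj j)]
  · rw [not_and_or] at hx
    rcases hx with hx | hx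
    · rw [if_neg hx, zero_mul]; exact zero_le
    · push Not at hx
      obtain ⟨j, hj⟩ := hx
      rw [Finset.prod_eq_zero (Finset.mem_univ j) (if_neg (not_lt.mpr hj)), mul_zero]
      exact zero_le

/-- lower bound for `R` -/
theorem Rn_lower {B : ℕ} (hB : 2 ≤ B) (M : ℕ) {N : ℕ} (x : Fin N → Pt) (hx : ∀ i, x i ∈ cube (Ln B M)) :
    (1/2) * ((N:ℝ) ^ 2 / (Ln B M : ℝ) ^ 3) * (1 - 6 / (B : ℝ) ^ 4) - (1/2) * N / (v1 * (B : ℝ) ^ 4) ≤ Rn B M (Ln B M) x := by
  have hv := v1_pos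
  have hLM : (0:ℝ) < Ln B M := by exact_mod_cast Ln_pos hB M
  have hBr : (2:ℝ) ≤ B := by exact_mod_cast hB
  have hH0 : (Hn B 0 : ℝ) = B := by unfold Hn; simp
  obtain ⟨g0, hg0⟩ : ∃ g0, g0 = (1/2) * ((N:ℝ) ^ 2 / (Ln B M : ℝ) ^ 3) * (1 - 6 / (B : ℝ) ^ 4) - (1/2) * N / (v1 * (B : ℝ) ^ 4) := ⟨_, rfl⟩
  rw [← hg0]
  have h1 : (1 - tn B M) * g0 ≤ ∑ k ∈ Finset.range M, jn B k * ps (gk (rn B k)) x := by
    rw [← sum_jn B M, Finset.sum_mul]
    refine Finset.sum_le_sum fun k hk => ?_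
    have := ps_gk_lower hB (Nat.zero_le k) (Finset.mem_range.mp hk) x hx
    rw [hH0] at this
    rw [hg0]
    exact mul_le_mul_of_nonneg_left this (jn_nonneg hB k)
  have h2 : g0 ≤ (1/2) * ((N:ℝ) ^ 2 / (Ln B M : ℝ) ^ 3) := by
    rw [hg0]
    have q1 : 0 ≤ (1/2) * (N:ℝ) / (v1 * (B : ℝ) ^ 4) := by positivity
    have q2 : 0 ≤ (1/2) * ((N:ℝ) ^ 2 / (Ln B M : ℝ) ^ 3) * (6 / (B : ℝ) ^ 4) := by positivity
    linarith
  have h3 : tn B M * g0 ≤ tn B M * ((1/2) * ((N:ℝ) ^ 2 / (Ln B M : ℝ) ^ 3)) := mul_le_mul_of_nonneg_left h2 (tn_pos hB M).le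
  unfold Rn
  rw [Fintype.card_fin]
  have e : tn B M * (N:ℝ) ^ 2 / (2 * (Ln B M : ℝ) ^ 3) = tn B M * ((1/2) * ((N:ℝ) ^ 2 / (Ln B M : ℝ) ^ 3)) := by ring
  rw [e]
  linarith

variable {b : Base}

/-- trial states -/
theorem trial (R : Rg b) {β μ θ : ℝ} (h : R.Ok β μ θ) {B : ℕ} (hB : 2 ≤ B) (M : ℕ) {δ η : ℝ} (hz : ZR δ η b.φ)
    (hδ : 0 < δ) (hη : 0 < η) (hη1 : η ≤ 1/32)
    {k : ℕ} (w : Fin (k+1) → Pt) (hw : ∀ i j, i ≠ j → 1/2 + 3 * η ≤ dist (w i) (w j) ∧ dist (w i) (w j) ≤ 1 - 3 * η)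
    {κ : ℝ} (hκ : 8 * δ ≤ κ) {n N : ℕ} (hn : n = packingNumber (((Ln B M : ℝ) - 2 * (κ / 8 + 2 * δ)) / (1 + κ)))
    (hN : N = n * (k+1)) :
    μ * N + θ * ((1/2) * ((N:ℝ) ^ 2 / (Ln B M : ℝ) ^ 3) * (1 - 6 / (B : ℝ) ^ 4) - (1/2) * N / (v1 * (B : ℝ) ^ 4)) +
      n * Real.log (((k+1).factorial : ℝ)⁻¹ * (((κ / 8) ^ 3 * v1) * ((δ * η) ^ 3 * v1) ^ k)) ≤
      pf b B β μ θ M * (Ln B M : ℝ) ^ 3 := by
  have hv := v1_pos
  have hκ0 : 0 < κ := by linarith
  have hθ0 : 0 ≤ θ := R.θl_pos.le.trans h.2.2.1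
  obtain ⟨lb, hlb⟩ : ∃ lb, lb = μ * N + θ * ((1/2) * ((N:ℝ) ^ 2 / (Ln B M : ℝ) ^ 3) * (1 - 6 / (B : ℝ) ^ 4) - (1/2) * N / (v1 * (B : ℝ) ^ 4)) := ⟨_, rfl⟩
  rw [← hlb]
  obtain ⟨z, hzd⟩ : ∃ z, z = ((k+1).factorial : ℝ)⁻¹ * (((κ / 8) ^ 3 * v1) * ((δ * η) ^ 3 * v1) ^ k) := ⟨_, rfl⟩
  rw [← hzd]
  have hz0 : 0 < z := by rw [hzd]; positivity
  obtain ⟨C, hC1, hC2⟩ : ∃ C : Fin n → Pt, (∀ i j, i ≠ j → 1 + κ ≤ dist (C i) (C j)) ∧
      (∀ i y, dist y (C i) ≤ κ / 8 + 2 * δ → y ∈ cube (Ln B M)) := by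
    subst hn; exact exists_centers hκ0.le
  set D : Fin n → Set Pt := fun c => ball (C c) (κ / 8 + 2 * δ) with hD
  have hdisj : ∀ c c' : Fin n, c ≠ c' → Disjoint (D c) (D c') := by
    intro c c' hcc
    apply ball_disjoint_ball
    have := hC1 c c' hcc
    linarith
  have hsep : ∀ c c' : Fin n, c ≠ c' → ∀ x ∈ D c, ∀ y ∈ D c', 1 + δ * η ≤ dist x y := by
    intro c c' hcc x hx y hy
    have h1 := hC1 c c' hcc
    have hx' : dist x (C c) < κ / 8 + 2 * δ := hx
    have hy' : dist y (C c') < κ / 8 + 2 * δ := hy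
    have h2 : dist (C c) (C c') ≤ dist (C c) x + dist x y + dist y (C c') := dist_triangle4 _ _ _ _
    rw [dist_comm (C c) x] at h2
    nlinarith
  have hcube : ∀ c : Fin n, ∀ x ∈ D c, x ∈ cube (Ln B M) := by
    intro c x hx
    have hx' : dist x (C c) < κ / 8 + 2 * δ := hx
    exact hC2 c x hx'.le
  have hzle : ∀ (c : Fin n) (ι : Type) [Fintype ι] (x : ι → Pt), zf b.φ (D c) ι x ≤ 1 := by
    intro c ι _ x
    unfold zf
    refine (indicator_le_self' (fun _ _ => zero_le) _).trans ?_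
    exact (indicator_le_self' (fun _ _ => zero_le) _)
  have hzne : ∀ (c : Fin n) (ι : Type) [Fintype ι] (x : ι → Pt), zf b.φ (D c) ι x ≠ 0 →
      (∀ i, x i ∈ D c) ∧ ∀ i j, i ≠ j → b.φ (dist (x i) (x j)) = 0 := by
    intro c ι _ x hx
    unfold zf at hx
    constructor
    · by_contra hcon
      apply hx
      rw [indicator_of_notMem]
      simpa using hcon
    · by_contra hcon
      apply hx
      have : {x : ι → Pt | ∀ i j, i ≠ j → b.φ (dist (x i) (x j)) = 0}.indicator (fun _ => (1:ℝ≥0∞)) x = 0 :=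
        indicator_of_notMem (show x ∉ {x : ι → Pt | ∀ i j, i ≠ j → b.φ (dist (x i) (x j)) = 0} from hcon) _
      by_cases hxD : x ∈ Set.univ.pi fun _ => D c
      · rw [indicator_of_mem hxD, this]
      · rw [indicator_of_notMem hxD]
  have hLF := LF (B := Fin n) N (fun _ => k+1) (by simp [hN]) D hdisj (fun c => zf b.φ (D c)) (fun c => zf_inv _ _)
    (fun c => zf_meas b.meas measurableSet_ball) (fun c ι _ x hx => (hzne c ι x hx).1)
    ((Set.pi univ (fun _ : Fin N => cube (Ln B M))).indicator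
      (fun x => ENNReal.ofReal (Real.exp (-lb)) * ENNReal.ofReal (Real.exp (ps (wn b B β θ M) x + an B μ θ M N)))) ?_
  · rw [lintegral_indicator (measurableSet_cubes _ N), lintegral_const_mul' _ _ ENNReal.ofReal_ne_top] at hLF
    have h1 : (N.factorial : ℝ≥0∞)⁻¹ * (ENNReal.ofReal (Real.exp (-lb)) *
        ∫⁻ x in Set.pi univ (fun _ : Fin N => cube (Ln B M)), ENNReal.ofReal (Real.exp (ps (wn b B β θ M) x + an B μ θ M N))) ≤
        ENNReal.ofReal (Real.exp (-lb)) * Xi b B β μ θ M := by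
      rw [mul_left_comm]
      refine mul_le_mul_right ?_ _
      refine le_trans (le_of_eq ?_) (Zn_le_Xi b B β μ θ M N)
      unfold Zn
      rw [bf_int _ _ (measurableSet_cube _)]
    have h2 : ENNReal.ofReal (z ^ n) ≤ ∏ c : Fin n, (((k+1).factorial : ℝ≥0∞)⁻¹ * (zf b.φ (D c)).int (k+1)) := by
      calc ENNReal.ofReal (z ^ n) = ∏ _c : Fin n, ENNReal.ofReal z := by
            rw [Finset.prod_const, Finset.card_univ, Fintype.card_fin, ENNReal.ofReal_pow hz0.le]
        _ ≤ _ := by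
            refine Finset.prod_le_prod' fun c _ => ?_
            have h3 := cluster_int hz hδ hη hη1 w hw (C c) (ρ0 := κ / 8) (by positivity)
            rw [hzd, ENNReal.ofReal_mul (by positivity), ENNReal.ofReal_inv_of_pos (by positivity), ENNReal.ofReal_natCast,
              ENNReal.ofReal_mul (by positivity), ENNReal.ofReal_pow (by positivity)]
            exact mul_le_mul_right h3 _
    have h3 := h2.trans (hLF.trans h1)
    rw [← ofReal_Xr R h hB M, ← ENNReal.ofReal_mul (Real.exp_pos _).le, ENNReal.ofReal_le_ofReal_iff (by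
      have := one_le_Xr R h hB M
      positivity)] at h3
    have hX1 := one_le_Xr R h hB M
    have h4 := Real.log_le_log (by positivity) h3
    rw [Real.log_pow, Real.log_mul (Real.exp_pos _).ne' (by linarith), Real.log_exp] at h4
    have hLM : (0:ℝ) < Ln B M := by exact_mod_cast Ln_pos hB M
    have hpM : Real.log (Xr b B β μ θ M) = pf b B β μ θ M * (Ln B M : ℝ) ^ 3 := by
      unfold pf
      rw [div_mul_cancel₀ _ (by positivity)]
    rw [hpM] at h4
    linarith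
  · intro σ hσ x hx
    by_cases hprod0 : ∏ c, zf b.φ (D c) {i // σ i = c} (fun i => x i.1) = 0
    · rw [hprod0]; exact zero_le
    · have hprod := Finset.prod_ne_zero_iff.mp hprod0
      have hcx : ∀ i, x i ∈ cube (Ln B M) := fun i => hcube _ _ (hx i)
      rw [indicator_of_mem (show x ∈ Set.pi univ (fun _ : Fin N => cube (Ln B M)) from fun i _ => hcx i)]
      have hzero : ∀ i j, i ≠ j → b.φ (dist (x i) (x j)) = 0 := by
        intro i j hij
        by_cases hs : σ i = σ j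
        · have h1 := (hzne (σ j) _ _ (hprod (σ j) (Finset.mem_univ _))).2 ⟨i, hs⟩ ⟨j, rfl⟩
            (fun h' => hij (congrArg Subtype.val h'))
          exact h1
        · exact hz.Z2 _ (hsep _ _ hs _ (hx i) _ (hx j))
      have hps : ps b.φ x = 0 := by
        have h1 : 0 ≤ ps b.φ x := ps_φ_nonneg b x
        have h2 : ps b.φ x ≤ ps (fun _ => 0) x := ps_mono x fun i j hij => (hzero i j hij).le
        rw [ps_zero] at h2
        linarith
      have hprod1 : ∏ c, zf b.φ (D c) {i // σ i = c} (fun i => x i.1) ≤ 1 :=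
        Finset.prod_le_one' fun c _ => hzle c _ _
      refine hprod1.trans ?_
      rw [← ENNReal.ofReal_mul (Real.exp_pos _).le, ← Real.exp_add, ← ENNReal.ofReal_one]
      apply ENNReal.ofReal_le_ofReal
      rw [← Real.exp_zero, Real.exp_le_exp, Wn_eq, hps, mul_zero, zero_add]
      have h5 := mul_le_mul_of_nonneg_left (Rn_lower hB M x hcx) hθ0
      rw [hlb]
      linarith

end Crest.H5.PP
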