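import Crest.Agent.H5.PP.HT

set_option autoImplicit false
set_option maxHeartbeats 400000
open MeasureTheory ENNReal Set Metric

namespace Crest.H5.PP

theorem vol_ball_ind (y : Pt) {δ : ℝ} (hδ : 0 ≤ δ) :
    ∫⁻ z : Pt, (if dist z y < δ then (1:ℝ≥0∞) else 0) = ENNReal.ofReal (δ ^ 3 * v1) := by
  rw [← vol_ball y hδ, ← lintegral_indicator_one measurableSet_ball]
  apply lintegral_congr
  intro z
  by_cases h : dist z y < δ
  · rw [if_pos h, indicator_of_mem (mem_ball.mpr h)]; rfl
  · rw [if_neg h, indicator_of_notMem (fun h' => h (mem_ball.mp h'))]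

theorem measurable_ballind {α : Type*} [MeasurableSpace α] {f g : α → Pt} (hf : Measurable f) (hg : Measurable g) (δ : ℝ) :
    Measurable (fun x => if dist (f x) (g x) < δ then (1:ℝ≥0∞) else 0) :=
  Measurable.ite (measurableSet_lt (hf.dist hg) measurable_const) measurable_const measurable_const

/-- the inner integral for one follower -/
theorem lint_follower {κ : Type*} [Fintype κ] (y : κ → Pt) (S : ℝ) {δ : ℝ} (hδ : 0 ≤ δ) (a b : ℝ≥0∞) :
    ∫⁻ z : Pt, (cube S).indicator (fun z => a * ∑ j, (if dist z (y j) < δ then (1:ℝ≥0∞) else 0) + b) z ≤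
      a * (Fintype.card κ * ENNReal.ofReal (δ ^ 3 * v1)) + b * ENNReal.ofReal S ^ 3 := by
  have hm : ∀ j, Measurable (fun z : Pt => if dist z (y j) < δ then (1:ℝ≥0∞) else 0) :=
    fun j => measurable_ballind measurable_id measurable_const δ
  have hm2 : Measurable (fun z : Pt => a * ∑ j, (if dist z (y j) < δ then (1:ℝ≥0∞) else 0)) :=
    (Finset.measurable_sum _ fun j _ => hm j).const_mul _
  rw [lintegral_indicator (measurableSet_cube S), lintegral_add_left hm2, setLIntegral_const, vol_cube]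
  gcongr
  calc ∫⁻ z in cube S, a * ∑ j, (if dist z (y j) < δ then (1:ℝ≥0∞) else 0)
      ≤ ∫⁻ z, a * ∑ j, (if dist z (y j) < δ then (1:ℝ≥0∞) else 0) := setLIntegral_le_lintegral _ _
    _ = a * ∑ j, ∫⁻ z, (if dist z (y j) < δ then (1:ℝ≥0∞) else 0) := by
        rw [lintegral_const_mul _ (Finset.measurable_sum _ fun j _ => hm j), lintegral_finsetSum _ (fun j _ => hm j)]
    _ = _ := by
        simp only [vol_ball_ind _ hδ, Finset.sum_const, nsmul_eq_mul]
        rfl

theorem lint_two {κ₁ κ₂ : Type} [Fintype κ₁] [Fintype κ₂] (S : ℝ) {δ : ℝ} (hδ : 0 ≤ δ) (a b : ℝ≥0∞) :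
    ∫⁻ yz : (κ₁ → Pt) × (κ₂ → Pt), (∏ i, (cube S).indicator (fun _ => (1:ℝ≥0∞)) (yz.1 i)) *
      ∏ i, (cube S).indicator (fun z => a * ∑ j, (if dist z (yz.1 j) < δ then (1:ℝ≥0∞) else 0) + b) (yz.2 i) ≤
    (ENNReal.ofReal S ^ 3) ^ (Fintype.card κ₁) *
      (a * (Fintype.card κ₁ * ENNReal.ofReal (δ ^ 3 * v1)) + b * ENNReal.ofReal S ^ 3) ^ (Fintype.card κ₂) := by
  have hGm : Measurable (fun yz : (κ₁ → Pt) × (κ₂ → Pt) => (∏ i, (cube S).indicator (fun _ => (1:ℝ≥0∞)) (yz.1 i)) *
      ∏ i, (cube S).indicator (fun z => a * ∑ j, (if dist z (yz.1 j) < δ then (1:ℝ≥0∞) else 0) + b) (yz.2 i)) := by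
    refine (Finset.measurable_prod _ fun i _ => ?_).mul (Finset.measurable_prod _ fun i _ => ?_)
    · exact (measurable_const.indicator (measurableSet_cube S)).comp ((measurable_pi_apply i).comp measurable_fst)
    · have h1 : Measurable (fun yz : (κ₁ → Pt) × (κ₂ → Pt) =>
          a * ∑ j, (if dist (yz.2 i) (yz.1 j) < δ then (1:ℝ≥0∞) else 0) + b) := by
        refine ((Finset.measurable_sum _ fun j _ => ?_).const_mul _).add_const _
        exact measurable_ballind ((measurable_pi_apply i).comp measurable_snd) ((measurable_pi_apply j).comp measurable_fst) δ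
      have h2 : MeasurableSet {yz : (κ₁ → Pt) × (κ₂ → Pt) | yz.2 i ∈ cube S} :=
        ((measurable_pi_apply i).comp measurable_snd) (measurableSet_cube S)
      have h3 := h1.indicator h2
      exact h3
  rw [Measure.volume_eq_prod, lintegral_prod _ hGm.aemeasurable]
  calc _ ≤ ∫⁻ y : κ₁ → Pt, (∏ i, (cube S).indicator (fun _ => (1:ℝ≥0∞)) (y i)) *
        (a * (Fintype.card κ₁ * ENNReal.ofReal (δ ^ 3 * v1)) + b * ENNReal.ofReal S ^ 3) ^ (Fintype.card κ₂) := by
        apply lintegral_mono
        intro y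
        have hmz : Measurable (fun z : Pt => (cube S).indicator (fun z => a * ∑ j, (if dist z (y j) < δ then (1:ℝ≥0∞) else 0) + b) z) :=
          (((Finset.measurable_sum _ fun j _ => measurable_ballind measurable_id measurable_const δ).const_mul _).add_const _).indicator (measurableSet_cube S)
        simp only
        rw [lintegral_const_mul]
        · refine mul_le_mul_right ?_ _
          have h1 := lint_pi_prod (B := κ₂) (fun _ => (volume : Measure Pt))
            (fun _ z => (cube S).indicator (fun z => a * ∑ j, (if dist z (y j) < δ then (1:ℝ≥0∞) else 0) + b) z) (fun _ => hmz)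
          refine (le_of_eq h1).trans ?_
          rw [Finset.prod_const, Finset.card_univ]
          gcongr
          exact lint_follower y S hδ a b
        · exact Finset.measurable_prod _ fun i _ => hmz.comp (measurable_pi_apply i)
    _ = (∫⁻ y : κ₁ → Pt, (∏ i, (cube S).indicator (fun _ => (1:ℝ≥0∞)) (y i))) *
        (a * (Fintype.card κ₁ * ENNReal.ofReal (δ ^ 3 * v1)) + b * ENNReal.ofReal S ^ 3) ^ (Fintype.card κ₂) := by
        rw [lintegral_mul_const]
        exact Finset.measurable_prod _ fun i _ => (measurable_const.indicator (measurableSet_cube S)).comp (measurable_pi_apply i)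
    _ = _ := by
        congr 1
        have h1 := lint_pi_prod (B := κ₁) (fun _ => (volume : Measure Pt))
            (fun _ => (cube S).indicator (fun _ => (1:ℝ≥0∞))) (fun _ => measurable_const.indicator (measurableSet_cube S))
        refine h1.trans ?_
        rw [Finset.prod_const, Finset.card_univ, lintegral_indicator_const (measurableSet_cube S), vol_cube, one_mul]

theorem lint_pattern' {N : ℕ} (p : Fin N → Prop) [DecidablePred p] (S : ℝ) {δ : ℝ} (hδ : 0 ≤ δ) (a b : ℝ≥0∞) :
    ∫⁻ x in Set.pi univ (fun _ : Fin N => cube S), ∏ i : {i // ¬ p i}, (a * ∑ j : {j // p j}, (if dist (x i.1) (x j.1) < δ then (1:ℝ≥0∞) else 0) + b) ≤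
      (ENNReal.ofReal S ^ 3) ^ (Fintype.card {i // p i}) *
      (a * (Fintype.card {i // p i} * ENNReal.ofReal (δ ^ 3 * v1)) + b * ENNReal.ofReal S ^ 3) ^ (Fintype.card {i // ¬ p i}) := by
  let e := MeasurableEquiv.piEquivPiSubtypeProd (fun _ : Fin N => Pt) p
  let G : ({i // p i} → Pt) × ({i // ¬ p i} → Pt) → ℝ≥0∞ := fun yz =>
    (∏ i, (cube S).indicator (fun _ => (1:ℝ≥0∞)) (yz.1 i)) *
    ∏ i, (cube S).indicator (fun z => a * ∑ j, (if dist z (yz.1 j) < δ then (1:ℝ≥0∞) else 0) + b) (yz.2 i)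
  have hF : ∀ x : Fin N → Pt, (Set.pi univ (fun _ : Fin N => cube S)).indicator
      (fun x => ∏ i : {i // ¬ p i}, (a * ∑ j : {j // p j}, (if dist (x i.1) (x j.1) < δ then (1:ℝ≥0∞) else 0) + b)) x ≤ G (e x) := by
    intro x
    by_cases hx : x ∈ Set.pi univ (fun _ : Fin N => cube S)
    · rw [indicator_of_mem hx]
      have hx' : ∀ i, x i ∈ cube S := fun i => hx i (mem_univ _)
      have e1 : G (e x) = (∏ i : {i // p i}, (cube S).indicator (fun _ => (1:ℝ≥0∞)) (x i.1)) *
          ∏ i : {i // ¬ p i}, (cube S).indicator (fun z => a * ∑ j : {i // p i}, (if dist z (x j.1) < δ then (1:ℝ≥0∞) else 0) + b) (x i.1) := rfl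
      rw [e1]
      have e2 : (∏ i : {i // p i}, (cube S).indicator (fun _ => (1:ℝ≥0∞)) (x i.1)) = 1 := by
        apply Finset.prod_eq_one
        intro i _
        exact indicator_of_mem (hx' _) _
      rw [e2, one_mul]
      refine Finset.prod_le_prod' fun i _ => ?_
      rw [indicator_of_mem (hx' _)]
    · rw [indicator_of_notMem hx]; exact zero_le
  rw [← lintegral_indicator (measurableSet_cubes S N)]
  refine (lintegral_mono hF).trans ?_
  have hmp := volume_preserving_piEquivPiSubtypeProd (fun _ : Fin N => Pt) p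
  rw [hmp.lintegral_comp_emb e.measurableEmbedding G]
  exact lint_two S hδ a b

theorem lint_pattern {N : ℕ} (T : Finset (Fin N)) (S : ℝ) {δ : ℝ} (hδ : 0 ≤ δ) (a b : ℝ≥0∞) :
    ∫⁻ x in Set.pi univ (fun _ : Fin N => cube S), ∏ i ∈ Tᶜ, (a * ∑ j ∈ T, (if dist (x i) (x j) < δ then (1:ℝ≥0∞) else 0) + b) ≤
      (ENNReal.ofReal S ^ 3) ^ T.card * (a * (T.card * ENNReal.ofReal (δ ^ 3 * v1)) + b * ENNReal.ofReal S ^ 3) ^ (N - T.card) := by
  have h1 := lint_pattern' (fun i => i ∈ T) S hδ a b
  have hcard2 : Fintype.card {i // ¬ i ∈ T} = N - T.card := by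
    rw [Fintype.card_subtype]
    have : (Finset.univ.filter fun i => ¬ i ∈ T) = Tᶜ := by ext; simp
    rw [this, Finset.card_compl, Fintype.card_fin]
  have hcard' : @Fintype.card {i // i ∈ T} (Subtype.fintype (fun i => i ∈ T)) = T.card := by
    rw [Fintype.card_subtype]
    have : (Finset.univ.filter fun i => i ∈ T) = T := by ext; simp
    rw [this]
  rw [hcard', hcard2] at h1
  refine le_trans (le_of_eq ?_) h1
  apply lintegral_congr
  intro x
  rw [Finset.prod_subtype (p := fun i => ¬ i ∈ T) Tᶜ (fun i => Finset.mem_compl)]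
  refine Finset.prod_congr rfl fun i _ => ?_
  rw [Finset.sum_subtype (p := fun i => i ∈ T) T (fun i => Iff.rfl)]

end Crest.H5.PP
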