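import Crest.Agent.H5.PP.Upper

set_option autoImplicit false
set_option maxHeartbeats 400000
open MeasureTheory ENNReal Set Metric

namespace Crest.H5.PP

/-- `n` points with all pairwise distances strictly between `1/2` and `1`. -/
def IsClq (n : ℕ) : Prop := ∃ w : Fin n → Pt, ∀ i j, i ≠ j → 1/2 < dist (w i) (w j) ∧ dist (w i) (w j) < 1

structure SR (δ K : ℝ) (φ : ℝ → ℝ) : Prop where
  δ_pos : 0 < δ
  δ_le : 2 * δ ≤ 1
  K_nonneg : 0 ≤ K
  nonneg : ∀ r, 0 ≤ φ r
  F1 : ∀ r, 0 ≤ r → r ≤ δ/2 → K ≤ φ r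
  F2 : ∀ r, δ ≤ r → r ≤ 1 → K ≤ φ r

/-- energy bound -/
theorem energy_ge {K : ℝ} {φ : ℝ → ℝ} (hφ : ∀ r, 0 ≤ φ r) {N : ℕ} (x : Fin N → Pt) (I : Finset (Fin N))
    (f : Fin N → Fin N) (hf : ∀ i ∉ I, f i ∈ I ∧ K ≤ φ (dist (x i) (x (f i)))) :
    K * ((N:ℝ) - I.card) ≤ ps φ x := by
  have hoff : ∀ i j, 0 ≤ off φ x i j := by
    intro i j
    by_cases h : i = j
    · subst h; simp
    · rw [off_ne _ _ h]; exact hφ _
  have hbad : ∀ i ∉ I, K ≤ off φ x i (f i) := by
    intro i hi
    have hne : i ≠ f i := fun h => hi (h ▸ (hf i hi).1)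
    rw [off_ne _ _ hne]; exact (hf i hi).2
  have hbad' : ∀ i ∉ I, K ≤ off φ x (f i) i := by
    intro i hi
    have hne : f i ≠ i := fun h => hi (by rw [← h]; exact (hf i hi).1)
    rw [off_ne _ _ hne, dist_comm]; exact (hf i hi).2
  have h1 : ∑ i ∈ Iᶜ, K ≤ ∑ i ∈ Iᶜ, ∑ j, off φ x i j := by
    refine Finset.sum_le_sum fun i hi => ?_
    rw [Finset.mem_compl] at hi
    exact (hbad i hi).trans (Finset.single_le_sum (f := fun j => off φ x i j) (fun j _ => hoff i j) (Finset.mem_univ _))
  have h2 : ∑ i ∈ Iᶜ, K ≤ ∑ i ∈ I, ∑ j, off φ x i j := by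
    calc ∑ i ∈ Iᶜ, K ≤ ∑ j ∈ Iᶜ, ∑ i ∈ I, off φ x i j := by
          refine Finset.sum_le_sum fun j hj => ?_
          rw [Finset.mem_compl] at hj
          exact (hbad' j hj).trans (Finset.single_le_sum (f := fun i => off φ x i j) (fun i _ => hoff i j) (hf j hj).1)
      _ = ∑ i ∈ I, ∑ j ∈ Iᶜ, off φ x i j := Finset.sum_comm
      _ ≤ _ := by
          refine Finset.sum_le_sum fun i _ => ?_
          exact Finset.sum_le_sum_of_subset_of_nonneg (Finset.subset_univ _) (fun j _ _ => hoff i j)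
  have h3 : ∑ i, ∑ j, off φ x i j = ∑ i ∈ I, ∑ j, off φ x i j + ∑ i ∈ Iᶜ, ∑ j, off φ x i j :=
    (Finset.sum_add_sum_compl I _).symm
  have h4 : ∑ _i ∈ Iᶜ, K = K * ((N:ℝ) - I.card) := by
    rw [Finset.sum_const, nsmul_eq_mul, Finset.card_compl, Fintype.card_fin, Nat.cast_sub]
    · ring
    · have := Finset.card_le_univ I
      rwa [Fintype.card_fin] at this
  unfold ps
  rw [h3]
  linarith

theorem pattern_le {δ K : ℝ} {φ : ℝ → ℝ} (h : SR δ K φ) {q : ℕ} (hq : ∀ n, IsClq n → n ≤ q) {N P : ℕ} {S : ℝ}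
    (hP : ∀ X : Finset Pt, (∀ x ∈ X, x ∈ cube S) → (∀ x ∈ X, ∀ y ∈ X, x ≠ y → 1 ≤ dist x y) → X.card ≤ P)
    (x : Fin N → Pt) (hx : ∀ i, x i ∈ cube S) {β s : ℝ} (hβ : 0 ≤ β) (hs : 0 ≤ s) :
    Real.exp (-β * ps φ x) ≤ ∑ T ∈ (Finset.univ : Finset (Fin N)).powerset.filter (fun T => T.card ≤ P),
      Real.exp (s * (q * P - T.card)) *
        ∏ i ∈ Tᶜ, (Real.exp (-s) * ∑ j ∈ T, (if dist (x i) (x j) < δ then (1:ℝ) else 0) + Real.exp (-(β * K))) := by
  classical
  let good : Fin N → Fin N → Prop := fun i j => (δ / 2 < dist (x i) (x j) ∧ dist (x i) (x j) < δ) ∨ 1 < dist (x i) (x j)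
  have gsymm : ∀ i j, good i j → good j i := by
    intro i j hij
    simp only [good, dist_comm (x j) (x i)]
    exact hij
  obtain ⟨I, hI, hImax⟩ := Finset.exists_max_image
    ((Finset.univ : Finset (Fin N)).powerset.filter (fun I => ∀ i ∈ I, ∀ j ∈ I, i ≠ j → good i j)) Finset.card
    ⟨∅, by simp⟩
  rw [Finset.mem_filter] at hI
  have hI2 := hI.2
  have hbadI : ∀ i ∉ I, ∃ j ∈ I, ¬ good i j := by
    intro i hi
    by_contra hcon
    push Not at hcon
    have h1 : insert i I ∈ (Finset.univ : Finset (Fin N)).powerset.filter (fun I => ∀ i ∈ I, ∀ j ∈ I, i ≠ j → good i j) := by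
      rw [Finset.mem_filter]
      refine ⟨by simp, ?_⟩
      intro a ha c hc hac
      rw [Finset.mem_insert] at ha hc
      rcases ha with rfl | ha
      · rcases hc with rfl | hc
        · exact absurd rfl hac
        · exact hcon c hc
      · rcases hc with rfl | hc
        · exact gsymm _ _ (hcon a ha)
        · exact hI2 a ha c hc hac
    have h2 := hImax _ h1
    rw [Finset.card_insert_of_notMem hi] at h2
    omega
  obtain ⟨T, hT, hTmax⟩ := Finset.exists_max_image
    (I.powerset.filter (fun T => ∀ i ∈ T, ∀ j ∈ T, i ≠ j → 1 < dist (x i) (x j))) Finset.card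
    ⟨∅, by simp⟩
  rw [Finset.mem_filter, Finset.mem_powerset] at hT
  obtain ⟨hTI, hT2⟩ := hT
  have hnear : ∀ i ∈ I, i ∉ T → ∃ j ∈ T, dist (x i) (x j) < δ := by
    intro i hi hiT
    by_contra hcon
    push Not at hcon
    have h1 : insert i T ∈ I.powerset.filter (fun T => ∀ i ∈ T, ∀ j ∈ T, i ≠ j → 1 < dist (x i) (x j)) := by
      rw [Finset.mem_filter, Finset.mem_powerset]
      have hfar : ∀ c ∈ T, 1 < dist (x i) (x c) := by
        intro c hc
        have hne : i ≠ c := fun h => hiT (h ▸ hc)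
        rcases hI2 i hi c (hTI hc) hne with h' | h'
        · exact absurd h'.2 (not_lt.mpr (hcon c hc))
        · exact h'
      refine ⟨Finset.insert_subset hi hTI, ?_⟩
      intro a ha c hc hac
      rw [Finset.mem_insert] at ha hc
      rcases ha with rfl | ha
      · rcases hc with rfl | hc
        · exact absurd rfl hac
        · exact hfar c hc
      · rcases hc with rfl | hc
        · rw [dist_comm]; exact hfar a ha
        · exact hT2 a ha c hc hac
    have h2 := hTmax _ h1
    rw [Finset.card_insert_of_notMem hiT] at h2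
    omega
  -- number of leaders
  have hTP : T.card ≤ P := by
    have hinj : Set.InjOn x T := by
      intro a ha c hc hac
      by_contra hne
      have := hT2 a ha c hc hne
      rw [hac, dist_self] at this
      linarith
    rw [← Finset.card_image_of_injOn hinj]
    apply hP
    · intro y hy
      rw [Finset.mem_image] at hy
      obtain ⟨i, _, rfl⟩ := hy
      exact hx i
    · intro y hy z hz hyz
      rw [Finset.mem_image] at hy hz
      obtain ⟨i, hi, rfl⟩ := hy
      obtain ⟨j, hj, rfl⟩ := hz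
      exact (hT2 i hi j hj (fun h => hyz (by rw [h]))).le
  -- cluster size
  have hIT : I.card ≤ q * T.card := by
    let lead : Fin N → Fin N := fun i => if hi : i ∈ I ∧ i ∉ T then (hnear i hi.1 hi.2).choose else i
    have hlead : ∀ i ∈ I, lead i ∈ T ∧ dist (x i) (x (lead i)) < δ := by
      intro i hi
      by_cases hiT : i ∈ T
      · have : lead i = i := by simp only [lead]; rw [dif_neg (by tauto)]
        rw [this, dist_self]
        exact ⟨hiT, h.δ_pos⟩
      · have : lead i = (hnear i hi hiT).choose := by simp only [lead]; rw [dif_pos ⟨hi, hiT⟩]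
        rw [this]
        exact ⟨(hnear i hi hiT).choose_spec.1, (hnear i hi hiT).choose_spec.2⟩
    refine Finset.card_le_mul_card_image_of_maps_to (f := lead) (fun i hi => (hlead i hi).1) q ?_
    intro t _
    set Fb := I.filter (fun i => lead i = t) with hFb
    apply hq
    let e := Fb.equivFin
    refine ⟨fun k => (1/δ) • x (e.symm k).1, ?_⟩
    intro k l hkl
    have hδ := h.δ_pos
    have hFbm : ∀ i, i ∈ Fb → i ∈ I ∧ lead i = t := fun i hi => by rwa [hFb, Finset.mem_filter] at hi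
    have hk := hFbm _ (e.symm k).2
    have hl := hFbm _ (e.symm l).2
    have hne : (e.symm k).1 ≠ (e.symm l).1 := fun h' => hkl (e.symm.injective (Subtype.ext h'))
    have d1 := (hlead _ hk.1).2
    have d2 := (hlead _ hl.1).2
    rw [hk.2] at d1
    rw [hl.2] at d2
    have d3 : dist (x (e.symm k).1) (x (e.symm l).1) < 2 * δ := by
      have := dist_triangle_right (x (e.symm k).1) (x (e.symm l).1) (x t)
      linarith
    rcases hI2 _ hk.1 _ hl.1 hne with h' | h'
    · rw [dist_smul₀, Real.norm_eq_abs, abs_of_pos (by positivity)]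
      constructor
      · have := mul_lt_mul_of_pos_left h'.1 (by positivity : 0 < 1/δ)
        have e1 : 1/δ * (δ/2) = 1/2 := by field_simp
        rw [e1] at this
        exact this
      · have := mul_lt_mul_of_pos_left h'.2 (by positivity : 0 < 1/δ)
        have e1 : 1/δ * δ = 1 := by field_simp
        rw [e1] at this
        exact this
    · have := h.δ_le
      linarith
  -- energy
  have hE : K * ((N:ℝ) - I.card) ≤ ps φ x := by
    let f : Fin N → Fin N := fun i => if hi : i ∉ I then (hbadI i hi).choose else i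
    refine energy_ge h.nonneg x I f ?_
    intro i hi
    have hf : f i = (hbadI i hi).choose := by simp only [f]; rw [dif_pos hi]
    rw [hf]
    refine ⟨(hbadI i hi).choose_spec.1, ?_⟩
    have h1 := (hbadI i hi).choose_spec.2
    set j := (hbadI i hi).choose
    simp only [good, not_or, not_and, not_lt] at h1
    rcases le_or_gt (dist (x i) (x j)) (δ/2) with h2 | h2
    · exact h.F1 _ dist_nonneg h2
    · exact h.F2 _ (h1.1 h2) h1.2
  -- conclusion
  have hmem : T ∈ (Finset.univ : Finset (Fin N)).powerset.filter (fun T => T.card ≤ P) := by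
    rw [Finset.mem_filter]; exact ⟨by simp, hTP⟩
  have hnn : ∀ T' ∈ (Finset.univ : Finset (Fin N)).powerset.filter (fun T => T.card ≤ P), 0 ≤ Real.exp (s * (q * P - (T'.card:ℝ))) *
        ∏ i ∈ T'ᶜ, (Real.exp (-s) * ∑ j ∈ T', (if dist (x i) (x j) < δ then (1:ℝ) else 0) + Real.exp (-(β * K))) := by
    intro T' _
    refine mul_nonneg (Real.exp_pos _).le (Finset.prod_nonneg fun i _ => add_nonneg (mul_nonneg (Real.exp_pos _).le ?_) (Real.exp_pos _).le)
    exact Finset.sum_nonneg fun j _ => by split_ifs <;> norm_num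
  refine le_trans ?_ (Finset.single_le_sum (f := fun T' : Finset (Fin N) => Real.exp (s * (q * P - (T'.card:ℝ))) *
        ∏ i ∈ T'ᶜ, (Real.exp (-s) * ∑ j ∈ T', (if dist (x i) (x j) < δ then (1:ℝ) else 0) + Real.exp (-(β * K)))) hnn hmem)
  have hprod : ∏ i ∈ Tᶜ, Real.exp (if i ∈ I then -s else -(β * K)) ≤
      ∏ i ∈ Tᶜ, (Real.exp (-s) * ∑ j ∈ T, (if dist (x i) (x j) < δ then (1:ℝ) else 0) + Real.exp (-(β * K))) := by
    refine Finset.prod_le_prod (fun i _ => (Real.exp_pos _).le) fun i hi => ?_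
    rw [Finset.mem_compl] at hi
    have hsum0 : 0 ≤ ∑ j ∈ T, (if dist (x i) (x j) < δ then (1:ℝ) else 0) :=
      Finset.sum_nonneg fun j _ => by split_ifs <;> norm_num
    split_ifs with hiI
    · obtain ⟨j, hj, hd⟩ := hnear i hiI hi
      have h1 : (1:ℝ) ≤ ∑ j ∈ T, (if dist (x i) (x j) < δ then (1:ℝ) else 0) := by
        calc (1:ℝ) = (if dist (x i) (x j) < δ then (1:ℝ) else 0) := by rw [if_pos hd]
          _ ≤ _ := Finset.single_le_sum (f := fun j => if dist (x i) (x j) < δ then (1:ℝ) else 0)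
                (fun j _ => by split_ifs <;> norm_num) hj
      have h2 : Real.exp (-s) * 1 ≤ Real.exp (-s) * ∑ j ∈ T, (if dist (x i) (x j) < δ then (1:ℝ) else 0) :=
        mul_le_mul_of_nonneg_left h1 (Real.exp_pos _).le
      have h3 := Real.exp_pos (-(β * K))
      linarith
    · have := mul_nonneg (Real.exp_pos (-s)).le hsum0
      linarith
  refine le_trans ?_ (mul_le_mul_of_nonneg_left hprod (Real.exp_pos _).le)
  rw [← Real.exp_sum, ← Real.exp_add, Real.exp_le_exp, Finset.sum_ite, Finset.sum_const, Finset.sum_const, nsmul_eq_mul, nsmul_eq_mul]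
  have c1 : ((Tᶜ.filter (fun i => i ∈ I)).card : ℝ) = (I.card : ℝ) - T.card := by
    have : Tᶜ.filter (fun i => i ∈ I) = I \ T := by
      ext i; simp only [Finset.mem_filter, Finset.mem_compl, Finset.mem_sdiff]; tauto
    rw [this, Finset.card_sdiff_of_subset hTI, Nat.cast_sub (Finset.card_le_card hTI)]
  have c2 : ((Tᶜ.filter (fun i => i ∉ I)).card : ℝ) = (N : ℝ) - I.card := by
    have : Tᶜ.filter (fun i => i ∉ I) = Iᶜ := by
      ext i; simp only [Finset.mem_filter, Finset.mem_compl]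
      constructor
      · exact fun h => h.2
      · exact fun h => ⟨fun h' => h (hTI h'), h⟩
    rw [this, Finset.card_compl, Fintype.card_fin, Nat.cast_sub]
    have := Finset.card_le_univ I
    rwa [Fintype.card_fin] at this
  rw [c1, c2]
  have hITr : (I.card : ℝ) ≤ q * P := by
    have h1 : I.card ≤ q * P := hIT.trans (Nat.mul_le_mul_left q hTP)
    exact_mod_cast h1
  have h5 := mul_le_mul_of_nonneg_left hE hβ
  have h6 := mul_le_mul_of_nonneg_left hITr hs
  linarith


/-- one term of the pattern sum -/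
theorem term_le {N P t : ℕ} (q : ℕ) {V vδ Λ s bK : ℝ} (hV : 0 ≤ V) (htP : t ≤ P) (htN : t ≤ N) (hΛ : 0 ≤ Λ)
    (hvδ : vδ = Real.exp (-Λ)) (hsK : s + Λ ≤ bK) :
    (N.factorial : ℝ)⁻¹ * (N.choose t * (Real.exp (s * (q * P - t)) * (V ^ t *
      (Real.exp (-s) * (t * vδ) + Real.exp (-bK) * V) ^ (N - t)))) ≤
      Real.exp (2 * V + P + s * (q * P - N) - Λ * max 0 ((N:ℝ) - P)) := by
  have ht0 : (0:ℝ) ≤ t := by positivity
  have h1 : Real.exp (-s) * (t * vδ) + Real.exp (-bK) * V ≤ Real.exp (-(s + Λ)) * (t + V) := by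
    have h2 : Real.exp (-bK) ≤ Real.exp (-(s + Λ)) := Real.exp_le_exp.mpr (by linarith)
    have h3 := mul_le_mul_of_nonneg_right h2 hV
    have h4 : Real.exp (-s) * (t * vδ) = Real.exp (-(s + Λ)) * t := by
      rw [hvδ, neg_add, Real.exp_add]; ring
    rw [h4]
    linarith
  have h0 : 0 ≤ Real.exp (-s) * (t * vδ) + Real.exp (-bK) * V := by
    rw [hvδ]; positivity
  have h2 : (Real.exp (-s) * (t * vδ) + Real.exp (-bK) * V) ^ (N - t) ≤ Real.exp (-(s + Λ) * ((N:ℝ) - t)) * (t + V) ^ (N - t) := by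
    calc _ ≤ (Real.exp (-(s + Λ)) * (t + V)) ^ (N - t) := pow_le_pow_left₀ h0 h1 _
      _ = _ := by
        rw [mul_pow, ← Real.exp_nat_mul, Nat.cast_sub htN]
        ring_nf
  have hN : (N.factorial : ℝ)⁻¹ * N.choose t = (t.factorial : ℝ)⁻¹ * ((N - t).factorial : ℝ)⁻¹ := by
    have h3 := Nat.choose_mul_factorial_mul_factorial htN
    have h4 : (N.choose t : ℝ) * t.factorial * (N - t).factorial = N.factorial := by exact_mod_cast h3
    have e1 : (t.factorial : ℝ) ≠ 0 := by positivity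
    have e2 : ((N - t).factorial : ℝ) ≠ 0 := by positivity
    have e3 : (N.factorial : ℝ) ≠ 0 := by positivity
    field_simp
    linarith
  have h3 := Real.pow_div_factorial_le_exp V hV t
  have h4 := Real.pow_div_factorial_le_exp (t + V) (by positivity) (N - t)
  calc (N.factorial : ℝ)⁻¹ * (N.choose t * (Real.exp (s * (q * P - t)) * (V ^ t *
      (Real.exp (-s) * (t * vδ) + Real.exp (-bK) * V) ^ (N - t))))
      ≤ (N.factorial : ℝ)⁻¹ * (N.choose t * (Real.exp (s * (q * P - t)) * (V ^ t *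
      (Real.exp (-(s + Λ) * ((N:ℝ) - t)) * (t + V) ^ (N - t))))) := by gcongr
    _ = ((N.factorial : ℝ)⁻¹ * N.choose t) * (Real.exp (s * (q * P - t)) * Real.exp (-(s + Λ) * ((N:ℝ) - t))) * V ^ t * (t + V) ^ (N - t) := by ring
    _ = (Real.exp (s * (q * P - t)) * Real.exp (-(s + Λ) * ((N:ℝ) - t))) * (V ^ t / t.factorial) * ((t + V) ^ (N - t) / (N - t).factorial) := by
        rw [hN]; field_simp
    _ ≤ (Real.exp (s * (q * P - t)) * Real.exp (-(s + Λ) * ((N:ℝ) - t))) * Real.exp V * Real.exp (t + V) := by gcongr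
    _ = Real.exp (s * (q * P - t) + -(s + Λ) * ((N:ℝ) - t) + V + (t + V)) := by
        rw [← Real.exp_add, ← Real.exp_add, ← Real.exp_add]
    _ ≤ _ := by
        rw [Real.exp_le_exp]
        have htP' : (t:ℝ) ≤ P := by exact_mod_cast htP
        have htN' : (t:ℝ) ≤ N := by exact_mod_cast htN
        have h5 : max 0 ((N:ℝ) - P) ≤ N - t := max_le (by linarith) (by linarith)
        have h6 := mul_le_mul_of_nonneg_left h5 hΛ
        linarith

/-- the short range upper bound -/
theorem Zs_le {δ K : ℝ} {φ : ℝ → ℝ} (h : SR δ K φ) {q : ℕ} (hq : ∀ n, IsClq n → n ≤ q) {N P : ℕ} {S : ℝ} (hS : 0 ≤ S)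
    (hP : ∀ X : Finset Pt, (∀ x ∈ X, x ∈ cube S) → (∀ x ∈ X, ∀ y ∈ X, x ≠ y → 1 ≤ dist x y) → X.card ≤ P)
    {β s Λ : ℝ} (hβ : 0 ≤ β) (hs : 0 ≤ s) (hΛ : 0 ≤ Λ) (hδΛ : δ ^ 3 * v1 = Real.exp (-Λ)) (hsK : s + Λ ≤ β * K) :
    (N.factorial : ℝ≥0∞)⁻¹ * ∫⁻ x in Set.pi univ (fun _ : Fin N => cube S), ENNReal.ofReal (Real.exp (-β * ps φ x)) ≤
      ENNReal.ofReal ((P + 1) * Real.exp (2 * S ^ 3 + P + s * (q * P - N) - Λ * max 0 ((N:ℝ) - P))) := by
  set 𝒯 := (Finset.univ : Finset (Fin N)).powerset.filter (fun T => T.card ≤ P) with h𝒯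
  set a := ENNReal.ofReal (Real.exp (-s)) with ha
  set bb := ENNReal.ofReal (Real.exp (-(β * K))) with hbb
  have hpt : ∀ x ∈ Set.pi univ (fun _ : Fin N => cube S), ENNReal.ofReal (Real.exp (-β * ps φ x)) ≤
      ∑ T ∈ 𝒯, ENNReal.ofReal (Real.exp (s * (q * P - T.card))) *
        ∏ i ∈ Tᶜ, (a * ∑ j ∈ T, (if dist (x i) (x j) < δ then (1:ℝ≥0∞) else 0) + bb) := by
    intro x hx
    have h1 := pattern_le h hq hP x (fun i => hx i (mem_univ _)) hβ hs
    refine (ENNReal.ofReal_le_ofReal h1).trans (le_of_eq ?_)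
    rw [ENNReal.ofReal_sum_of_nonneg]
    · refine Finset.sum_congr rfl fun T _ => ?_
      rw [ENNReal.ofReal_mul (Real.exp_pos _).le, ENNReal.ofReal_prod_of_nonneg]
      · congr 1
        refine Finset.prod_congr rfl fun i _ => ?_
        have hs0 : 0 ≤ ∑ j ∈ T, (if dist (x i) (x j) < δ then (1:ℝ) else 0) :=
          Finset.sum_nonneg fun j _ => by split_ifs <;> norm_num
        rw [ENNReal.ofReal_add (mul_nonneg (Real.exp_pos _).le hs0) (Real.exp_pos _).le,
          ENNReal.ofReal_mul (Real.exp_pos _).le, ENNReal.ofReal_sum_of_nonneg (fun j _ => by split_ifs <;> norm_num)]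
        congr 2
        refine Finset.sum_congr rfl fun j _ => ?_
        split_ifs <;> simp
      · intro i _
        refine add_nonneg (mul_nonneg (Real.exp_pos _).le (Finset.sum_nonneg fun j _ => by split_ifs <;> norm_num)) (Real.exp_pos _).le
    · intro T _
      refine mul_nonneg (Real.exp_pos _).le (Finset.prod_nonneg fun i _ => add_nonneg (mul_nonneg (Real.exp_pos _).le ?_) (Real.exp_pos _).le)
      exact Finset.sum_nonneg fun j _ => by split_ifs <;> norm_num
  have hmeas : ∀ T : Finset (Fin N), Measurable (fun x : Fin N → Pt => ENNReal.ofReal (Real.exp (s * (q * P - T.card))) *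
        ∏ i ∈ Tᶜ, (a * ∑ j ∈ T, (if dist (x i) (x j) < δ then (1:ℝ≥0∞) else 0) + bb)) := by
    intro T
    refine (Finset.measurable_prod _ fun i _ => ((Finset.measurable_sum _ fun j _ => ?_).const_mul _).add_const _).const_mul _
    exact measurable_ballind (measurable_pi_apply i) (measurable_pi_apply j) δ
  have hδ := h.δ_pos
  set M := ENNReal.ofReal (Real.exp (2 * S ^ 3 + P + s * (q * P - N) - Λ * max 0 ((N:ℝ) - P))) with hM
  calc (N.factorial : ℝ≥0∞)⁻¹ * ∫⁻ x in Set.pi univ (fun _ : Fin N => cube S), ENNReal.ofReal (Real.exp (-β * ps φ x))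
      ≤ (N.factorial : ℝ≥0∞)⁻¹ * ∫⁻ x in Set.pi univ (fun _ : Fin N => cube S), ∑ T ∈ 𝒯, ENNReal.ofReal (Real.exp (s * (q * P - T.card))) *
        ∏ i ∈ Tᶜ, (a * ∑ j ∈ T, (if dist (x i) (x j) < δ then (1:ℝ≥0∞) else 0) + bb) := by
        refine mul_le_mul_right ?_ _
        exact setLIntegral_mono' (measurableSet_cubes S N) hpt
    _ = (N.factorial : ℝ≥0∞)⁻¹ * ∑ T ∈ 𝒯, ENNReal.ofReal (Real.exp (s * (q * P - T.card))) *
        ∫⁻ x in Set.pi univ (fun _ : Fin N => cube S), ∏ i ∈ Tᶜ, (a * ∑ j ∈ T, (if dist (x i) (x j) < δ then (1:ℝ≥0∞) else 0) + bb) := by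
        rw [lintegral_finsetSum _ (fun T _ => hmeas T)]
        congr 1
        refine Finset.sum_congr rfl fun T _ => ?_
        rw [lintegral_const_mul' _ _ ENNReal.ofReal_ne_top]
    _ ≤ (N.factorial : ℝ≥0∞)⁻¹ * ∑ T ∈ 𝒯, ENNReal.ofReal (Real.exp (s * (q * P - T.card))) *
        ((ENNReal.ofReal S ^ 3) ^ T.card * (a * (T.card * ENNReal.ofReal (δ ^ 3 * v1)) + bb * ENNReal.ofReal S ^ 3) ^ (N - T.card)) := by
        gcongr with T _
        exact lint_pattern T S hδ.le a bb
    _ = (N.factorial : ℝ≥0∞)⁻¹ * ∑ T ∈ 𝒯, ENNReal.ofReal (Real.exp (s * (q * P - T.card)) *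
        ((S ^ 3) ^ T.card * (Real.exp (-s) * (T.card * (δ ^ 3 * v1)) + Real.exp (-(β * K)) * S ^ 3) ^ (N - T.card))) := by
        congr 1
        refine Finset.sum_congr rfl fun T _ => ?_
        have hv := v1_pos
        have hvd : 0 ≤ δ ^ 3 * v1 := by positivity
        rw [ENNReal.ofReal_mul (p := Real.exp (s * (q * P - T.card))) (Real.exp_pos _).le]
        congr 1
        rw [ENNReal.ofReal_mul (p := (S ^ 3) ^ T.card) (by positivity)]
        congr 1
        · rw [ENNReal.ofReal_pow (by positivity), ENNReal.ofReal_pow hS]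
        · rw [ENNReal.ofReal_pow (by positivity)]
          congr 1
          rw [ENNReal.ofReal_add (by positivity) (by positivity), ENNReal.ofReal_mul (p := Real.exp (-s)) (Real.exp_pos _).le,
            ENNReal.ofReal_mul (p := Real.exp (-(β * K))) (Real.exp_pos _).le, ENNReal.ofReal_mul (p := (T.card : ℝ)) (by positivity),
            ENNReal.ofReal_natCast, ENNReal.ofReal_pow hS]
    _ = (N.factorial : ℝ≥0∞)⁻¹ * ∑ t ∈ Finset.range (N+1), N.choose t • (if t ≤ P then ENNReal.ofReal (Real.exp (s * (q * P - t)) *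
        ((S ^ 3) ^ t * (Real.exp (-s) * (t * (δ ^ 3 * v1)) + Real.exp (-(β * K)) * S ^ 3) ^ (N - t))) else 0) := by
        congr 1
        rw [h𝒯, Finset.sum_filter]
        have := Finset.sum_powerset_apply_card (x := (Finset.univ : Finset (Fin N))) (fun t => if t ≤ P then ENNReal.ofReal (Real.exp (s * (q * P - t)) *
          ((S ^ 3) ^ t * (Real.exp (-s) * (t * (δ ^ 3 * v1)) + Real.exp (-(β * K)) * S ^ 3) ^ (N - t))) else (0:ℝ≥0∞))
        rw [Finset.card_univ, Fintype.card_fin] at this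
        exact this
    _ ≤ ∑ t ∈ Finset.range (N+1), (if t ≤ P then M else 0) := by
        rw [Finset.mul_sum]
        refine Finset.sum_le_sum fun t ht => ?_
        rw [Finset.mem_range] at ht
        split_ifs with htP
        · have hv := v1_pos
          rw [nsmul_eq_mul, hM, ← ENNReal.ofReal_natCast (N.choose t), ← ENNReal.ofReal_natCast N.factorial,
            ← ENNReal.ofReal_inv_of_pos (by positivity), ← ENNReal.ofReal_mul (by positivity), ← ENNReal.ofReal_mul (by positivity)]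
          apply ENNReal.ofReal_le_ofReal
          exact term_le q (by positivity) htP (by omega) hΛ hδΛ hsK
        · simp
    _ ≤ (P + 1) * M := by
        rw [← Finset.sum_filter, Finset.sum_const, nsmul_eq_mul]
        gcongr
        have h1 : ((Finset.range (N+1)).filter (fun t => t ≤ P)).card ≤ P + 1 := by
          calc _ ≤ (Finset.range (P+1)).card := by
                apply Finset.card_le_card
                intro t ht
                rw [Finset.mem_filter] at ht
                rw [Finset.mem_range]; omega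
            _ = _ := Finset.card_range _
        exact_mod_cast h1
    _ = _ := by
        rw [hM, ENNReal.ofReal_mul (by positivity), ENNReal.ofReal_add (by positivity) zero_le_one, ENNReal.ofReal_natCast, ENNReal.ofReal_one]

end Crest.H5.PP
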